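import Crest.Agent.R197.Defs

/-!
Task R197-CW.  The quotient of the cube complex by the Bestvina–Brady group is a classifying complex of dimension three.

Plan.  Follow `Crest/Agent/R177/TopB.lean` (`Good.main`) and `TopB1.lean` (`cw_of`, `continuousOn_inv`): `E` is locally compact
(`St` is compact, `lf`), the action of `L.Γ` (hence of the subgroup `L.HH`) is properly discontinuous and free,
`isQuotientCoveringMap_quotientMk_of_properlyDiscontinuousSMul`, `fundamentalGroupEquiv`.
Normal form: every point is `pt g t` with `t ∈ St`, `0 ≤ t v < 1` (use `shift` backwards for negative coordinates and forwards for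
coordinates equal to `1`), and this is unique (`near` in both directions and `ht` give `g = g'`, then `injOn`).
Cells of dimension `n`: pairs `(k, s)`, `k : ℤ`, `s : Finset (Fin N)` a clique with `s.card = n` (none for `n > 3` by `dim`);
characteristic map `y ↦ mk (pt (x v₀ ^ k) (fun v => if h : v ∈ s then (1 + y (idx v)) / 2 else 0))` with `idx` from
`Finset.orderIsoOfFin`/`equivFinOfCardEq`.  There are infinitely many cells, so use `Topology.CWComplex.mk` (or `RelCWComplex`)
directly: the frontier of `(k, s)` lies in the finitely many cells `(k', s')` with `k ≤ k' ≤ k + 3`; the closed cells form a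
locally finite family in the quotient (pull back along the open quotient map: near `z` only finitely many `pt g '' St`, i.e.
finitely many heights), so a set meeting each closed cell in a closed set is closed (`LocallyFinite.isClosed_iUnion`).
-/

set_option autoImplicit false

namespace Crest.Agent.R197

open Set Metric _root_.Topology

namespace CW

theorem continuousOn_inv {A X : Type} [TopologicalSpace A] [Nonempty A] [TopologicalSpace X]
    [T2Space X] {φ : A → X} {K U : Set A} (hφ : ContinuousOn φ K) (hK : IsCompact K) (hU : U ⊆ K)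
    (hinj : InjOn φ U) (hd : ∀ y ∈ U, ∀ y' ∈ K, φ y = φ y' → y' ∈ U) :
    ContinuousOn (Function.invFunOn φ U) (φ '' U) := by
  rw [continuousOn_iff_isClosed]
  intro t ht
  refine ⟨φ '' (t ∩ K), ((hK.inter_left ht).image_of_continuousOn
    (hφ.mono inter_subset_right)).isClosed, ?_⟩
  ext x
  constructor
  · rintro ⟨h1, y, hy, rfl⟩
    rw [mem_preimage, hinj.leftInvOn_invFunOn hy] at h1
    exact ⟨⟨y, ⟨h1, hU hy⟩, rfl⟩, y, hy, rfl⟩
  · rintro ⟨⟨y', ⟨h1, h2⟩, h3⟩, y, hy, rfl⟩
    refine ⟨?_, y, hy, rfl⟩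
    rw [mem_preimage, hinj.leftInvOn_invFunOn hy, ← hinj (hd y hy y' h2 h3.symm) hy h3]
    exact h1

/-- A locally finite cell decomposition is a CW structure. -/
theorem cw_lf {X : Type} [TopologicalSpace X] [T2Space X] (cell : ℕ → Type)
    (φ : ∀ n, cell n → (Fin n → ℝ) → X) (hφ : ∀ n i, ContinuousOn (φ n i) (closedBall 0 1))
    (h1 : ∀ n i, InjOn (φ n i) (ball 0 1))
    (h2 : ∀ n i n' i', ∀ y ∈ ball (0 : Fin n → ℝ) 1, ∀ y' ∈ ball (0 : Fin n' → ℝ) 1,
      φ n i y = φ n' i' y' → (⟨n, i⟩ : Σ n, cell n) = ⟨n', i'⟩)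
    (hbd : ∀ n i, ∀ y ∈ sphere (0 : Fin n → ℝ) 1, ∃ m < n, ∃ j, ∃ y' ∈ ball (0 : Fin m → ℝ) 1,
      φ m j y' = φ n i y)
    (hsurj : ∀ x, ∃ n i, ∃ y ∈ ball (0 : Fin n → ℝ) 1, φ n i y = x)
    (hlf : LocallyFinite fun p : Σ n, cell n => φ p.1 p.2 '' closedBall 0 1)
    (d : ℕ) (hemp : ∀ n, d < n → IsEmpty (cell n)) :
    ∃ _ : CWComplex (univ : Set X),
      ∀ n : ℕ, d < n → IsEmpty (RelCWComplex.cell (univ : Set X) n) := by
  classical
  let mp : ∀ n, cell n → PartialEquiv (Fin n → ℝ) X := fun n i =>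
    InjOn.toPartialEquiv (φ n i) (ball 0 1) (h1 n i)
  have hcpt : ∀ n i, IsCompact (φ n i '' closedBall 0 1) := fun n i =>
    (isCompact_closedBall 0 1).image_of_continuousOn (hφ n i)
  have hU : ⋃ (n : ℕ) (j : cell n), φ n j '' closedBall 0 1 = univ := by
    rw [eq_univ_iff_forall]
    intro z
    obtain ⟨m, j, y', hy', rfl⟩ := hsurj z
    simp only [mem_iUnion]
    exact ⟨m, j, y', ball_subset_closedBall hy', rfl⟩
  refine ⟨{ cell := cell
            map := mp
            source_eq := fun _ _ => rfl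
            continuousOn := hφ
            continuousOn_symm := ?_
            pairwiseDisjoint' := ?_
            mapsTo' := ?_
            closed' := ?_
            union' := hU }, hemp⟩
  · intro n i
    refine continuousOn_inv (hφ n i) (isCompact_closedBall 0 1) ball_subset_closedBall
      (h1 n i) ?_
    intro y hy y' hy' h
    by_contra hn
    have hsp : y' ∈ sphere (0 : Fin n → ℝ) 1 := by
      rw [mem_sphere]
      rw [mem_closedBall] at hy'
      rw [mem_ball, not_lt] at hn
      exact le_antisymm hy' hn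
    obtain ⟨m, hm, j, y'', hy'', e⟩ := hbd n i y' hsp
    have := h2 _ _ _ _ y hy y'' hy'' (h.trans e.symm)
    have : n = m := congrArg Sigma.fst this
    omega
  · rintro ⟨n, i⟩ - ⟨n', i'⟩ - hne
    rw [Function.onFun, Set.disjoint_left]
    rintro _ ⟨y, hy, rfl⟩ ⟨y', hy', h⟩
    exact hne (h2 _ _ _ _ y' hy' y hy h).symm
  · intro n i
    have hfin := hlf.finite_nonempty_inter_compact (hcpt n i)
    have hfin' : ∀ m, {j : cell m | (φ m j '' closedBall 0 1 ∩ φ n i '' closedBall 0 1).Nonempty}.Finite :=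
      fun m => hfin.preimage (f := fun j : cell m => (⟨m, j⟩ : Σ n, cell n))
        sigma_mk_injective.injOn
    refine ⟨fun m => (hfin' m).toFinset, fun y hy => ?_⟩
    obtain ⟨m, hm, j, y', hy', e⟩ := hbd n i y hy
    simp only [mem_iUnion]
    refine ⟨m, hm, j, ?_, y', ball_subset_closedBall hy', e⟩
    rw [Finite.mem_toFinset]
    exact ⟨_, ⟨y', ball_subset_closedBall hy', rfl⟩, y, sphere_subset_closedBall hy, e.symm⟩
  · intro A _ hA
    have : A = ⋃ p : Σ n, cell n, A ∩ φ p.1 p.2 '' closedBall 0 1 := by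
      rw [← inter_iUnion, iUnion_sigma, hU, inter_univ]
    rw [this]
    exact (hlf.subset fun p => inter_subset_right).isClosed_iUnion fun p => hA p.1 p.2

variable {N : ℕ} {L : LD N} {E : Type} [TopologicalSpace E] [MulAction L.Γ E] (c : L.CubeSp E)

theorem update_mem {t : Fin N → ℝ} (ht : t ∈ L.St) {v : Fin N} {s : ℝ} (hs : |s| ≤ 1)
    (h : ∀ u, u ≠ v → t u ≠ 0 → L.adj u v) : Function.update t v s ∈ L.St := by
  refine ⟨fun u => ?_, fun u w huw hu hw => ?_⟩
  · by_cases e : u = v
    · subst e; simpa using hs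
    · rw [Function.update_of_ne e]; exact ht.1 u
  · by_cases e : u = v
    · subst e
      rw [Function.update_of_ne huw.symm] at hw
      exact L.symm _ _ (h w huw.symm hw)
    · rw [Function.update_of_ne e] at hu
      by_cases e' : w = v
      · subst e'
        exact h u e hu
      · rw [Function.update_of_ne e'] at hw
        exact ht.2 u w huw hu hw

theorem step (g : L.Γ) {t : Fin N → ℝ} (ht : t ∈ L.St) {v : Fin N} (hv : Int.fract (t v) ≠ t v) :
    ∃ g', c.pt g t = c.pt g' (Function.update t v (Int.fract (t v))) := by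
  have hv0 : t v ≠ 0 := by rintro e; rw [e] at hv; simp at hv
  have hadj : ∀ u, u ≠ v → t u ≠ 0 → L.adj u v := fun u hu hu' => ht.2 u v hu hu' hv0
  obtain ⟨h1, h2⟩ := abs_le.mp (ht.1 v)
  rcases lt_or_ge (t v) 0 with h | h
  · have e : Int.fract (t v) = t v + 1 := by
      rw [← Int.fract_add_one, Int.fract_eq_self.mpr ⟨by linarith, by linarith⟩]
    have hm := update_mem ht (s := t v + 1) (by rw [abs_le]; constructor <;> linarith) hadj
    have := c.shift (g * (L.x v)⁻¹) v _ hm (by simp; linarith) (fun u hu hu' => by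
      rw [Function.update_of_ne hu] at hu'
      exact hadj u hu hu')
    refine ⟨g * (L.x v)⁻¹, ?_⟩
    rw [e, this]
    simp
  · have e : t v = 1 := by
      by_contra e
      exact hv (Int.fract_eq_self.mpr ⟨h, lt_of_le_of_ne h2 e⟩)
    refine ⟨g * L.x v, ?_⟩
    rw [c.shift g v t ht h hadj, e]
    simp

theorem norm_form (n : ℕ) : ∀ g, ∀ t ∈ L.St,
    (Finset.univ.filter fun v => Int.fract (t v) ≠ t v).card ≤ n →
    ∃ g', c.pt g t = c.pt g' (fun v => Int.fract (t v)) := by
  induction n with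
  | zero =>
    intro g t _ h
    rw [Nat.le_zero, Finset.card_eq_zero, Finset.filter_eq_empty_iff] at h
    refine ⟨g, congrArg _ (funext fun v => ?_)⟩
    by_contra e
    exact h (Finset.mem_univ v) (Ne.symm e)
  | succ n ih =>
    intro g t ht h
    by_cases hex : ∃ v, Int.fract (t v) ≠ t v
    · obtain ⟨v, hv⟩ := hex
      obtain ⟨g', hg'⟩ := step c g ht hv
      have hv0 : t v ≠ 0 := by rintro e; rw [e] at hv; simp at hv
      have hm := update_mem ht (v := v) (s := Int.fract (t v))
        (by rw [abs_of_nonneg (Int.fract_nonneg _)]; exact (Int.fract_lt_one _).le)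
        (fun u hu hu' => ht.2 u v hu hu' hv0)
      obtain ⟨g'', hg''⟩ := ih g' _ hm (by
        have hsub : (Finset.univ.filter fun u =>
            Int.fract (Function.update t v (Int.fract (t v)) u) ≠
              Function.update t v (Int.fract (t v)) u) ⊆
            (Finset.univ.filter fun v => Int.fract (t v) ≠ t v).erase v := by
          intro u hu
          simp only [Finset.mem_filter, Finset.mem_univ, true_and, Finset.mem_erase] at hu ⊢
          by_cases e : u = v
          · subst e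
            simp at hu
          · rw [Function.update_of_ne e] at hu
            exact ⟨e, hu⟩
        have h1 := Finset.card_le_card hsub
        have hvm : v ∈ Finset.univ.filter fun v => Int.fract (t v) ≠ t v :=
          Finset.mem_filter.mpr ⟨Finset.mem_univ _, hv⟩
        rw [Finset.card_erase_of_mem hvm] at h1
        omega)
      refine ⟨g'', ?_⟩
      rw [hg', hg'']
      congr 1
      funext u
      by_cases e : u = v
      · subst e
        simp
      · rw [Function.update_of_ne e]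
    · refine ⟨g, congrArg _ (funext fun v => ?_)⟩
      by_contra e
      exact hex ⟨v, Ne.symm e⟩

/-- Normal coordinates. -/
def Nm (L : LD N) (t : Fin N → ℝ) : Prop := t ∈ L.St ∧ ∀ v, 0 ≤ t v ∧ t v < 1

theorem nm_fract {t : Fin N → ℝ} (ht : t ∈ L.St) : Nm L (fun v => Int.fract (t v)) := by
  refine ⟨⟨fun v => ?_, fun u v huv hu hv => ht.2 u v huv ?_ ?_⟩,
    fun v => ⟨Int.fract_nonneg _, Int.fract_lt_one _⟩⟩
  · rw [abs_of_nonneg (Int.fract_nonneg _)]; exact (Int.fract_lt_one _).le
  · rintro e; simp [e] at hu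
  · rintro e; simp [e] at hv

theorem ht_prod (l : List (Fin N × Bool)) (h : ∀ a ∈ l, a.2 = true) :
    L.ht (l.map L.P.y).prod = l.length := by
  induction l with
  | nil => simp
  | cons a l ih =>
    obtain ⟨v, b⟩ := a
    have hb : b = true := h (v, b) (by simp)
    subst hb
    rw [List.map_cons, List.prod_cons, L.ht_mul, ih (fun a ha => h a (by simp [ha])), L.y_true,
      L.ht_x, List.length_cons]
    push_cast
    ring

theorem near_nm {g g' : L.Γ} {t t' : Fin N → ℝ} (ht : Nm L t) (ht' : Nm L t')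
    (h : c.pt g t = c.pt g' t') : L.ht g' < L.ht g ∨ g = g' := by
  obtain ⟨l, -, hs, rfl⟩ := c.near g g' t ht.1 t' ht'.1
    (fun v => by rw [abs_of_nonneg (ht.2 v).1]; exact (ht.2 v).2) h
  have := ht_prod (L := L) l (by
    rintro ⟨v, b⟩ ha
    cases b
    · exact absurd ((hs _ ha).2 rfl) (not_lt.mpr (ht'.2 v).1)
    · rfl)
  cases l with
  | nil => right; simp
  | cons a l =>
    left
    rw [L.ht_mul, this, List.length_cons]
    omega

theorem uniq {g g' : L.Γ} {t t' : Fin N → ℝ} (ht : Nm L t) (ht' : Nm L t')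
    (h : c.pt g t = c.pt g' t') : g = g' ∧ t = t' := by
  have : g = g' := by
    rcases near_nm c ht ht' h with h1 | h1
    · rcases near_nm c ht' ht h.symm with h2 | h2
      · omega
      · exact h2.symm
    · exact h1
  subst this
  exact ⟨rfl, c.injOn g ht.1 ht'.1 h⟩

theorem surj_nm (z : E) : ∃ g t, Nm L t ∧ c.pt g t = z := by
  obtain ⟨g, t, ht, rfl⟩ := c.surj z
  obtain ⟨g', hg'⟩ := norm_form c _ g t ht le_rfl
  exact ⟨g', _, nm_fract ht, hg'.symm⟩

theorem isCompact_St : IsCompact L.St := by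
  have hcl : IsClosed L.St := by
    have : L.St = (⋂ v, {t : Fin N → ℝ | |t v| ≤ 1}) ∩
        ⋂ u, ⋂ v, ⋂ (_ : u ≠ v), ⋂ (_ : ¬ L.adj u v), {t : Fin N → ℝ | t u * t v = 0} := by
      ext t
      simp only [LD.St, mem_ofPred_eq, mem_inter_iff, mem_iInter, mul_eq_zero]
      refine and_congr_right fun _ => forall_congr' fun u => forall_congr' fun v =>
        forall_congr' fun _ => ?_
      tauto
    rw [this]
    refine IsClosed.inter (isClosed_iInter fun v => isClosed_le (by fun_prop) (by fun_prop))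
      (isClosed_iInter fun u => isClosed_iInter fun v => isClosed_iInter fun _ =>
        isClosed_iInter fun _ => isClosed_eq (by fun_prop) (by fun_prop))
  refine (isCompact_closedBall (0 : Fin N → ℝ) 1).of_isClosed_subset hcl fun t ht => ?_
  rw [mem_closedBall_zero_iff]
  exact (pi_norm_le_iff_of_nonneg zero_le_one).mpr ht.1

include c in
theorem locallyCompact [T2Space E] : LocallyCompactSpace E := by
  have : WeaklyLocallyCompactSpace E := ⟨fun z => by
    obtain ⟨U, hU, hf⟩ := c.lf z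
    refine ⟨⋃ g ∈ {g | (c.pt g '' L.St ∩ U).Nonempty}, c.pt g '' L.St,
      hf.isCompact_biUnion (fun g _ => isCompact_St.image_of_continuousOn (c.cont g)),
      Filter.mem_of_superset hU ?_⟩
    intro y hy
    obtain ⟨g, x, hx, rfl⟩ := c.surj y
    exact mem_biUnion (t := fun g => c.pt g '' L.St) (x := g) ⟨_, ⟨x, hx, rfl⟩, hy⟩ ⟨x, hx, rfl⟩⟩
  infer_instance

include c in
theorem properlyDiscontinuous : ProperlyDiscontinuousSMul L.HH E := by
  refine ⟨fun {K K'} hK hK' => ?_⟩
  have h1 := c.lf.finite_nonempty_inter_compact hK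
  have h2 := c.lf.finite_nonempty_inter_compact hK'
  refine ((Finite.image2 (fun a b => b * a⁻¹) h1 h2).preimage
    (f := (Subtype.val : L.HH → L.Γ)) Subtype.val_injective.injOn).subset ?_
  rintro γ ⟨_, ⟨z, hz, rfl⟩, hz'⟩
  obtain ⟨g, x, hx, rfl⟩ := c.surj z
  refine ⟨g, ⟨_, ⟨x, hx, rfl⟩, hz⟩, γ * g, ⟨_, ⟨x, hx, rfl⟩, ?_⟩, by simp⟩
  rw [← c.smul]; exact hz'

include c in
theorem isCancel : IsCancelSMul L.HH E := by
  rw [isCancelSMul_iff_eq_one_of_smul_eq]
  intro γ z hz
  obtain ⟨g, x, hx, rfl⟩ := surj_nm c z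
  rw [Subgroup.smul_def, c.smul] at hz
  simpa using (uniq c hx hx hz).1

/-- The cells. -/
def cell (L : LD N) (n : ℕ) : Type :=
  ℤ × {s : Finset (Fin N) // (∀ u ∈ s, ∀ v ∈ s, u ≠ v → L.adj u v) ∧ s.card = n}

/-- The coordinates of a point of a cell. -/
noncomputable def emb {n : ℕ} (i : cell L n) (y : Fin n → ℝ) (v : Fin N) : ℝ :=
  if h : v ∈ i.2.1 then (1 + y (Finset.equivFinOfCardEq i.2.2.2 ⟨v, h⟩)) / 2 else 0

theorem continuous_emb {n : ℕ} (i : cell L n) : Continuous (emb i) := by
  refine continuous_pi fun v => ?_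
  unfold emb
  split_ifs <;> fun_prop

theorem emb_apply {n : ℕ} (i : cell L n) (y : Fin n → ℝ) (j : Fin n) :
    emb i y ((Finset.equivFinOfCardEq i.2.2.2).symm j) = (1 + y j) / 2 := by
  unfold emb
  rw [dif_pos ((Finset.equivFinOfCardEq i.2.2.2).symm j).2]
  simp

theorem emb_of_notMem {n : ℕ} (i : cell L n) (y : Fin n → ℝ) {v : Fin N} (h : v ∉ i.2.1) :
    emb i y v = 0 := dif_neg h

theorem emb_mem {n : ℕ} (i : cell L n) {y : Fin n → ℝ} (hy : y ∈ closedBall 0 1) :
    emb i y ∈ L.St := by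
  rw [mem_closedBall_zero_iff, pi_norm_le_iff_of_nonneg zero_le_one] at hy
  refine ⟨fun v => ?_, fun u v huv hu hv => i.2.2.1 u ?_ v ?_ huv⟩
  · unfold emb
    split_ifs with h
    · obtain ⟨h1, h2⟩ := abs_le.mp (hy (Finset.equivFinOfCardEq i.2.2.2 ⟨v, h⟩))
      rw [abs_le]
      constructor <;> linarith
    · simp
  · by_contra h; exact hu (emb_of_notMem i y h)
  · by_contra h; exact hv (emb_of_notMem i y h)

theorem emb_nm {n : ℕ} (i : cell L n) {y : Fin n → ℝ} (hy : y ∈ ball 0 1) :
    Nm L (emb i y) ∧ ∀ v, v ∈ i.2.1 ↔ emb i y v ≠ 0 := by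
  have hm := emb_mem i (ball_subset_closedBall hy)
  rw [mem_ball_zero_iff, pi_norm_lt_iff zero_lt_one] at hy
  have key : ∀ v ∈ i.2.1, 0 < emb i y v ∧ emb i y v < 1 := by
    intro v h
    unfold emb
    rw [dif_pos h]
    obtain ⟨h1, h2⟩ := abs_lt.mp (hy (Finset.equivFinOfCardEq i.2.2.2 ⟨v, h⟩))
    constructor <;> linarith
  refine ⟨⟨hm, fun v => ?_⟩, fun v => ⟨fun h => (key v h).1.ne', fun h => ?_⟩⟩
  · by_cases h : v ∈ i.2.1
    · exact ⟨(key v h).1.le, (key v h).2⟩
    · rw [emb_of_notMem i y h]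
      exact ⟨le_rfl, zero_lt_one⟩
  · by_contra h'; exact h (emb_of_notMem i y h')

theorem exists_emb (k : ℤ) {t : Fin N → ℝ} (ht : Nm L t) :
    ∃ i : cell L (Finset.univ.filter fun v => t v ≠ 0).card, i.1 = k ∧
      ∃ y ∈ ball (0 : Fin _ → ℝ) 1, emb i y = t := by
  let i : cell L (Finset.univ.filter fun v => t v ≠ 0).card :=
    (k, ⟨Finset.univ.filter fun v => t v ≠ 0, fun u hu v hv huv =>
      ht.1.2 u v huv (Finset.mem_filter.mp hu).2 (Finset.mem_filter.mp hv).2, rfl⟩)
  refine ⟨i, rfl, fun j => 2 * t ((Finset.equivFinOfCardEq i.2.2.2).symm j) - 1, ?_, ?_⟩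
  · rw [mem_ball_zero_iff, pi_norm_lt_iff zero_lt_one]
    intro j
    have h0 := (Finset.mem_filter.mp ((Finset.equivFinOfCardEq i.2.2.2).symm j).2).2
    obtain ⟨h1, h2⟩ := ht.2 ((Finset.equivFinOfCardEq i.2.2.2).symm j)
    have h3 := lt_of_le_of_ne h1 (Ne.symm h0)
    rw [Real.norm_eq_abs, abs_lt]
    constructor <;> linarith
  · funext v
    unfold emb
    split_ifs with h
    · simp only [Equiv.symm_apply_apply]
      ring
    · by_contra e
      exact h (Finset.mem_filter.mpr ⟨Finset.mem_univ _, Ne.symm e⟩)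

theorem card_lt {n : ℕ} (i : cell L n) {y : Fin n → ℝ} (hy : y ∈ sphere 0 1) :
    (Finset.univ.filter fun v => Int.fract (emb i y v) ≠ 0).card < n := by
  rw [mem_sphere_zero_iff_norm] at hy
  have : ∃ j, |y j| = 1 := by
    by_contra h
    push Not at h
    have := (pi_norm_lt_iff zero_lt_one).mpr fun j =>
      lt_of_le_of_ne ((norm_le_pi_norm y j).trans hy.le) (h j)
    exact lt_irrefl _ (hy ▸ this)
  obtain ⟨j, hj⟩ := this
  have hsub : (Finset.univ.filter fun v => Int.fract (emb i y v) ≠ 0) ⊆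
      i.2.1.erase ((Finset.equivFinOfCardEq i.2.2.2).symm j) := by
    intro v hv
    have hv' := (Finset.mem_filter.mp hv).2
    rw [Finset.mem_erase]
    constructor
    · rintro rfl
      apply hv'
      rw [emb_apply]
      rcases abs_eq zero_le_one |>.mp hj with h | h <;> rw [h] <;> norm_num
    · by_contra h
      rw [emb_of_notMem i y h] at hv'
      simp at hv'
  have h1 := Finset.card_le_card hsub
  rw [Finset.card_erase_of_mem ((Finset.equivFinOfCardEq i.2.2.2).symm j).2, i.2.2.2] at h1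
  have := j.pos
  omega

theorem ht_zpow (v : Fin N) (k : ℤ) : L.ht (L.x v ^ k) = k := by
  induction k using Int.induction_on with
  | zero => simp
  | succ k ih => rw [zpow_add_one, L.ht_mul, ih, L.ht_x]
  | pred k ih => rw [zpow_sub_one, L.ht_mul, ih, L.ht_inv, L.ht_x]; ring

theorem sigma_ext {n n' : ℕ} {i : cell L n} {i' : cell L n'} (h1 : i.1 = i'.1)
    (h2 : i.2.1 = i'.2.1) : (⟨n, i⟩ : Σ n, cell L n) = ⟨n', i'⟩ := by
  obtain ⟨k, s, hs, rfl⟩ := i
  obtain ⟨k', s', hs', rfl⟩ := i'
  simp only at h1 h2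
  subst h1 h2
  rfl

end CW

open CW in
theorem LD.CubeSp.hcc {N : ℕ} {L : LD N} {E : Type} [TopologicalSpace E] [MulAction L.Γ E]
    [T2Space E] [ContinuousConstSMul L.Γ E] [ContractibleSpace E] (c : L.CubeSp E) :
    Crest.Topology.HasClassifyingComplex L.HH 3 := by
  have := locallyCompact c
  have := properlyDiscontinuous c
  have := isCancel c
  have : ContinuousConstSMul L.HH E := ⟨fun h => continuous_const_smul (h : L.Γ)⟩
  have hq := isQuotientCoveringMap_quotientMk_of_properlyDiscontinuousSMul (G := L.HH) (E := E)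
  set π : E → Quotient (MulAction.orbitRel L.HH E) := Quotient.mk (MulAction.orbitRel L.HH E) with hπ
  have hmv : ∀ g t, π (c.pt g t) = π (c.pt (L.x L.v₀ ^ L.ht g) t) := fun g t =>
    hq.apply_eq_iff_mem_orbit.2 ⟨⟨g * (L.x L.v₀ ^ L.ht g)⁻¹, by simp [L.mem_HH, ht_zpow]⟩, by
      simp only [Subgroup.smul_def, c.smul, inv_mul_cancel_right]⟩
  have huniq : ∀ (k k' : ℤ) t t', Nm L t → Nm L t' →
      π (c.pt (L.x L.v₀ ^ k) t) = π (c.pt (L.x L.v₀ ^ k') t') → k = k' ∧ t = t' := by
    intro k k' t t' ht ht' e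
    obtain ⟨h, hh⟩ := hq.apply_eq_iff_mem_orbit.1 e
    simp only [Subgroup.smul_def, c.smul] at hh
    obtain ⟨e1, e2⟩ := uniq c ht' ht hh
    have := congrArg L.ht e1
    rw [L.ht_mul, ht_zpow, ht_zpow, L.mem_HH.mp h.2] at this
    exact ⟨by omega, e2.symm⟩
  obtain ⟨cw, h2⟩ := cw_lf (cell L) (fun n i y => π (c.pt (L.x L.v₀ ^ i.1) (emb i y)))
    (fun n i => hq.toIsQuotientMap.continuous.comp_continuousOn
      ((c.cont _).comp (continuous_emb i).continuousOn fun y hy => emb_mem i hy))
    (by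
      intro n i y hy y' hy' e
      have := (huniq _ _ _ _ (emb_nm i hy).1 (emb_nm i hy').1 e).2
      funext j
      have h1 := congrFun this ((Finset.equivFinOfCardEq i.2.2.2).symm j)
      rw [emb_apply, emb_apply] at h1
      linarith)
    (by
      intro n i n' i' y hy y' hy' e
      obtain ⟨e1, e2⟩ := huniq _ _ _ _ (emb_nm i hy).1 (emb_nm i' hy').1 e
      refine sigma_ext e1 (Finset.ext fun v => ?_)
      rw [(emb_nm i hy).2, (emb_nm i' hy').2, e2])
    (by
      intro n i y hy
      have hm := emb_mem i (sphere_subset_closedBall hy)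
      obtain ⟨g', hg'⟩ := norm_form c _ (L.x L.v₀ ^ i.1) _ hm le_rfl
      obtain ⟨j, hj, y', hy', e⟩ := exists_emb (L.ht g') (nm_fract hm)
      refine ⟨_, card_lt i hy, j, y', hy', ?_⟩
      rw [hg', hmv g', e, hj])
    (by
      intro x
      obtain ⟨z, rfl⟩ := Quotient.exists_rep x
      obtain ⟨g, t, ht, rfl⟩ := surj_nm c z
      obtain ⟨j, hj, y', hy', e⟩ := exists_emb (L.ht g) ht
      refine ⟨_, j, y', hy', ?_⟩
      rw [e, hj]
      exact (hmv g t).symm)
    (by
      intro x
      obtain ⟨z, rfl⟩ := Quotient.exists_rep x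
      obtain ⟨U, hU, hf⟩ := c.lf z
      refine ⟨π '' U, (isOpenMap_quotient_mk'_mul (Γ := L.HH) (T := E)).image_mem_nhds hU, ?_⟩
      have hfin : ((L.ht '' {g | (c.pt g '' L.St ∩ U).Nonempty}) ×ˢ
          (univ : Set (Finset (Fin N)))).Finite := (hf.image _).prod finite_univ
      refine (hfin.preimage (f := fun p : Σ n, cell L n => (p.2.1, p.2.2.1)) ?_).subset ?_
      · rintro ⟨n, i⟩ - ⟨n', i'⟩ - e
        simp only [Prod.mk.injEq] at e
        exact sigma_ext e.1 e.2
      · rintro ⟨n, i⟩ ⟨_, ⟨y, hy, rfl⟩, u, hu, e⟩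
        obtain ⟨h, hh⟩ := hq.apply_eq_iff_mem_orbit.1 e
        simp only [Subgroup.smul_def, c.smul] at hh
        refine ⟨⟨h * L.x L.v₀ ^ i.1, ⟨u, ⟨_, emb_mem i hy, hh⟩, hu⟩, ?_⟩, mem_univ _⟩
        rw [L.ht_mul, ht_zpow, L.mem_HH.mp h.2, zero_add])
    3 (fun n hn => ⟨fun i => by
      have := L.dim i.2.1 i.2.2.1
      rw [i.2.2.2] at this
      omega⟩)
  refine ⟨Quotient (MulAction.orbitRel L.HH E), inferInstance, cw, inferInstance, h2,
    ⟨E, inferInstance, _, inferInstance, hq.isCoveringMap, Quotient.mk_surjective⟩,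
    π (c.pt 1 0), ⟨?_⟩⟩
  exact (hq.fundamentalGroupEquiv ⟨c.pt 1 0, rfl⟩).trans (MulEquiv.inv' L.HH).symm

end Crest.Agent.R197
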