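import Crest.Agent.R197.TDefs

/-!
Task R197-CellA.  API for cell attachments, and the path induction principle.

Plan.  `isOpen_image`: apply `weak` to the complement.  `map_nhds`, `exists_inv` follow.  `isClosed_ctr`: `weak`.
`continuousOn`: for `F` closed apply `weak` to `f ⁻¹' F ∪ ctr`.
`exists_defo`: `d y = if h : y ∈ B then const y else` (with `i, w` from `cov`) `s ↦ χ i (((1 - s) + s / ‖w‖) • w)`; continuity by
`continuousOn` (on `closedBall 0 1 \ {0}` it is the curried form of a continuous map; for `‖w‖ = 1`... note the formula gives `w` again).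
`path_ind`: choose a unit vector `u₀`; `nv w = if w = 0 then u₀ else ‖w‖⁻¹ • w`.  For `z : Z` define the anchor `a z : B` and `m z : K`:
`a z = z`, `m z = 1` on `B`; `a (χ i w) = χ i (nv w)`, `m (χ i w) = (κ i w)⁻¹ * κ i (nv w)` for `‖w‖ < 1`, with `κ i` a potential (`Coc.pot`)
of `θ.comap (χ i)`.  Off the centres `m z = θ (d z)`, `a z = d z 1`.  Local lemma: if `η : C(I, Z)` stays in `ctrᶜ` or in one open
cell then `Q (a (η 0)) (a (η 1)) ((m (η 0))⁻¹ * θ η * m (η 1))` (first case: potential of the square `(t, s) ↦ d (η t) s` on `I × I` and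
`hB`; second case: `exists_inv`, `κ i`, and `hχ` for a segment).  Global: `κ` = potential of `θ.comap γ` on `I`;
`PreconnectedSpace.induction₂'` for the transitive relation
`t, t' ↦ Q (a (γ t)) (a (γ t')) ((m (γ t))⁻¹ * ((κ t)⁻¹ * κ t') * m (γ t'))` (near `t` use an interval inside the preimage of the open set
and the affine path from `t` to `t'`).
-/

set_option autoImplicit false

namespace Crest.Agent.R197.Cell

open Set Metric unitInterval Filter _root_.Topology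

variable {𝔼 : Type} [NormedAddCommGroup 𝔼] {Z : Type} [TopologicalSpace Z] {B : Set Z} {ι : Type}
  (c : Cell 𝔼 B ι)

theorem inj' {i j : ι} {w w' : 𝔼} (hw' : ‖w'‖ < 1) (h : c.χ i w = c.χ j w') : i = j ∧ w = w' :=
  c.inj i j w w' (lt_of_not_ge fun h1 => c.int j w' hw' (h ▸ c.bd i w h1)) hw' h

theorem isOpen_image (i : ι) {W : Set 𝔼} (hW : IsOpen W) (hW' : W ⊆ ball 0 1) :
    IsOpen (c.χ i '' W) := by
  refine isClosed_compl_iff.1 (c.weak _ ?_ fun j => IsClosed.inter ?_ isClosed_closedBall)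
  · rw [inter_eq_right.2]
    · exact c.closedB
    · rintro _ h ⟨w, hw, rfl⟩
      exact c.int i w (by simpa using hW' hw) h
  · have : c.χ j ⁻¹' (c.χ i '' W) = {w | j = i ∧ w ∈ W} := by
      ext w
      refine ⟨fun ⟨w', hw, e⟩ => ?_, by rintro ⟨rfl, h⟩; exact ⟨w, h, rfl⟩⟩
      obtain ⟨rfl, rfl⟩ := c.inj' (by simpa using hW' hw) e.symm
      exact ⟨rfl, hw⟩
    rw [preimage_compl, this, isClosed_compl_iff]
    by_cases h : j = i <;> simp [h, hW]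

theorem map_nhds (i : ι) {w : 𝔼} (hw : ‖w‖ < 1) : map (c.χ i) (𝓝 w) = 𝓝 (c.χ i w) := by
  refine le_antisymm ((c.χ i).continuous.tendsto w) (le_map fun s hs => ?_)
  exact mem_of_superset ((c.isOpen_image i (isOpen_interior.inter isOpen_ball) inter_subset_right).mem_nhds
    ⟨w, ⟨mem_interior_iff_mem_nhds.2 hs, by simpa⟩, rfl⟩)
    (image_mono (inter_subset_left.trans interior_subset))

theorem exists_inv (i : ι) : ∃ q : Z → 𝔼, ContinuousOn q (c.χ i '' ball 0 1) ∧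
    ∀ w, ‖w‖ < 1 → q (c.χ i w) = w := by
  have h : ∀ w, ‖w‖ < 1 → Function.invFun (c.χ i) (c.χ i w) = w := fun w hw =>
    (c.inj' hw (Function.invFun_eq ⟨w, rfl⟩)).2
  refine ⟨_, ?_, h⟩
  rintro _ ⟨w, hw, rfl⟩
  rw [mem_ball_zero_iff] at hw
  refine ContinuousAt.continuousWithinAt ?_
  rw [ContinuousAt, h w hw, ← c.map_nhds i hw, tendsto_map'_iff]
  exact tendsto_id.congr' (mem_of_superset (isOpen_ball.mem_nhds (mem_ball_zero_iff.2 hw))
    fun w hw => (h w (mem_ball_zero_iff.1 hw)).symm)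

theorem preimage_ctr (j : ι) : c.χ j ⁻¹' c.ctr = {0} := by
  ext w
  exact ⟨fun ⟨i, e⟩ => (c.inj' (by simp) (Eq.symm e)).2, by rintro rfl; exact ⟨j, rfl⟩⟩

theorem isClosed_ctr : IsClosed c.ctr := by
  refine c.weak _ ?_ fun j => IsClosed.inter ?_ isClosed_closedBall
  · convert isClosed_empty
    exact eq_empty_of_forall_notMem fun _ ⟨⟨i, e⟩, h⟩ => c.int i 0 (by simp) (mem_of_eq_of_mem e h)
  · rw [c.preimage_ctr]; exact isClosed_singleton

theorem continuousOn {Y : Type} [TopologicalSpace Y] (f : Z → Y) (hB : ContinuousOn f B)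
    (hχ : ∀ i, ContinuousOn (fun w => f (c.χ i w)) (closedBall 0 1 \ {0})) :
    ContinuousOn f c.ctrᶜ := by
  refine continuousOn_iff_isClosed.2 fun F hF => ⟨f ⁻¹' F ∪ c.ctr, c.weak _ ?_ fun i => ?_, ?_⟩
  · convert hB.preimage_isClosed_of_isClosed c.closedB hF using 1
    ext y
    refine ⟨?_, fun h => ⟨.inl h.2, h.1⟩⟩
    rintro ⟨h | ⟨i, rfl⟩, h'⟩
    exacts [⟨h', h⟩, absurd h' (c.int i 0 (by simp))]
  · obtain ⟨v, hv, e⟩ := continuousOn_iff_isClosed.1 (hχ i) F hF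
    convert (hv.inter (isClosed_closedBall (x := 0) (ε := 1))).union (isClosed_singleton (x := 0)) using 1
    rw [preimage_union, c.preimage_ctr]
    ext w
    replace e := Set.ext_iff.1 e w
    by_cases h : w = 0 <;> simp_all
  · ext y; by_cases h : y ∈ c.ctr <;> simp [h]

theorem exists_defo [NormedSpace ℝ 𝔼] : ∃ d : Z → C(I, Z), ContinuousOn d c.ctrᶜ ∧
    (∀ y ∈ B, ∀ s, d y s = y) ∧
    ∀ i w, ‖w‖ ≤ 1 → w ≠ 0 → ∀ s : I, d (c.χ i w) s = c.χ i (((1 - (s : ℝ)) + s / ‖w‖) • w) := by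
  classical
  let g : 𝔼 → C(I, 𝔼) := fun w => ⟨fun s => ((1 - (s : ℝ)) + s / ‖w‖) • w, by fun_prop⟩
  have h : ∀ y, ∃ d : C(I, Z), (y ∈ B → d = .const _ y) ∧
      ∀ i w, ‖w‖ ≤ 1 → c.χ i w = y → d = (c.χ i).comp (g w) := by
    intro y
    by_cases hy : y ∈ B
    · refine ⟨_, fun _ => rfl, ?_⟩
      rintro i w hw rfl
      ext s
      simp [g, hw.eq_of_not_lt fun h => c.int i w h hy]
    · obtain ⟨i, w, hw, rfl⟩ := c.cov y hy
      refine ⟨(c.χ i).comp (g w), fun h => absurd h hy, fun j w' _ e => ?_⟩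
      obtain ⟨rfl, rfl⟩ := c.inj' hw e
      rfl
  choose d h1 h2 using h
  refine ⟨d, c.continuousOn d (ContinuousMap.continuous_const'.continuousOn.congr h1) fun i => ?_,
    fun y hy s => by rw [h1 y hy]; rfl, fun i w hw _ s => by rw [h2 _ i w hw rfl]; rfl⟩
  refine ContinuousOn.congr (f := fun w => (c.χ i).comp (g w)) ?_
    fun w hw => h2 _ i w (by simpa using hw.1) rfl
  refine (ContinuousMap.continuous_postcomp _).comp_continuousOn ?_
  rw [continuousOn_iff_continuous_restrict]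
  refine ContinuousMap.continuous_of_continuous_uncurry _ ?_
  exact Continuous.smul (Continuous.add (by fun_prop) (Continuous.div (by fun_prop) (by fun_prop)
    fun p => norm_ne_zero_iff.2 p.1.2.2)) (by fun_prop)

theorem path_ind [NormedSpace ℝ 𝔼] [Nontrivial 𝔼] {K : Type} [Group K] (θ : Coc Z K)
    (Q : B → B → K → Prop)
    (hmul : ∀ y y' y'' k k', Q y y' k → Q y' y'' k' → Q y y'' (k * k'))
    (hB : ∀ (γ : C(I, Z)) (h : ∀ t, γ t ∈ B), Q ⟨γ 0, h 0⟩ ⟨γ 1, h 1⟩ (θ.θ γ))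
    (hχ : ∀ i (η : C(I, 𝔼)) (h0 : ‖η 0‖ = 1) (h1 : ‖η 1‖ = 1),
      Q ⟨c.χ i (η 0), c.bd i _ h0.ge⟩ ⟨c.χ i (η 1), c.bd i _ h1.ge⟩ (θ.θ ((c.χ i).comp η)))
    (γ : C(I, Z)) (h0 : γ 0 ∈ B) (h1 : γ 1 ∈ B) : Q ⟨γ 0, h0⟩ ⟨γ 1, h1⟩ (θ.θ γ) := by
  classical
  obtain ⟨d, hd, hd1, hd2⟩ := c.exists_defo
  obtain ⟨u₀, hu₀⟩ := exists_norm_eq 𝔼 zero_le_one
  let nv : 𝔼 → 𝔼 := fun w => if w = 0 then u₀ else ‖w‖⁻¹ • w
  have hnv : ∀ w, ‖nv w‖ = 1 := fun w => by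
    by_cases h : w = 0 <;> simp [nv, h, hu₀, norm_smul]
  choose κ hκ using fun i => (θ.comap (c.χ i)).pot
  have h : ∀ z, ∃ (a : B) (m : K), (z ∈ B → a = z ∧ m = 1) ∧
      ∀ i w, ‖w‖ < 1 → c.χ i w = z → a = c.χ i (nv w) ∧ m = (κ i w)⁻¹ * κ i (nv w) := by
    intro z
    by_cases hz : z ∈ B
    · exact ⟨⟨z, hz⟩, 1, fun _ => ⟨rfl, rfl⟩, fun i w hw e => absurd (e ▸ hz) (c.int i w hw)⟩
    · obtain ⟨i, w, hw, rfl⟩ := c.cov z hz
      refine ⟨⟨_, c.bd i _ (hnv w).ge⟩, (κ i w)⁻¹ * κ i (nv w), fun h => absurd h hz, fun j w' _ e => ?_⟩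
      obtain ⟨rfl, rfl⟩ := c.inj' hw e
      exact ⟨rfl, rfl⟩
  choose a m hB' hχ' using h
  have hdz : ∀ z ∉ c.ctr, d z 0 = z ∧ d z 1 = a z ∧ θ.θ (d z) = m z := by
    intro z hz
    by_cases h : z ∈ B
    · rw [show d z = .const _ z from ContinuousMap.ext (hd1 z h), θ.const]
      exact ⟨rfl, (hB' z h).1.symm, (hB' z h).2.symm⟩
    · obtain ⟨i, w, hw, rfl⟩ := c.cov z h
      have h0 : w ≠ 0 := fun e => hz ⟨i, by rw [e]⟩
      have := hκ i ⟨fun s => ((1 - (s : ℝ)) + s / ‖w‖) • w, by fun_prop⟩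
      refine ⟨by simp [hd2 i w hw.le h0], by simp [hd2 i w hw.le h0, (hχ' _ i w hw rfl).1, nv, h0], ?_⟩
      rw [(hχ' _ i w hw rfl).2]
      refine (congrArg θ.θ (ContinuousMap.ext (hd2 i w hw.le h0))).trans (this.trans ?_)
      simp [nv, h0]
  have L1 : ∀ η : C(I, Z), (∀ t, η t ∈ c.ctrᶜ) →
      Q (a (η 0)) (a (η 1)) ((m (η 0))⁻¹ * θ.θ η * m (η 1)) := by
    intro η hη
    let Φ : C(I × I, Z) := ⟨fun p => d (η p.1) p.2, continuous_eval.comp
      ((hd.comp_continuous (by fun_prop) fun p => hη _).prodMk continuous_snd)⟩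
    obtain ⟨k, hk⟩ := (θ.comap Φ).pot
    have e1 : ∀ t, m (η t) = (k (t, 0))⁻¹ * k (t, 1) := fun t =>
      (hdz _ (hη t)).2.2.symm.trans (hk ⟨fun s => (t, s), by fun_prop⟩)
    have e2 : θ.θ η = (k (0, 0))⁻¹ * k (1, 0) :=
      (congrArg θ.θ (ContinuousMap.ext fun t => (hdz _ (hη t)).1.symm)).trans
        (hk ⟨fun s => (s, 0), by fun_prop⟩)
    have e3 := hk ⟨fun s => (s, 1), by fun_prop⟩
    convert hB (Φ.comp ⟨fun s => (s, 1), by fun_prop⟩) fun t =>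
      (show d (η t) 1 ∈ B from (hdz _ (hη t)).2.1 ▸ (a _).2) using 1
    · exact Subtype.ext (hdz _ (hη 0)).2.1.symm
    · exact Subtype.ext (hdz _ (hη 1)).2.1.symm
    · rw [e1, e1, e2]
      refine Eq.trans ?_ e3.symm
      simp [mul_assoc]
  have L2 : ∀ i (η : C(I, Z)), (∀ t, η t ∈ c.χ i '' ball 0 1) →
      Q (a (η 0)) (a (η 1)) ((m (η 0))⁻¹ * θ.θ η * m (η 1)) := by
    intro i η hη
    obtain ⟨q, hq, hq'⟩ := c.exists_inv i
    have e : ∀ t, ‖q (η t)‖ < 1 ∧ c.χ i (q (η t)) = η t := fun t => by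
      obtain ⟨w, hw, e⟩ := hη t
      rw [mem_ball_zero_iff] at hw
      rw [← e, hq' w hw]
      exact ⟨hw, rfl⟩
    have e2 : θ.θ η = (κ i (q (η 0)))⁻¹ * κ i (q (η 1)) :=
      (congrArg θ.θ (ContinuousMap.ext fun t => (e t).2.symm)).trans
        (hκ i ⟨fun t => q (η t), hq.comp_continuous η.continuous hη⟩)
    let ℓ := (PathConnectedSpace.somePath (nv (q (η 0))) (nv (q (η 1)))).toContinuousMap
    have l0 : ℓ 0 = nv (q (η 0)) := Path.source _
    have l1 : ℓ 1 = nv (q (η 1)) := Path.target _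
    convert hχ i ℓ (l0 ▸ hnv _) (l1 ▸ hnv _) using 1
    · exact Subtype.ext (by simp only [l0, (hχ' _ i _ (e 0).1 (e 0).2).1])
    · exact Subtype.ext (by simp only [l1, (hχ' _ i _ (e 1).1 (e 1).2).1])
    · rw [(hχ' _ i _ (e 0).1 (e 0).2).2, (hχ' _ i _ (e 1).1 (e 1).2).2, e2]
      refine Eq.trans ?_ (hκ i ℓ).symm
      simp [mul_assoc, l0, l1]
  obtain ⟨k, hk⟩ := (θ.comap γ).pot
  haveI : LocallyPathConnectedSpace I := (convex_Icc (0 : ℝ) 1).locallyPathConnectedSpace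
  have key := PreconnectedSpace.induction₂' (fun t t' : I =>
    Q (a (γ t)) (a (γ t')) ((m (γ t))⁻¹ * ((k t)⁻¹ * k t') * m (γ t'))) (fun t => ?_)
    ⟨fun t₁ t₂ t₃ h h' => by simpa [mul_assoc] using hmul _ _ _ _ _ h h'⟩ 0 1
  · convert key using 1
    · exact Subtype.ext (hB' _ h0).1.symm
    · exact Subtype.ext (hB' _ h1).1.symm
    · simpa [(hB' _ h0).2, (hB' _ h1).2] using hk (.id _)
  obtain ⟨O, hO, ht, hL⟩ : ∃ O, IsOpen O ∧ γ t ∈ O ∧ ∀ η : C(I, Z), (∀ t, η t ∈ O) →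
      Q (a (η 0)) (a (η 1)) ((m (η 0))⁻¹ * θ.θ η * m (η 1)) := by
    by_cases h : γ t ∈ c.ctr
    · obtain ⟨i, e⟩ := h
      exact ⟨_, c.isOpen_image i isOpen_ball subset_rfl, ⟨0, by simp, e⟩, L2 i⟩
    · exact ⟨_, c.isClosed_ctr.isOpen_compl, h, L1⟩
  obtain ⟨U, ⟨hU, hU'⟩, hUO⟩ := (path_connected_basis t).mem_iff.1
    ((hO.preimage γ.continuous).mem_nhds ht)
  have : ∀ t₁ ∈ U, ∀ t₂ ∈ U,
      Q (a (γ t₁)) (a (γ t₂)) ((m (γ t₁))⁻¹ * ((k t₁)⁻¹ * k t₂) * m (γ t₂)) := fun t₁ h₁ t₂ h₂ => by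
    obtain ⟨ℓ, hℓ⟩ := hU'.joinedIn _ h₁ _ h₂
    have := hL (γ.comp ℓ.toContinuousMap) fun s => hUO (hℓ s)
    rw [show θ.θ _ = _ from hk ℓ.toContinuousMap] at this
    simpa using this
  filter_upwards [hU] with t' ht'
  exact ⟨this _ (mem_of_mem_nhds hU) _ ht', this _ ht' _ (mem_of_mem_nhds hU)⟩

end Crest.Agent.R197.Cell
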