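import Crest.Agent.R197.Defs

/-!
Task R197-Cert.  An explicit link: the barycentric subdivision of the spine of the Poincaré homology sphere.

Plan (compute with Python, exact arithmetic in `ℤ[√5]`).  `I*` = the 120 unit icosians = vertices of the 600-cell (edges: `re (a⁻¹ b)
= φ/2 = (1+√5)/4`; it is the flag complex: 720 edges, 1200 triangles, 600 tetrahedra).  `I*` acts freely by left multiplication; orbits:
6 edges, 10 triangles, 5 tetrahedra = the 21 vertices of `L` (dually: pentagons, edges, vertices of the spine).  Choose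
representatives `rep u` containing the vertex `1`.  For orbits `u ≠ v` with `|rep u| < |rep v|`: `adj u v` iff there is `γ ∈ I*` with
`rep u ⊂ γ • rep v` (check that `γ` is unique), `ρ u v = γ`, `ρ v u = γ⁻¹`, `ρ u u = 1`; `γ` is `1` or a neighbour of `1`, so `re γ > 0`.
80 edges, 60 triangles, no 4-cliques (colour = size of the representative: `dim` follows from a proper 3-colouring,
`Finset.card_le_card_of_injOn`).  In Lean: `adj` as a `Bool` table, `4 ρ` as a table of quaternions over `ℤ√5` (or 8 integers with a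
hand-written product), mapped to `ℍ[ℝ]`; `ρ_mul` is checked over all triples with `decide +kernel`.
`ρ_ng`: an explicit closed edge path with product `≠ 1`.  `a0`: a spanning tree.  `a2`: an integer right inverse `h₂` of
`δ¹ : ℤ^80 → ℤ^60`; `a1`: integrate along a spanning tree, `ω e - δ f e` is an integer combination of the `δ¹ ω t` (e.g. choose `h₂`
vanishing on the tree edges; it is then the inverse of the unimodular `60 × 60` matrix).  Prove one generic lemma reducing the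
identities in an arbitrary abelian group `M` to an identity of integer matrices / sparse integer lists checked by `decide +kernel`;
or eliminate step by step (collapses) to keep the certificates small.
-/

set_option autoImplicit false

namespace Crest.Agent.R197

open scoped Quaternion

namespace Cert

/-! ### Integer linear forms -/

def addL : List ℤ → List ℤ → List ℤ
  | [], m => m
  | a :: l, [] => a :: l
  | a :: l, b :: m => (a + b) :: addL l m

def smulL (c : ℤ) (l : List ℤ) : List ℤ := l.map fun a => c * a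

def unitL : ℕ → List ℤ
  | 0 => [1]
  | n + 1 => 0 :: unitL n

def comb : List ℤ → List (List ℤ) → List ℤ
  | a :: l, r :: rs => if a = 0 then comb l rs else addL (smulL a r) (comb l rs)
  | [], _ => []
  | _ :: _, [] => []

def allZ (l : List ℤ) : Bool := l.all fun a => a == 0

def dec : ℕ → ℕ → List ℤ
  | 0, _ => []
  | k + 1, n => (if n % 3 = 0 then 0 else if n % 3 = 1 then 1 else -1) :: dec k (n / 3)

section dot

variable {M : Type} [AddCommGroup M]

def dot : List ℤ → List M → M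
  | a :: l, x :: m => a • x + dot l m
  | [], _ => 0
  | _ :: _, [] => 0

theorem dot_nil (l : List ℤ) : dot l ([] : List M) = 0 := by
  cases l <;> rfl

theorem dot_addL (l m : List ℤ) (x : List M) : dot (addL l m) x = dot l x + dot m x := by
  induction l generalizing m x with
  | nil => simp [addL, dot]
  | cons a l ih =>
    cases m with
    | nil => simp [addL, dot]
    | cons b m =>
      cases x with
      | nil => simp [dot_nil]
      | cons y x =>
        simp only [addL, dot, ih, add_smul]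
        abel

theorem dot_smulL (c : ℤ) (l : List ℤ) (x : List M) : dot (smulL c l) x = c • dot l x := by
  induction l generalizing x with
  | nil => simp [smulL, dot]
  | cons a l ih =>
    cases x with
    | nil => simp [dot_nil]
    | cons y x =>
      have := ih x
      simp only [smulL] at this
      simp only [smulL, List.map_cons, dot, this, smul_add, mul_smul]

theorem dot_unitL (n : ℕ) (x : List M) : dot (unitL n) x = x.getD n 0 := by
  induction n generalizing x with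
  | zero => cases x <;> simp [unitL, dot]
  | succ n ih => cases x <;> simp [unitL, dot, ih]

theorem dot_allZ (l : List ℤ) (h : allZ l = true) (x : List M) : dot l x = 0 := by
  induction l generalizing x with
  | nil => rfl
  | cons a l ih =>
    cases x with
    | nil => rfl
    | cons y x =>
      simp only [allZ, List.all_cons, Bool.and_eq_true, beq_iff_eq] at h
      simp only [dot, h.1, zero_smul, zero_add]
      exact ih h.2 x

theorem dot_comb (l : List ℤ) (rs : List (List ℤ)) (x : List M) (h : ∀ r ∈ rs, dot r x = 0) :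
    dot (comb l rs) x = 0 := by
  induction l generalizing rs with
  | nil => rfl
  | cons a l ih =>
    cases rs with
    | nil => rfl
    | cons r rs =>
      have h1 := ih rs fun r' hr' => h r' (List.mem_cons_of_mem _ hr')
      simp only [comb]
      split_ifs
      · exact h1
      · rw [dot_addL, dot_smulL, h1, h r List.mem_cons_self, smul_zero, add_zero]

theorem getD_map_of {α : Type} (l : List α) (g : α → M) (i : ℕ) (a : α) (h : l[i]? = some a) :
    (l.map g).getD i 0 = g a := by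
  simp [List.getD_eq_getElem?_getD, h]

end dot

/-! ### Quaternions over `ℤ[√5]` -/

structure Q8 where
  a0 : ℤ
  b0 : ℤ
  a1 : ℤ
  b1 : ℤ
  a2 : ℤ
  b2 : ℤ
  a3 : ℤ
  b3 : ℤ
  deriving DecidableEq

def Q8.mul (p q : Q8) : Q8 :=
  ⟨p.a0 * q.a0 + 5 * (p.b0 * q.b0) - (p.a1 * q.a1 + 5 * (p.b1 * q.b1)) - (p.a2 * q.a2 + 5 * (p.b2 * q.b2))
      - (p.a3 * q.a3 + 5 * (p.b3 * q.b3)),
    p.a0 * q.b0 + p.b0 * q.a0 - (p.a1 * q.b1 + p.b1 * q.a1) - (p.a2 * q.b2 + p.b2 * q.a2)
      - (p.a3 * q.b3 + p.b3 * q.a3),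
    p.a0 * q.a1 + 5 * (p.b0 * q.b1) + (p.a1 * q.a0 + 5 * (p.b1 * q.b0)) + (p.a2 * q.a3 + 5 * (p.b2 * q.b3))
      - (p.a3 * q.a2 + 5 * (p.b3 * q.b2)),
    p.a0 * q.b1 + p.b0 * q.a1 + (p.a1 * q.b0 + p.b1 * q.a0) + (p.a2 * q.b3 + p.b2 * q.a3)
      - (p.a3 * q.b2 + p.b3 * q.a2),
    p.a0 * q.a2 + 5 * (p.b0 * q.b2) - (p.a1 * q.a3 + 5 * (p.b1 * q.b3)) + (p.a2 * q.a0 + 5 * (p.b2 * q.b0))
      + (p.a3 * q.a1 + 5 * (p.b3 * q.b1)),
    p.a0 * q.b2 + p.b0 * q.a2 - (p.a1 * q.b3 + p.b1 * q.a3) + (p.a2 * q.b0 + p.b2 * q.a0)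
      + (p.a3 * q.b1 + p.b3 * q.a1),
    p.a0 * q.a3 + 5 * (p.b0 * q.b3) + (p.a1 * q.a2 + 5 * (p.b1 * q.b2)) - (p.a2 * q.a1 + 5 * (p.b2 * q.b1))
      + (p.a3 * q.a0 + 5 * (p.b3 * q.b0)),
    p.a0 * q.b3 + p.b0 * q.a3 + (p.a1 * q.b2 + p.b1 * q.a2) - (p.a2 * q.b1 + p.b2 * q.a1)
      + (p.a3 * q.b0 + p.b3 * q.a0)⟩

def Q8.four (p : Q8) : Q8 :=
  ⟨4 * p.a0, 4 * p.b0, 4 * p.a1, 4 * p.b1, 4 * p.a2, 4 * p.b2, 4 * p.a3, 4 * p.b3⟩

/-- The norm is `4` and the real part is non-negative. -/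
def Q8.ok (p : Q8) : Prop :=
  p.a0 * p.a0 + p.a1 * p.a1 + p.a2 * p.a2 + p.a3 * p.a3
      + 5 * (p.b0 * p.b0 + p.b1 * p.b1 + p.b2 * p.b2 + p.b3 * p.b3) = 16 ∧
    p.a0 * p.b0 + p.a1 * p.b1 + p.a2 * p.b2 + p.a3 * p.b3 = 0 ∧ 0 ≤ p.a0 ∧ 0 ≤ p.b0

instance (p : Q8) : Decidable p.ok := by unfold Q8.ok; infer_instance

noncomputable def Q8.toH (p : Q8) : ℍ[ℝ] :=
  ⟨(p.a0 + p.b0 * √5) / 4, (p.a1 + p.b1 * √5) / 4, (p.a2 + p.b2 * √5) / 4, (p.a3 + p.b3 * √5) / 4⟩

theorem s5 : (√5 : ℝ) * √5 = 5 := Real.mul_self_sqrt (by norm_num)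

theorem Q8.toH_mul (p q r : Q8) (h : p.mul q = r.four) : p.toH * q.toH = r.toH := by
  simp only [Q8.mul, Q8.four, Q8.mk.injEq] at h
  obtain ⟨h0, h1, h2, h3, h4, h5, h6, h7⟩ := h
  have c0 := congrArg (Int.cast : ℤ → ℝ) h0
  have c1 := congrArg (Int.cast : ℤ → ℝ) h1
  have c2 := congrArg (Int.cast : ℤ → ℝ) h2
  have c3 := congrArg (Int.cast : ℤ → ℝ) h3
  have c4 := congrArg (Int.cast : ℤ → ℝ) h4
  have c5 := congrArg (Int.cast : ℤ → ℝ) h5
  have c6 := congrArg (Int.cast : ℤ → ℝ) h6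
  have c7 := congrArg (Int.cast : ℤ → ℝ) h7
  push_cast at c0 c1 c2 c3 c4 c5 c6 c7
  have hs := s5
  ext
  · simp only [Q8.toH, Quaternion.re_mul]
    linear_combination (1 / 16) * c0 + (√5 / 16) * c1 +
      ((p.b0 * q.b0 - p.b1 * q.b1 - p.b2 * q.b2 - p.b3 * q.b3 : ℝ) / 16) * hs
  · simp only [Q8.toH, Quaternion.imI_mul]
    linear_combination (1 / 16) * c2 + (√5 / 16) * c3 +
      ((p.b0 * q.b1 + p.b1 * q.b0 + p.b2 * q.b3 - p.b3 * q.b2 : ℝ) / 16) * hs
  · simp only [Q8.toH, Quaternion.imJ_mul]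
    linear_combination (1 / 16) * c4 + (√5 / 16) * c5 +
      ((p.b0 * q.b2 - p.b1 * q.b3 + p.b2 * q.b0 + p.b3 * q.b1 : ℝ) / 16) * hs
  · simp only [Q8.toH, Quaternion.imK_mul]
    linear_combination (1 / 16) * c6 + (√5 / 16) * c7 +
      ((p.b0 * q.b3 + p.b1 * q.b2 - p.b2 * q.b1 + p.b3 * q.b0 : ℝ) / 16) * hs

theorem Q8.norm_toH (p : Q8) (h : p.ok) : ‖p.toH‖ = 1 := by
  obtain ⟨h0, h1, -, -⟩ := h
  have c0 := congrArg (Int.cast : ℤ → ℝ) h0
  have c1 := congrArg (Int.cast : ℤ → ℝ) h1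
  push_cast at c0 c1
  have hs := s5
  have h2 : Quaternion.normSq p.toH = 1 := by
    rw [Quaternion.normSq_def']
    simp only [Q8.toH]
    linear_combination (1 / 16) * c0 + (√5 / 8) * c1 +
      ((p.b0 * p.b0 + p.b1 * p.b1 + p.b2 * p.b2 + p.b3 * p.b3 : ℝ) / 16) * hs
  rw [Quaternion.normSq_eq_norm_mul_self] at h2
  nlinarith [norm_nonneg p.toH]

theorem Q8.re_toH (p : Q8) (h : p.ok) : 0 ≤ p.toH.re := by
  obtain ⟨-, -, h0, h1⟩ := h
  have c0 : (0 : ℝ) ≤ p.a0 := by exact_mod_cast h0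
  have c1 : (0 : ℝ) ≤ p.b0 := by exact_mod_cast h1
  simp only [Q8.toH]
  positivity

/-! ### The tables -/

def mtab : List ℕ :=
  [2033600, 2046272, 2059776, 2077312, 2086144, 2083008, 196643, 786473, 1310739, 1114125, 655381, 1572902,
    589850, 393230, 327732, 1179704, 21119, 42111, 25023, 7359, 35647]

def eds : List (Fin 21 × Fin 21) :=
  [(0, 6), (0, 7), (0, 8), (0, 9), (0, 10), (0, 16), (0, 17), (0, 18), (0, 19), (0, 20), (1, 6), (1, 8),
    (1, 11), (1, 12), (1, 13), (1, 16), (1, 17), (1, 18), (1, 19), (1, 20), (2, 9), (2, 10), (2, 11), (2, 13),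
    (2, 14), (2, 16), (2, 17), (2, 18), (2, 19), (2, 20), (3, 7), (3, 9), (3, 12), (3, 13), (3, 15), (3, 16),
    (3, 17), (3, 18), (3, 19), (3, 20), (4, 8), (4, 10), (4, 12), (4, 14), (4, 15), (4, 16), (4, 17), (4, 18),
    (4, 19), (4, 20), (5, 6), (5, 7), (5, 11), (5, 14), (5, 15), (5, 16), (5, 17), (5, 18), (5, 19), (5, 20),
    (6, 16), (6, 17), (7, 18), (7, 19), (8, 18), (8, 20), (9, 16), (9, 20), (10, 17), (10, 19), (11, 19),
    (11, 20), (12, 16), (12, 19), (13, 17), (13, 18), (14, 16), (14, 18), (15, 17), (15, 20)]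

def tris : List (Fin 21 × Fin 21 × Fin 21) :=
  [(0, 6, 16), (0, 6, 17), (0, 7, 18), (0, 7, 19), (0, 8, 18), (0, 8, 20), (0, 9, 16), (0, 9, 20),
    (0, 10, 17), (0, 10, 19), (1, 6, 16), (1, 6, 17), (1, 8, 18), (1, 8, 20), (1, 11, 19), (1, 11, 20),
    (1, 12, 16), (1, 12, 19), (1, 13, 17), (1, 13, 18), (2, 9, 16), (2, 9, 20), (2, 10, 17), (2, 10, 19),
    (2, 11, 19), (2, 11, 20), (2, 13, 17), (2, 13, 18), (2, 14, 16), (2, 14, 18), (3, 7, 18), (3, 7, 19),
    (3, 9, 16), (3, 9, 20), (3, 12, 16), (3, 12, 19), (3, 13, 17), (3, 13, 18), (3, 15, 17), (3, 15, 20),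
    (4, 8, 18), (4, 8, 20), (4, 10, 17), (4, 10, 19), (4, 12, 16), (4, 12, 19), (4, 14, 16), (4, 14, 18),
    (4, 15, 17), (4, 15, 20), (5, 6, 16), (5, 6, 17), (5, 7, 18), (5, 7, 19), (5, 11, 19), (5, 11, 20),
    (5, 14, 16), (5, 14, 18), (5, 15, 17), (5, 15, 20)]

def etab : List (List ℕ) :=
  [[0, 0, 0, 0, 0, 0, 0, 1, 2, 3, 4, 0, 0, 0, 0, 0, 5, 6, 7, 8, 9],
    [0, 0, 0, 0, 0, 0, 10, 0, 11, 0, 0, 12, 13, 14, 0, 0, 15, 16, 17, 18, 19],
    [0, 0, 0, 0, 0, 0, 0, 0, 0, 20, 21, 22, 0, 23, 24, 0, 25, 26, 27, 28, 29],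
    [0, 0, 0, 0, 0, 0, 0, 30, 0, 31, 0, 0, 32, 33, 0, 34, 35, 36, 37, 38, 39],
    [0, 0, 0, 0, 0, 0, 0, 0, 40, 0, 41, 0, 42, 0, 43, 44, 45, 46, 47, 48, 49],
    [0, 0, 0, 0, 0, 0, 50, 51, 0, 0, 0, 52, 0, 0, 53, 54, 55, 56, 57, 58, 59],
    [0, 0, 0, 0, 0, 0, 0, 0, 0, 0, 0, 0, 0, 0, 0, 0, 60, 61],
    [0, 0, 0, 0, 0, 0, 0, 0, 0, 0, 0, 0, 0, 0, 0, 0, 0, 0, 62, 63],
    [0, 0, 0, 0, 0, 0, 0, 0, 0, 0, 0, 0, 0, 0, 0, 0, 0, 0, 64, 0, 65],
    [0, 0, 0, 0, 0, 0, 0, 0, 0, 0, 0, 0, 0, 0, 0, 0, 66, 0, 0, 0, 67],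
    [0, 0, 0, 0, 0, 0, 0, 0, 0, 0, 0, 0, 0, 0, 0, 0, 0, 68, 0, 69],
    [0, 0, 0, 0, 0, 0, 0, 0, 0, 0, 0, 0, 0, 0, 0, 0, 0, 0, 0, 70, 71],
    [0, 0, 0, 0, 0, 0, 0, 0, 0, 0, 0, 0, 0, 0, 0, 0, 72, 0, 0, 73],
    [0, 0, 0, 0, 0, 0, 0, 0, 0, 0, 0, 0, 0, 0, 0, 0, 0, 74, 75],
    [0, 0, 0, 0, 0, 0, 0, 0, 0, 0, 0, 0, 0, 0, 0, 0, 76, 0, 77],
    [0, 0, 0, 0, 0, 0, 0, 0, 0, 0, 0, 0, 0, 0, 0, 0, 0, 78, 0, 0, 79], [], [], [], [], []]

def htab : List ℕ :=
  [1, 24000047636859793926831763800, 0, 729, 27669947730309123835283916460, 0, 295252,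
    27669942149940544360625276679, 27669942149940678128153636167, 5103, 59049, 35916185073909008146021391192,
    0, 43046721, 466657438865149330641720, 0, 0, 466658006785013508902591, 301327047,
    35916185073909008146019802215, 3486784401, 27670545099025517788053995032, 27670552320678799809092250580,
    985399095806202616, 22876792454961, 0, 610188974616778265177764, 160137547184727,
    27670552320678800373726523999, 24407490807, 2629660329032789041899056708, 1853020188851841,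
    16677181699666569, 0, 27670465115963555746492363248, 0, 610187839129401825749688, 117944791497823919,
    116740271897665983, 12971141321962887, 35915780486862915515615166948, 0, 984770902183611232881,
    8862938119652501095929, 0, 0, 35915725874629848490600842252, 62040566837567507671503,
    6893396315285278630167, 35915780559808908269956735623, 717897987691852588770249, 0,
    3766810741419284305729843768, 523347633027360537213511521, 18246260488183317779028937200, 0,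
    5025285913842968121686988, 3663433431191523760494580647, 3708661004416244246345563615,
    32976392814311005567429193439, 0, 295245, 3669894513080750433793512888, 3669894513080884206551970169,
    27669942149940544360625276517, 5346, 0, 0, 35915725655791870227576123834, 7221653282679815707794,
    306110016, 35916185073909008145991104401, 0, 0, 610187989224037122748809, 568228697388821282, 0, 0,
    35915805641072925363110705613, 35916019859138138887486325706]

def ptab : List ℕ :=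
  [486, 28697814, 1694577218886, 100063090197999414, 5908625413101667397286, 348898422018240358142341014,
    84782316550432407028588866402, 351052115981315915908651761, 495, 61806308765265224723841283607058,
    5945098409478838183689, 29229255, 45056799089878348823680295749545282, 105622150764554937,
    3649600726280146254718103955713167842, 6893396315285278630167, 0, 71744535,
    9124001815700365636795259889282919605, 112641997724695872059200739373863205,
    154515771913163061809603209017645]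

def vals : List Q8 :=
  [⟨4, 0, 0, 0, 0, 0, 0, 0⟩, ⟨1, 1, -2, 0, -1, 1, 0, 0⟩, ⟨1, 1, -2, 0, 1, -1, 0, 0⟩,
    ⟨1, 1, -1, 1, 0, 0, -2, 0⟩, ⟨1, 1, -1, 1, 0, 0, 2, 0⟩, ⟨1, 1, 0, 0, -2, 0, -1, 1⟩,
    ⟨1, 1, 0, 0, -2, 0, 1, -1⟩, ⟨1, 1, 0, 0, 2, 0, -1, 1⟩, ⟨1, 1, 0, 0, 2, 0, 1, -1⟩,
    ⟨1, 1, 1, -1, 0, 0, -2, 0⟩, ⟨1, 1, 1, -1, 0, 0, 2, 0⟩, ⟨1, 1, 2, 0, -1, 1, 0, 0⟩,
    ⟨1, 1, 2, 0, 1, -1, 0, 0⟩]

def rtab : List (List ℕ) :=
  [[], [0, 0, 0, 0, 0, 0, 0, 0, 5, 0, 0, 0, 0, 0, 0, 0, 0, 0, 5, 6, 5],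
    [0, 0, 0, 0, 0, 0, 0, 0, 0, 12, 3, 11, 0, 3, 0, 0, 12, 3, 6, 3, 12],
    [0, 0, 0, 0, 0, 0, 0, 12, 0, 4, 0, 0, 4, 11, 0, 0, 4, 11, 12, 12, 4],
    [0, 0, 0, 0, 0, 0, 0, 0, 5, 0, 12, 0, 4, 0, 10, 6, 4, 12, 5, 12, 5],
    [0, 0, 0, 0, 0, 0, 12, 6, 0, 0, 0, 0, 0, 0, 0, 6, 12, 12, 6, 6, 5], [0, 0, 0, 0, 0, 1],
    [0, 0, 0, 1, 0, 7], [0, 8, 0, 0, 8], [0, 0, 1, 9], [0, 0, 10, 0, 1],
    [0, 0, 2, 0, 0, 0, 0, 0, 0, 0, 0, 0, 0, 0, 0, 0, 0, 0, 0, 6, 5],
    [0, 0, 0, 9, 9, 0, 0, 0, 0, 0, 0, 0, 0, 0, 0, 0, 0, 0, 0, 6],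
    [0, 0, 10, 2, 0, 0, 0, 0, 0, 0, 0, 0, 0, 0, 0, 0, 0, 0, 5],
    [0, 0, 0, 0, 3, 0, 0, 0, 0, 0, 0, 0, 0, 0, 0, 0, 12, 0, 6],
    [0, 0, 0, 0, 7, 7, 0, 0, 0, 0, 0, 0, 0, 0, 0, 0, 0, 11, 0, 0, 4],
    [0, 0, 1, 9, 9, 1, 0, 0, 0, 0, 0, 0, 0, 0, 1], [0, 0, 10, 2, 1, 1, 0, 0, 0, 0, 0, 0, 0, 0, 0, 2],
    [0, 8, 7, 1, 8, 7, 0, 0, 0, 0, 0, 0, 0, 8, 7], [0, 7, 10, 1, 1, 7, 0, 0, 0, 0, 0, 7, 7],
    [0, 8, 1, 9, 8, 8, 0, 0, 0, 0, 0, 8, 0, 0, 0, 9]]

def adjB (u v : Fin 21) : Bool := (mtab.getD u.val 0).testBit v.val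

def eix (u v : Fin 21) : ℕ := (etab.getD u.val []).getD v.val 0

def hrow (u v : Fin 21) : List ℤ := dec 60 (htab.getD (eix u v) 0)

def prow (u : Fin 21) : List ℤ := dec 80 (ptab.getD u.val 0)

def drow (t : Fin 21 × Fin 21 × Fin 21) : List ℤ :=
  addL (addL (unitL (eix t.1 t.2.1)) (unitL (eix t.2.1 t.2.2))) (smulL (-1) (unitL (eix t.1 t.2.2)))

def one8 : Q8 := ⟨4, 0, 0, 0, 0, 0, 0, 0⟩

def q (u v : Fin 21) : Q8 := vals.getD ((rtab.getD u.val []).getD v.val 0) one8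

def col (u : Fin 21) : Fin 3 := if u.val < 6 then 0 else if u.val < 16 then 1 else 2

theorem c_symm : ∀ u v : Fin 21, adjB u v = true → adjB v u = true := by decide +kernel

theorem c_col : ∀ u v : Fin 21, adjB u v = true → col u ≠ col v := by decide +kernel

theorem c_conn : ∀ u : Fin 21, ∃ m : Fin 21, (u = m ∨ adjB u m = true) ∧ (m = 16 ∨ adjB m 16 = true) := by
  decide +kernel

theorem c_eds : ∀ u v : Fin 21, u < v → adjB u v = true → eds[eix u v]? = some (u, v) := by decide +kernel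

theorem c_tris' : (tris.all fun t => decide (t.1 < t.2.1) && decide (t.2.1 < t.2.2) && adjB t.1 t.2.1 &&
    adjB t.2.1 t.2.2 && adjB t.1 t.2.2) = true := by decide +kernel

theorem c_tris : ∀ t ∈ tris, t.1 < t.2.1 ∧ t.2.1 < t.2.2 ∧ adjB t.1 t.2.1 = true ∧ adjB t.2.1 t.2.2 = true ∧
    adjB t.1 t.2.2 = true := by
  intro t ht
  have := List.all_eq_true.mp c_tris' t ht
  simpa only [Bool.and_eq_true, decide_eq_true_eq, and_assoc] using this

theorem c_a1 : ∀ u v : Fin 21, u < v → adjB u v = true →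
    allZ (addL (addL (unitL (eix u v)) (addL (prow u) (smulL (-1) (prow v))))
      (smulL (-1) (comb (hrow u v) (tris.map drow)))) = true := by decide +kernel

theorem c_a2 : ∀ u v : Fin 21, u < v → adjB u v = true → ∀ w : Fin 21, v < w → adjB v w = true →
    adjB u w = true → tris[tris.idxOf (u, v, w)]? = some (u, v, w) ∧
      allZ (addL (addL (addL (hrow u v) (hrow v w)) (smulL (-1) (hrow u w)))
        (smulL (-1) (unitL (tris.idxOf (u, v, w))))) = true := by decide +kernel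

theorem c_ok : ∀ u v : Fin 21, (q u v).ok := by decide +kernel

theorem c_self : ∀ u : Fin 21, q u u = one8 := by decide +kernel

theorem c_mul : ∀ u v : Fin 21, (u = v ∨ adjB u v = true) → ∀ w : Fin 21, (v = w ∨ adjB v w = true) →
    (u = w ∨ adjB u w = true) → (q u v).mul (q v w) = (q u w).four := by decide +kernel

noncomputable def ρ (u v : Fin 21) : S3 :=
  ⟨(q u v).toH, mem_sphere_zero_iff_norm.mpr (Q8.norm_toH _ (c_ok u v))⟩

theorem irr (u : Fin 21) : ¬ adjB u u = true := fun h => c_col u u h rfl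

theorem ng : ¬ ∃ γ : Fin 21 → S3, ∀ u v, adjB u v = true → ρ u v = (γ u)⁻¹ * γ v := by
  rintro ⟨γ, h⟩
  have h1 : ρ 0 6 * ρ 6 1 = ρ 0 8 * ρ 8 1 := by
    rw [h 0 6 (by decide +kernel), h 6 1 (by decide +kernel), h 0 8 (by decide +kernel),
      h 8 1 (by decide +kernel)]
    group
  have h2 : (q 0 6).toH * (q 6 1).toH = (q 0 8).toH * (q 8 1).toH := congrArg Subtype.val h1
  rw [Q8.toH_mul (q 0 6) (q 6 1) one8 (by decide +kernel),
    Q8.toH_mul (q 0 8) (q 8 1) ⟨1, 1, 0, 0, 2, 0, 1, -1⟩ (by decide +kernel)] at h2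
  have h3 := congrArg QuaternionAlgebra.imJ h2
  norm_num [Q8.toH, one8] at h3

noncomputable def L : LD 21 where
  adj u v := adjB u v = true
  symm := c_symm
  irrefl := irr
  dim σ hσ := by
    have := Finset.card_le_card_of_injOn (s := σ) (t := (Finset.univ : Finset (Fin 3))) col
      (fun _ _ => Finset.mem_coe.mpr (Finset.mem_univ _))
      (fun u hu v hv huv => by
        by_contra hne
        exact c_col u v (hσ u hu v hv hne) huv)
    simpa using this
  v₀ := 0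
  tri := ⟨0, 6, 16, by decide +kernel⟩
  a0 M f h := by
    have h1 : ∀ u v, adjB u v = true → f u = f v := by
      intro u v huv
      rcases lt_trichotomy u v with hlt | rfl | hlt
      · exact h u v hlt huv
      · rfl
      · exact (h v u hlt (c_symm u v huv)).symm
    have h2 : ∀ u, f u = f 16 := by
      intro u
      obtain ⟨m, hm, hm'⟩ := c_conn u
      have e1 : f u = f m := by
        rcases hm with rfl | hm
        · rfl
        · exact h1 _ _ hm
      have e2 : f m = f 16 := by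
        rcases hm' with rfl | hm'
        · rfl
        · exact h1 _ _ hm'
      exact e1.trans e2
    intro u v
    rw [h2 u, h2 v]
  a1 M _ ω h := by
    set x : List M := eds.map fun e => ω e.1 e.2 with hx
    have hu : ∀ u v, u < v → adjB u v = true → dot (unitL (eix u v)) x = ω u v := by
      intro u v huv ha
      rw [dot_unitL, hx, getD_map_of _ _ _ _ (c_eds u v huv ha)]
    have hd : ∀ r ∈ tris.map drow, dot r x = 0 := by
      intro r hr
      obtain ⟨t, ht, rfl⟩ := List.mem_map.mp hr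
      obtain ⟨h1, h2, h3, h4, h5⟩ := c_tris t ht
      rw [drow, dot_addL, dot_addL, dot_smulL, hu _ _ h1 h3, hu _ _ h2 h4, hu _ _ (h1.trans h2) h5,
        h _ _ _ h1 h2 h3 h4 h5]
      simp
    refine ⟨fun u => dot (prow u) x, fun u v huv ha => ?_⟩
    have := dot_allZ _ (c_a1 u v huv ha) x
    rw [dot_addL, dot_addL, dot_addL, dot_smulL, dot_smulL, dot_comb _ _ _ hd, hu u v huv ha] at this
    simp only [neg_smul, one_smul, neg_zero, add_zero] at this
    rw [← sub_eq_zero, ← this]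
    abel
  a2 M _ κ := by
    set x : List M := tris.map fun t => κ t.1 t.2.1 t.2.2 with hx
    refine ⟨fun u v => dot (hrow u v) x, fun u v w h1 h2 h3 h4 h5 => ?_⟩
    obtain ⟨h6, h7⟩ := c_a2 u v h1 h3 w h2 h4 h5
    have := dot_allZ _ h7 x
    rw [dot_addL, dot_addL, dot_addL, dot_smulL, dot_smulL, dot_unitL, hx, getD_map_of _ _ _ _ h6,
      ← hx] at this
    simp only [neg_smul, one_smul] at this
    rw [← sub_eq_zero, ← this]
    abel
  ρ := ρ
  ρ_self u := by
    apply Subtype.ext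
    change (q u u).toH = 1
    rw [c_self]
    ext <;> simp [Q8.toH, one8]
  ρ_mul u v w h1 h2 h3 := Subtype.ext (Q8.toH_mul _ _ _ (c_mul u v h1 w h2 h3))
  ρ_re u v _ := Q8.re_toH _ (c_ok u v)
  ρ_ng := ng

end Cert

theorem exists_LD : ∃ N : ℕ, Nonempty (LD N) := ⟨21, ⟨Cert.L⟩⟩

end Crest.Agent.R197
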