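import Crest.Agent.R197.Defs

/-!
Task R197-Coh.  Cohomological dimension two.

Plan.  `Acy.vanish`: the free resolution `0 → ℤ[G × T] → ℤ[G × A] → ℤ[G] → ℤ` (`Rep.free ℤ G T`, `Rep.free ℤ G A`,
`Rep.leftRegular ℤ G`, or `Rep.ofMulAction`/`Rep.linearization` of the free `G`-sets; projectivity is in Mathlib).
`∂₁ (g, a) = single (g * α (of a)) 1 - single g 1`, `∂₂ (g, t) = ev α (fun e => single e 1) g (τ t)` (equivariant by `hol_shift`,
`map_ev`; `∂₁ ∂₂ = 0` by `map_ev`, `ev_pot`, `rel`).  Exactness: `h2` with `M = C₂`, `κ c = single c 1` gives a left inverse of `∂₂`;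
`h1` with `M = C₁ ⧸ range ∂₂`, `ω e = mk (single e 1)` gives `ker ∂₁ ≤ range ∂₂`; `surj` gives `ker ε ≤ range ∂₁` (`ev_pot`).
Package it as a `CategoryTheory.ProjectiveResolution (Rep.trivial ℤ G ℤ)` (see `Rep.FiniteCyclicGroup.resolution` or
`Rep.standardResolution` for the pattern; `ChainComplex.of`) and use `groupCohomologyIso`: the cochain complex is zero in degree
`n ≥ 3`.
`h2_ne`: the `2`-cocycle `(g, h) ↦ a g * b h` is not a coboundary, since coboundaries of the trivial module are symmetric on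
commuting pairs (`groupCohomology.H2Iso`/`H2π_eq_zero_iff`, `mem_cocycles₂_iff`).
-/

set_option autoImplicit false

namespace Crest.Agent.R197

namespace Coh

open CategoryTheory Limits

section cat

open ZeroObject

variable {C : Type*} [Category C] [Abelian C] {P₀ P₁ P₂ X : C} (d₂ : P₂ ⟶ P₁) (d₁ : P₁ ⟶ P₀)

/-- objects of a resolution of length two -/
noncomputable def obj (P₀ P₁ P₂ : C) : ℕ → C
  | 0 => P₀
  | 1 => P₁
  | 2 => P₂
  | _ + 3 => 0

/-- differentials of a resolution of length two -/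
noncomputable def dif : ∀ n, obj P₀ P₁ P₂ (n + 1) ⟶ obj P₀ P₁ P₂ n
  | 0 => d₁
  | 1 => d₂
  | _ + 2 => 0

theorem exists_res [Projective P₀] [Projective P₁] [Projective P₂] (ε : P₀ ⟶ X)
    (h₂ : d₂ ≫ d₁ = 0) (h₁ : d₁ ≫ ε = 0) [Mono d₂] [Epi ε]
    (e₂ : (ShortComplex.mk d₂ d₁ h₂).Exact) (e₁ : (ShortComplex.mk d₁ ε h₁).Exact) :
    ∃ P : ProjectiveResolution X, ∀ n, 3 ≤ n → IsZero (P.complex.X n) := by
  let K : ChainComplex C ℕ := ChainComplex.of (obj P₀ P₁ P₂) (dif d₂ d₁) (by
    rintro (_ | _ | n)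
    · exact h₂
    · exact zero_comp
    · exact zero_comp)
  have hd : ∀ n, K.d (n + 1) n = dif d₂ d₁ n := fun n => ChainComplex.of_d _ _ n
  refine ⟨{ complex := K
            projective := ?_
            π := (K.toSingle₀Equiv X).symm ⟨ε, (congrArg (· ≫ ε) (hd 0)).trans h₁⟩
            quasiIso := ⟨fun m => ?_⟩ }, fun n hn => ?_⟩
  · rintro (_ | _ | _ | n)
    · exact inferInstanceAs (Projective P₀)
    · exact inferInstanceAs (Projective P₁)
    · exact inferInstanceAs (Projective P₂)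
    · exact inferInstanceAs (Projective (0 : C))
  · rcases m with _ | m
    · rw [ChainComplex.quasiIsoAt₀_iff, ShortComplex.quasiIso_iff_of_zeros' _ rfl rfl rfl]
      constructor
      · refine (ShortComplex.exact_iff_of_iso ?_).1 e₁
        refine ShortComplex.isoMk (Iso.refl _) (Iso.refl _) (Iso.refl _) ?_ ?_
        · exact (Category.id_comp _).trans ((hd 0).trans (Category.comp_id _).symm)
        · simp only [Iso.refl_hom, ChainComplex.toSingle₀Equiv_symm_apply_f_zero,
            HomologicalComplex.shortComplexFunctor'_obj_g]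
          simp
          exact (Category.id_comp ε).trans (Category.comp_id ε).symm
      · simpa using inferInstanceAs (Epi ε)
    · rw [quasiIsoAt_iff_exactAt' (hL := ChainComplex.exactAt_succ_single_obj ..),
        HomologicalComplex.exactAt_iff' _ (m + 2) (m + 1) m (by simp) (by simp)]
      rcases m with _ | _ | m
      · refine (ShortComplex.exact_iff_of_iso ?_).1 e₂
        refine ShortComplex.isoMk (Iso.refl _) (Iso.refl _) (Iso.refl _) ?_ ?_
        · exact (Category.id_comp _).trans ((hd 1).trans (Category.comp_id _).symm)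
        · exact (Category.id_comp _).trans ((hd 0).trans (Category.comp_id _).symm)
      · rw [ShortComplex.exact_iff_mono _ (hd 2)]
        change Mono (K.d 2 1)
        rw [hd 1]
        exact inferInstanceAs (Mono d₂)
      · exact ShortComplex.exact_of_isZero_X₂ _ (isZero_zero C)
  · obtain ⟨k, rfl⟩ := Nat.exists_eq_add_of_le' hn
    exact isZero_zero C

end cat

variable {G S M : Type} [Group G] [AddCommGroup M]

/-- basis elements -/
noncomputable def bs (e : G × S) : S →₀ MonoidAlgebra ℤ G :=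
  Finsupp.single e.2 (MonoidAlgebra.single e.1 1)

/-- additive maps out of a free module -/
noncomputable def lf (ω : G × S → M) : (S →₀ MonoidAlgebra ℤ G) →+ M :=
  Finsupp.liftAddHom fun a => (Finsupp.liftAddHom fun g => zmultiplesHom M (ω (g, a))).comp
    MonoidAlgebra.coeffAddEquiv.toAddMonoidHom

theorem lf_bs (ω : G × S → M) (e : G × S) : lf ω (bs e) = ω e := by
  simp [lf, bs]

theorem bs_ext {F F' : (S →₀ MonoidAlgebra ℤ G) →+ M} (h : ∀ e, F (bs e) = F' (bs e)) : F = F' := by
  refine Finsupp.addHom_ext' fun a => MonoidAlgebra.addMonoidHom_ext fun g r => ?_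
  have : Finsupp.single a (MonoidAlgebra.single g r) = r • bs (g, a) := by simp [bs]
  change F (Finsupp.single a (MonoidAlgebra.single g r)) =
    F' (Finsupp.single a (MonoidAlgebra.single g r))
  rw [this, map_zsmul, map_zsmul, h]

theorem rho_bs (g : G) (e : G × S) : Representation.free ℤ G S g (bs e) = bs (g * e.1, e.2) := by
  simp [bs]

/-- the additive map underlying a morphism -/
def ad {k : Type} [CommRing k] {A B : Rep.{0} k G} (f : A ⟶ B) : A →+ B :=
  f.hom.toLinearMap.toAddMonoidHom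

theorem ad_lift {k : Type} [CommRing k] {B : Rep.{0} k G} (f : S → B) (e : G × S) :
    ad (Rep.freeLift k G B f) (Finsupp.single e.2 (MonoidAlgebra.single e.1 1)) =
      B.ρ e.1 (f e.2) :=
  (Representation.freeLift_single_single B.ρ e.2 e.1 1 f).trans (one_smul _ _)

theorem isZero_of_res {k : Type} [CommRing k] (P : ProjectiveResolution (Rep.trivial k G k))
    (B : Rep k G) (n : ℕ) (h : IsZero (P.complex.X n)) : IsZero (groupCohomology B n) := by
  refine IsZero.of_iso ?_ (groupCohomologyIso B n P)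
  refine ShortComplex.isZero_homology_of_isZero_X₂ _ ?_
  exact ((linearYoneda k (Rep k G)).obj B).map_isZero h.op

theorem exact_of {k : Type} [CommRing k] {A B C : Rep.{0} k G} (f : A ⟶ B) (g : B ⟶ C)
    (h : f ≫ g = 0) (e : ∀ x, ad g x = 0 → x ∈ (ad f).range) : (ShortComplex.mk f g h).Exact := by
  apply (forget₂ _ (ModuleCat k)).reflects_exact_of_faithful
  rw [ShortComplex.moduleCat_exact_iff]
  exact e

end Coh

open Coh CategoryTheory in
theorem Acy.vanish {G A T : Type} [Group G] {α : FreeGroup A →* G} {τ : T → FreeGroup A}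
    (h : Acy α τ) (B : Rep ℤ G) (n : ℕ) (hn : 3 ≤ n) :
    CategoryTheory.Limits.IsZero (groupCohomology B n) := by
  let d₁ : Rep.free ℤ G A ⟶ Rep.free ℤ G Unit :=
    Rep.freeLift ℤ G _ fun a => bs (α (FreeGroup.of a), ()) - bs (1, ())
  let d₂ : Rep.free ℤ G T ⟶ Rep.free ℤ G A := Rep.freeLift ℤ G _ fun t => ev α bs 1 (τ t)
  let ε : Rep.free ℤ G Unit ⟶ Rep.trivial ℤ G ℤ := Rep.freeLift ℤ G _ fun _ => (1 : ℤ)
  let D₁ : (A →₀ MonoidAlgebra ℤ G) →+ (Unit →₀ MonoidAlgebra ℤ G) := ad d₁
  let D₂ : (T →₀ MonoidAlgebra ℤ G) →+ (A →₀ MonoidAlgebra ℤ G) := ad d₂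
  let D₀ : (Unit →₀ MonoidAlgebra ℤ G) →+ ℤ := ad ε
  have a₁ : ∀ e, D₁ (bs e) = bs (e.1 * α (FreeGroup.of e.2), ()) - bs (e.1, ()) := by
    intro e
    refine (ad_lift _ e).trans ?_
    change Representation.free ℤ G Unit e.1 (bs (α (FreeGroup.of e.2), ()) - bs (1, ())) = _
    rw [map_sub, rho_bs, rho_bs, mul_one]
  have a₂ : ∀ e, D₂ (bs e) = ev α bs e.1 (τ e.2) := by
    intro e
    refine (ad_lift _ e).trans ?_
    refine (map_ev α bs (Representation.free ℤ G A e.1).toAddMonoidHom 1 (τ e.2)).trans ?_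
    simp only [LinearMap.toAddMonoidHom_coe, rho_bs]
    unfold ev
    rw [hol_shift α (fun e => Multiplicative.ofAdd (bs e)) e.1 1, mul_one]
  have a₀ : ∀ e, D₀ (bs e) = 1 := fun e => ad_lift _ e
  have a₃ : ∀ g w, D₁ (ev α bs g w) = bs (g * α w, ()) - bs (g, ()) := by
    intro g w
    rw [map_ev]
    simp only [a₁]
    exact ev_pot α (fun g => bs (g, ())) g w
  have h₂ : d₂ ≫ d₁ = 0 := Rep.free_ext _ _ _ _ _ fun t => by
    change D₁ (D₂ (bs (1, t))) = 0
    rw [a₂, a₃, h.rel, mul_one, sub_self]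
  have h₁ : d₁ ≫ ε = 0 := Rep.free_ext _ _ _ _ _ fun a => by
    change D₀ (D₁ (bs (1, a))) = 0
    rw [a₁, map_sub, a₀, a₀, sub_self]
  have m₂ : Mono d₂ := by
    rw [Rep.mono_iff_injective]
    obtain ⟨ω, hω⟩ := h.h2 _ (bs : G × T → _)
    have : (lf ω).comp D₂ = AddMonoidHom.id _ := bs_ext fun e => by
      rw [AddMonoidHom.comp_apply, a₂, map_ev]
      simp only [lf_bs]
      exact hω e.1 e.2
    exact Function.LeftInverse.injective (f := D₂) (g := lf ω) fun x => DFunLike.congr_fun this x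
  have m₀ : Epi ε := by
    rw [Rep.epi_iff_surjective]
    change Function.Surjective D₀
    intro x
    exact ⟨x • bs (1, ()), by rw [map_zsmul, a₀, smul_eq_mul, mul_one]⟩
  have e₂ := exact_of d₂ d₁ h₂ (show ∀ x, D₁ x = 0 → x ∈ D₂.range from fun x hx => by
    obtain ⟨f, hf⟩ := h.h1 _ (fun e => QuotientAddGroup.mk' D₂.range (bs e)) fun g t => by
      rw [← map_ev, ← a₂ (g, t)]
      exact (QuotientAddGroup.eq_zero_iff _).2 ⟨_, rfl⟩
    have : QuotientAddGroup.mk' D₂.range = (lf fun e : G × Unit => f e.1).comp D₁ := by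
      refine bs_ext (M := (A →₀ MonoidAlgebra ℤ G) ⧸ D₂.range) fun e => ?_
      rw [AddMonoidHom.comp_apply, a₁, map_sub, lf_bs, lf_bs]
      exact hf e.1 e.2
    have h0 := DFunLike.congr_fun this x
    rw [AddMonoidHom.comp_apply, hx, map_zero] at h0
    exact (QuotientAddGroup.eq_zero_iff _).1 h0)
  have e₁ := exact_of d₁ ε h₁ (show ∀ x, D₀ x = 0 → x ∈ D₁.range from fun x hx => by
    have : QuotientAddGroup.mk' D₁.range =
        (zmultiplesHom _ (QuotientAddGroup.mk' D₁.range (bs (1, ())))).comp D₀ := by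
      refine bs_ext (M := (Unit →₀ MonoidAlgebra ℤ G) ⧸ D₁.range) fun e => ?_
      obtain ⟨w, hw⟩ := h.surj e.1
      rw [AddMonoidHom.comp_apply, a₀, zmultiplesHom_apply, one_zsmul, ← sub_eq_zero, ← map_sub]
      refine (QuotientAddGroup.eq_zero_iff _).2 ⟨ev α bs 1 w, ?_⟩
      rw [a₃, one_mul, hw]
    have h0 := DFunLike.congr_fun this x
    rw [AddMonoidHom.comp_apply, hx, map_zero] at h0
    exact (QuotientAddGroup.eq_zero_iff _).1 h0)
  obtain ⟨P, hP⟩ := exists_res d₂ d₁ ε h₂ h₁ e₂ e₁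
  exact isZero_of_res P B n (hP n hn)

theorem h2_ne {G : Type} [Group G] (a b : G →* Multiplicative ℤ) (x y : G) (hxy : Commute x y)
    (h : Multiplicative.toAdd (a x) * Multiplicative.toAdd (b y) ≠
      Multiplicative.toAdd (a y) * Multiplicative.toAdd (b x)) :
    ¬ CategoryTheory.Limits.IsZero (groupCohomology (Rep.trivial ℤ G ℤ) 2) := by
  intro h0
  let c : groupCohomology.cocycles₂ (Rep.trivial ℤ G ℤ) :=
    ⟨fun p => Multiplicative.toAdd (a p.1) * Multiplicative.toAdd (b p.2),
      (groupCohomology.mem_cocycles₂_iff _).2 fun g k j => by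
        simp only [map_mul, toAdd_mul, Representation.isTrivial_def, LinearMap.id_coe, id_eq]
        ring⟩
  haveI := ModuleCat.isZero_iff_subsingleton.1 h0
  obtain ⟨f, hf⟩ := (groupCohomology.H2π_eq_zero_iff c).1 (Subsingleton.elim _ _)
  have h1 : (f y - f (x * y) + f x : ℤ) = _ := congrFun hf (x, y)
  have h2 : (f x - f (y * x) + f y : ℤ) = _ := congrFun hf (y, x)
  rw [← hxy.eq] at h2
  exact h (h1.symm.trans (Eq.trans (by ring) h2))

end Crest.Agent.R197
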