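import Crest.Agent.R197.Raag

/-!
Task R197-Contr.  The cube complex is contractible.

Plan.  `tel`: times `a k = 1 / (k + 1)`; `H 0 z s = z`,
`H (k+1) z s = if s ≤ a k then r k z ((s - a (k+1)) / (a k - a (k+1))) else H k (r k z 1) s`.  By induction: `H k` is continuous on
`F k ×ˢ univ`, `H k z s = z` for `s ≤ a k`, `H k z 1 = z₀` on `F k`, `H (k+1) = H k` on `F k`.  `H z s = H (k z) z s` is continuous since
locally it is one `H k`.
`contractible`: `ℓ` from `exists_len`, `D g a := ℓ (g * y a) + 1 = ℓ g`,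
`Q g = {t | ∀ v, |t v| ≤ 1 ∧ (0 < t v → D g (v, true)) ∧ (t v < 0 → D g (v, false))}` (`⊆ St` by `two`; compact: it is a product of
closed intervals), `F k = ⋃_{ℓ g ≤ k} pt g '' Q g`.  (1) Every point lies in some `pt g '' Q g` (flip the ascending coordinates with
`shift`, forwards or backwards; induction on their number, `step`, `comm`), with `ℓ g ≤ ℓ g' + N` if the point is in `pt g' '' St`;
with `lf` every point has a neighbourhood inside some `F k`.  `F 0 = {pt 1 0}` (`ex`, `one`; no letter descends from `1`).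
(2) If `t ∈ Q g`, all `|t v| < 1`, `t' ∈ Q g'` and `pt g t = pt g' t'`, then `ℓ g < ℓ g'` or `g = g'` (`near`, `comm`).  If `t ∈ Q g` has a
coordinate `|t v| = 1` then `pt g t ∈ F (ℓ g - 1)`.
(3) `r k z s`: if `z = pt g t` with `ℓ g = k + 1`, `t ∈ Q g`, all `|t v| < 1` (unique by (2), `injOn`) then `pt g (push g s t)`,
`push g s t v = t v + sg g v * (max 0 (min s 1)) * (1 - ‖t‖)` with `sg g v ∈ {1, -1, 0}` the descending direction; else `z`.  On each
`pt g '' Q g` (`ℓ g ≤ k + 1`) it is continuous (`pt g` is a closed embedding of the compact `Q g`; the formula also holds if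
`‖t‖ = 1`), these sets form a locally finite closed family (`LocallyFinite.continuousOn_iUnion`, after `×ˢ univ`).
-/

set_option autoImplicit false

namespace Crest.Agent.R197

open Set _root_.Topology

/-- The telescoping times. -/
noncomputable def telA (k : ℕ) : ℝ := 1 / ((k : ℝ) + 2)

theorem telA_succ_lt (k : ℕ) : telA (k + 1) < telA k := by
  unfold telA
  push_cast
  apply one_div_lt_one_div_of_lt <;> [positivity; linarith]

theorem telA_lt_one (k : ℕ) : telA k < 1 := by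
  unfold telA
  rw [div_lt_one (by positivity)]
  have : (0 : ℝ) ≤ k := Nat.cast_nonneg k
  linarith

open Classical in
/-- The partial homotopies. -/
noncomputable def telH {E : Type} (r : ℕ → E → ℝ → E) : ℕ → E → ℝ → E
  | 0, z, _ => z
  | k + 1, z, s => if s ≤ telA k then r k z ((s - telA (k + 1)) / (telA k - telA (k + 1)))
      else telH r k (r k z 1) s

theorem tel {E : Type} [TopologicalSpace E] (F : ℕ → Set E) (z₀ : E) (h0 : F 0 = {z₀})
    (hmono : ∀ k, F k ⊆ F (k + 1)) (hloc : ∀ z, ∃ k, F k ∈ 𝓝 z) (r : ℕ → E → ℝ → E)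
    (hc : ∀ k, ContinuousOn (fun q : E × ℝ => r k q.1 q.2) (F (k + 1) ×ˢ univ))
    (hr0 : ∀ k, ∀ z ∈ F (k + 1), ∀ s, s ≤ 0 → r k z s = z)
    (hr1 : ∀ k, ∀ z ∈ F (k + 1), r k z 1 ∈ F k)
    (hfix : ∀ k, ∀ z ∈ F k, ∀ s, r k z s = z) : ContractibleSpace E := by
  classical
  have hB : ∀ k, ∀ z ∈ F k, ∀ s, s ≤ telA k → telH r k z s = z := by
    intro k z hz s hs
    cases k with
    | zero => rfl
    | succ k =>
      have h1 := telA_succ_lt k
      simp only [telH]
      rw [if_pos (by linarith)]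
      exact hr0 k z hz _ (div_nonpos_of_nonpos_of_nonneg (by linarith) (by linarith))
  have hC : ∀ k, ∀ z ∈ F k, telH r k z 1 = z₀ := by
    intro k
    induction k with
    | zero => intro z hz; rw [h0] at hz; exact hz
    | succ k ih =>
      intro z hz
      simp only [telH]
      rw [if_neg (not_le.mpr (telA_lt_one k))]
      exact ih _ (hr1 k z hz)
  have hD : ∀ k, ∀ z ∈ F k, ∀ s, telH r (k + 1) z s = telH r k z s := by
    intro k z hz s
    simp only [telH]
    split_ifs with h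
    · rw [hfix k z hz, hB k z hz s h]
    · rw [hfix k z hz]
  have hA : ∀ k, ContinuousOn (fun q : E × ℝ => telH r k q.1 q.2) (F k ×ˢ univ) := by
    intro k
    induction k with
    | zero => exact continuousOn_fst
    | succ k ih =>
      simp only [telH]
      have h1 := telA_succ_lt k
      apply ContinuousOn.if
      · rintro ⟨z, s⟩ ⟨hz, hs⟩
        have hs' := frontier_le_subset_eq (continuous_snd (X := E) (Y := ℝ))
          (continuous_const (y := telA k)) hs
        simp only [mem_ofPred_eq] at hs'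
        simp only
        rw [hs', div_self (by linarith), hB k _ (hr1 k z hz.1) _ le_rfl]
      · refine ContinuousOn.mono ?_ inter_subset_left
        have : ContinuousOn (fun q : E × ℝ =>
            ((q.1, (q.2 - telA (k + 1)) / (telA k - telA (k + 1))) : E × ℝ)) (F (k + 1) ×ˢ univ) := by
          apply Continuous.continuousOn
          fun_prop
        exact (hc k).comp this (fun q hq => ⟨hq.1, mem_univ _⟩)
      · refine ContinuousOn.mono ?_ inter_subset_left
        have h2 : ContinuousOn (fun q : E × ℝ => ((q.1, 1) : E × ℝ)) (F (k + 1) ×ˢ univ) := by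
          apply Continuous.continuousOn
          fun_prop
        have h3 : ContinuousOn (fun q : E × ℝ => r k q.1 1) (F (k + 1) ×ˢ univ) :=
          (hc k).comp h2 (fun q hq => ⟨hq.1, mem_univ _⟩)
        have h4 : ContinuousOn (fun q : E × ℝ => ((r k q.1 1, q.2) : E × ℝ)) (F (k + 1) ×ˢ univ) :=
          h3.prodMk continuousOn_snd
        exact ih.comp h4 (fun q hq => ⟨hr1 k _ hq.1, mem_univ _⟩)
  have hmono' : Monotone F := monotone_nat_of_le_succ hmono
  have hE : ∀ k m, k ≤ m → ∀ z ∈ F k, ∀ s, telH r m z s = telH r k z s := by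
    intro k m hkm z hz s
    induction m, hkm using Nat.le_induction with
    | base => rfl
    | succ m hm ih => rw [hD m z (hmono' hm hz), ih]
  choose κ hκ using hloc
  have hκ' : ∀ z, z ∈ F (κ z) := fun z => mem_of_mem_nhds (hκ z)
  have hF : ∀ k, ∀ z ∈ F k, ∀ s, telH r (κ z) z s = telH r k z s := by
    intro k z hz s
    rw [← hE (κ z) (max k (κ z)) (le_max_right _ _) z (hκ' z), hE k _ (le_max_left _ _) z hz]
  have hcont : Continuous (fun q : E × ℝ => telH r (κ q.1) q.1 q.2) := by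
    rw [continuous_iff_continuousAt]
    rintro ⟨z, s⟩
    have hn : F (κ z) ×ˢ (univ : Set ℝ) ∈ 𝓝 (z, s) := prod_mem_nhds (hκ z) Filter.univ_mem
    refine ((hA (κ z)).continuousAt hn).congr ?_
    filter_upwards [hn] with q hq
    exact (hF _ _ hq.1 _).symm
  rw [contractible_iff_id_nullhomotopic]
  refine ⟨z₀, ⟨⟨⟨fun q => telH r (κ q.2) q.2 q.1, ?_⟩, ?_, ?_⟩⟩⟩
  · exact hcont.comp (f := fun q : unitInterval × E => ((q.2, (q.1 : ℝ)) : E × ℝ)) (by fun_prop)
  · intro z
    refine hB _ z (hκ' z) _ ?_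
    unfold telA
    change (0 : ℝ) ≤ _
    positivity
  · intro z
    exact hC _ z (hκ' z)

namespace Contr

/-- The sign of a letter. -/
def ep (b : Bool) : ℝ := if b then 1 else -1

@[simp] theorem ep_true : ep true = 1 := rfl

@[simp] theorem ep_false : ep false = -1 := rfl

theorem ep_not (b : Bool) : ep (!b) = - ep b := by cases b <;> simp

theorem ep_mul_self (b : Bool) : ep b * ep b = 1 := by cases b <;> simp

theorem abs_ep (b : Bool) : |ep b| = 1 := by cases b <;> simp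

theorem exists_ep {s : ℝ} (h : s ≠ 0) : ∃ b, 0 < ep b * s := by
  rcases lt_or_gt_of_ne h with h | h
  · exact ⟨false, by simpa using h⟩
  · exact ⟨true, by simpa using h⟩

theorem ep_mul_eq_abs {s : ℝ} {b : Bool} (h : 0 < ep b * s) : ep b * s = |s| := by
  cases b
  · simp only [ep_false, neg_mul, one_mul, Left.neg_pos_iff] at h ⊢
    rw [abs_of_neg h]
  · simp only [ep_true, one_mul] at h ⊢
    rw [abs_of_pos h]

variable {N : ℕ} {L : LD N} {ℓ : L.Γ → ℕ}

/-- The letter leads down. -/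
def D (ℓ : L.Γ → ℕ) (g : L.Γ) (a : Fin N × Bool) : Prop := ℓ (g * L.P.y a) + 1 = ℓ g

/-- The descending cube at a vertex. -/
def Q (ℓ : L.Γ → ℕ) (g : L.Γ) : Set (Fin N → ℝ) :=
  {t | (∀ v, |t v| ≤ 1) ∧ ∀ v b, 0 < ep b * t v → D ℓ g (v, b)}

theorem D_adj (hℓ : L.P.Len ℓ) {g : L.Γ} {a b : Fin N × Bool} (ha : D ℓ g a) (hb : D ℓ g b)
    (hab : a ≠ b) : L.adj a.1 b.1 := hℓ.two g a b ha hb hab

theorem D_comm (hℓ : L.P.Len ℓ) (g : L.Γ) {a b : Fin N × Bool} (hab : L.adj a.1 b.1) :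
    D ℓ (g * L.P.y b) a ↔ D ℓ g a := hℓ.comm g a b hab

theorem D_unique (hℓ : L.P.Len ℓ) {g : L.Γ} {v : Fin N} {b b' : Bool} (ha : D ℓ g (v, b))
    (hb : D ℓ g (v, b')) : b = b' := by
  by_contra h
  exact L.irrefl v (D_adj hℓ ha hb (by simpa using h))

theorem Q_subset (hℓ : L.P.Len ℓ) (g : L.Γ) : Q ℓ g ⊆ L.St := by
  intro t ht
  refine ⟨ht.1, fun u v huv hu hv => ?_⟩
  obtain ⟨b, hb⟩ := exists_ep hu
  obtain ⟨b', hb'⟩ := exists_ep hv
  exact D_adj hℓ (ht.2 u b hb) (ht.2 v b' hb') (by simp [huv])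

theorem norm_le {g : L.Γ} {t : Fin N → ℝ} (ht : t ∈ Q ℓ g) : ‖t‖ ≤ 1 :=
  (pi_norm_le_iff_of_nonneg zero_le_one).mpr ht.1

theorem isCompact_Q (g : L.Γ) : IsCompact (Q ℓ g) := by
  have hcl : IsClosed (Q ℓ g) := by
    have : Q ℓ g = (⋂ v, {t : Fin N → ℝ | |t v| ≤ 1}) ∩
        ⋂ v, ⋂ b, ⋂ (_ : ¬ D ℓ g (v, b)), {t : Fin N → ℝ | ep b * t v ≤ 0} := by
      ext t
      simp only [Q, mem_ofPred_eq, mem_inter_iff, mem_iInter]
      refine and_congr_right fun _ => forall_congr' fun v => forall_congr' fun b => ?_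
      rw [← not_lt]
      exact not_imp_not.symm
    rw [this]
    refine IsClosed.inter (isClosed_iInter fun v => isClosed_le (by fun_prop) (by fun_prop))
      (isClosed_iInter fun v => isClosed_iInter fun b => isClosed_iInter fun _ =>
        isClosed_le (by fun_prop) (by fun_prop))
  refine (isCompact_closedBall (0 : Fin N → ℝ) 1).of_isClosed_subset hcl fun t ht => ?_
  rw [mem_closedBall_zero_iff]
  exact norm_le ht

theorem len_prod (hℓ : L.P.Len ℓ) (l : List (Fin N × Bool)) (hl : l.Nodup) (g : L.Γ)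
    (h : ∀ a ∈ l, D ℓ g a) : ℓ (g * (l.map L.P.y).prod) + l.length = ℓ g := by
  induction l generalizing g with
  | nil => simp
  | cons a l ih =>
    rw [List.nodup_cons] at hl
    have ha : D ℓ g a := h a (by simp)
    have := ih hl.2 (g * L.P.y a) (fun b hb => by
      have hb' : D ℓ g b := h b (by simp [hb])
      exact (D_comm hℓ g (D_adj hℓ hb' ha (fun e => hl.1 (e ▸ hb)))).mpr hb')
    rw [List.map_cons, List.prod_cons, ← mul_assoc, List.length_cons]
    unfold D at ha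
    omega

open Classical in
/-- The descending direction. -/
noncomputable def sg (ℓ : L.Γ → ℕ) (g : L.Γ) (v : Fin N) : ℝ :=
  if D ℓ g (v, true) then 1 else if D ℓ g (v, false) then -1 else 0

theorem abs_sg (g : L.Γ) (v : Fin N) : |sg ℓ g v| ≤ 1 := by
  unfold sg
  split_ifs <;> simp

theorem sg_pos {g : L.Γ} {v : Fin N} {b : Bool} (h : 0 < ep b * sg ℓ g v) : D ℓ g (v, b) := by
  unfold sg at h
  cases b <;> split_ifs at h <;> simp_all <;> linarith

theorem sg_eq (hℓ : L.P.Len ℓ) {g : L.Γ} {v : Fin N} {b : Bool} (h : D ℓ g (v, b)) :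
    sg ℓ g v = ep b := by
  unfold sg
  cases b
  · rw [if_neg (fun h' => by simpa using D_unique hℓ h h'), if_pos h]
    simp
  · rw [if_pos h]
    simp

/-- Pushing the descending cube to its far faces. -/
noncomputable def push (ℓ : L.Γ → ℕ) (g : L.Γ) (s : ℝ) (t : Fin N → ℝ) : Fin N → ℝ :=
  fun v => t v + sg ℓ g v * (max 0 (min s 1) * (1 - ‖t‖))

theorem continuous_push (g : L.Γ) :
    Continuous (fun q : (Fin N → ℝ) × ℝ => push ℓ g q.2 q.1) := by
  unfold push
  fun_prop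

theorem push_mem {g : L.Γ} {t : Fin N → ℝ} (ht : t ∈ Q ℓ g) (s : ℝ) : push ℓ g s t ∈ Q ℓ g := by
  have h1 := norm_le ht
  have h2 : 0 ≤ max 0 (min s 1) := le_max_left _ _
  have h3 : max 0 (min s 1) ≤ 1 := max_le zero_le_one (min_le_right _ _)
  have h4 : 0 ≤ max 0 (min s 1) * (1 - ‖t‖) := mul_nonneg h2 (by linarith)
  have h5 : max 0 (min s 1) * (1 - ‖t‖) ≤ 1 - ‖t‖ := by nlinarith
  refine ⟨fun v => ?_, fun v b hb => ?_⟩
  · unfold push
    have h6 : |t v| ≤ ‖t‖ := norm_le_pi_norm t v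
    refine (abs_add_le _ _).trans ?_
    rw [abs_mul, abs_of_nonneg h4]
    have := abs_sg (ℓ := ℓ) g v
    nlinarith
  · unfold push at hb
    by_cases h : 0 < ep b * t v
    · exact ht.2 v b h
    · apply sg_pos
      by_contra h'
      rw [not_lt] at h h'
      have := mul_nonpos_of_nonpos_of_nonneg h' h4
      nlinarith

theorem push_nonpos {g : L.Γ} {t : Fin N → ℝ} {s : ℝ} (hs : s ≤ 0) : push ℓ g s t = t := by
  funext v
  unfold push
  rw [max_eq_left ((min_le_left _ _).trans hs)]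
  simp

theorem push_norm {g : L.Γ} {t : Fin N → ℝ} {s : ℝ} (ht : ‖t‖ = 1) : push ℓ g s t = t := by
  funext v
  unfold push
  rw [ht]
  simp

theorem push_one (hℓ : L.P.Len ℓ) {g : L.Γ} (hg : g ≠ 1) {t : Fin N → ℝ} (ht : t ∈ Q ℓ g) :
    ∃ v, |push ℓ g 1 t v| = 1 := by
  by_cases h0 : t = 0
  · obtain ⟨⟨v, b⟩, ha⟩ := hℓ.ex g hg
    refine ⟨v, ?_⟩
    unfold push
    rw [sg_eq hℓ ha, h0]
    simp [abs_ep]
  · have hpos : 0 < ‖t‖ := norm_pos_iff.mpr h0
    have : ∃ v, |t v| = ‖t‖ := by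
      by_contra h
      push Not at h
      have := (pi_norm_lt_iff hpos).mpr fun v => lt_of_le_of_ne (norm_le_pi_norm t v) (h v)
      exact lt_irrefl _ this
    obtain ⟨v, hv⟩ := this
    obtain ⟨b, hb⟩ := exists_ep (s := t v) (by rintro h; rw [h] at hv; simp at hv; linarith)
    refine ⟨v, ?_⟩
    unfold push
    rw [sg_eq hℓ (ht.2 v b hb)]
    have h1 := ep_mul_eq_abs hb
    have h2 : t v = ep b * ‖t‖ := by
      rw [← hv, ← h1, ← mul_assoc, ep_mul_self, one_mul]
    rw [h2]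
    have : ep b * ‖t‖ + ep b * (max 0 (min (1 : ℝ) 1) * (1 - ‖t‖)) = ep b := by
      simp only [min_self, zero_le_one, sup_of_le_right]
      ring
    rw [this, abs_ep]

variable {E : Type} [TopologicalSpace E] [MulAction L.Γ E] (c : L.CubeSp E)

theorem update_mem {t : Fin N → ℝ} (ht : t ∈ L.St) {v : Fin N} {s : ℝ} (hs : |s| ≤ 1)
    (h : ∀ u, u ≠ v → t u ≠ 0 → L.adj u v) : Function.update t v s ∈ L.St := by
  refine ⟨fun u => ?_, fun u w huw hu hw => ?_⟩
  · by_cases e : u = v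
    · subst e; simpa using hs
    · rw [Function.update_of_ne e]; exact ht.1 u
  · by_cases e : u = v
    · subst e
      rw [Function.update_of_ne huw.symm] at hw
      exact L.symm _ _ (h w huw.symm hw)
    · rw [Function.update_of_ne e] at hu
      by_cases e' : w = v
      · subst e'
        exact h u e hu
      · rw [Function.update_of_ne e'] at hw
        exact ht.2 u w huw hu hw

theorem abs_sub_ep {s : ℝ} {b : Bool} (h : 0 ≤ ep b * s) (h1 : |s| ≤ 1) : |s - ep b| ≤ 1 := by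
  rw [abs_le] at h1 ⊢
  cases b <;> simp only [ep_true, ep_false] at h ⊢ <;> constructor <;> linarith

theorem shift (g : L.Γ) (v : Fin N) (b : Bool) {t : Fin N → ℝ} (ht : t ∈ L.St)
    (h0 : 0 ≤ ep b * t v) (h : ∀ u, u ≠ v → t u ≠ 0 → L.adj u v) :
    c.pt g t = c.pt (g * L.P.y (v, b)) (Function.update t v (t v - ep b)) := by
  cases b
  · have hm := update_mem ht (abs_sub_ep h0 (ht.1 v)) h
    have h1 := (abs_le.mp (ht.1 v)).1
    have := c.shift (g * L.P.y (v, false)) v _ hm (by simp; linarith) (fun u hu hu' => by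
      rw [Function.update_of_ne hu] at hu'
      exact h u hu hu')
    rw [this, L.y_false]
    simp
  · exact c.shift g v t ht (by simpa using h0) h

/-- The filtration. -/
def F (ℓ : L.Γ → ℕ) (k : ℕ) : Set E := {z | ∃ g, ℓ g ≤ k ∧ ∃ t ∈ Q ℓ g, c.pt g t = z}

open Classical in
theorem norm_form (hℓ : L.P.Len ℓ) (n : ℕ) : ∀ g, ∀ t ∈ L.St,
    (Finset.univ.filter fun a : Fin N × Bool => 0 < ep a.2 * t a.1 ∧ ¬ D ℓ g a).card ≤ n →
    c.pt g t ∈ F c ℓ (ℓ g + n) := by
  induction n with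
  | zero =>
    intro g t ht h
    refine ⟨g, le_rfl, t, ⟨ht.1, fun v b hb => ?_⟩, rfl⟩
    by_contra hD
    rw [Nat.le_zero, Finset.card_eq_zero, Finset.filter_eq_empty_iff] at h
    exact h (Finset.mem_univ (v, b)) ⟨hb, hD⟩
  | succ n ih =>
    intro g t ht h
    by_cases hex : ∃ a : Fin N × Bool, 0 < ep a.2 * t a.1 ∧ ¬ D ℓ g a
    · obtain ⟨⟨v, b⟩, hb, hD⟩ := hex
      simp only at hb
      have hv : t v ≠ 0 := by rintro e; rw [e] at hb; simp at hb
      have hadj : ∀ u, u ≠ v → t u ≠ 0 → L.adj u v := fun u hu hu' => ht.2 u v hu hu' hv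
      have hm := update_mem ht (abs_sub_ep hb.le (ht.1 v)) hadj
      have hlen : ℓ (g * L.P.y (v, b)) = ℓ g + 1 := (hℓ.step g (v, b)).resolve_right hD
      rw [shift c g v b ht hb.le hadj]
      have := ih (g * L.P.y (v, b)) _ hm (by
        have hsub : (Finset.univ.filter fun a : Fin N × Bool =>
            0 < ep a.2 * Function.update t v (t v - ep b) a.1 ∧ ¬ D ℓ (g * L.P.y (v, b)) a) ⊆
            (Finset.univ.filter fun a : Fin N × Bool => 0 < ep a.2 * t a.1 ∧ ¬ D ℓ g a).erase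
              (v, b) := by
          rintro ⟨u, b'⟩ hu
          simp only [Finset.mem_filter, Finset.mem_univ, true_and, Finset.mem_erase] at hu ⊢
          by_cases e : u = v
          · exfalso
            subst e
            rw [Function.update_self] at hu
            by_cases e' : b' = b
            · subst e'
              have h1 := ep_mul_eq_abs hb
              have h2 := ht.1 u
              have h3 := ep_mul_self b'
              nlinarith [hu.1]
            · have e'' : b' = !b := by cases b <;> cases b' <;> simp_all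
              apply hu.2
              unfold D
              have : L.P.y (u, b') = (L.P.y (u, b))⁻¹ := by
                rw [e'']; exact L.P.y_inv (u, b)
              rw [this, mul_inv_cancel_right, hlen]
          · rw [Function.update_of_ne e] at hu
            have hu0 : t u ≠ 0 := by rintro e; rw [e] at hu; simp at hu
            refine ⟨by simp [e], hu.1, fun hD' => hu.2 ?_⟩
            exact (D_comm hℓ g (a := (u, b')) (b := (v, b)) (hadj u e hu0)).mpr hD'
        have h1 := Finset.card_le_card hsub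
        rw [Finset.card_erase_of_mem (by simp [hb, hD])] at h1
        omega)
      rw [hlen] at this
      convert this using 2
      omega
    · refine ⟨g, by omega, t, ⟨ht.1, fun v b hb => ?_⟩, rfl⟩
      by_contra hD
      exact hex ⟨(v, b), hb, hD⟩

theorem F_mono : Monotone (F c ℓ) := by
  rintro k m hkm z ⟨g, hg, h⟩
  exact ⟨g, hg.trans hkm, h⟩

theorem F_nhds (hℓ : L.P.Len ℓ) (z : E) : ∃ k, F c ℓ k ∈ 𝓝 z := by
  classical
  obtain ⟨U, hU, hfin⟩ := c.lf z
  obtain ⟨M, hM⟩ := (hfin.image ℓ).bddAbove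
  refine ⟨M + Fintype.card (Fin N × Bool), Filter.mem_of_superset hU fun z' hz' => ?_⟩
  obtain ⟨g, t, ht, rfl⟩ := c.surj z'
  have h1 : ℓ g ≤ M := hM ⟨g, ⟨c.pt g t, ⟨t, ht, rfl⟩, hz'⟩, rfl⟩
  have := norm_form c hℓ (Fintype.card (Fin N × Bool)) g t ht (Finset.card_le_univ _)
  exact F_mono c (by omega) this

theorem F_zero (hℓ : L.P.Len ℓ) : F c ℓ 0 = {c.pt 1 0} := by
  ext z
  constructor
  · rintro ⟨g, hg, t, ht, rfl⟩
    have h1 : g = 1 := by
      by_contra h
      obtain ⟨a, ha⟩ := hℓ.ex g h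
      omega
    have h2 : t = 0 := by
      funext v
      by_contra h
      obtain ⟨b, hb⟩ := exists_ep h
      have := ht.2 v b hb
      unfold D at this
      omega
    rw [h1, h2]
    rfl
  · rintro rfl
    exact ⟨1, hℓ.one.le, 0, ⟨by simp, by simp⟩, rfl⟩

theorem lt_or_eq (hℓ : L.P.Len ℓ) {g g' : L.Γ} {t t' : Fin N → ℝ} (ht : t ∈ Q ℓ g)
    (h1 : ∀ v, |t v| < 1) (ht' : t' ∈ Q ℓ g') (h : c.pt g t = c.pt g' t') :
    ℓ g < ℓ g' ∨ g = g' := by
  obtain ⟨l, hl, hs, rfl⟩ := c.near g g' t (Q_subset hℓ _ ht) t' (Q_subset hℓ _ ht') h1 h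
  have := len_prod hℓ l hl.of_map g' (by
    rintro ⟨v, b⟩ ha
    apply ht'.2
    have := hs _ ha
    cases b
    · simpa using this.2 rfl
    · simpa using this.1 rfl)
  cases l with
  | nil => right; simp
  | cons a l => left; rw [List.length_cons] at this; omega

theorem face (hℓ : L.P.Len ℓ) {g : L.Γ} {t : Fin N → ℝ} (ht : t ∈ Q ℓ g) {v : Fin N}
    (hv : |t v| = 1) {k : ℕ} (hk : ℓ g ≤ k + 1) : c.pt g t ∈ F c ℓ k := by
  have hv0 : t v ≠ 0 := by rintro e; rw [e] at hv; simp at hv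
  obtain ⟨b, hb⟩ := exists_ep hv0
  have hD := ht.2 v b hb
  have hst := Q_subset hℓ _ ht
  have hadj : ∀ u, u ≠ v → t u ≠ 0 → L.adj u v := fun u hu hu' => hst.2 u v hu hu' hv0
  have h1 := ep_mul_eq_abs hb
  have h2 : t v - ep b = 0 := by
    have h3 : t v = ep b * |t v| := by rw [← h1, ← mul_assoc, ep_mul_self, one_mul]
    rw [h3, hv]
    simp
  rw [shift c g v b hst hb.le hadj, h2]
  refine ⟨_, by unfold D at hD; omega, _, ⟨(update_mem hst (by simp) hadj).1, fun u b' hu => ?_⟩, rfl⟩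
  by_cases e : u = v
  · subst e
    simp at hu
  · rw [Function.update_of_ne e] at hu
    have hu0 : t u ≠ 0 := by rintro e; rw [e] at hu; simp at hu
    exact (D_comm hℓ g (a := (u, b')) (b := (v, b)) (hadj u e hu0)).mpr (ht.2 u b' hu)

open Classical in
/-- The deformation retractions. -/
noncomputable def r (ℓ : L.Γ → ℕ) (k : ℕ) (z : E) (s : ℝ) : E :=
  if h : ∃ p : L.Γ × (Fin N → ℝ), ℓ p.1 = k + 1 ∧ p.2 ∈ Q ℓ p.1 ∧ (∀ v, |p.2 v| < 1) ∧
      c.pt p.1 p.2 = z then c.pt h.choose.1 (push ℓ h.choose.1 s h.choose.2) else z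

theorem r_fix (hℓ : L.P.Len ℓ) {k : ℕ} {z : E} (hz : z ∈ F c ℓ k) (s : ℝ) : r c ℓ k z s = z := by
  unfold r
  rw [dif_neg]
  rintro ⟨⟨g', t'⟩, h1, h2, h3, h4⟩
  obtain ⟨g, hg, t, ht, rfl⟩ := hz
  simp only at h1 h2 h3 h4
  rcases lt_or_eq c hℓ h2 h3 ht h4 with h | h
  · omega
  · subst h
    omega

theorem r_pt (hℓ : L.P.Len ℓ) {k : ℕ} {g : L.Γ} (hg : ℓ g = k + 1) {t : Fin N → ℝ}
    (ht : t ∈ Q ℓ g) (s : ℝ) : r c ℓ k (c.pt g t) s = c.pt g (push ℓ g s t) := by
  by_cases h1 : ∀ v, |t v| < 1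
  · have hex : ∃ p : L.Γ × (Fin N → ℝ), ℓ p.1 = k + 1 ∧ p.2 ∈ Q ℓ p.1 ∧ (∀ v, |p.2 v| < 1) ∧
        c.pt p.1 p.2 = c.pt g t := ⟨(g, t), hg, ht, h1, rfl⟩
    unfold r
    rw [dif_pos hex]
    obtain ⟨a1, a2, a3, a4⟩ := hex.choose_spec
    generalize hex.choose = p at a1 a2 a3 a4
    obtain ⟨g', t'⟩ := p
    simp only at a1 a2 a3 a4 ⊢
    rcases lt_or_eq c hℓ a2 a3 ht a4 with h | h
    · omega
    · subst h
      rw [c.injOn _ (Q_subset hℓ _ a2) (Q_subset hℓ _ ht) a4]
  · push Not at h1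
    obtain ⟨v, hv⟩ := h1
    have hv' : |t v| = 1 := le_antisymm (ht.1 v) hv
    have hn : ‖t‖ = 1 := le_antisymm (norm_le ht) (hv.trans (norm_le_pi_norm t v))
    rw [push_norm hn, r_fix c hℓ (face c hℓ ht hv' hg.le)]

theorem continuousOn_inv {A X : Type} [TopologicalSpace A] [Nonempty A] [TopologicalSpace X]
    [T2Space X] {φ : A → X} {K : Set A} (hφ : ContinuousOn φ K) (hK : IsCompact K)
    (hinj : InjOn φ K) : ContinuousOn (Function.invFunOn φ K) (φ '' K) := by
  rw [continuousOn_iff_isClosed]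
  intro t ht
  refine ⟨φ '' (t ∩ K), ((hK.inter_left ht).image_of_continuousOn
    (hφ.mono inter_subset_right)).isClosed, ?_⟩
  ext x
  constructor
  · rintro ⟨h1, y, hy, rfl⟩
    rw [mem_preimage, hinj.leftInvOn_invFunOn hy] at h1
    exact ⟨⟨y, ⟨h1, hy⟩, rfl⟩, y, hy, rfl⟩
  · rintro ⟨⟨y', ⟨h1, h2⟩, h3⟩, y, hy, rfl⟩
    refine ⟨?_, y, hy, rfl⟩
    rw [mem_preimage, hinj.leftInvOn_invFunOn hy, ← hinj h2 hy h3]
    exact h1

theorem r_cont [T2Space E] (hℓ : L.P.Len ℓ) (k : ℕ) :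
    ContinuousOn (fun q : E × ℝ => r c ℓ k q.1 q.2) (F c ℓ (k + 1) ×ˢ univ) := by
  have hlf : LocallyFinite (fun g : {g : L.Γ // ℓ g ≤ k + 1} =>
      (Prod.fst : E × ℝ → E) ⁻¹' (c.pt g.1 '' Q ℓ g.1)) :=
    ((c.lf.subset fun g => image_mono (Q_subset hℓ g)).comp_injective
      Subtype.val_injective).preimage_continuous continuous_fst
  have hcq : ∀ g, ContinuousOn (c.pt g) (Q ℓ g) := fun g => (c.cont g).mono (Q_subset hℓ g)
  have hU : F c ℓ (k + 1) ×ˢ (univ : Set ℝ) = ⋃ g : {g : L.Γ // ℓ g ≤ k + 1},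
      (Prod.fst : E × ℝ → E) ⁻¹' (c.pt g.1 '' Q ℓ g.1) := by
    ext q
    simp only [mem_prod, mem_univ, and_true, mem_iUnion, mem_preimage]
    constructor
    · rintro ⟨g, hg, h⟩
      exact ⟨⟨g, hg⟩, h⟩
    · rintro ⟨⟨g, hg⟩, h⟩
      exact ⟨g, hg, h⟩
  rw [hU]
  refine hlf.continuousOn_iUnion (fun g => ?_) ?_
  · exact ((isCompact_Q g.1).image_of_continuousOn (hcq g.1)).isClosed.preimage continuous_fst
  · rintro ⟨g, hg⟩
    simp only
    rcases Nat.lt_or_eq_of_le hg with h | h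
    · refine continuousOn_fst.congr ?_
      rintro q ⟨t, ht, hq⟩
      exact r_fix c hℓ ⟨g, by omega, t, ht, hq⟩ _
    · have hinj : InjOn (c.pt g) (Q ℓ g) := (c.injOn g).mono (Q_subset hℓ g)
      have h1 := continuousOn_inv (hcq g) (isCompact_Q g) hinj
      have h2 : ContinuousOn (fun q : E × ℝ => (Function.invFunOn (c.pt g) (Q ℓ g) q.1, q.2))
          ((Prod.fst : E × ℝ → E) ⁻¹' (c.pt g '' Q ℓ g)) :=
        (h1.comp continuousOn_fst (fun q hq => hq)).prodMk continuousOn_snd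
      have h3 := (continuous_push (ℓ := ℓ) g).comp_continuousOn h2
      have h4 := (hcq g).comp h3 (by
        rintro q ⟨t, ht, hq⟩
        apply push_mem
        exact Function.invFunOn_mem ⟨t, ht, hq⟩)
      refine h4.congr ?_
      rintro q ⟨t, ht, hq⟩
      simp only [Function.comp]
      rw [← hq, hinj.leftInvOn_invFunOn ht, r_pt c hℓ h ht]

end Contr

open Contr in
theorem LD.CubeSp.contractible {N : ℕ} {L : LD N} {E : Type} [TopologicalSpace E] [MulAction L.Γ E]
    [T2Space E] (c : L.CubeSp E) : ContractibleSpace E := by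
  obtain ⟨ℓ, hℓ⟩ := L.P.exists_len
  refine tel (F c ℓ) (c.pt 1 0) (F_zero c hℓ) (fun k => F_mono c (Nat.le_succ k)) (F_nhds c hℓ)
    (r c ℓ) (r_cont c hℓ) ?_ ?_ (fun k z hz s => r_fix c hℓ hz s)
  · rintro k z ⟨g, hg, t, ht, rfl⟩ s hs
    rcases Nat.lt_or_eq_of_le hg with h | h
    · exact r_fix c hℓ ⟨g, by omega, t, ht, rfl⟩ _
    · rw [r_pt c hℓ h ht, push_nonpos hs]
  · rintro k z ⟨g, hg, t, ht, rfl⟩
    rcases Nat.lt_or_eq_of_le hg with h | h
    · have : c.pt g t ∈ F c ℓ k := ⟨g, by omega, t, ht, rfl⟩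
      rwa [r_fix c hℓ this]
    · rw [r_pt c hℓ h ht]
      obtain ⟨v, hv⟩ := push_one hℓ (g := g) (by rintro rfl; rw [hℓ.one] at h; omega) ht
      exact face c hℓ (push_mem ht 1) hv hg

end Crest.Agent.R197
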