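import Crest.Agent.R197.TDefs

/-!
Task R197-Cov.  Cocycles and coverings.

Plan.  `exists_rep`: the covering space of `Z` with fibre `K` (discrete; use a type synonym or `let _ : TopologicalSpace K := ⊥`) in which
the local sections `z ↦ (z, c * k i z)` over `U i` are continuous: a `FiberBundleCore` with `baseSet = U`,
`coordChange i j z c = c * k i z * (k j z)⁻¹` (`FiberBundle.isCoveringMap`); in the total space the fibre over `z` is identified with `K`
through the chart `indexAt z`; renormalise by `k (indexAt z) z`.  `K` acts on the left by deck transformations.  `θ γ` = end point of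
the lift of `γ` starting at `1` (`IsCoveringMap.liftPath`, `liftPath_trans`, `liftPath_apply_one_eq_of_homotopicRel`,
`eq_liftPath_iff`).  (Or topologise `Z × K` by hand.)
`Rep.unique`: potentials `κ, κ'` of `θ.comap γ`, `θ'.comap γ` on `I`; `κ t * (κ' t)⁻¹` is locally constant.
`exists_wind`: `Cech` data on `C0`: `U true = slitPlane`, `U false = - slitPlane`, `k true = 1`,
`k false z = if z.im < 0 then ofAdd 1 else 1`; cut `circ` at `1/4`, `3/4` with a potential of `θ.comap circ`.
`exists_wr`: `(Θ'.θ γ).f g = θ.θ (liftPath γ (e g (γ 0)))` (`homotopicRel_liftPath`, `liftPath_trans`, `hl`).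
`exists_univ`: `X` is path connected; paths `b y : Path x y`, `Θ γ = (φ ⟦b (γ 0) · γ · (b (γ 1))⁻¹⟧)⁻¹` (multiplication in
`FundamentalGroup` is reversed composition); `e g y` = end point of the lift, from a fixed `e₀` over `x`, of a chosen path `x ⟶ y` with
`Θ = g`; `inj` because `E` is simply connected (`Path.Homotopic.map`).
-/

set_option autoImplicit false

namespace Crest.Agent.R197

open unitInterval Set Filter _root_.Topology

section Dev

variable {Z K : Type} [TopologicalSpace Z] [Group K]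

/-- A development of the local potentials along a path. -/
def Cech.Dev (C : Cech Z K) (γ : I → Z) (n : I → K) : Prop :=
  ∀ i t, γ t ∈ C.U i → ∀ᶠ t' in 𝓝 t, n t' * (C.k i (γ t'))⁻¹ = n t * (C.k i (γ t))⁻¹

theorem Cech.Dev.unique {C : Cech Z K} {γ : I → Z} {n n' : I → K} (h : C.Dev γ n) (h' : C.Dev γ n') :
    (n 0)⁻¹ * n 1 = (n' 0)⁻¹ * n' 1 := by
  have h1 : IsLocallyConstant fun t => n t * (n' t)⁻¹ := by
    refine (IsLocallyConstant.iff_eventually_eq _).2 fun t => ?_
    obtain ⟨i, hi⟩ := C.cov (γ t)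
    filter_upwards [h i t hi, h' i t hi] with t' e e'
    calc n t' * (n' t')⁻¹ = n t' * (C.k i (γ t'))⁻¹ * (n' t' * (C.k i (γ t'))⁻¹)⁻¹ := by group
      _ = _ := by rw [e, e']; group
  have h2 : n 0 * (n' 0)⁻¹ = n 1 * (n' 1)⁻¹ := h1.apply_eq_of_preconnectedSpace 0 1
  calc (n 0)⁻¹ * n 1 = (n 0)⁻¹ * (n 1 * (n' 1)⁻¹) * n' 1 := by group
    _ = _ := by rw [← h2]; group

theorem Cech.Rep.eq_of_dev {C : Cech Z K} {θ : Coc Z K} (h : C.Rep θ) (γ : C(I, Z)) {n : I → K}
    (hn : C.Dev γ n) : θ.θ γ = (n 0)⁻¹ * n 1 := by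
  obtain ⟨κ, hκ⟩ := (θ.comap γ).pot
  have h1 : θ.θ γ = (κ 0)⁻¹ * κ 1 := hκ (ContinuousMap.id I)
  rw [h1]
  refine Cech.Dev.unique (fun i t ht => ?_) hn
  have : LocallyPathConnectedSpace I := (convex_Icc (0 : ℝ) 1).locallyPathConnectedSpace
  have h2 : γ ⁻¹' C.U i ∈ 𝓝 t := ((C.op i).preimage γ.continuous).mem_nhds ht
  filter_upwards [pathComponentIn_mem_nhds h2] with t' ht'
  obtain ⟨δ, hδ⟩ := ht'
  have h3 := hκ δ.toContinuousMap
  rw [Coc.comap_θ, h i _ hδ] at h3
  simp only [ContinuousMap.comp_apply, Path.coe_toContinuousMap, Path.source, Path.target] at h3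
  calc κ t' * (C.k i (γ t'))⁻¹ = κ t * ((κ t)⁻¹ * κ t') * (C.k i (γ t'))⁻¹ := by group
    _ = _ := by rw [← h3]; group

/-- The covering space defined by local potentials. -/
noncomputable def Cech.core (C : Cech Z K) [TopologicalSpace K] [DiscreteTopology K] :
    FiberBundleCore C.ι Z K where
  baseSet := C.U
  isOpen_baseSet := C.op
  indexAt z := (C.cov z).choose
  mem_baseSet_at z := (C.cov z).choose_spec
  coordChange i j z c := c * (C.k i z * (C.k j z)⁻¹)
  coordChange_self i z _ c := by simp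
  continuousOn_coordChange i j := by
    refine (continuous_of_discreteTopology (f := fun q : K × K => q.1 * q.2)).comp_continuousOn
      (f := fun p : Z × K => (p.2, C.k i p.1 * (C.k j p.1)⁻¹)) (continuousOn_snd.prodMk ?_)
    exact fun p hp => ((ContinuousAt.comp (f := Prod.fst)
      (continuousAt_const.congr (EventuallyEq.symm (C.lc i j p.1 hp.1))) continuousAt_fst)).continuousWithinAt
  coordChange_comp i j k z _ c := by group

theorem Cech.dev_of_lift (C : Cech Z K) [TopologicalSpace K] [DiscreteTopology K]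
    (Γ : C(I, C.core.TotalSpace)) {γ : I → Z} (h : C.core.proj ∘ Γ = γ) :
    C.Dev γ fun t => (show K from (Γ t).2) * C.k (C.core.indexAt (Γ t).1) (Γ t).1 := by
  subst h
  intro i t ht
  have h1 : ContinuousAt (fun t => (C.core.localTriv i (Γ t)).2) t :=
    continuousAt_snd.comp (((C.core.localTriv i).continuousAt
      (show Γ t ∈ (C.core.localTriv i).source from ht)).comp Γ.continuous.continuousAt)
  filter_upwards [h1.eventually ((isOpen_discrete {(C.core.localTriv i (Γ t)).2}).mem_nhds rfl)]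
    with t' ht'
  rw [mul_assoc, mul_assoc]
  exact ht'

end Dev

theorem Cech.exists_rep {Z K : Type} [TopologicalSpace Z] [Group K] (C : Cech Z K) :
    ∃ θ : Coc Z K, C.Rep θ := by
  let _ : TopologicalSpace K := ⊥
  have : DiscreteTopology K := ⟨rfl⟩
  have cov : IsCoveringMap C.core.proj := FiberBundle.isCoveringMap (F := K) (E := C.core.Fiber)
  let N : C.core.TotalSpace → K := fun e => (show K from e.2) * C.k (C.core.indexAt e.1) e.1
  let L : C(I, Z) → C(I, C.core.TotalSpace) := fun γ => cov.liftPath γ ⟨γ 0, (1 : K)⟩ rfl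
  have hL : ∀ γ, C.core.proj ∘ L γ = γ := fun γ => cov.liftPath_lifts ..
  have key : ∀ (γ : C(I, Z)) (Γ : C(I, C.core.TotalSpace)), C.core.proj ∘ Γ = γ →
      (N (L γ 0))⁻¹ * N (L γ 1) = (N (Γ 0))⁻¹ * N (Γ 1) := fun γ Γ h =>
    (C.dev_of_lift (L γ) (hL γ)).unique (C.dev_of_lift Γ h)
  refine ⟨⟨fun γ => (N (L γ 0))⁻¹ * N (L γ 1), fun γ γ' h => ?_, fun {x y z} γ γ' => ?_⟩,
    fun i γ hγ => ?_⟩
  · have h0 : γ' 0 = γ 0 := (h.fst_eq_snd (.inl rfl)).symm
    rw [key γ' (cov.liftPath γ' ⟨γ 0, (1 : K)⟩ h0) (cov.liftPath_lifts ..),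
      ← cov.liftPath_apply_one_eq_of_homotopicRel h _ rfl h0, cov.liftPath_zero, cov.liftPath_zero]
  · have h1 : γ'.toContinuousMap 0 = C.core.proj (L γ.toContinuousMap 1) :=
      γ'.source.trans (γ.target.symm.trans (congrFun (hL γ.toContinuousMap) 1).symm)
    let Γ' : Path (L γ.toContinuousMap 1) (cov.liftPath _ _ h1 1) :=
      ⟨cov.liftPath _ _ h1, cov.liftPath_zero .., rfl⟩
    rw [key γ'.toContinuousMap Γ'.toContinuousMap (cov.liftPath_lifts _ _ h1),
      key (γ.trans γ').toContinuousMap ((toPath (L γ.toContinuousMap)).trans Γ').toContinuousMap]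
    · simp only [Path.coe_toContinuousMap, Path.source, Path.target]
      group
    · funext t
      simp only [Function.comp_apply, Path.coe_toContinuousMap, Path.trans_apply]
      split_ifs
      · exact congrFun (hL γ.toContinuousMap) _
      · exact congrFun (cov.liftPath_lifts _ _ h1) _
  · exact (C.dev_of_lift (L γ) (hL γ)).unique (n' := fun t => C.k i (γ t)) fun j t ht =>
      γ.continuous.continuousAt.eventually (C.lc i j (γ t) ⟨hγ t, ht⟩)

theorem Cech.Rep.unique {Z K : Type} [TopologicalSpace Z] [Group K] {C : Cech Z K} {θ θ' : Coc Z K}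
    (h : C.Rep θ) (h' : C.Rep θ') (γ : C(I, Z)) : θ.θ γ = θ'.θ γ := by
  let _ : TopologicalSpace K := ⊥
  have : DiscreteTopology K := ⟨rfl⟩
  have cov : IsCoveringMap C.core.proj := FiberBundle.isCoveringMap (F := K) (E := C.core.Fiber)
  have hd := C.dev_of_lift (cov.liftPath γ ⟨γ 0, (1 : K)⟩ rfl) (cov.liftPath_lifts ..)
  exact (h.eq_of_dev γ hd).trans (h'.eq_of_dev γ hd).symm

/-- Local potentials of the winding number. -/
noncomputable def windCech : Cech C0 (Multiplicative ℤ) where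
  ι := Bool
  U i := {z | cond i z.1 (-z.1) ∈ Complex.slitPlane}
  k i z := cond i 1 (if z.1.im < 0 then Multiplicative.ofAdd 1 else 1)
  op i := by
    cases i
    · exact Complex.isOpen_slitPlane.preimage (continuous_subtype_val.neg)
    · exact Complex.isOpen_slitPlane.preimage continuous_subtype_val
  cov z := by
    rcases Complex.mem_slitPlane_or_neg_mem_slitPlane z.2 with h | h
    exacts [⟨true, h⟩, ⟨false, h⟩]
  lc i j z hz := by
    have key : z.1 ∈ Complex.slitPlane → -z.1 ∈ Complex.slitPlane →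
        ∀ᶠ z' : C0 in 𝓝 z, (z'.1.im < 0 ↔ z.1.im < 0) := by
      intro h1 h2
      have hc : ContinuousAt (fun z' : C0 => z'.1.im) z := by fun_prop
      have h3 : z.1.im ≠ 0 := by
        simp only [Complex.mem_slitPlane_iff, Complex.neg_re, Complex.neg_im] at h1 h2
        intro h
        simp only [h, ne_eq, not_true_eq_false, or_false, neg_zero] at h1 h2
        linarith
      rcases h3.lt_or_gt with h | h
      · filter_upwards [hc.eventually (gt_mem_nhds h)] with z' hz'
        exact iff_of_true hz' h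
      · filter_upwards [hc.eventually (lt_mem_nhds h)] with z' hz'
        exact iff_of_false hz'.not_gt h.not_gt
    cases i <;> cases j
    · simp
    · filter_upwards [key hz.2 hz.1] with z' hz'
      simp only [cond_false, cond_true, hz']
    · filter_upwards [key hz.1 hz.2] with z' hz'
      simp only [cond_false, cond_true, hz']
    · simp

theorem circ_im (t : I) (ht : t ≠ 1) : (circ t).1.im < 0 ↔ 1 / 2 < (t : ℝ) := by
  have h0 : (circ t).1.im = Real.sin (2 * Real.pi * t) := by
    have := Complex.exp_ofReal_mul_I_im (2 * Real.pi * (t : ℝ))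
    push_cast at this
    exact this
  have h1 : (t : ℝ) < 1 := lt_of_le_of_ne t.2.2 fun h => ht (Subtype.ext h)
  have hp := Real.pi_pos
  rw [h0]
  constructor
  · intro h
    by_contra h2
    exact h.not_ge (Real.sin_nonneg_of_nonneg_of_le_pi (by have := t.2.1; positivity) (by nlinarith))
  · intro h
    rw [← Real.sin_sub_two_pi]
    exact Real.sin_neg_of_neg_of_neg_pi_lt (by nlinarith) (by nlinarith)

theorem exists_wind : ∃ θ : Coc C0 (Multiplicative ℤ), θ.θ circ = Multiplicative.ofAdd 1 := by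
  obtain ⟨θ, hθ⟩ := windCech.exists_rep
  refine ⟨θ, (hθ.eq_of_dev circ (n := fun t => if 1 / 2 < (t : ℝ) then Multiplicative.ofAdd 1 else 1)
    fun i t ht => ?_).trans (by norm_num)⟩
  cases i
  · have h1 : t ≠ 1 := by
      rintro rfl
      simp [windCech, circ, Complex.mem_slitPlane_iff] at ht
      linarith
    filter_upwards [isOpen_ne.mem_nhds h1] with t' ht'
    simp only [windCech, cond_false, circ_im t h1, circ_im t' ht', mul_inv_cancel]
  · have h1 : (t : ℝ) ≠ 1 / 2 := by
      intro h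
      have h2 : (circ t).1 = -1 := by
        rw [← Complex.exp_pi_mul_I]
        change Complex.exp _ = _
        rw [h]; congr 1; push_cast; ring
      simp [windCech, h2, Complex.mem_slitPlane_iff] at ht
      linarith
    have hc : ContinuousAt (fun t' : I => (t' : ℝ)) t := continuous_subtype_val.continuousAt
    rcases h1.lt_or_gt with h | h
    · filter_upwards [hc.eventually (gt_mem_nhds h)] with t' ht'
      simp only [windCech, cond_true, if_neg ht'.not_gt, if_neg h.not_gt]
    · filter_upwards [hc.eventually (lt_mem_nhds h)] with t' ht'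
      simp only [windCech, cond_true, if_pos ht', if_pos h]

theorem exists_wr {X E G K : Type} [TopologicalSpace X] [TopologicalSpace E] [Group G] [Group K]
    (p : C(E, X)) (hp : IsCoveringMap p) (Θ : Coc X G) (e : G → X → E) (pe : ∀ g y, p (e g y) = y)
    (hl : ∀ g (γ : C(I, E)), γ 0 = e g (p (γ 0)) → γ 1 = e (g * Θ.θ (p.comp γ)) (p (γ 1)))
    (θ : Coc E K) : ∃ Θ' : Coc X (Wr G K), (∀ γ, (Θ'.θ γ).a = Θ.θ γ) ∧
      ∀ g (γ : C(I, E)), γ 0 = e g (p (γ 0)) → (Θ'.θ (p.comp γ)).f g = θ.θ γ := by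
  let L : G → C(I, X) → C(I, E) := fun g γ => hp.liftPath γ (e g (γ 0)) (pe ..).symm
  have hL : ∀ g γ, p.comp (L g γ) = γ := fun g γ =>
    ContinuousMap.ext (congrFun (hp.liftPath_lifts γ _ _))
  have hL0 : ∀ g γ, L g γ 0 = e g (γ 0) := fun g γ => hp.liftPath_zero ..
  have key : ∀ g (γ : C(I, X)) (Γ : C(I, E)), p ∘ Γ = γ → Γ 0 = e g (γ 0) → L g γ = Γ :=
    fun g γ Γ h h' =>
    ((hp.eq_liftPath_iff' _).2 ⟨h, h'⟩).symm
  refine ⟨⟨fun γ => ⟨fun g => θ.θ (L g γ), Θ.θ γ⟩, fun γ γ' h => ?_, fun {x y z} γ γ' => ?_⟩,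
    fun _ => rfl, fun g γ h => congrArg θ.θ (key g _ γ rfl h)⟩
  · have h0 : γ 0 = γ' 0 := h.fst_eq_snd (.inl rfl)
    refine Wr.ext (funext fun g => θ.htpy _ _ ?_) (Θ.htpy _ _ h)
    have h1 : γ' 0 = p (e g (γ 0)) := by rw [pe, h0]
    rw [key g γ' (hp.liftPath γ' _ h1) (hp.liftPath_lifts ..) (by rw [hp.liftPath_zero, h0])]
    exact hp.homotopicRel_liftPath h ..
  · refine Wr.ext (funext fun g => ?_) (Θ.trans γ γ')
    have h0 : ∀ t, p (L g γ.toContinuousMap t) = γ t := fun t =>
      DFunLike.congr_fun (hL g γ.toContinuousMap) t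
    have h1 := hl g (L g γ.toContinuousMap) (by rw [h0, hL0]; rfl)
    rw [hL, h0, γ.target] at h1
    let Γ' : Path (L g γ.toContinuousMap 1) (L (g * Θ.θ γ.toContinuousMap) γ'.toContinuousMap 1) :=
      ⟨L (g * Θ.θ γ.toContinuousMap) γ'.toContinuousMap, by
        rw [h1]; exact (hL0 ..).trans (congrArg _ γ'.source), rfl⟩
    refine Eq.trans (congrArg θ.θ (key g _ ((toPath (L g γ.toContinuousMap)).trans Γ').toContinuousMap
      ?_ ?_)) (θ.trans _ Γ')
    · funext t
      simp only [Function.comp_apply, Path.coe_toContinuousMap, Path.trans_apply]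
      split_ifs
      · exact h0 _
      · exact DFunLike.congr_fun (hL _ γ'.toContinuousMap) _
    · simp only [Path.coe_toContinuousMap, Path.source, hL0]

local notation "HQ" => Path.Homotopic.Quotient

theorem monodromy_inj {X E : Type} [TopologicalSpace X] [TopologicalSpace E] [SimplyConnectedSpace E]
    {p : C(E, X)} (hp : IsCoveringMap p) {x y : X} (e : p ⁻¹' {x}) {c c' : HQ x y}
    (h : (hp.monodromy c e).1 = (hp.monodromy c' e).1) : c = c' := by
  obtain ⟨γ⟩ := c
  obtain ⟨γ'⟩ := c'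
  have h0 := γ.source.trans e.2.symm
  have h0' := γ'.source.trans e.2.symm
  let Γ : Path e.1 (hp.liftPath γ e h0 1) := ⟨hp.liftPath γ e h0, hp.liftPath_zero .., rfl⟩
  let Γ' : Path e.1 (hp.liftPath γ e h0 1) := ⟨hp.liftPath γ' e h0', hp.liftPath_zero .., h.symm⟩
  have h1 := ContinuousMap.HomotopicRel.comp_continuousMap (SimplyConnectedSpace.paths_homotopic Γ Γ') p
  have e1 : p.comp Γ.toContinuousMap = γ.toContinuousMap :=
    ContinuousMap.ext (congrFun (hp.liftPath_lifts γ _ h0))
  have e2 : p.comp Γ'.toContinuousMap = γ'.toContinuousMap :=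
    ContinuousMap.ext (congrFun (hp.liftPath_lifts γ' _ h0'))
  rw [e1, e2] at h1
  exact Path.Homotopic.Quotient.eq.2 h1

open Path.Homotopic.Quotient in
theorem hq_cancel {X : Type} [TopologicalSpace X] {y z w : X} (c : HQ y z) (d : HQ z w) :
    c.symm.trans (c.trans d) = d := by
  rw [← trans_assoc, symm_trans, refl_trans]

open Path.Homotopic.Quotient in
theorem hq_cancel' {X : Type} [TopologicalSpace X] {y z w : X} (c : HQ y z) (d : HQ y w) :
    c.trans (c.symm.trans d) = d := by
  rw [← trans_assoc, trans_symm, refl_trans]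

open Path.Homotopic.Quotient in
theorem exists_univ {X E G : Type} [TopologicalSpace X] [TopologicalSpace E] [Group G]
    [SimplyConnectedSpace E] (p : C(E, X)) (hp : IsCoveringMap p) (hs : Function.Surjective p)
    (x : X) (φ : FundamentalGroup X x ≃* G) : Nonempty (Univ p G) := by
  have : PathConnectedSpace X := hs.pathConnectedSpace p.continuous
  obtain ⟨e₀, he₀⟩ := hs x
  obtain ⟨b⟩ : Nonempty (∀ y, HQ x y) := ⟨fun y => .mk (PathConnectedSpace.somePath x y)⟩
  let Q : ∀ {y z}, HQ y z → HQ x x := fun {y z} c => (b y).trans (c.trans (b z).symm)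
  obtain ⟨ψ, hψ, h1⟩ : ∃ ψ : HQ x x ≃ G, (∀ c d, ψ (c.trans d) = ψ c * ψ d) ∧ ψ (.refl x) = 1 :=
    ⟨φ.toEquiv.trans (Equiv.inv G), fun c d => by
      change (φ (FundamentalGroup.fromPath d * FundamentalGroup.fromPath c))⁻¹ = (φ c)⁻¹ * (φ d)⁻¹
      rw [map_mul, mul_inv_rev], by
      change (φ 1)⁻¹ = 1
      rw [map_one, inv_one]⟩
  have hQ : ∀ {y z} (γ : Path y z), Q (.mk (toPath γ.toContinuousMap)) = Q (.mk γ) := by
    rintro y z ⟨γ, rfl, rfl⟩; rfl
  let Θ : Coc X G := ⟨fun γ => ψ (Q (.mk (toPath γ))), fun γ γ' h => by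
    have h0 : γ 0 = γ' 0 := h.fst_eq_snd (.inl rfl)
    have h1 : γ 1 = γ' 1 := h.fst_eq_snd (.inr rfl)
    let δ : Path (γ 0) (γ 1) := ⟨γ', h0.symm, h1.symm⟩
    have h2 : mk (toPath γ) = mk δ := eq.2 h
    exact congrArg ψ ((congrArg Q h2).trans (hQ δ).symm), fun γ γ' => by
    rw [hQ, hQ, hQ, ← hψ, mk_trans]
    simp only [Q, trans_assoc, hq_cancel]⟩
  have hΘ : ∀ {y z} (γ : Path y z), Θ.θ γ.toContinuousMap = ψ (Q (.mk γ)) := fun γ =>
    congrArg ψ (hQ γ)
  refine ⟨⟨Θ, fun g y => (hp.monodromy ((ψ.symm g).trans (b y)) ⟨e₀, he₀⟩).1,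
    fun g y => (hp.monodromy ((ψ.symm g).trans (b y)) ⟨e₀, he₀⟩).2, fun g γ h => ?_,
    fun y g g' h => ?_, fun y y' g => ?_, fun y γ h => ?_⟩⟩
  · obtain ⟨g, rfl⟩ := ψ.surjective g
    have h2 : Θ.θ (p.comp γ) = ψ (Q ((mk (toPath γ)).map p)) :=
      hΘ ((toPath γ).map p.continuous)
    have h3 : hp.monodromy (g.trans (b (p (γ 0)))) ⟨e₀, he₀⟩ = ⟨γ 0, rfl⟩ := by
      rw [ψ.symm_apply_apply] at h
      exact Subtype.ext h.symm
    rw [h2, ← hψ, ψ.symm_apply_apply]
    simp only [Q, trans_assoc, symm_trans, trans_refl]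
    rw [← trans_assoc, hp.monodromy_trans_apply, h3]
    exact congrArg Subtype.val (hp.monodromy_map (mk (toPath γ))).symm
  · have h2 := congrArg (fun c => c.trans (b y).symm) (monodromy_inj hp _ h)
    simpa only [trans_assoc, trans_symm, trans_refl, EmbeddingLike.apply_eq_iff_eq] using h2
  · obtain ⟨γ, hγ⟩ := mk_surjective ((b y).symm.trans ((ψ.symm g).trans (b y')))
    refine ⟨γ, ?_⟩
    rw [hΘ, hγ]
    simp only [Q, trans_assoc, trans_symm, trans_refl, hq_cancel', ψ.apply_symm_apply]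
  · rw [hΘ, ← h1, ψ.apply_eq_iff_eq] at h
    have h2 := congrArg (fun c => (b y).symm.trans (c.trans (b y))) h
    simp only [Q, trans_assoc, symm_trans, trans_refl, refl_trans, hq_cancel] at h2
    exact eq.1 h2

end Crest.Agent.R197
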