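import Crest.Agent.R197.Defs

/-!
Task R197-CubeU.  Morse theory for the height function: the cube complex relative to the sub/super-level sets.

Plan.  `u3`: define `W : ℕ → L.Γ → Fin N → Fin N → M` by recursion, `W 0 = 0`, `W (n+1) g` = a solution (`L.a2`) for the right-hand
side `fun u v w => κ p u v w + W n (p * x v * x w) v w - W n (p * x u * x w) u w + W n (p * x u * x v) u v` with
`p = g * (x u)⁻¹ * (x v)⁻¹ * (x w)⁻¹`; `ω p u v = W (ht p + 2).toNat (p * x u * x v) u v` (`W n g u v` is the value on the square with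
*top* vertex `g`, `ht g = n`).  `u2`: similarly `Z (n+1) g` = a solution (`L.a1`, if its hypothesis holds, else `0`) for
`fun u v => ω p u v - Z n (p * x u) u + Z n (p * x v) v` with `p = g * (x u)⁻¹ * (x v)⁻¹`, `ζ p u = Z (ht p + 1).toNat (p * x u) u`;
prove `ω = d1 ζ` by induction on the height of the top vertex (the hypothesis of `a1` follows from `d2 ω = 0` on the cube with top
`g`, the induction hypothesis on the three lower squares).  `o2`, `o3` are the mirror images (recursion on `- ht p` of the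
*bottom* vertex `p`, which is simpler); alternatively deduce one pair from the other with the automorphism `x v ↦ (x v)⁻¹`.
Use `x_comm` to reorder.
-/

set_option autoImplicit false

namespace Crest.Agent.R197.LD

variable {N : ℕ} (L : LD N) {M : Type} [AddCommGroup M]

section Gen

variable {Γ : Type} [Group Γ] {x : Fin N → Γ} {ht : Γ → ℤ}

theorem rec_up (hx : ∀ p u, ht (p * x u) = ht p + 1) {T : Type} (F : Γ → (Fin N → T) → T) (z : T) :
    ∃ ζ : Γ → T, (∀ p, 0 ≤ ht p → ζ p = z) ∧ ∀ p, ht p < 0 → ζ p = F p fun u => ζ (p * x u) := by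
  let W : ℕ → Γ → T := fun n => Nat.rec (fun _ => z) (fun _ W p => F p fun u => W (p * x u)) n
  refine ⟨fun p => W (-ht p).toNat p, fun p hp => ?_, fun p hp => ?_⟩
  · simp only [show (-ht p).toNat = 0 by omega]
    rfl
  · simp only [hx, show (-ht p).toNat = (-(ht p + 1)).toNat + 1 by omega]
    rfl

theorem gen2 (hx : ∀ p u, ht (p * x u) = ht p + 1) (hc : ∀ u v, L.adj u v → Commute (x u) (x v))
    (ω : Γ → Fin N → Fin N → M)
    (h : ∀ p u v w, L.E3 u v w → (ω (p * x u) v w - ω p v w) - (ω (p * x v) u w - ω p u w) +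
      (ω (p * x w) u v - ω p u v) = 0)
    (h0 : ∀ p u v, L.E2 u v → 0 ≤ ht p → ω p u v = 0) :
    ∃ ζ : Γ → Fin N → M, (∀ p u, 0 ≤ ht p → ζ p u = 0) ∧
      ∀ p u v, L.E2 u v → ω p u v = ζ p u + ζ (p * x u) v - ζ (p * x v) u - ζ p v := by
  obtain ⟨A, hA⟩ : ∃ A : (Fin N → Fin N → M) → Fin N → M, ∀ η : Fin N → Fin N → M,
      (∀ u v w, L.E3 u v w → η u v + η v w = η u w) → ∀ u v, L.E2 u v → η u v = A η v - A η u := by
    have : ∀ η : Fin N → Fin N → M, ∃ f : Fin N → M,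
        (∀ u v w, L.E3 u v w → η u v + η v w = η u w) → ∀ u v, L.E2 u v → η u v = f v - f u := fun η => by
      by_cases hη : ∀ u v w, L.E3 u v w → η u v + η v w = η u w
      · obtain ⟨f, hf⟩ := L.a1 M η fun u v w h1 h2 h3 h4 h5 => hη u v w ⟨⟨h1, h3⟩, ⟨h2, h4⟩, h1.trans h2, h5⟩
        exact ⟨f, fun _ u v huv => hf u v huv.1 huv.2⟩
      · exact ⟨0, fun h => absurd h hη⟩
    exact ⟨fun η => (this η).choose, fun η => (this η).choose_spec⟩
  obtain ⟨ζ, h1, h2⟩ := rec_up hx (fun p (Z : Fin N → Fin N → M) => -A fun u v => ω p u v - Z u v + Z v u) 0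
  refine ⟨ζ, fun p u hp => by rw [h1 p hp]; rfl, ?_⟩
  suffices ∀ n : ℕ, ∀ p, -ht p ≤ n → ∀ u v, L.E2 u v →
      ω p u v = ζ p u + ζ (p * x u) v - ζ (p * x v) u - ζ p v from fun p => this (-ht p).toNat p (by omega)
  have base : ∀ p, 0 ≤ ht p → ∀ u v, L.E2 u v →
      ω p u v = ζ p u + ζ (p * x u) v - ζ (p * x v) u - ζ p v := fun p hp u v huv => by
    rw [h0 p u v huv hp, h1 p hp, h1 _ (by rw [hx]; omega), h1 _ (by rw [hx]; omega)]
    simp
  intro n
  induction n with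
  | zero => exact fun p hp => base p (by omega)
  | succ n ih =>
    intro p hp u v huv
    rcases le_or_gt 0 (ht p) with hp0 | hp0
    · exact base p hp0 u v huv
    have h3 := hA (fun u v => ω p u v - ζ (p * x u) v + ζ (p * x v) u) (fun u v w huvw => by
      have a0 := h p u v w huvw
      have a1 := ih (p * x u) (by rw [hx]; omega) v w huvw.2.1
      have a2 := ih (p * x v) (by rw [hx]; omega) u w huvw.2.2
      have a3 := ih (p * x w) (by rw [hx]; omega) u v huvw.1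
      rw [← (hc u v huvw.1.2).right_comm] at a2
      rw [← (hc u w huvw.2.2.2).right_comm, ← (hc v w huvw.2.1.2).right_comm] at a3
      rw [a1, a2, a3] at a0
      rw [← sub_eq_zero, ← neg_eq_zero, ← a0]
      abel) u v huv
    rw [h2 p hp0, Pi.neg_apply, Pi.neg_apply, ← sub_eq_zero, ← sub_eq_zero.mpr h3]
    abel

theorem gen3 (hx : ∀ p u, ht (p * x u) = ht p + 1) (κ : Γ → Fin N → Fin N → Fin N → M)
    (h0 : ∀ p u v w, L.E3 u v w → 0 ≤ ht p → κ p u v w = 0) :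
    ∃ ω : Γ → Fin N → Fin N → M, (∀ p u v, 0 ≤ ht p → ω p u v = 0) ∧
      ∀ p u v w, L.E3 u v w → κ p u v w = (ω (p * x u) v w - ω p v w) - (ω (p * x v) u w - ω p u w) +
        (ω (p * x w) u v - ω p u v) := by
  choose A hA using L.a2 M
  obtain ⟨ω, h1, h2⟩ := rec_up hx (fun p (Z : Fin N → Fin N → Fin N → M) =>
    A fun u v w => Z u v w - Z v u w + Z w u v - κ p u v w) 0
  refine ⟨ω, fun p u v hp => by rw [h1 p hp]; rfl, fun p u v w huvw => ?_⟩
  rcases le_or_gt 0 (ht p) with hp | hp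
  · rw [h0 p u v w huvw hp, h1 p hp, h1 _ (by rw [hx]; omega), h1 _ (by rw [hx]; omega),
      h1 _ (by rw [hx]; omega)]
    simp
  · have h3 := hA (fun u v w => ω (p * x u) v w - ω (p * x v) u w + ω (p * x w) u v - κ p u v w) u v w huvw.1.1
      huvw.2.1.1 huvw.1.2 huvw.2.1.2 huvw.2.2.2
    rw [← h2 p hp] at h3
    rw [← sub_eq_zero, ← sub_eq_zero.mpr h3]
    abel

end Gen

theorem ht_up (p : L.Γ) (u : Fin N) : L.ht (p * L.x u) = L.ht p + 1 := by simp

theorem ht_down (p : L.Γ) (u : Fin N) : -L.ht (p * (L.x u)⁻¹) = -L.ht p + 1 := by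
  simp [add_comm]

theorem u2 (ω : L.Γ → Fin N → Fin N → M) (h : ∀ p u v w, L.E3 u v w → L.d2 ω p u v w = 0)
    (h0 : ∀ p u v, L.E2 u v → L.ht p + 2 ≤ 0 → ω p u v = 0) :
    ∃ ζ : L.Γ → Fin N → M, (∀ p u, L.ht p + 1 ≤ 0 → ζ p u = 0) ∧
      ∀ p u v, L.E2 u v → ω p u v = L.d1 ζ p u v := by
  obtain ⟨ζ, h1, h2⟩ := L.gen2 (x := fun u => (L.x u)⁻¹) (ht := fun p => -L.ht p) L.ht_down
    (fun u v huv => (L.x_comm huv).inv_inv) (fun g u v => ω (g * (L.x u)⁻¹ * (L.x v)⁻¹) u v)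
    (fun g u v w huvw => by
      have c1 := (L.x_comm huvw.1.2).inv_inv
      have c2 := (L.x_comm huvw.2.1.2).inv_inv
      have c3 := (L.x_comm huvw.2.2.2).inv_inv
      have a0 := h (g * (L.x u)⁻¹ * (L.x v)⁻¹ * (L.x w)⁻¹) u v w huvw
      have e1 : g * (L.x u)⁻¹ * (L.x v)⁻¹ * (L.x w)⁻¹ * L.x u = g * (L.x v)⁻¹ * (L.x w)⁻¹ := by
        rw [c1.right_comm, c3.right_comm, inv_mul_cancel_right]
      have e2 : g * (L.x u)⁻¹ * (L.x v)⁻¹ * (L.x w)⁻¹ * L.x v = g * (L.x u)⁻¹ * (L.x w)⁻¹ := by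
        rw [c2.right_comm, inv_mul_cancel_right]
      rw [d2, e1, e2, inv_mul_cancel_right] at a0
      rw [← c1.right_comm, ← c3.right_comm, ← c2.right_comm, ← neg_eq_zero, ← a0]
      abel)
    (fun g u v huv hg => h0 _ u v huv (by simp only [ht_mul, ht_inv, ht_x]; omega))
  refine ⟨fun p u => -ζ (p * L.x u) u, fun p u hp => neg_eq_zero.mpr (h1 _ _ (by rw [ht_up]; omega)),
    fun p u v huv => ?_⟩
  have c := L.x_comm huv.2
  have a := h2 (p * L.x u * L.x v) u v huv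
  have e : p * L.x u * L.x v * (L.x u)⁻¹ = p * L.x v := by rw [c.right_comm, mul_inv_cancel_right]
  simp only [e, mul_inv_cancel_right] at a
  rw [a, d1, ← c.right_comm]
  abel

theorem u3 (κ : L.Γ → Fin N → Fin N → Fin N → M)
    (h0 : ∀ p u v w, L.E3 u v w → L.ht p + 3 ≤ 0 → κ p u v w = 0) :
    ∃ ω : L.Γ → Fin N → Fin N → M, (∀ p u v, L.ht p + 2 ≤ 0 → ω p u v = 0) ∧
      ∀ p u v w, L.E3 u v w → κ p u v w = L.d2 ω p u v w := by
  obtain ⟨ω, h1, h2⟩ := L.gen3 (x := fun u => (L.x u)⁻¹) (ht := fun p => -L.ht p) L.ht_down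
    (fun g u v w => κ (g * (L.x u)⁻¹ * (L.x v)⁻¹ * (L.x w)⁻¹) u v w)
    (fun g u v w huvw hg => h0 _ u v w huvw (by simp only [ht_mul, ht_inv, ht_x]; omega))
  refine ⟨fun p u v => -ω (p * L.x u * L.x v) u v, fun p u v hp =>
    neg_eq_zero.mpr (h1 _ _ _ (by rw [ht_up, ht_up]; omega)), fun p u v w huvw => ?_⟩
  have c1 := L.x_comm huvw.1.2
  have c2 := L.x_comm huvw.2.1.2
  have c3 := L.x_comm huvw.2.2.2
  have a := h2 (p * L.x u * L.x v * L.x w) u v w huvw
  have e1 : p * L.x u * L.x v * L.x w * (L.x u)⁻¹ = p * L.x v * L.x w := by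
    rw [c1.right_comm, c3.right_comm, mul_inv_cancel_right]
  have e2 : p * L.x u * L.x v * L.x w * (L.x v)⁻¹ = p * L.x u * L.x w := by
    rw [c2.right_comm, mul_inv_cancel_right]
  have e3 : p * L.x v * L.x w * (L.x v)⁻¹ = p * L.x w := by rw [c2.right_comm, mul_inv_cancel_right]
  simp only [e1, e2, e3, mul_inv_cancel_right] at a
  rw [a, d2, ← c1.right_comm, ← c3.right_comm, ← c2.right_comm]
  abel

theorem o2 (ω : L.Γ → Fin N → Fin N → M) (h : ∀ p u v w, L.E3 u v w → L.d2 ω p u v w = 0)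
    (h0 : ∀ p u v, L.E2 u v → 0 ≤ L.ht p → ω p u v = 0) :
    ∃ ζ : L.Γ → Fin N → M, (∀ p u, 0 ≤ L.ht p → ζ p u = 0) ∧
      ∀ p u v, L.E2 u v → ω p u v = L.d1 ζ p u v :=
  L.gen2 L.ht_up (fun _ _ => L.x_comm) ω h h0

theorem o3 (κ : L.Γ → Fin N → Fin N → Fin N → M)
    (h0 : ∀ p u v w, L.E3 u v w → 0 ≤ L.ht p → κ p u v w = 0) :
    ∃ ω : L.Γ → Fin N → Fin N → M, (∀ p u v, 0 ≤ L.ht p → ω p u v = 0) ∧
      ∀ p u v w, L.E3 u v w → κ p u v w = L.d2 ω p u v w :=
  L.gen3 L.ht_up κ h0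

end Crest.Agent.R197.LD
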