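import Crest.Agent.R197.CubeX
import Crest.Agent.R197.CubeU

/-!
Task R197-Cube.  The level set of the height function is acyclic (Bestvina–Brady).

Plan.  `surj`: let `K ≤ L.Γ` be the image of `α`.  For adjacent `u, v`: `(x u)⁻¹ * x v = x v * (x u)⁻¹ ∈ K`; by `a0` (applied to
`v ↦ ((x v₀)⁻¹ * x v ∈ K : Prop)` and `v ↦ (x v * (x v₀)⁻¹ ∈ K)`) `(x u)⁻¹ * x v` and `x u * (x v)⁻¹` lie in `K` for all `u v`; so `K` is
normalised by all `x w`, and every `g` is `k * x v₀ ^ ht g` (induction with `closure_y`).  `rel`: `x_comm`.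
Dictionary: the edge `(g, (u, v))` is the square with bottom `p = g * (x u)⁻¹` (`ht p = -1`); for a cochain `ω` on edges put
`Ω p u v = if h : ht p = -1 ∧ E2 u v then ω (⟨p * x u, _⟩, ⟨(u, v), _⟩) else 0`.  Then for `t = (u, v, w)`:
`d2 Ω p u v w = - ev α ω (p * x u) (τ (t, true))` if `ht p = -1`, `= ev α ω (p * x u * x v) (τ (t, false))` if `ht p = -2`, else `0`.
`h1`: `Ω = d1 ζ` (`x2`); `o2` applied to `Ω` gives `ζ₃` vanishing for `0 ≤ ht p` with `d1 (ζ - ζ₃) = 0`, so (`x1`) `ζ = δ f⁺` on edges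
with `0 ≤ ht p`; likewise (`u2`) `ζ = δ f⁻` on edges with `ht p ≤ -1`; `f = f⁺ - f⁻`.
`h2`: extend `κ` to cubes (`- κ (p * x u, (t, true))` if `ht p = -1`, `κ (p * x u * x v, (t, false))` if `ht p = -2`, else `0`);
`η₁` from `u3`, `η₃` from `o3`, `η₁ - η₃ = d1 ζ₀` (`x2`), `ζ p u = if 0 ≤ ht p then ζ₀ p u else 0`, `η = η₁ - d1 ζ` has `d2 η = κ`
(`d2_d1`) and vanishes on ordered squares unless `ht p = -1`; `ω (g, (u, v)) = η (g * (x u)⁻¹) u v`.
-/

set_option autoImplicit false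

namespace Crest.Agent.R197

namespace CubeA

variable {N : ℕ} (L : LD N) {M : Type} [AddCommGroup M]

theorem surj : Function.Surjective L.α := by
  set K : Subgroup L.Γ := (L.HH.subtype.comp L.α).range with hK
  have h0 : ∀ u v, u < v → L.adj u v → (L.x u)⁻¹ * L.x v ∈ K := fun u v h h' =>
    ⟨FreeGroup.of ⟨(u, v), h, h'⟩, L.α_of _⟩
  have h1 : ∀ u v, (L.x u)⁻¹ * L.x v ∈ K := fun u v =>
    QuotientGroup.eq.1 (L.a0 (L.Γ ⧸ K) (fun v => (L.x v : L.Γ ⧸ K))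
      (fun u v h h' => QuotientGroup.eq.2 (h0 u v h h')) u v)
  have h2 : ∀ u v, L.x u * (L.x v)⁻¹ ∈ K := fun u v => by
    have := QuotientGroup.eq.1 (L.a0 (L.Γ ⧸ K) (fun v => (((L.x v)⁻¹ : L.Γ) : L.Γ ⧸ K))
      (fun u v h h' => QuotientGroup.eq.2 (by
        rw [inv_inv, (L.x_comm h').inv_right.eq]
        exact h1 v u)) u v)
    rwa [inv_inv] at this
  have h3 : ∀ g : L.Γ, (∀ u v, L.adj u v → g * ((L.x u)⁻¹ * L.x v) * g⁻¹ ∈ K) →
      ∀ n ∈ K, g * n * g⁻¹ ∈ K := by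
    rintro g hg _ ⟨w, rfl⟩
    induction w using FreeGroup.induction_on with
    | C1 => simp
    | of a => simpa using hg _ _ a.2.2
    | inv_of a h => simpa [mul_assoc] using inv_mem h
    | mul a b ha hb => simpa [mul_assoc] using mul_mem ha hb
  have h4 : ∀ w, ∀ n ∈ K, L.x w * n * (L.x w)⁻¹ ∈ K := fun w => h3 _ fun u v _ => by
    simpa [mul_assoc] using mul_mem (h2 w u) (h2 v w)
  have h5 : ∀ w, ∀ n ∈ K, (L.x w)⁻¹ * n * (L.x w)⁻¹⁻¹ ∈ K := fun w => h3 _ fun u v h => by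
    rw [(L.x_comm h).inv_left.eq]
    simpa [mul_assoc] using mul_mem (h1 w v) (h1 u w)
  have h6 : ∀ g : L.Γ, ∀ n ∈ K, g * n * g⁻¹ ∈ K ∧ g⁻¹ * n * g⁻¹⁻¹ ∈ K := by
    intro g
    have hg : g ∈ Subgroup.closure (Set.range L.P.y) := by rw [L.P.closure_y]; trivial
    induction hg using Subgroup.closure_induction with
    | mem x hx =>
      obtain ⟨⟨v, _ | _⟩, rfl⟩ := hx
      · rw [L.y_false]
        exact fun n hn => ⟨h5 v n hn, by simpa using h4 v n hn⟩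
      · exact fun n hn => ⟨h4 v n hn, h5 v n hn⟩
    | one => simp
    | mul a b _ _ ha hb =>
      exact fun n hn => ⟨by simpa [mul_assoc] using (ha _ (hb n hn).1).1,
        by simpa [mul_assoc] using (hb _ (ha n hn).2).2⟩
    | inv a _ ha => exact fun n hn => ⟨(ha n hn).2, by simpa using (ha n hn).1⟩
  haveI : K.Normal := ⟨fun n hn g => (h6 g n hn).1⟩
  have h7 : ∀ g : L.Γ, (g : L.Γ ⧸ K) = (L.x L.v₀ : L.Γ ⧸ K) ^ L.ht g := by
    intro g
    have hx : ∀ v, (L.x v : L.Γ ⧸ K) = (L.x L.v₀ : L.Γ ⧸ K) := fun v =>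
      QuotientGroup.eq.2 (h1 _ _)
    have hg : g ∈ Subgroup.closure (Set.range L.P.y) := by rw [L.P.closure_y]; trivial
    induction hg using Subgroup.closure_induction with
    | mem x hx' =>
      obtain ⟨⟨v, _ | _⟩, rfl⟩ := hx'
      · rw [L.y_false, QuotientGroup.mk_inv, hx, L.ht_inv, L.ht_x, zpow_neg_one]
      · rw [L.y_true, hx, L.ht_x, zpow_one]
    | one => simp
    | mul a b _ _ ha hb => rw [QuotientGroup.mk_mul, ha, hb, L.ht_mul, zpow_add]
    | inv a _ ha => rw [QuotientGroup.mk_inv, ha, L.ht_inv, zpow_neg]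
  rintro ⟨g, hg⟩
  have := h7 g
  rw [L.mem_HH.1 hg, zpow_zero, QuotientGroup.eq_one_iff] at this
  obtain ⟨w, hw⟩ := this
  exact ⟨w, Subtype.ext hw⟩

theorem rel (t : L.Tr × Bool) : L.α (L.τ t) = 1 := by
  obtain ⟨t, _ | _⟩ := t
  · refine Subtype.ext ?_
    have h4 : Commute ((L.x t.v)⁻¹ * L.x t.w) ((L.x t.u)⁻¹ * L.x t.v) :=
      ((L.x_comm t.uv.2).symm.inv_inv.mul_right (Commute.refl _).inv_left).mul_left
        ((L.x_comm t.uw.2).symm.inv_right.mul_right (L.x_comm t.vw.2).symm)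
    simp only [LD.τ, Bool.false_eq_true, if_false, map_mul, map_inv, Subgroup.coe_mul,
      Subgroup.coe_inv, LD.α_of, h4.eq]
    simp
  · refine Subtype.ext ?_
    simp [LD.τ]

theorem key (η : L.Γ → Fin N → Fin N → M) (hη : ∀ p u v, L.E2 u v → L.ht p ≠ -1 → η p u v = 0)
    (ω : L.HH × L.A → M) (hω : ∀ g a, ω (g, a) = η (g * (L.x a.1.1)⁻¹) a.1.1 a.1.2) (g : L.HH)
    (t : L.Tr) :
    ev L.α ω g (L.τ (t, true)) = - L.d2 η (g * (L.x t.u)⁻¹) t.u t.v t.w ∧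
      ev L.α ω g (L.τ (t, false)) = L.d2 η (g * (L.x t.v)⁻¹ * (L.x t.u)⁻¹) t.u t.v t.w := by
  have hg : L.ht g = 0 := g.2
  have r1 := rel L (t, true)
  have r2 := rel L (t, false)
  simp only [LD.τ, Bool.false_eq_true, if_false, if_true, map_mul, map_inv] at r1 r2
  constructor
  · simp only [LD.τ, if_true, ev_mul, ev_inv, ev_of, map_mul, mul_assoc g, r1, mul_one, hω, LD.d2]
    rw [hη (_ * L.x t.u) _ _ t.vw (by simp [hg]), hη (_ * L.x t.v) _ _ t.uw (by simp [hg]),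
      hη (_ * L.x t.w) _ _ t.uv (by simp [hg])]
    simp only [Subgroup.coe_mul, LD.α_of, mul_assoc, mul_inv_cancel, mul_one]
    abel
  · simp only [LD.τ, Bool.false_eq_true, if_false, ev_mul, ev_inv, ev_of, map_mul, mul_assoc g, r2,
      mul_one, hω, LD.d2]
    rw [hη (_ * (L.x t.u)⁻¹) _ _ t.vw (by simp [hg]),
      hη (_ * _ * (L.x t.u)⁻¹) _ _ t.uw (by simp [hg]),
      hη (_ * _ * (L.x t.u)⁻¹) t.u t.v t.uv (by simp [hg])]
    simp only [Subgroup.coe_mul, LD.α_of, mul_assoc, inv_mul_cancel, mul_one,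
      (L.x_comm t.uv.2).inv_left.eq, (L.x_comm t.uw.2).inv_left.eq, inv_mul_cancel_left]
    abel

end CubeA

open CubeA in
theorem LD.acy {N : ℕ} (L : LD N) : Acy L.α L.τ := by
  classical
  refine ⟨surj L, rel L, fun M _ ω h => ?_, fun M _ κ => ?_⟩
  · set Ω : L.Γ → Fin N → Fin N → M := fun p u v =>
      if h : L.ht (p * L.x u) = 0 ∧ L.E2 u v then ω (⟨p * L.x u, h.1⟩, ⟨(u, v), h.2⟩) else 0
      with hΩ
    have h0 : ∀ p u v, L.E2 u v → L.ht p ≠ -1 → Ω p u v = 0 := fun p u v _ hp =>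
      dif_neg fun h => hp (by have := h.1; simp at this; omega)
    have h1 : ∀ (g : L.HH) (a : L.A), ω (g, a) = Ω (g * (L.x a.1.1)⁻¹) a.1.1 a.1.2 := by
      intro g a
      have hg : L.ht g = 0 := g.2
      simp only [hΩ]
      rw [dif_pos ⟨by simp [hg], a.2⟩]
      congr 2
      exact Subtype.ext (by simp)
    have h2 : ∀ p u v w, L.E3 u v w → L.d2 Ω p u v w = 0 := by
      intro p u v w ht
      by_cases a1 : L.ht p = -1
      · have := (key L Ω h0 ω h1 ⟨p * L.x u, by simp [LD.mem_HH, a1]⟩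
          ⟨u, v, w, ht.1, ht.2.1, ht.2.2⟩).1
        rw [h] at this
        simpa using this.symm
      by_cases a2 : L.ht p = -2
      · have := (key L Ω h0 ω h1 ⟨p * L.x u * L.x v, by simp [LD.mem_HH, a2]⟩
          ⟨u, v, w, ht.1, ht.2.1, ht.2.2⟩).2
        rw [h] at this
        simpa using this.symm
      have a3 : ∀ z, L.ht (p * L.x z) ≠ -1 := fun z => by simp; omega
      simp only [LD.d2, h0 _ _ _ ht.1 a1, h0 _ _ _ ht.2.1 a1, h0 _ _ _ ht.2.2 a1,
        h0 _ _ _ ht.1 (a3 _), h0 _ _ _ ht.2.1 (a3 _), h0 _ _ _ ht.2.2 (a3 _)]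
      simp
    obtain ⟨ζ₂, b₂, c₂⟩ := L.u2 Ω h2 fun p u v h hp => h0 p u v h (by omega)
    obtain ⟨ζ₃, b₃, c₃⟩ := L.o2 Ω h2 fun p u v h hp => h0 p u v h (by omega)
    obtain ⟨f, hf⟩ := L.x1 (fun p u => ζ₃ p u - ζ₂ p u) fun p u v h => by
      have := (c₂ p u v h).symm.trans (c₃ p u v h)
      simp only [LD.d1] at this ⊢
      rw [← sub_eq_zero] at this
      rw [← neg_eq_zero, ← this]
      abel
    refine ⟨fun g => - f g, fun g a => ?_⟩
    have hg : L.ht g = 0 := g.2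
    have e1 := hf (g * (L.x a.1.1)⁻¹ * L.x a.1.1) a.1.2
    have e2 := hf (g * (L.x a.1.1)⁻¹ * L.x a.1.2) a.1.1
    rw [b₃ _ _ (by simp [hg]), zero_sub, neg_eq_iff_eq_neg] at e1 e2
    rw [h1, c₂ _ _ _ a.2, LD.d1, b₂ _ _ (by simp [hg]), b₂ (_ * (L.x _)⁻¹) _ (by simp [hg]), e1, e2]
    simp only [Subgroup.coe_mul, LD.α_of, mul_assoc, ← (L.x_comm a.2.2).eq, inv_mul_cancel,
      mul_one, inv_mul_cancel_left]
    abel
  · set κ' : L.Γ → Fin N → Fin N → Fin N → M := fun p u v w =>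
      if h : L.ht (p * L.x u) = 0 ∧ L.E3 u v w then
        - κ (⟨p * L.x u, h.1⟩, ⟨u, v, w, h.2.1, h.2.2.1, h.2.2.2⟩, true)
      else if h : L.ht (p * L.x u * L.x v) = 0 ∧ L.E3 u v w then
        κ (⟨p * L.x u * L.x v, h.1⟩, ⟨u, v, w, h.2.1, h.2.2.1, h.2.2.2⟩, false) else 0 with hκ
    have h0 : ∀ p u v w, L.ht p ≠ -1 → L.ht p ≠ -2 → κ' p u v w = 0 := fun p u v w a1 a2 => by
      simp only [hκ]
      rw [dif_neg fun h => a1 (by have := h.1; simp at this; omega),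
        dif_neg fun h => a2 (by have := h.1; simp at this; omega)]
    obtain ⟨η₁, b₁, c₁⟩ := L.u3 κ' fun p u v w _ hp => h0 p u v w (by omega) (by omega)
    obtain ⟨η₃, b₃, c₃⟩ := L.o3 κ' fun p u v w _ hp => h0 p u v w (by omega) (by omega)
    obtain ⟨ζ₀, hζ⟩ := L.x2 (fun p u v => η₁ p u v - η₃ p u v) fun p u v w h => by
      have := (c₁ p u v w h).symm.trans (c₃ p u v w h)
      simp only [LD.d2] at this ⊢
      rw [← sub_eq_zero] at this
      rw [← this]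
      abel
    set ζ : L.Γ → Fin N → M := fun p u => if 0 ≤ L.ht p then ζ₀ p u else 0 with hζ'
    set η : L.Γ → Fin N → Fin N → M := fun p u v => η₁ p u v - L.d1 ζ p u v with hη
    have h1 : ∀ p u v, L.E2 u v → L.ht p ≠ -1 → η p u v = 0 := by
      intro p u v h hp
      rcases le_or_gt 0 (L.ht p) with a | a
      · have a' : 0 ≤ L.ht p + 1 := by omega
        have := hζ p u v h
        rw [b₃ p u v a, sub_zero] at this
        simp only [hη, this, LD.d1, hζ', LD.ht_mul, LD.ht_x, if_pos a, if_pos a', sub_self]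
      · have a' : ¬ 0 ≤ L.ht p + 1 := by omega
        simp only [hη, b₁ p u v (by omega), LD.d1, hζ', LD.ht_mul, LD.ht_x, if_neg (not_le.2 a),
          if_neg a']
        simp
    have h2 : ∀ p u v w, L.E3 u v w → L.d2 η p u v w = κ' p u v w := by
      intro p u v w h
      have := L.d2_d1 ζ p h
      rw [c₁ p u v w h, ← sub_zero (L.d2 η₁ p u v w), ← this]
      simp only [LD.d2, hη]
      abel
    refine ⟨fun e => η (e.1 * (L.x e.2.1.1)⁻¹) e.2.1.1 e.2.1.2, fun g t => ?_⟩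
    have hg : L.ht g = 0 := g.2
    have h3 := key L η h1 (fun e => η (e.1 * (L.x e.2.1.1)⁻¹) e.2.1.1 e.2.1.2) (fun _ _ => rfl) g t.1
    have ht : L.E3 t.1.u t.1.v t.1.w := ⟨t.1.uv, t.1.vw, t.1.uw⟩
    obtain ⟨t, _ | _⟩ := t
    · rw [h3.2, h2 _ _ _ _ ht]
      simp only [hκ]
      rw [dif_neg fun h => by have := h.1; simp [hg] at this, dif_pos ⟨by simp [hg], ht⟩]
      congr 2
      exact Subtype.ext (by simp)
    · rw [h3.1, h2 _ _ _ _ ht]
      simp only [hκ]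
      rw [dif_pos ⟨by simp [hg], ht⟩, neg_neg]
      congr 2
      exact Subtype.ext (by simp)

end Crest.Agent.R197
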