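import Crest.Agent.R197.Raag

/-!
Task R197-CubeX.  `H¹ = H² = 0` for the cube complex of the Artin group.

Plan.  `x1`: `PCD.lift` into `Wr L.Γ (Multiplicative M)`, `(v, true) ↦ ⟨fun g => ofAdd (ζ g v), x v⟩`, `(v, false) ↦` the inverse;
the `a`-component of the resulting homomorphism `Φ` is the identity (`closure_y` / `PresentedGroup.ext`); `f g = (Φ g).f 1`.
(`d1 ζ p u v = - d1 ζ p v u`, so the hypothesis holds for all adjacent `u, v`.)
`x2`: pass to signed coordinates.  For letters `a b : Fin N × Bool` with `adj a.1 b.1` let `lo a = if a.2 then 1 else (x a.1)⁻¹`,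
`sg a = ±1`, and `Ω g a b = sg a * sg b • ω' (g * lo a * lo b) a.1 b.1` with `ω'` the antisymmetric extension of `ω`.  Then
`Ω g b a = - Ω g a b`, `Ω (g * y a) (inv a) b = - Ω g a b`, and for pairwise adjacent `a b c`
`Ω (g * y a) b c - Ω g b c - (Ω (g * y b) a c - Ω g a c) + (Ω (g * y c) a b - Ω g a b) = 0`.
With `ℓ` from `exists_len` and `D g a := ℓ (g * y a) + 1 = ℓ g` choose `a₀ g` with `D g (a₀ g)` if there is one, and define by
recursion on `ℓ g` for `D g b`: `Z g b = if b = a₀ then 0 else Z (g * y a₀) b - Z (g * y b) a₀ - Ω g a₀ b` (`two`, `comm` show that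
these edges descend again).  By induction on `ℓ g`: `Ω g a b = Z g a + Z (g * y a) b - Z (g * y b) a - Z g b` whenever `D g a`,
`D g b`, `a ≠ b` (cocycle identity for `a₀, a, b`).  Extend `Z` to all signed edges by `Z g a = - Z (g * y a) (inv a)` if `¬ D g a`
(`step`); the identity is invariant under the reflection `(g, a) ↦ (g * y a, inv a)`, and every square can be reflected to a
descending one (`step`, `comm`).  `ζ p u = Z p (u, true)`.
-/

set_option autoImplicit false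

namespace Crest.Agent.R197

namespace PCD

variable {Λ : Type} (P : PCD Λ) {M : Type} [AddCommGroup M]

theorem y_mul_inv (g : P.Grp) (a : Λ) : g * P.y a * P.y (P.inv a) = g := by
  rw [P.y_inv, mul_inv_cancel_right]

theorem y_swap {a b : Λ} (h : P.cm a b) (g : P.Grp) : g * P.y a * P.y b = g * P.y b * P.y a := by
  rw [mul_assoc, (P.y_comm h).eq, mul_assoc]

open Classical in
/-- The recursion on the word length. -/
noncomputable def Zr (a₀ : P.Grp → Λ) (Ω : P.Grp → Λ → Λ → M) : ℕ → P.Grp → Λ → M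
  | 0 => fun _ _ => 0
  | n + 1 => fun g b => if b = a₀ g then 0 else
      Zr a₀ Ω n (g * P.y (a₀ g)) b - Zr a₀ Ω n (g * P.y b) (a₀ g) - Ω g (a₀ g) b

theorem h2_desc [Nonempty Λ] {ℓ : P.Grp → ℕ} (hℓ : P.Len ℓ) (Ω : P.Grp → Λ → Λ → M)
    (anti : ∀ g a b, P.cm a b → Ω g b a = - Ω g a b)
    (coc : ∀ g a b c, P.cm a b → P.cm b c → P.cm a c →
      Ω (g * P.y a) b c - Ω g b c - (Ω (g * P.y b) a c - Ω g a c) +
        (Ω (g * P.y c) a b - Ω g a b) = 0) :
    ∃ Z : P.Grp → Λ → M, ∀ g a b, ℓ (g * P.y a) + 1 = ℓ g → ℓ (g * P.y b) + 1 = ℓ g → a ≠ b →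
      Ω g a b = Z g a + Z (g * P.y a) b - Z (g * P.y b) a - Z g b := by
  classical
  let a₀ : P.Grp → Λ := fun g => Classical.epsilon fun a => ℓ (g * P.y a) + 1 = ℓ g
  have ha₀ : ∀ g b, ℓ (g * P.y b) + 1 = ℓ g → ℓ (g * P.y (a₀ g)) + 1 = ℓ g := fun g b h =>
    Classical.epsilon_spec (p := fun a => ℓ (g * P.y a) + 1 = ℓ g) ⟨b, h⟩
  let Z : P.Grp → Λ → M := fun g b => P.Zr a₀ Ω (ℓ g) g b
  have hZ : ∀ g b, ℓ (g * P.y b) + 1 = ℓ g → Z g b = if b = a₀ g then 0 else
      Z (g * P.y (a₀ g)) b - Z (g * P.y b) (a₀ g) - Ω g (a₀ g) b := by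
    intro g b h
    have h' := ha₀ g b h
    have e : ℓ (g * P.y (a₀ g)) = ℓ (g * P.y b) := by omega
    simp only [Z]
    rw [e, ← h, Zr]
  have base : ∀ g b, ℓ (g * P.y b) + 1 = ℓ g → a₀ g ≠ b →
      Ω g (a₀ g) b = Z g (a₀ g) + Z (g * P.y (a₀ g)) b - Z (g * P.y b) (a₀ g) - Z g b := by
    intro g b h hb
    rw [hZ g b h, if_neg hb.symm, hZ g _ (ha₀ g b h), if_pos rfl]
    abel
  refine ⟨Z, fun g => ?_⟩
  induction hn : ℓ g using Nat.strong_induction_on generalizing g with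
  | _ n ih =>
  subst hn
  intro a b ha hb hab
  have cab := hℓ.two g a b ha hb hab
  by_cases h1 : a₀ g = a
  · subst h1
    exact base g b hb hab
  by_cases h2 : a₀ g = b
  · subst h2
    have := base g a ha h1
    rw [anti g _ _ (P.symm _ _ cab), this]
    abel
  have h0 := ha₀ g a ha
  have c0a := hℓ.two g _ a h0 ha h1
  have c0b := hℓ.two g _ b h0 hb h2
  have e1 := base g a ha h1
  have e2 := base g b hb h2
  generalize a₀ g = c at *
  have e3 := ih _ (by omega) (g * P.y c) rfl a b ((hℓ.comm g a c (P.symm _ _ c0a)).2 ha)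
    ((hℓ.comm g b c (P.symm _ _ c0b)).2 hb) hab
  have e4 := ih _ (by omega) (g * P.y a) rfl c b ((hℓ.comm g c a c0a).2 h0)
    ((hℓ.comm g b a (P.symm _ _ cab)).2 hb) h2
  have e5 := ih _ (by omega) (g * P.y b) rfl c a ((hℓ.comm g c b c0b).2 h0)
    ((hℓ.comm g a b cab).2 ha) h1
  have e6 := coc g c a b c0a cab c0b
  rw [e1, e2, e3, e4, e5, P.y_swap c0a, P.y_swap c0b, P.y_swap cab] at e6
  rw [← sub_eq_zero, ← neg_eq_zero, ← e6]
  abel

theorem h2 [Nonempty Λ] (Ω : P.Grp → Λ → Λ → M)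
    (anti : ∀ g a b, P.cm a b → Ω g b a = - Ω g a b)
    (refl : ∀ g a b, P.cm a b → Ω (g * P.y a) (P.inv a) b = - Ω g a b)
    (coc : ∀ g a b c, P.cm a b → P.cm b c → P.cm a c →
      Ω (g * P.y a) b c - Ω g b c - (Ω (g * P.y b) a c - Ω g a c) +
        (Ω (g * P.y c) a b - Ω g a b) = 0) :
    ∃ Z : P.Grp → Λ → M, ∀ g a b, P.cm a b →
      Ω g a b = Z g a + Z (g * P.y a) b - Z (g * P.y b) a - Z g b := by
  classical
  obtain ⟨ℓ, hℓ⟩ := P.exists_len
  obtain ⟨Z₀, hZ₀⟩ := P.h2_desc hℓ Ω anti coc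
  let Z : P.Grp → Λ → M := fun g a =>
    if ℓ (g * P.y a) + 1 = ℓ g then Z₀ g a else - Z₀ (g * P.y a) (P.inv a)
  have up : ∀ g a, ¬ ℓ (g * P.y a) + 1 = ℓ g →
      ℓ (g * P.y a * P.y (P.inv a)) + 1 = ℓ (g * P.y a) := by
    intro g a h
    rw [P.y_mul_inv]
    have := hℓ.step g a
    omega
  have hd : ∀ g a, ℓ (g * P.y a) + 1 = ℓ g → Z g a = Z₀ g a := fun g a h => if_pos h
  have hr : ∀ g a, Z (g * P.y a) (P.inv a) = - Z g a := by
    intro g a
    by_cases h : ℓ (g * P.y a) + 1 = ℓ g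
    · rw [hd g a h]
      simp only [Z]
      rw [P.y_mul_inv, P.inv_inv, if_neg (by omega)]
    · rw [hd _ _ (up g a h)]
      simp only [Z]
      rw [if_neg h, neg_neg]
  let E : P.Grp → Λ → Λ → M := fun g a b =>
    Ω g a b - (Z g a + Z (g * P.y a) b - Z (g * P.y b) a - Z g b)
  have Ea : ∀ g a b, P.cm a b → E g b a = - E g a b := by
    intro g a b h
    simp only [E]
    rw [anti g a b h]
    abel
  have Er : ∀ g a b, P.cm a b → E (g * P.y a) (P.inv a) b = - E g a b := by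
    intro g a b h
    simp only [E]
    rw [refl g a b h, hr, P.y_mul_inv, P.y_swap h, hr]
    abel
  have E1 : ∀ g a b, P.cm a b → ℓ (g * P.y a) + 1 = ℓ g → ℓ (g * P.y b) + 1 = ℓ g →
      E g a b = 0 := by
    intro g a b h ha hb
    have hab : a ≠ b := by
      rintro rfl
      exact P.irrefl _ h
    simp only [E]
    rw [hd g a ha, hd g b hb, hd _ _ ((hℓ.comm g a b h).2 ha),
      hd _ _ ((hℓ.comm g b a (P.symm _ _ h)).2 hb), hZ₀ g a b ha hb hab, sub_self]
  have E2 : ∀ g a b, P.cm a b → ℓ (g * P.y b) + 1 = ℓ g → E g a b = 0 := by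
    intro g a b h hb
    by_cases ha : ℓ (g * P.y a) + 1 = ℓ g
    · exact E1 g a b h ha hb
    · rw [← neg_eq_zero, ← Er g a b h]
      exact E1 _ _ _ (P.cm_inv _ _ h) (up g a ha) ((hℓ.comm g b a (P.symm _ _ h)).2 hb)
  refine ⟨Z, fun g a b h => sub_eq_zero.1 ?_⟩
  change E g a b = 0
  by_cases hb : ℓ (g * P.y b) + 1 = ℓ g
  · exact E2 g a b h hb
  · have h' := P.cm_inv _ _ (P.symm _ _ h)
    have := E2 _ a _ (P.symm _ _ h') (up g b hb)
    rw [Ea _ _ _ h', Er _ _ _ (P.symm _ _ h), Ea _ _ _ h] at this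
    simpa using this

end PCD

namespace LD

variable {N : ℕ} (L : LD N) {M : Type} [AddCommGroup M]

theorem x1 (ζ : L.Γ → Fin N → M) (h : ∀ p u v, L.E2 u v → L.d1 ζ p u v = 0) :
    ∃ f : L.Γ → M, ∀ p u, ζ p u = f (p * L.x u) - f p := by
  have h' : ∀ p u v, L.adj u v → ζ p u + ζ (p * L.x u) v = ζ p v + ζ (p * L.x v) u := by
    intro p u v huv
    rcases lt_trichotomy u v with hl | hl | hl
    · have := h p u v ⟨hl, huv⟩
      rw [← sub_eq_zero, ← this, d1]
      abel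
    · subst hl
      rfl
    · have := h p v u ⟨hl, L.symm _ _ huv⟩
      rw [← sub_eq_zero, ← neg_eq_zero, ← this, d1]
      abel
  let w : Fin N → Wr L.Γ (Multiplicative M) := fun v =>
    ⟨fun g => Multiplicative.ofAdd (ζ g v), L.x v⟩
  have hw : ∀ u v, L.adj u v → Commute (w u) (w v) := fun u v huv =>
    Wr.ext (funext fun g => by simpa [w, ← ofAdd_add] using h' g u v huv) (L.x_comm huv).eq
  let Φ : L.Γ →* Wr L.Γ (Multiplicative M) :=
    L.P.lift (fun a => if a.2 then w a.1 else (w a.1)⁻¹)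
      (by rintro ⟨v, _ | _⟩ <;> simp [P])
      (by
        rintro ⟨u, _ | _⟩ ⟨v, _ | _⟩ huv
        · exact (hw u v huv).inv_inv.eq
        · exact (hw u v huv).inv_left.eq
        · exact (hw u v huv).inv_right.eq
        · exact (hw u v huv).eq)
  have hx : ∀ u, Φ (L.x u) = w u := fun u => by simp [Φ, x]
  have ha : ∀ g, (Φ g).a = g := by
    intro g
    have hg : g ∈ Subgroup.closure (Set.range L.P.y) := by rw [PCD.closure_y]; trivial
    induction hg using Subgroup.closure_induction with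
    | mem g hg =>
      obtain ⟨⟨v, _ | _⟩, rfl⟩ := hg
      · rw [y_false, map_inv, hx]; rfl
      · rw [y_true, hx]
    | one => simp
    | mul g g' _ _ h1 h2 => simp [h1, h2]
    | inv g _ h1 => simp [h1]
  refine ⟨fun g => Multiplicative.toAdd ((Φ g).f 1), fun p u => ?_⟩
  simp [hx, ha, w]

/-- The lower end of a signed edge. -/
def lo (a : Fin N × Bool) : L.Γ := if a.2 then 1 else (L.x a.1)⁻¹

/-- The sign of a letter. -/
def sg (a : Fin N × Bool) : ℤ := if a.2 then 1 else -1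

theorem x_lo {u : Fin N} {b : Fin N × Bool} (h : L.adj u b.1) : Commute (L.x u) (L.lo b) := by
  obtain ⟨v, _ | _⟩ := b
  · exact (L.x_comm h).inv_right
  · exact Commute.one_right _

theorem lo_lo {a b : Fin N × Bool} (h : L.adj a.1 b.1) : Commute (L.lo a) (L.lo b) := by
  obtain ⟨v, _ | _⟩ := a
  · exact (L.x_lo h).inv_left
  · exact Commute.one_left _

theorem lo_key (φ : L.Γ → M) (g : L.Γ) (a : Fin N × Bool) {r : L.Γ} (h : Commute (L.x a.1) r) :
    φ (g * L.P.y a * r) - φ (g * r) =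
      sg a • (φ (g * (L.lo a * r) * L.x a.1) - φ (g * (L.lo a * r))) := by
  obtain ⟨v, _ | _⟩ := a
  · have : (L.x v)⁻¹ * (r * L.x v) = r := by rw [← h.eq, inv_mul_cancel_left]
    simp [y_false, lo, sg, mul_assoc, this]
  · simp [y_true, lo, sg, mul_assoc, h.eq]

theorem x2 (ω : L.Γ → Fin N → Fin N → M) (h : ∀ p u v w, L.E3 u v w → L.d2 ω p u v w = 0) :
    ∃ ζ : L.Γ → Fin N → M, ∀ p u v, L.E2 u v → ω p u v = L.d1 ζ p u v := by
  have : Nonempty (Fin N × Bool) := ⟨(L.v₀, true)⟩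
  let ω' : L.Γ → Fin N → Fin N → M := fun p u v => if u < v then ω p u v else - ω p v u
  have ne : ∀ {u v}, L.adj u v → u ≠ v := by
    rintro u v h rfl
    exact L.irrefl _ h
  have anti : ∀ p u v, L.adj u v → ω' p v u = - ω' p u v := by
    intro p u v huv
    rcases lt_or_gt_of_ne (ne huv) with hl | hl
    · simp [ω', hl, hl.not_gt]
    · simp [ω', hl, hl.not_gt]
  have s1 : ∀ p u v w, L.adj u v → L.d2 ω' p u v w = 0 → L.d2 ω' p v u w = 0 := by
    intro p u v w huv h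
    rw [← neg_eq_zero, ← h, d2, d2, anti _ u v huv, anti _ u v huv]
    abel
  have s2 : ∀ p u v w, L.adj v w → L.d2 ω' p u v w = 0 → L.d2 ω' p u w v = 0 := by
    intro p u v w hvw h
    rw [← neg_eq_zero, ← h, d2, d2, anti _ v w hvw, anti _ v w hvw]
    abel
  have s0 : ∀ p u v w, L.adj u v → L.adj v w → L.adj u w → u < v → v < w →
      L.d2 ω' p u v w = 0 := by
    intro p u v w h1 h2 h3 l1 l2
    have := h p u v w ⟨⟨l1, h1⟩, ⟨l2, h2⟩, ⟨l1.trans l2, h3⟩⟩
    simpa [d2, ω', l1, l2, l1.trans l2] using this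
  have coc : ∀ p u v w, L.adj u v → L.adj v w → L.adj u w → L.d2 ω' p u v w = 0 := by
    intro p u v w h1 h2 h3
    have h1' := L.symm _ _ h1
    have h2' := L.symm _ _ h2
    have h3' := L.symm _ _ h3
    rcases lt_or_gt_of_ne (ne h1) with l1 | l1 <;> rcases lt_or_gt_of_ne (ne h2) with l2 | l2 <;>
      rcases lt_or_gt_of_ne (ne h3) with l3 | l3
    · exact s0 p u v w h1 h2 h3 l1 l2
    · exact s0 p u v w h1 h2 h3 l1 l2
    · exact s2 _ _ _ _ h2' (s0 p u w v h3 h2' h1 l3 l2)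
    · exact s2 _ _ _ _ h2' (s1 _ _ _ _ h3' (s0 p w u v h3' h1 h2' l3 l1))
    · exact s1 _ _ _ _ h1' (s0 p v u w h1' h3 h2 l1 l3)
    · exact s1 _ _ _ _ h1' (s2 _ _ _ _ h3' (s0 p v w u h2 h3' h1' l2 l3))
    · exact absurd (l2.trans l1) l3.not_gt
    · exact s1 _ _ _ _ h1' (s2 _ _ _ _ h3' (s1 _ _ _ _ h2' (s0 p w v u h2' h1' h3' l2 l1)))
  obtain ⟨Z, hZ⟩ := L.P.h2 (fun g a b => (sg a * sg b) • ω' (g * (L.lo a * L.lo b)) a.1 b.1)
    (fun g a b hab => by
      rw [anti _ _ _ hab, (L.lo_lo hab).eq, mul_comm (sg b), smul_neg])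
    (fun g a b _ => by
      have e1 : L.P.y a * L.lo (L.P.inv a) = L.lo a := by
        obtain ⟨v, _ | _⟩ := a
        · rw [y_false]; exact mul_one _
        · exact mul_inv_cancel _
      have e2 : sg (L.P.inv a) = - sg a := by obtain ⟨v, _ | _⟩ := a <;> rfl
      rw [mul_assoc, ← mul_assoc (L.P.y a), e1, e2, neg_mul, neg_smul]
      rfl)
    (fun g a b c hab hbc hac => by
      have hba := L.symm _ _ hab
      have e1 := L.lo_key (fun p => ω' p b.1 c.1) g a ((L.x_lo hab).mul_right (L.x_lo hac))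
      have e2 := L.lo_key (fun p => ω' p a.1 c.1) g b ((L.x_lo hba).mul_right (L.x_lo hbc))
      have e3 := L.lo_key (fun p => ω' p a.1 b.1) g c
        ((L.x_lo (L.symm _ _ hac)).mul_right (L.x_lo (L.symm _ _ hbc)))
      have c2 : L.lo b * (L.lo a * L.lo c) = L.lo a * (L.lo b * L.lo c) :=
        ((L.lo_lo hab).left_comm _).symm
      have c3 : L.lo c * (L.lo a * L.lo b) = L.lo a * (L.lo b * L.lo c) := by
        rw [← (L.lo_lo hac).left_comm, (L.lo_lo hbc).eq]
      rw [c2] at e2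
      rw [c3] at e3
      have e4 := coc (g * (L.lo a * (L.lo b * L.lo c))) a.1 b.1 c.1 hab hbc hac
      rw [← smul_sub, ← smul_sub, ← smul_sub, e1, e2, e3, ← smul_zero (sg a * sg b * sg c), ← e4,
        d2]
      module)
  refine ⟨fun p u => Z p (u, true), fun p u v huv => ?_⟩
  have := hZ p (u, true) (v, true) huv.2
  simpa [lo, sg, ω', huv.1, d1, x] using this

end LD

end Crest.Agent.R197
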