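import Crest.Agent.R197.TDefs

/-!
Task R197-Cw0.  A two-dimensional CW complex in the form `CS2`.

Plan.  `X1 = skeletonLT univ 2`, `X0` = preimage in `X1` of `skeletonLT univ 1` (or unions of open cells of dimension `≤ 1`, `≤ 0`),
`S = cell univ 1`, `R = cell univ 2`.  `c1.χ s w = map 1 s (fun _ => max (-1) (min w 1))`,
`c2.χ r w = map 2 r (h w)` with `h w = (min ‖w‖ 1 / ‖e w‖) • e w`, `e w = ![w.re, w.im]` (sup norm; `h` is continuous also at `0`, has
norm `min ‖w‖ 1`, is injective on the open ball and maps it onto the open ball, maps the closed ball onto the closed ball).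
`weak`, `disc`, `closedB`: `RelCWComplex.isClosed_of_disjoint_openCell_or_isClosed_inter_closedCell` (or the `CWComplex` version);
`A ∩ closedCell = χ '' (χ ⁻¹' A ∩ closedBall 0 1)` is compact; for `c1` work with `Subtype.val '' A` and the closed embedding of `X1`.
-/

set_option autoImplicit false

namespace Crest.Agent.R197

open Set Metric _root_.Topology

namespace Cw0

theorem exists_rad {𝔼 F : Type} [NormedAddCommGroup 𝔼] [NormedSpace ℝ 𝔼] [NormedAddCommGroup F]
    [NormedSpace ℝ F] (e : 𝔼 ≃L[ℝ] F) : ∃ h : 𝔼 → F, Continuous h ∧ (∀ w, ‖h w‖ = min ‖w‖ 1) ∧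
      (∀ w w', ‖w‖ < 1 → ‖w'‖ < 1 → h w = h w' → w = w') ∧
      ∀ y, ‖y‖ ≤ 1 → ∃ w, ‖w‖ = ‖y‖ ∧ h w = y := by
  have hn : ∀ w, ‖(min ‖w‖ 1 / ‖e w‖) • e w‖ = min ‖w‖ 1 := by
    intro w
    by_cases h : w = 0
    · simp [h]
    · have h1 : ‖e w‖ ≠ 0 := by simpa using h
      rw [norm_smul, Real.norm_eq_abs, abs_of_nonneg (by positivity), div_mul_cancel₀ _ h1]
  refine ⟨fun w => (min ‖w‖ 1 / ‖e w‖) • e w, ?_, hn, ?_, ?_⟩
  · rw [continuous_iff_continuousAt]
    intro w
    by_cases h : w = 0
    · subst h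
      unfold ContinuousAt
      simp only [map_zero, smul_zero]
      refine squeeze_zero_norm (fun w => (hn w).le.trans (min_le_left _ _)) ?_
      exact tendsto_norm_zero
    · have h1 : ‖e w‖ ≠ 0 := by simpa using h
      exact ContinuousAt.smul (ContinuousAt.div (by fun_prop) (by fun_prop) h1) (by fun_prop)
  · intro w w' hw hw' h
    simp only at h
    have h1 := hn w
    rw [h, hn, min_eq_left hw.le, min_eq_left hw'.le] at h1
    by_cases h0 : w = 0
    · rw [h0, norm_zero, norm_eq_zero] at h1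
      rw [h0, h1]
    · have h2 : 0 < ‖w‖ := norm_pos_iff.mpr h0
      have h0' : w' ≠ 0 := norm_pos_iff.mp (h1 ▸ h2)
      have h3 : 0 < ‖e w‖ := by simpa using h0
      have h4 : 0 < ‖e w'‖ := by simpa using h0'
      rw [min_eq_left hw.le, min_eq_left hw'.le, ← map_smul, ← map_smul, e.injective.eq_iff,
        h1] at h
      have h5 := congrArg norm h
      rw [norm_smul, norm_smul, h1] at h5
      have h6 := mul_right_cancel₀ h2.ne' h5
      rw [Real.norm_eq_abs, Real.norm_eq_abs, abs_of_pos (by positivity),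
        abs_of_pos (by positivity)] at h6
      rw [h6] at h
      exact smul_right_injective _ (by positivity) h
  · intro y hy
    by_cases h0 : y = 0
    · exact ⟨0, by simp [h0], by simp [h0]⟩
    · have h2 : 0 < ‖y‖ := norm_pos_iff.mpr h0
      have h3 : 0 < ‖e.symm y‖ := by simpa using h0
      have h4 : ‖(‖y‖ / ‖e.symm y‖) • e.symm y‖ = ‖y‖ := by
        rw [norm_smul, Real.norm_eq_abs, abs_of_pos (by positivity), div_mul_cancel₀ _ h3.ne']
      refine ⟨_, h4, ?_⟩
      simp only
      rw [h4, min_eq_left hy, map_smul, e.apply_symm_apply, norm_smul, Real.norm_eq_abs,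
        abs_of_pos (by positivity), smul_smul]
      have : ‖y‖ / (‖y‖ / ‖e.symm y‖ * ‖y‖) * (‖y‖ / ‖e.symm y‖) = 1 := by
        field_simp
      rw [this, one_smul]

variable {X : Type} [TopologicalSpace X] [CWComplex (univ : Set X)]

open CWComplex RelCWComplex

/-- The skeleta. -/
def sk (X : Type) [TopologicalSpace X] [CWComplex (univ : Set X)] (n : ℕ) : Set X :=
  {x | ∃ m < n, ∃ j : cell (univ : Set X) m, x ∈ openCell m j}

theorem fr_sub (n : ℕ) (j : cell (univ : Set X) n) : cellFrontier n j ⊆ sk X n := by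
  obtain ⟨I, hI⟩ := CWComplex.cellFrontier_subset_finite_openCell n j
  intro x hx
  have := hI hx
  simp only [mem_iUnion] at this
  obtain ⟨m, hm, i, -, hi⟩ := this
  exact ⟨m, hm, i, hi⟩

theorem cl_sub {m n : ℕ} (h : m < n) (j : cell (univ : Set X) m) : closedCell m j ⊆ sk X n := by
  rw [← RelCWComplex.cellFrontier_union_openCell_eq_closedCell]
  rintro x (hx | hx)
  · obtain ⟨k, hk, i, hi⟩ := fr_sub m j hx
    exact ⟨k, hk.trans h, i, hi⟩
  · exact ⟨m, h, j, hx⟩

theorem disj {m n : ℕ} (h : n ≤ m) (j : cell (univ : Set X) m) :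
    Disjoint (sk X n) (openCell m j) := by
  rw [Set.disjoint_left]
  rintro x ⟨k, hk, i, hi⟩ hx
  have := RelCWComplex.eq_of_not_disjoint_openCell (j := i) (i := j)
    (Set.not_disjoint_iff.mpr ⟨x, hi, hx⟩)
  have : k = m := congrArg Sigma.fst this
  omega

variable [T2Space X]

theorem isClosed_sk (n : ℕ) : IsClosed (sk X n) := by
  refine CWComplex.isClosed_of_disjoint_openCell_or_isClosed_inter_closedCell (subset_univ _)
    fun m _ j => ?_
  rcases lt_or_ge m n with h | h
  · right
    rw [inter_eq_right.mpr (cl_sub h j)]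
    exact RelCWComplex.isClosed_closedCell
  · exact Or.inl (disj h j)

theorem weak_sk {n : ℕ} {A : Set X} (hA : A ⊆ sk X (n + 1)) (h1 : IsClosed (A ∩ sk X n))
    (h2 : ∀ j : cell (univ : Set X) n, IsClosed (A ∩ closedCell n j)) : IsClosed A := by
  refine CWComplex.isClosed_of_disjoint_openCell_or_isClosed_inter_closedCell (subset_univ _)
    fun m _ j => ?_
  rcases lt_trichotomy m n with h | h | h
  · right
    have : A ∩ closedCell m j = (A ∩ sk X n) ∩ closedCell m j := by
      rw [inter_assoc, inter_eq_right.mpr (cl_sub h j)]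
    rw [this]
    exact h1.inter RelCWComplex.isClosed_closedCell
  · subst h
    exact Or.inr (h2 j)
  · exact Or.inl ((disj h j).mono_left hA)

theorem exists_cell {𝔼 Z : Type} [NormedAddCommGroup 𝔼] [NormedSpace ℝ 𝔼] [ProperSpace 𝔼]
    [TopologicalSpace Z] {n : ℕ} (e : 𝔼 ≃L[ℝ] (Fin n → ℝ)) (ι : Z → X)
    (hι : IsClosedEmbedding ι) (hr : range ι = sk X (n + 1)) :
    Nonempty (Cell 𝔼 (ι ⁻¹' sk X n) (cell (univ : Set X) n)) := by
  obtain ⟨h, hc, hn, hinj, hsurj⟩ := exists_rad e
  have hcb : ∀ w, h w ∈ closedBall (0 : Fin n → ℝ) 1 := fun w => by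
    rw [mem_closedBall_zero_iff, hn]; exact min_le_right _ _
  have hb : ∀ w, ‖w‖ < 1 → h w ∈ ball (0 : Fin n → ℝ) 1 := fun w hw => by
    rw [mem_ball_zero_iff, hn]; exact (min_le_left _ _).trans_lt hw
  have : ∀ (i : cell (univ : Set X) n) (w : 𝔼), ∃ z, ι z = RelCWComplex.map n i (h w) := by
    intro i w
    rw [← mem_range, hr]
    exact cl_sub (Nat.lt_succ_self n) i ⟨_, hcb w, rfl⟩
  choose χ hχ using this
  have hcont : ∀ i, Continuous (χ i) := by
    intro i
    rw [hι.isInducing.continuous_iff]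
    have : ι ∘ χ i = fun w => RelCWComplex.map n i (h w) := funext (hχ i)
    rw [this]
    exact (RelCWComplex.continuousOn n i).comp_continuous hc hcb
  refine ⟨⟨fun i => ⟨χ i, hcont i⟩, ?_, ?_, ?_, ?_, (isClosed_sk n).preimage hι.continuous, ?_⟩⟩
  · intro i w hw
    change ι (χ i w) ∈ sk X n
    rw [hχ]
    refine fr_sub n i ⟨_, ?_, rfl⟩
    rw [mem_sphere_zero_iff_norm, hn, min_eq_right hw]
  · intro i w hw
    change ι (χ i w) ∉ sk X n
    rw [hχ]
    exact Set.disjoint_right.mp (disj le_rfl i) ⟨_, hb w hw, rfl⟩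
  · intro i j w w' hw hw' e'
    have e1 : RelCWComplex.map n i (h w) = RelCWComplex.map n j (h w') := by
      rw [← hχ, ← hχ]
      exact congrArg ι e'
    have := RelCWComplex.eq_of_not_disjoint_openCell (j := i) (i := j)
      (Set.not_disjoint_iff.mpr ⟨_, ⟨_, hb w hw, rfl⟩, ⟨_, hb w' hw', e1.symm⟩⟩)
    have hij : i = j := sigma_mk_injective (β := fun n => cell (univ : Set X) n) this
    subst hij
    refine ⟨rfl, hinj w w' hw hw' ((RelCWComplex.map n i).injOn ?_ ?_ e1)⟩
    · rw [RelCWComplex.source_eq]; exact hb w hw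
    · rw [RelCWComplex.source_eq]; exact hb w' hw'
  · intro y hy
    have : ι y ∈ sk X (n + 1) := hr ▸ mem_range_self y
    obtain ⟨m, hm, i, hi⟩ := this
    have hmn : m = n := by
      by_contra hne
      exact hy ⟨m, by omega, i, hi⟩
    subst hmn
    obtain ⟨v, hv, e1⟩ := hi
    rw [mem_ball_zero_iff] at hv
    obtain ⟨w, hw, rfl⟩ := hsurj v hv.le
    exact ⟨i, w, hw ▸ hv, hι.injective ((hχ i w).trans e1)⟩
  · intro A h1 h2
    have h3 : IsClosed (ι '' A) := by
      refine weak_sk (n := n) (hr ▸ image_subset_range _ _) ?_ fun j => ?_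
      · rw [← image_inter_preimage]
        exact hι.isClosedMap _ h1
      · have : ι '' A ∩ closedCell n j = (ι ∘ χ j) '' (χ j ⁻¹' A ∩ closedBall 0 1) := by
          ext x
          constructor
          · rintro ⟨⟨z, hz, rfl⟩, v, hv, e1⟩
            rw [mem_closedBall_zero_iff] at hv
            obtain ⟨w, hw, rfl⟩ := hsurj v hv
            have e2 : χ j w = z := hι.injective ((hχ j w).trans e1)
            refine ⟨w, ⟨?_, ?_⟩, congrArg ι e2⟩
            · rw [mem_preimage, e2]; exact hz
            · rw [mem_closedBall_zero_iff, hw]; exact hv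
          · rintro ⟨w, ⟨hw, -⟩, rfl⟩
            exact ⟨⟨_, hw, rfl⟩, _, hcb w, (hχ j w).symm⟩
        rw [this]
        exact (((isCompact_closedBall 0 1).of_isClosed_subset (h2 j) inter_subset_right).image
          (hι.continuous.comp (hcont j))).isClosed
    rw [← preimage_image_eq A hι.injective]
    exact h3.preimage hι.continuous

end Cw0

open Cw0 in
theorem exists_cs2 {X : Type} [TopologicalSpace X] [T2Space X]
    [_root_.Topology.CWComplex (Set.univ : Set X)]
    (h : ∀ n : ℕ, 2 < n → IsEmpty (_root_.Topology.RelCWComplex.cell (Set.univ : Set X) n)) :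
    Nonempty (CS2 X) := by
  obtain ⟨c1⟩ := exists_cell (X := X) (𝔼 := ℝ) (n := 1) (ContinuousLinearEquiv.ofFinrankEq (by simp))
    (Subtype.val : sk X 2 → X) (isClosed_sk 2).isClosedEmbedding_subtypeVal Subtype.range_coe
  obtain ⟨c2⟩ := exists_cell (X := X) (𝔼 := ℂ) (n := 2) (ContinuousLinearEquiv.ofFinrankEq (by simp))
    id IsClosedEmbedding.id (by
      rw [range_id, eq_comm, eq_univ_iff_forall]
      intro x
      have : x ∈ ⋃ (n : ℕ) (j : RelCWComplex.cell (univ : Set X) n), RelCWComplex.openCell n j := by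
        rw [CWComplex.iUnion_openCell_eq_complex]; trivial
      simp only [mem_iUnion] at this
      obtain ⟨n, j, hj⟩ := this
      refine ⟨n, ?_, j, hj⟩
      by_contra hn
      exact (h n (by omega)).false j)
  refine ⟨⟨_, _, sk X 2, Subtype.val ⁻¹' sk X 1, c1, c2, fun A hA => ?_⟩⟩
  have h3 : IsClosed (Subtype.val '' A) := by
    refine CWComplex.isClosed_of_disjoint_openCell_or_isClosed_inter_closedCell (subset_univ _)
      fun m hm j => Or.inl ((disj hm j).mono_left ?_)
    rintro _ ⟨z, hz, rfl⟩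
    exact hA hz
  rw [← preimage_image_eq A Subtype.val_injective]
  exact h3.preimage continuous_subtype_val

end Crest.Agent.R197
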