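import Mathlib
import Crest.Prelude.Def_ClassifyingComplex

/-!
Row 197 (Eilenberg–Ganea): shared definitions.

Overview.  `L` = flag triangulation of the spine of the Poincaré sphere, `Γ` = its right-angled Artin group, `H` = the
Bestvina–Brady kernel.  `H` has an acyclic cocompact Cayley 2-complex (`Acy`), containing larger and larger subdivided
copies of `L` which carry almost trivial, flat, non-trivial `S³`-connections (`Test`).  If `H` had an aspherical presentation
(`Asph`), the word map of a finite subcomplex killing the copy of `L` would be essential (Gerstenhaber–Rothaus, `gr`), and a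
continuation argument (`main`) deforms the trivial solutions to a flat connection extending the non-trivial one.
-/

set_option autoImplicit false

namespace Crest.Agent.R197

open scoped Quaternion
open Set

/-! ### Holonomy -/

/-- The unit quaternions. -/
abbrev S3 : Type := Metric.sphere (0 : ℍ[ℝ]) 1

theorem one_add_im_ne (b : ℍ[ℝ]) : 1 + b.im ≠ 0 := by
  intro h
  have := congrArg QuaternionAlgebra.re h
  simp at this

/-- The chart of `S3` at `1`. -/
noncomputable def ee (b : ℍ[ℝ]) : S3 :=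
  ⟨‖1 + b.im‖⁻¹ • (1 + b.im), by
    rw [mem_sphere_zero_iff_norm, norm_smul, norm_inv, norm_norm,
      inv_mul_cancel₀ (norm_ne_zero_iff.mpr (one_add_im_ne b))]⟩

/-- The wreath product in which holonomies live. -/
@[ext] structure Wr (G K : Type) where
  f : G → K
  a : G

instance {G K : Type} [Group G] [Group K] : Group (Wr G K) where
  mul x y := ⟨fun g => x.f g * y.f (g * x.a), x.a * y.a⟩
  one := ⟨fun _ => 1, 1⟩
  inv x := ⟨fun g => (x.f (g * x.a⁻¹))⁻¹, x.a⁻¹⟩
  mul_assoc x y z := Wr.ext (funext fun g => by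
    change x.f g * y.f (g * x.a) * z.f (g * (x.a * y.a)) =
      x.f g * (y.f (g * x.a) * z.f (g * x.a * y.a))
    rw [mul_assoc, mul_assoc g]) (mul_assoc x.a y.a z.a)
  one_mul x := Wr.ext (funext fun g => by
    change 1 * x.f (g * 1) = x.f g
    rw [one_mul, mul_one]) (one_mul x.a)
  mul_one x := Wr.ext (funext fun g => mul_one (x.f g)) (mul_one x.a)
  inv_mul_cancel x := Wr.ext (funext fun g => inv_mul_cancel (x.f (g * x.a⁻¹))) (inv_mul_cancel x.a)

section hol

variable {G K K' S : Type} [Group G] [Group K] [Group K']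

@[simp] theorem Wr.mul_f (x y : Wr G K) (g : G) : (x * y).f g = x.f g * y.f (g * x.a) := rfl
@[simp] theorem Wr.mul_a (x y : Wr G K) : (x * y).a = x.a * y.a := rfl
@[simp] theorem Wr.inv_f (x : Wr G K) (g : G) : x⁻¹.f g = (x.f (g * x.a⁻¹))⁻¹ := rfl
@[simp] theorem Wr.inv_a (x : Wr G K) : x⁻¹.a = x.a⁻¹ := rfl
@[simp] theorem Wr.one_f (g : G) : (1 : Wr G K).f g = 1 := rfl
@[simp] theorem Wr.one_a : (1 : Wr G K).a = 1 := rfl

/-- The holonomy homomorphism. -/
def holW (π : FreeGroup S →* G) (z : G × S → K) : FreeGroup S →* Wr G K :=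
  FreeGroup.lift (fun s => ⟨fun g => z (g, s), π (FreeGroup.of s)⟩)

/-- The holonomy of the connection `z` along the path starting at `g` and spelled by `w`. -/
def hol (π : FreeGroup S →* G) (z : G × S → K) (g : G) (w : FreeGroup S) : K := (holW π z w).f g

variable (π : FreeGroup S →* G) (z : G × S → K)

theorem holW_a (w : FreeGroup S) : (holW π z w).a = π w := by
  induction w using FreeGroup.induction_on with
  | C1 => simp
  | of s => simp [holW]
  | inv_of s h => simp [h]
  | mul x y hx hy => simp [hx, hy]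

@[simp] theorem hol_one (g : G) : hol π z g 1 = 1 := by simp [hol]

@[simp] theorem hol_of (g : G) (s : S) : hol π z g (FreeGroup.of s) = z (g, s) := by
  simp [hol, holW]

theorem hol_mul (g : G) (w w' : FreeGroup S) :
    hol π z g (w * w') = hol π z g w * hol π z (g * π w) w' := by
  simp [hol, holW_a]

theorem hol_inv (g : G) (w : FreeGroup S) : hol π z g w⁻¹ = (hol π z (g * (π w)⁻¹) w)⁻¹ := by
  simp [hol, holW_a]

theorem map_hol (F : K →* K') (g : G) (w : FreeGroup S) :
    F (hol π z g w) = hol π (fun e => F (z e)) g w := by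
  induction w using FreeGroup.induction_on generalizing g with
  | C1 => simp
  | of s => simp
  | inv_of s h => simp [hol_inv]
  | mul x y hx hy => simp [hol_mul, hx, hy]

theorem hol_eq_lift (g : G) (w : FreeGroup S) :
    hol π z g w = FreeGroup.lift z (hol π FreeGroup.of g w) := by
  rw [map_hol]
  simp

theorem hol_shift (h g : G) (w : FreeGroup S) :
    hol π (fun e => z (h * e.1, e.2)) g w = hol π z (h * g) w := by
  induction w using FreeGroup.induction_on generalizing g with
  | C1 => simp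
  | of s => simp
  | inv_of s h => simp [hol_inv, mul_assoc]
  | mul x y hx hy => simp [hol_mul, hx, hy, mul_assoc]

theorem hol_gauge (γ : G → K) (g : G) (w : FreeGroup S) :
    hol π (fun e => γ e.1 * z e * (γ (e.1 * π (FreeGroup.of e.2)))⁻¹) g w =
      γ g * hol π z g w * (γ (g * π w))⁻¹ := by
  induction w using FreeGroup.induction_on generalizing g with
  | C1 => simp
  | of s => simp
  | inv_of s h => simp [hol_inv, mul_assoc]
  | mul x y hx hy => rw [hol_mul, hx, hy, hol_mul, map_mul]; simp [mul_assoc]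

theorem hol_map {A : Type} (ι : A → S) (g : G) (w : FreeGroup A) :
    hol π z g (FreeGroup.map ι w) =
      hol (π.comp (FreeGroup.map ι)) (fun e => z (e.1, ι e.2)) g w := by
  induction w using FreeGroup.induction_on generalizing g with
  | C1 => simp
  | of s => simp
  | inv_of s h => simp [hol_inv]
  | mul x y hx hy => simp [hol_mul, hx, hy]

theorem continuous_hol {Y : Type} [TopologicalSpace Y] [TopologicalSpace K] [IsTopologicalGroup K]
    {z : Y → G × S → K} (hz : ∀ e, Continuous fun y => z y e) (g : G) (w : FreeGroup S) :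
    Continuous fun y => hol π (z y) g w := by
  induction w using FreeGroup.induction_on generalizing g with
  | C1 => simpa using continuous_const
  | of s => simpa using hz _
  | inv_of s h => simp only [hol_inv]; exact (h _).inv
  | mul x y hx hy => simp only [hol_mul]; exact (hx _).mul (hy _)

/-- The additive holonomy. -/
def ev {M : Type} [AddCommGroup M] (ω : G × S → M) (g : G) (w : FreeGroup S) : M :=
  Multiplicative.toAdd (hol π (fun e => Multiplicative.ofAdd (ω e)) g w)

variable {M : Type} [AddCommGroup M] (ω : G × S → M)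

@[simp] theorem ev_one (g : G) : ev π ω g 1 = 0 := by simp [ev]

@[simp] theorem ev_of (g : G) (s : S) : ev π ω g (FreeGroup.of s) = ω (g, s) := by simp [ev]

theorem ev_mul (g : G) (w w' : FreeGroup S) :
    ev π ω g (w * w') = ev π ω g w + ev π ω (g * π w) w' := by
  simp [ev, hol_mul]

theorem ev_inv (g : G) (w : FreeGroup S) : ev π ω g w⁻¹ = - ev π ω (g * (π w)⁻¹) w := by
  simp [ev, hol_inv]

theorem map_ev {M' : Type} [AddCommGroup M'] (F : M →+ M') (g : G) (w : FreeGroup S) :
    F (ev π ω g w) = ev π (fun e => F (ω e)) g w := by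
  induction w using FreeGroup.induction_on generalizing g with
  | C1 => simp
  | of s => simp
  | inv_of s h => simp [ev_inv]
  | mul x y hx hy => simp [ev_mul, hx, hy]

theorem ev_add (ω' : G × S → M) (g : G) (w : FreeGroup S) :
    ev π (ω + ω') g w = ev π ω g w + ev π ω' g w := by
  induction w using FreeGroup.induction_on generalizing g with
  | C1 => simp
  | of s => simp
  | inv_of s h => simp [ev_inv, add_comm]
  | mul x y hx hy => simp only [ev_mul, hx, hy]; abel

theorem ev_pot (f : G → M) (g : G) (w : FreeGroup S) :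
    ev π (fun e => f (e.1 * π (FreeGroup.of e.2)) - f e.1) g w = f (g * π w) - f g := by
  induction w using FreeGroup.induction_on generalizing g with
  | C1 => simp
  | of s => simp
  | inv_of s h => simp [ev_inv]
  | mul x y hx hy => simp [ev_mul, hx, hy, mul_assoc]

/-- The path from `g` spelled by `w` uses (after free reduction) only edges in `I`. -/
def In (I : Set (G × S)) (g : G) (w : FreeGroup S) : Prop :=
  hol π FreeGroup.of g w ∈ Subgroup.closure (FreeGroup.of '' I)

variable {π z ω}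

theorem In.hol_congr {I : Set (G × S)} {g : G} {w : FreeGroup S} (h : In π I g w) {z' : G × S → K}
    (hz : ∀ e ∈ I, z e = z' e) : hol π z g w = hol π z' g w := by
  rw [hol_eq_lift π z, hol_eq_lift π z']
  unfold In at h
  generalize hol π FreeGroup.of g w = u at h
  induction h using Subgroup.closure_induction with
  | mem x hx =>
    obtain ⟨e, he, rfl⟩ := hx
    simpa using hz e he
  | one => simp
  | mul x y _ _ hx hy => simp [hx, hy]
  | inv x _ hx => simp [hx]

theorem In.ev_congr {I : Set (G × S)} {g : G} {w : FreeGroup S} (h : In π I g w) {ω' : G × S → M}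
    (hz : ∀ e ∈ I, ω e = ω' e) : ev π ω g w = ev π ω' g w := by
  unfold ev
  rw [h.hol_congr (z' := fun e => Multiplicative.ofAdd (ω' e)) fun e he => by rw [hz e he]]

theorem In.one (I : Set (G × S)) (g : G) : In π I g 1 := by
  simp [In]

theorem In.of {I : Set (G × S)} {g : G} {s : S} (h : (g, s) ∈ I) : In π I g (FreeGroup.of s) := by
  unfold In
  rw [hol_of]
  exact Subgroup.subset_closure ⟨_, h, rfl⟩

theorem In.mul {I : Set (G × S)} {g : G} {w w' : FreeGroup S} (h : In π I g w)
    (h' : In π I (g * π w) w') : In π I g (w * w') := by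
  unfold In
  rw [hol_mul]
  exact mul_mem h h'

theorem In.inv {I : Set (G × S)} {g : G} {w : FreeGroup S} (h : In π I (g * (π w)⁻¹) w) :
    In π I g w⁻¹ := by
  unfold In
  rw [hol_inv]
  exact inv_mem h

theorem In.mono {I I' : Set (G × S)} {g : G} {w : FreeGroup S} (h : In π I g w) (hI : I ⊆ I') :
    In π I' g w :=
  Subgroup.closure_mono (image_mono hI) h

end hol

/-! ### Presentations -/

open Classical in
/-- An aspherical presentation. -/
structure Asph (G : Type) [Group G] where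
  S : Type
  R : Type
  π : FreeGroup S →* G
  w : R → FreeGroup S
  surj : Function.Surjective π
  ker : π.ker = Subgroup.normalClosure (range w)
  linv : ∀ c₀ : G × R, ∃ ψ : G × S → ℤ, ∀ c : G × R, ev π ψ c.1 (w c.2) = if c = c₀ then 1 else 0

/-- Edge paths in a graph. -/
inductive EP {V S : Type} (src tgt : S → V) (v : V) : FreeGroup S → V → Prop
  | nil : EP src tgt v 1 v
  | fwd {w : FreeGroup S} {s : S} : EP src tgt v w (src s) → EP src tgt v (w * FreeGroup.of s) (tgt s)
  | bwd {w : FreeGroup S} {s : S} :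
      EP src tgt v w (tgt s) → EP src tgt v (w * (FreeGroup.of s)⁻¹) (src s)

theorem EP.mul {V S : Type} {src tgt : S → V} {v v' v'' : V} {u u' : FreeGroup S}
    (h : EP src tgt v u v') (h' : EP src tgt v' u' v'') : EP src tgt v (u * u') v'' := by
  induction h' with
  | nil => simpa using h
  | fwd _ ih => rw [← mul_assoc]; exact ih.fwd
  | bwd _ ih => rw [← mul_assoc]; exact ih.bwd

theorem EP.of {V S : Type} (src tgt : S → V) (s : S) :
    EP src tgt (src s) (FreeGroup.of s) (tgt s) := by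
  simpa using (EP.nil (src := src) (tgt := tgt) (v := src s)).fwd

theorem EP.of_inv {V S : Type} (src tgt : S → V) (s : S) :
    EP src tgt (tgt s) (FreeGroup.of s)⁻¹ (src s) := by
  simpa using (EP.nil (src := src) (tgt := tgt) (v := tgt s)).bwd

theorem EP.inv {V S : Type} {src tgt : S → V} {v v' : V} {u : FreeGroup S}
    (h : EP src tgt v u v') : EP src tgt v' u⁻¹ v := by
  induction h with
  | nil => simpa using EP.nil
  | fwd _ ih => rw [mul_inv_rev]; exact (EP.of_inv src tgt _).mul ih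
  | bwd _ ih => rw [mul_inv_rev, inv_inv]; exact (EP.of src tgt _).mul ih

open Classical in
/-- An aspherical presentation with several vertices. -/
structure MAsph (G : Type) [Group G] where
  V : Type
  S : Type
  R : Type
  src : S → V
  tgt : S → V
  π : FreeGroup S →* G
  b : R → V
  w : R → FreeGroup S
  ne : Nonempty V
  ep : ∀ r, EP src tgt (b r) (w r) (b r)
  rel : ∀ r, π (w r) = 1
  conn : ∀ v v' g, ∃ u, EP src tgt v u v' ∧ π u = g
  sc : ∀ v u, EP src tgt v u v → π u = 1 → u ∈ Subgroup.normalClosure (range w)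
  linv : ∀ c₀ : G × R, ∃ ψ : G × S → ℤ, ∀ c : G × R, ev π ψ c.1 (w c.2) = if c = c₀ then 1 else 0

/-- The Cayley complex of `(α, τ)` is acyclic. -/
structure Acy {G A T : Type} [Group G] (α : FreeGroup A →* G) (τ : T → FreeGroup A) : Prop where
  surj : Function.Surjective α
  rel : ∀ t, α (τ t) = 1
  h1 : ∀ (M : Type) [AddCommGroup M] (ω : G × A → M), (∀ g t, ev α ω g (τ t) = 0) →
    ∃ f : G → M, ∀ g a, ω (g, a) = f (g * α (FreeGroup.of a)) - f g
  h2 : ∀ (M : Type) [AddCommGroup M] (κ : G × T → M), ∃ ω : G × A → M,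
    ∀ g t, ev α ω g (τ t) = κ (g, t)

/-- Finite subcomplexes with `H¹ = 0` and an almost trivial non-trivial flat connection. -/
def Test {G A T : Type} [Group G] (α : FreeGroup A →* G) (τ : T → FreeGroup A) : Prop :=
  ∀ ε : ℝ, 0 < ε → ∃ (I : Finset (G × A)) (J : Finset (G × T)) (a : G × A → S3),
    (∀ c ∈ J, In α I c.1 (τ c.2)) ∧
    (∀ ω : G × A → ℍ[ℝ], (∀ c ∈ J, ev α ω c.1 (τ c.2) = 0) →
      ∃ f : G → ℍ[ℝ], ∀ e ∈ I, ω e = f (e.1 * α (FreeGroup.of e.2)) - f e.1) ∧
    (∀ e ∈ I, ‖(a e : ℍ[ℝ]) - 1‖ ≤ ε) ∧ (∀ c ∈ J, hol α a c.1 (τ c.2) = 1) ∧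
    ¬ ∃ γ : G → S3, ∀ e ∈ I, a e = (γ e.1)⁻¹ * γ (e.1 * α (FreeGroup.of e.2))

/-! ### Partially commutative groups -/

/-- Letters with an involution and a commutation relation. -/
structure PCD (Λ : Type) where
  inv : Λ → Λ
  cm : Λ → Λ → Prop
  inv_inv : ∀ a, inv (inv a) = a
  symm : ∀ a b, cm a b → cm b a
  irrefl : ∀ a, ¬ cm a a
  cm_inv : ∀ a b, cm a b → cm (inv a) b

/-- Relators. -/
def PCD.rels {Λ : Type} (P : PCD Λ) : Set (FreeGroup Λ) :=
  {r | (∃ a, r = FreeGroup.of a * FreeGroup.of (P.inv a)) ∨ ∃ a b, P.cm a b ∧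
    r = FreeGroup.of a * FreeGroup.of b * (FreeGroup.of b * FreeGroup.of a)⁻¹}

/-- The partially commutative group. -/
abbrev PCD.Grp {Λ : Type} (P : PCD Λ) : Type := PresentedGroup P.rels

/-- Generators. -/
def PCD.y {Λ : Type} (P : PCD Λ) (a : Λ) : P.Grp := PresentedGroup.of a

theorem PCD.y_inv {Λ : Type} (P : PCD Λ) (a : Λ) : P.y (P.inv a) = (P.y a)⁻¹ := by
  have h : PresentedGroup.mk P.rels (FreeGroup.of a * FreeGroup.of (P.inv a)) = 1 :=
    PresentedGroup.one_of_mem (Or.inl ⟨a, rfl⟩)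
  rw [map_mul] at h
  exact eq_inv_of_mul_eq_one_right h

theorem PCD.y_comm {Λ : Type} (P : PCD Λ) {a b : Λ} (hab : P.cm a b) : Commute (P.y a) (P.y b) := by
  have h : PresentedGroup.mk P.rels
      (FreeGroup.of a * FreeGroup.of b * (FreeGroup.of b * FreeGroup.of a)⁻¹) = 1 :=
    PresentedGroup.one_of_mem (Or.inr ⟨a, b, hab, rfl⟩)
  simp only [map_mul, map_inv] at h
  exact mul_inv_eq_one.mp h

/-- Universal property. -/
def PCD.lift {Λ K : Type} [Group K] (P : PCD Λ) (f : Λ → K) (h1 : ∀ a, f a * f (P.inv a) = 1)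
    (h2 : ∀ a b, P.cm a b → f a * f b = f b * f a) : P.Grp →* K :=
  PresentedGroup.toGroup (f := f) (by
    rintro r (⟨a, rfl⟩ | ⟨a, b, hab, rfl⟩)
    · simpa using h1 a
    · simp [h2 a b hab])

@[simp] theorem PCD.lift_y {Λ K : Type} [Group K] (P : PCD Λ) (f : Λ → K) (h1) (h2) (a : Λ) :
    P.lift f h1 h2 (P.y a) = f a := PresentedGroup.toGroup.of _

theorem PCD.closure_y {Λ : Type} (P : PCD Λ) : Subgroup.closure (range P.y) = ⊤ :=
  PresentedGroup.closure_range_of P.rels

/-- The properties of the word length.  `ℓ (g * y a) + 1 = ℓ g` says that the letter `a` leads down from `g`. -/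
structure PCD.Len {Λ : Type} (P : PCD Λ) (ℓ : P.Grp → ℕ) : Prop where
  step : ∀ g a, ℓ (g * P.y a) = ℓ g + 1 ∨ ℓ (g * P.y a) + 1 = ℓ g
  two : ∀ g a b, ℓ (g * P.y a) + 1 = ℓ g → ℓ (g * P.y b) + 1 = ℓ g → a ≠ b → P.cm a b
  comm : ∀ g a b, P.cm a b →
    (ℓ (g * P.y b * P.y a) + 1 = ℓ (g * P.y b) ↔ ℓ (g * P.y a) + 1 = ℓ g)
  one : ℓ 1 = 0
  ex : ∀ g, g ≠ 1 → ∃ a, ℓ (g * P.y a) + 1 = ℓ g

/-! ### The link -/

/-- An acyclic two-dimensional flag complex with a non-trivial flat `S3`-connection. -/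
structure LD (N : ℕ) where
  adj : Fin N → Fin N → Prop
  symm : ∀ u v, adj u v → adj v u
  irrefl : ∀ u, ¬ adj u u
  dim : ∀ σ : Finset (Fin N), (∀ u ∈ σ, ∀ v ∈ σ, u ≠ v → adj u v) → σ.card ≤ 3
  v₀ : Fin N
  tri : ∃ u v w, u < v ∧ v < w ∧ adj u v ∧ adj v w ∧ adj u w
  a0 : ∀ (M : Type) (f : Fin N → M), (∀ u v, u < v → adj u v → f u = f v) → ∀ u v, f u = f v
  a1 : ∀ (M : Type) [AddCommGroup M] (ω : Fin N → Fin N → M),
    (∀ u v w, u < v → v < w → adj u v → adj v w → adj u w → ω u v + ω v w = ω u w) →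
    ∃ f : Fin N → M, ∀ u v, u < v → adj u v → ω u v = f v - f u
  a2 : ∀ (M : Type) [AddCommGroup M] (κ : Fin N → Fin N → Fin N → M), ∃ ω : Fin N → Fin N → M,
    ∀ u v w, u < v → v < w → adj u v → adj v w → adj u w → ω u v + ω v w - ω u w = κ u v w
  ρ : Fin N → Fin N → S3
  ρ_self : ∀ u, ρ u u = 1
  ρ_mul : ∀ u v w, (u = v ∨ adj u v) → (v = w ∨ adj v w) → (u = w ∨ adj u w) →
    ρ u v * ρ v w = ρ u w
  ρ_re : ∀ u v, adj u v → 0 ≤ (ρ u v : ℍ[ℝ]).re
  ρ_ng : ¬ ∃ γ : Fin N → S3, ∀ u v, adj u v → ρ u v = (γ u)⁻¹ * γ v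

namespace LD

variable {N : ℕ} (L : LD N)

/-- The letters of the Artin group. -/
def P : PCD (Fin N × Bool) where
  inv a := (a.1, !a.2)
  cm a b := L.adj a.1 b.1
  inv_inv a := by simp
  symm a b := L.symm a.1 b.1
  irrefl a := L.irrefl a.1
  cm_inv _ _ h := h

/-- The right-angled Artin group. -/
abbrev Γ : Type := L.P.Grp

/-- Generators. -/
def x (v : Fin N) : L.Γ := L.P.y (v, true)

theorem y_true (v : Fin N) : L.P.y (v, true) = L.x v := rfl

theorem y_false (v : Fin N) : L.P.y (v, false) = (L.x v)⁻¹ := L.P.y_inv (v, true)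

theorem x_comm {u v : Fin N} (h : L.adj u v) : Commute (L.x u) (L.x v) :=
  L.P.y_comm (a := (u, true)) (b := (v, true)) h

/-- The abelianisation. -/
def abH : L.Γ →* Multiplicative (Fin N → ℤ) :=
  L.P.lift (fun a => Multiplicative.ofAdd (Pi.single a.1 (if a.2 then 1 else -1)))
    (by rintro ⟨v, _ | _⟩ <;> simp [P, ← ofAdd_add, ← Pi.single_add])
    (fun _ _ _ => mul_comm _ _)

/-- The exponent sums. -/
def ab (g : L.Γ) : Fin N → ℤ := Multiplicative.toAdd (L.abH g)

@[simp] theorem ab_one : L.ab 1 = 0 := by simp [ab]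

@[simp] theorem ab_mul (g h : L.Γ) : L.ab (g * h) = L.ab g + L.ab h := by simp [ab]

@[simp] theorem ab_inv (g : L.Γ) : L.ab g⁻¹ = - L.ab g := by simp [ab]

@[simp] theorem ab_x (v : Fin N) : L.ab (L.x v) = Pi.single v 1 := by simp [ab, abH, x]

/-- The height. -/
def ht (g : L.Γ) : ℤ := ∑ v, L.ab g v

@[simp] theorem ht_one : L.ht 1 = 0 := by simp [ht]

@[simp] theorem ht_mul (g h : L.Γ) : L.ht (g * h) = L.ht g + L.ht h := by
  simp [ht, Finset.sum_add_distrib]

@[simp] theorem ht_inv (g : L.Γ) : L.ht g⁻¹ = - L.ht g := by simp [ht]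

@[simp] theorem ht_x (v : Fin N) : L.ht (L.x v) = 1 := by simp [ht]

/-- The Bestvina–Brady group. -/
def HH : Subgroup L.Γ where
  carrier := {g | L.ht g = 0}
  mul_mem' := by intro a b ha hb; simp_all
  one_mem' := by simp
  inv_mem' := by intro a ha; simp_all

theorem mem_HH {g : L.Γ} : g ∈ L.HH ↔ L.ht g = 0 := Iff.rfl

/-- Edges. -/
abbrev A : Type := {p : Fin N × Fin N // p.1 < p.2 ∧ L.adj p.1 p.2}

/-- Triangles of the link. -/
structure Tr where
  u : Fin N
  v : Fin N
  w : Fin N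
  uv : u < v ∧ L.adj u v
  vw : v < w ∧ L.adj v w
  uw : u < w ∧ L.adj u w

instance : Finite L.Tr :=
  Finite.of_injective (fun t : L.Tr => (t.u, t.v, t.w)) (by
    rintro ⟨⟩ ⟨⟩ h
    simp_all)

/-- Generators of the Bestvina–Brady group. -/
def α : FreeGroup L.A →* L.HH :=
  FreeGroup.lift (fun a => ⟨(L.x a.1.1)⁻¹ * L.x a.1.2, by simp [mem_HH]⟩)

@[simp] theorem α_of (a : L.A) :
    (L.α (FreeGroup.of a) : L.Γ) = (L.x a.1.1)⁻¹ * L.x a.1.2 := by simp [α]

/-- The triangle relators. -/
def τ (t : L.Tr × Bool) : FreeGroup L.A :=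
  if t.2 then FreeGroup.of ⟨(t.1.u, t.1.v), t.1.uv⟩ * FreeGroup.of ⟨(t.1.v, t.1.w), t.1.vw⟩ *
    (FreeGroup.of ⟨(t.1.u, t.1.w), t.1.uw⟩)⁻¹
  else FreeGroup.of ⟨(t.1.v, t.1.w), t.1.vw⟩ * FreeGroup.of ⟨(t.1.u, t.1.v), t.1.uv⟩ *
    (FreeGroup.of ⟨(t.1.u, t.1.w), t.1.uw⟩)⁻¹

/-- Ordered edges of the link. -/
def E2 (u v : Fin N) : Prop := u < v ∧ L.adj u v

/-- Ordered triangles of the link. -/
def E3 (u v w : Fin N) : Prop := L.E2 u v ∧ L.E2 v w ∧ L.E2 u w

/-- Coboundary of a `1`-cochain of the cube complex; `ζ p u` lives on the edge from `p` to `p * x u`. -/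
def d1 {M : Type} [AddCommGroup M] (ζ : L.Γ → Fin N → M) (p : L.Γ) (u v : Fin N) : M :=
  ζ p u + ζ (p * L.x u) v - ζ (p * L.x v) u - ζ p v

/-- Coboundary of a `2`-cochain; `ω p u v` lives on the square with bottom vertex `p` spanned by `x u`, `x v`. -/
def d2 {M : Type} [AddCommGroup M] (ω : L.Γ → Fin N → Fin N → M) (p : L.Γ) (u v w : Fin N) : M :=
  (ω (p * L.x u) v w - ω p v w) - (ω (p * L.x v) u w - ω p u w) + (ω (p * L.x w) u v - ω p u v)

theorem d2_d1 {M : Type} [AddCommGroup M] (ζ : L.Γ → Fin N → M) (p : L.Γ) {u v w : Fin N}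
    (h : L.E3 u v w) : L.d2 (L.d1 ζ) p u v w = 0 := by
  have h1 := (L.x_comm h.1.2).eq
  have h2 := (L.x_comm h.2.1.2).eq
  have h3 := (L.x_comm h.2.2.2).eq
  simp only [d1, d2, mul_assoc, h1, h2, h3]
  abel

/-- Exponent vectors supported on a simplex of the link. -/
def Ok (m : Fin N → ℕ) : Prop := ∀ u v, u ≠ v → m u ≠ 0 → m v ≠ 0 → L.adj u v

/-- The closed star of a vertex of the cube complex, in signed coordinates. -/
def St : Set (Fin N → ℝ) :=
  {t | (∀ v, |t v| ≤ 1) ∧ ∀ u v, u ≠ v → t u ≠ 0 → t v ≠ 0 → L.adj u v}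

/-- The cube complex of the Artin group: abstract interface.  `pt g t` is the point with signed coordinates `t`
relative to the vertex `g`. -/
structure CubeSp (E : Type) [TopologicalSpace E] [MulAction L.Γ E] where
  pt : L.Γ → (Fin N → ℝ) → E
  cont : ∀ g, ContinuousOn (pt g) L.St
  surj : ∀ z, ∃ g, ∃ t ∈ L.St, pt g t = z
  smul : ∀ h g t, h • pt g t = pt (h * g) t
  shift : ∀ g v, ∀ t ∈ L.St, 0 ≤ t v → (∀ u, u ≠ v → t u ≠ 0 → L.adj u v) →
    pt g t = pt (g * L.x v) (Function.update t v (t v - 1))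
  injOn : ∀ g, InjOn (pt g) L.St
  near : ∀ g g', ∀ t ∈ L.St, ∀ t' ∈ L.St, (∀ v, |t v| < 1) → pt g t = pt g' t' →
    ∃ l : List (Fin N × Bool), (l.map Prod.fst).Nodup ∧
      (∀ a ∈ l, (a.2 = true → 0 < t' a.1) ∧ (a.2 = false → t' a.1 < 0)) ∧ g = g' * (l.map L.P.y).prod
  lf : LocallyFinite (fun g => pt g '' L.St)

end LD

end Crest.Agent.R197
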