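import Crest.Agent.R197.EstA

/-!
Task R197-Est.  The key estimate: one can prescribe the curvature on the triangles up to a quadratic error by prescribing
the curvature on finitely many cells of the presentation.

Plan.  `π = P.π`.  All `P.w r` lie in `ker π` (`P.ker`).
* Retraction `q : FreeGroup P.S →* FreeGroup A`, `q (of (ι a)) = of a`, `α.comp q = π` (choose with `hA.surj` off the range of
  `ι`); `q (map ι u) = u`.
* `hA.h2` with `M = G × T →₀ ℤ`, `κ c = single c 1` gives `ω₂`; `Ξ g w = ev α ω₂ g (q w)`.  For `π w = 1`: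
  `Ξ (h * g) w = mapDomain (fun c => (h * c.1, c.2)) (Ξ g w)` (apply `hA.h1` to
  `e ↦ ω₂ (h * e.1, e.2) - mapDomain … (ω₂ e)`; use `hol_shift`, `map_ev`, `ev_add`/`ev_pot`: a coboundary vanishes on loops).
  `Ξ 1 (w * w') = Ξ 1 w + Ξ 1 w'`, `Ξ 1 w⁻¹ = - Ξ 1 w`, `Ξ 1 (u * w * u⁻¹) = Ξ (π u) w` for loops `w, w'`;
  `Ξ 1 (map ι (τ t)) = single (1, t) 1`.
* Section `c : G → FreeGroup P.S`, `π (c h) = h`, `c 1 = 1`.
  `B z β g ξ = ξ.sum fun j n => n • (hol π z g (c j.1) * β (g * j.1, j.2) * star (hol π z g (c j.1)))`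
  (= `Finsupp.linearCombination ℤ (…) ξ`, additive in `ξ`), imaginary when `β` is, `‖B‖ ≤ (∑ |ξ j|) η`.
  `b z β (g, r) = B z β g (Ξ 1 (P.w r))`.
* `Eq M z β g := ∀ c ∈ M, hol π z (g * c.1) (P.w c.2) = ee (b z β (g * c.1, c.2))`, monotone in `M`;
  `Eq (M.image (h * ·)) z β g → Eq M z β (g * h)`.
* `Q w := ∃ C M, ∀ z β η g, Eq M z β g → (β imaginary, ≤ η ≤ 1) → ‖hol π z g w - 1‖ ≤ C η` for all `w ∈ ker π`
  (induction over the normal closure: `Subgroup.closure_induction` on `Group.conjugatesOfSet`; conjugation by unit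
  quaternions preserves norms).
* `P' w := … ‖hol π z g w - 1 - B z β g (Ξ 1 w)‖ ≤ C η²` for all `w ∈ ker π`, same induction.  Relators: `norm_ee_sub`.
  Conjugation by `u`: `hol g u * hol (g * π u) (c h) = hol g (u * c h * (c (π u * h))⁻¹) * hol g (c (π u * h))` and the
  first factor is `1 + O(η)` by `Q` (finitely many `h` in the support of `Ξ 1 w`).  Products: `xy - 1 - (B + B') =
  (x - 1 - B) + (y - 1 - B') + (x-1)(y-1)`.  Inverses: `x⁻¹ = star x`, `star B = -B`.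
* Take `w = map ι (τ t)`, and the sum of the constants / union of the sets over the finite type `T`.
-/

set_option autoImplicit false

namespace Crest.Agent.R197

open scoped Quaternion

theorem ev_sub {G S M : Type} [Group G] [AddCommGroup M] (π : FreeGroup S →* G) (ω ω' : G × S → M)
    (g : G) (w : FreeGroup S) : ev π (ω - ω') g w = ev π ω g w - ev π ω' g w := by
  rw [eq_sub_iff_add_eq, ← ev_add, sub_add_cancel]

theorem ev_shift {G S M : Type} [Group G] [AddCommGroup M] (π : FreeGroup S →* G) (ω : G × S → M)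
    (h g : G) (w : FreeGroup S) : ev π (fun e => ω (h * e.1, e.2)) g w = ev π ω (h * g) w := by
  unfold ev
  rw [← hol_shift]

theorem exists_Xi {G A T : Type} [Group G] {α : FreeGroup A →* G} {τ : T → FreeGroup A}
    (hA : Acy α τ) (P : Asph G) (ι : A → P.S) (hι : Function.Injective ι)
    (hπ : ∀ a, P.π (FreeGroup.of (ι a)) = α (FreeGroup.of a)) :
    ∃ Ξ : FreeGroup P.S → (G × T →₀ ℤ), Ξ 1 = 0 ∧
      (∀ w w', P.π w = 1 → Ξ (w * w') = Ξ w + Ξ w') ∧ (∀ w, P.π w = 1 → Ξ w⁻¹ = - Ξ w) ∧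
      (∀ u w, P.π w = 1 →
        Ξ (u * w * u⁻¹) = Finsupp.mapDomain (fun c => (P.π u * c.1, c.2)) (Ξ w)) ∧
      ∀ t, Ξ (FreeGroup.map ι (τ t)) = Finsupp.single (1, t) 1 := by
  classical
  choose q₀ hq₀ using fun s : P.S => hA.surj (P.π (FreeGroup.of s))
  let q : FreeGroup P.S →* FreeGroup A :=
    FreeGroup.lift fun s => if h : ∃ a, ι a = s then FreeGroup.of h.choose else q₀ s
  have hq1 : ∀ w, α (q w) = P.π w := by
    intro w
    change (α.comp q) w = _
    congr 1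
    ext s
    simp only [q, MonoidHom.comp_apply, FreeGroup.lift_apply_of]
    split_ifs with h
    · rw [← hπ, h.choose_spec]
    · exact hq₀ s
  have hq2 : ∀ w, q (FreeGroup.map ι w) = w := by
    intro w
    change (q.comp (FreeGroup.map ι)) w = MonoidHom.id _ w
    congr 1
    ext a
    have h : ∃ a', ι a' = ι a := ⟨a, rfl⟩
    simp only [q, MonoidHom.comp_apply, FreeGroup.map.of, FreeGroup.lift_apply_of, dif_pos h,
      MonoidHom.id_apply, hι h.choose_spec]
  obtain ⟨ω, hω⟩ := hA.h2 (G × T →₀ ℤ) fun c => Finsupp.single c 1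
  have hsh : ∀ (h : G) (w : FreeGroup A), α w = 1 →
      ev α ω h w = Finsupp.mapDomain (fun c => (h * c.1, c.2)) (ev α ω 1 w) := by
    intro h w hw
    let F : (G × T →₀ ℤ) →+ (G × T →₀ ℤ) :=
      Finsupp.mapDomain.addMonoidHom (fun c => (h * c.1, c.2))
    have key : ∀ g w, ev α ((fun e => ω (h * e.1, e.2)) - fun e => F (ω e)) g w =
        ev α ω (h * g) w - F (ev α ω g w) := by
      intro g w
      rw [ev_sub, ev_shift, map_ev]
    obtain ⟨f, hf⟩ := hA.h1 _ ((fun e => ω (h * e.1, e.2)) - fun e => F (ω e)) fun g t => by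
      rw [key, hω, hω]
      simp [F]
    have h1 := key 1 w
    rw [show ((fun e => ω (h * e.1, e.2)) - fun e => F (ω e)) =
      fun e : G × A => f (e.1 * α (FreeGroup.of e.2)) - f e.1 from funext fun e => hf e.1 e.2,
      ev_pot, hw, mul_one, mul_one, sub_self] at h1
    exact sub_eq_zero.1 h1.symm
  refine ⟨fun w => ev α ω 1 (q w), by simp, fun w w' hw => ?_, fun w hw => ?_, fun u w hw => ?_,
    fun t => ?_⟩
  · simp only [map_mul, ev_mul, hq1, hw, mul_one]
  · simp only [map_inv, ev_inv, hq1, hw, inv_one, mul_one]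
  · simp only [map_mul, map_inv, ev_mul, ev_inv, hq1, hw, mul_one, one_mul, mul_inv_cancel]
    rw [← hsh _ _ ((hq1 w).trans hw)]
    abel
  · simp only [hq2, hω]

section B

variable {G S T : Type} [Group G] (π : FreeGroup S →* G) (c : G → FreeGroup S)

/-- conjugation by a unit quaternion -/
noncomputable def cj (a : S3) (x : ℍ[ℝ]) : ℍ[ℝ] := a * x * star (a : ℍ[ℝ])

theorem norm_cj (a : S3) (x : ℍ[ℝ]) : ‖cj a x‖ = ‖x‖ := by
  simp [cj, S3.norm_coe]

theorem cj_mul (a b : S3) (x : ℍ[ℝ]) : cj (a * b) x = cj a (cj b x) := by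
  simp only [cj, S3.coe_mul, star_mul, mul_assoc]

theorem re_cj (a : S3) {x : ℍ[ℝ]} (hx : x.re = 0) : (cj a x).re = 0 := by
  have h : star (cj a x) = - cj a x := by
    simp only [cj, star_mul, star_star, star_eq_of_re hx, mul_assoc, neg_mul, mul_neg]
  have := congrArg QuaternionAlgebra.re h
  simp only [Quaternion.re_star, Quaternion.re_neg] at this
  linarith

theorem norm_cj_sub (a : S3) (x : ℍ[ℝ]) : ‖cj a x - x‖ ≤ 2 * ‖(a : ℍ[ℝ]) - 1‖ * ‖x‖ := by
  have h : cj a x - x = (a - 1) * x * star (a : ℍ[ℝ]) + x * star ((a : ℍ[ℝ]) - 1) := by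
    simp only [cj, star_sub, star_one]; noncomm_ring
  rw [h]
  refine (norm_add_le _ _).trans (le_of_eq ?_)
  simp only [norm_mul, Quaternion.norm_star, S3.norm_coe]
  ring

theorem cj_quad (a x : S3) (X : ℍ[ℝ]) :
    ((a * x * a⁻¹ : S3) : ℍ[ℝ]) - 1 - cj a X = cj a ((x : ℍ[ℝ]) - 1 - X) := by
  simp only [cj, S3.coe_mul, S3.coe_inv, mul_sub, sub_mul, mul_one, S3.mul_star]

/-- `cj a` as an additive map -/
noncomputable def cjH (a : S3) : ℍ[ℝ] →+ ℍ[ℝ] where
  toFun := cj a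
  map_zero' := by simp [cj]
  map_add' x y := by simp [cj, mul_add, add_mul]

/-- The transported chain. -/
noncomputable def BB (z : G × S → S3) (β : G × T → ℍ[ℝ]) (g : G) : (G × T →₀ ℤ) →ₗ[ℤ] ℍ[ℝ] :=
  Finsupp.linearCombination ℤ fun j => cj (hol π z g (c j.1)) (β (g * j.1, j.2))

theorem norm_lc_le {J : Type} (ξ : J →₀ ℤ) (f : J → ℍ[ℝ]) (K : J → ℝ)
    (h : ∀ j ∈ ξ.support, ‖f j‖ ≤ K j) :
    ‖Finsupp.linearCombination ℤ f ξ‖ ≤ ∑ j ∈ ξ.support, |(ξ j : ℝ)| * K j := by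
  rw [Finsupp.linearCombination_apply, Finsupp.sum]
  refine (norm_sum_le _ _).trans (Finset.sum_le_sum fun j hj => ?_)
  rw [← Int.cast_smul_eq_zsmul ℝ, norm_smul, Real.norm_eq_abs]
  exact mul_le_mul_of_nonneg_left (h j hj) (abs_nonneg _)

theorem norm_BB (ξ : G × T →₀ ℤ) : ∃ C : ℝ, 0 ≤ C ∧ ∀ z β g (η : ℝ), (∀ j, ‖β j‖ ≤ η) →
    ‖BB π c z β g ξ‖ ≤ C * η := by
  refine ⟨∑ j ∈ ξ.support, |(ξ j : ℝ)|, Finset.sum_nonneg fun _ _ => abs_nonneg _,
    fun z β g η h => ?_⟩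
  rw [Finset.sum_mul]
  exact norm_lc_le ξ _ (fun _ => η) fun j _ => by rw [norm_cj]; exact h _

theorem re_BB (ξ : G × T →₀ ℤ) (z : G × S → S3) {β : G × T → ℍ[ℝ]} (h : ∀ j, (β j).re = 0) (g : G) :
    (BB π c z β g ξ).re = 0 := by
  induction ξ using Finsupp.induction_linear with
  | zero => simp
  | add a b ha hb => simp [ha, hb]
  | single j n =>
    rw [BB, Finsupp.linearCombination_single, ← Int.cast_smul_eq_zsmul ℝ]
    simp [re_cj _ (h _)]

theorem continuous_BB (ξ : G × T →₀ ℤ) (g : G) :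
    Continuous fun q : (G × S → S3) × (G × T → ℍ[ℝ]) => BB π c q.1 q.2 g ξ := by
  simp only [BB, Finsupp.linearCombination_apply, Finsupp.sum, cj]
  refine continuous_finsetSum _ fun j _ => Continuous.const_smul ?_ _
  have h : Continuous fun q : (G × S → S3) × (G × T → ℍ[ℝ]) =>
      ((hol π q.1 g (c j.1) : S3) : ℍ[ℝ]) :=
    continuous_subtype_val.comp (continuous_hol π (fun e => by fun_prop) _ _)
  exact (h.mul (by fun_prop)).mul h.star

end B

/-- A bound which holds as soon as finitely many equations hold. -/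
def Bd {G R Y : Type} [Group G] (Eq : Y → G × R → Prop) (ok : Y → ℝ → Prop) (k : ℕ)
    (f : Y → G → ℝ) : Prop :=
  ∃ (C : ℝ) (M : Finset (G × R)), 0 ≤ C ∧ ∀ y η g, (∀ c ∈ M, Eq y (g * c.1, c.2)) → ok y η →
    f y g ≤ C * η ^ k

section Bd

variable {G R Y : Type} [Group G] {Eq : Y → G × R → Prop} {ok : Y → ℝ → Prop}

theorem Bd.mono {k : ℕ} {f f' : Y → G → ℝ} (h : Bd Eq ok k f)
    (hf : ∀ y η g, ok y η → f' y g ≤ f y g) : Bd Eq ok k f' := by
  obtain ⟨C, M, hC, h⟩ := h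
  exact ⟨C, M, hC, fun y η g h1 h2 => (hf y η g h2).trans (h y η g h1 h2)⟩

theorem Bd.add {k : ℕ} {f f' : Y → G → ℝ} (h : Bd Eq ok k f) (h' : Bd Eq ok k f') :
    Bd Eq ok k fun y g => f y g + f' y g := by
  classical
  obtain ⟨C, M, hC, h⟩ := h
  obtain ⟨C', M', hC', h'⟩ := h'
  refine ⟨C + C', M ∪ M', by positivity, fun y η g h1 h2 => ?_⟩
  rw [add_mul]
  exact add_le_add (h y η g (fun c hc => h1 c (Finset.mem_union_left _ hc)) h2)
    (h' y η g (fun c hc => h1 c (Finset.mem_union_right _ hc)) h2)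

theorem Bd.mul {k k' : ℕ} {f f' : Y → G → ℝ} (h : Bd Eq ok k f) (h' : Bd Eq ok k' f')
    (hok : ∀ y η, ok y η → 0 ≤ η) (hf : ∀ y g, 0 ≤ f' y g) :
    Bd Eq ok (k + k') fun y g => f y g * f' y g := by
  classical
  obtain ⟨C, M, hC, h⟩ := h
  obtain ⟨C', M', hC', h'⟩ := h'
  refine ⟨C * C', M ∪ M', by positivity, fun y η g h1 h2 => ?_⟩
  have := hok y η h2
  calc _ ≤ (C * η ^ k) * (C' * η ^ k') :=
        mul_le_mul (h y η g (fun c hc => h1 c (Finset.mem_union_left _ hc)) h2)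
          (h' y η g (fun c hc => h1 c (Finset.mem_union_right _ hc)) h2) (hf y g) (by positivity)
    _ = _ := by ring

theorem Bd.shift {k : ℕ} {f : Y → G → ℝ} (h : Bd Eq ok k f) (a : G) :
    Bd Eq ok k fun y g => f y (g * a) := by
  classical
  obtain ⟨C, M, hC, h⟩ := h
  refine ⟨C, M.image fun c => (a * c.1, c.2), hC, fun y η g h1 h2 => h y η _ (fun c hc => ?_) h2⟩
  rw [mul_assoc]
  exact h1 _ (Finset.mem_image_of_mem _ hc)

theorem Bd.zero (k : ℕ) : Bd Eq ok k fun _ _ => 0 :=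
  ⟨0, ∅, le_rfl, fun _ _ _ _ _ => by simp⟩

theorem Bd.const_mul {k : ℕ} {f : Y → G → ℝ} (h : Bd Eq ok k f) {a : ℝ} (ha : 0 ≤ a) :
    Bd Eq ok k fun y g => a * f y g := by
  obtain ⟨C, M, hC, h⟩ := h
  refine ⟨a * C, M, by positivity, fun y η g h1 h2 => ?_⟩
  rw [mul_assoc]
  exact mul_le_mul_of_nonneg_left (h y η g h1 h2) ha

theorem Bd.sum {k : ℕ} {J : Type} (s : Finset J) {f : J → Y → G → ℝ}
    (h : ∀ j ∈ s, Bd Eq ok k (f j)) : Bd Eq ok k fun y g => ∑ j ∈ s, f j y g := by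
  classical
  induction s using Finset.induction_on with
  | empty => simpa using Bd.zero k
  | insert a s ha ih =>
    simp only [Finset.sum_insert ha]
    exact (h a (Finset.mem_insert_self _ _)).add (ih fun j hj => h j (Finset.mem_insert_of_mem hj))

end Bd

theorem est {G A T : Type} [Group G] [Finite T] {α : FreeGroup A →* G} {τ : T → FreeGroup A}
    (hA : Acy α τ) (P : Asph G) (ι : A → P.S) (hι : Function.Injective ι)
    (hπ : ∀ a, P.π (FreeGroup.of (ι a)) = α (FreeGroup.of a)) :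
    ∃ (C : ℝ) (M₀ : Finset (G × P.R)) (b : (G × P.S → S3) → (G × T → ℍ[ℝ]) → G × P.R → ℍ[ℝ]),
      0 ≤ C ∧ (∀ c, Continuous fun q : (G × P.S → S3) × (G × T → ℍ[ℝ]) => b q.1 q.2 c) ∧
      (∀ z c, b z 0 c = 0) ∧
      ∀ (z : G × P.S → S3) (β : G × T → ℍ[ℝ]) (η : ℝ) (g : G) (t : T),
        (∀ c ∈ M₀, hol P.π z (g * c.1) (P.w c.2) = ee (b z β (g * c.1, c.2))) →
        (∀ j, (β j).re = 0) → (∀ j, ‖β j‖ ≤ η) → η ≤ 1 →
        ‖((hol P.π z g (FreeGroup.map ι (τ t)) : S3) : ℍ[ℝ]) - 1 - β (g, t)‖ ≤ C * η ^ 2 := by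
  classical
  obtain ⟨Ξ, hΞ1, hΞm, hΞi, hΞc, hΞt⟩ := exists_Xi hA P ι hι hπ
  obtain ⟨c, hc, hc1⟩ : ∃ c : G → FreeGroup P.S, (∀ h, P.π (c h) = h) ∧ c 1 = 1 := by
    choose c hc using P.surj
    refine ⟨fun h => if h = 1 then 1 else c h, fun h => ?_, by simp⟩
    beta_reduce
    split_ifs with h1
    · simp [h1]
    · exact hc h
  let b : (G × P.S → S3) → (G × T → ℍ[ℝ]) → G × P.R → ℍ[ℝ] := fun z β r =>
    BB P.π c z β r.1 (Ξ (P.w r.2))
  let Y := (G × P.S → S3) × (G × T → ℍ[ℝ])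
  let Eq : Y → G × P.R → Prop := fun y r => hol P.π y.1 r.1 (P.w r.2) = ee (b y.1 y.2 r)
  let ok : Y → ℝ → Prop := fun y η => (∀ j, (y.2 j).re = 0) ∧ (∀ j, ‖y.2 j‖ ≤ η) ∧ 0 ≤ η ∧ η ≤ 1
  have hok : ∀ y η, ok y η → 0 ≤ η := fun y η h => h.2.2.1
  have hQ : ∀ w, P.π w = 1 →
      Bd Eq ok 1 fun y g => ‖((hol P.π y.1 g w : S3) : ℍ[ℝ]) - 1‖ := by
    refine P.ker_ind _ ?_ ?_ ?_ ?_ ?_
    · intro r
      obtain ⟨C, hC, h⟩ := norm_BB P.π c (Ξ (P.w r))
      refine ⟨C, {(1, r)}, hC, fun y η g h1 h2 => ?_⟩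
      have h3 := h1 _ (Finset.mem_singleton_self _)
      simp only [Eq, mul_one] at h3
      beta_reduce
      rw [h3, pow_one]
      exact (norm_ee_sub_one _).trans (h _ _ _ _ h2.2.1)
    · exact (Bd.zero 1).mono fun y η g _ => by simp
    · intro u w hw h
      refine (h.shift (P.π u)).mono fun y η g _ => le_of_eq ?_
      have := cj_quad (hol P.π y.1 g u) (hol P.π y.1 (g * P.π u) w) 0
      rw [show cj (hol P.π y.1 g u) 0 = 0 by simp [cj], sub_zero, sub_zero] at this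
      rw [hol_conj _ _ _ _ hw, this, norm_cj]
    · intro w w' hw _ h h'
      refine (h.add h').mono fun y η g _ => ?_
      rw [hol_mul, hw, mul_one]
      exact S3.norm_mul_sub_one _ _
    · intro w hw h
      refine h.mono fun y η g _ => le_of_eq ?_
      rw [hol_inv, hw, inv_one, mul_one, S3.norm_inv_sub_one]
  have hβ : ∀ (j : G × T), Bd Eq ok 1 fun y g => ‖y.2 (g * j.1, j.2)‖ := fun j =>
    ⟨1, ∅, zero_le_one, fun y η g _ h => by simpa using h.2.1 _⟩
  have hP : ∀ w, P.π w = 1 →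
      Bd Eq ok 2 fun y g => ‖((hol P.π y.1 g w : S3) : ℍ[ℝ]) - 1 - BB P.π c y.1 y.2 g (Ξ w)‖ := by
    refine P.ker_ind _ ?_ ?_ ?_ ?_ ?_
    · intro r
      obtain ⟨C, hC, h⟩ := norm_BB P.π c (Ξ (P.w r))
      refine ⟨C ^ 2, {(1, r)}, by positivity, fun y η g h1 h2 => ?_⟩
      have h3 := h1 _ (Finset.mem_singleton_self _)
      simp only [Eq, mul_one] at h3
      beta_reduce
      rw [h3, ← mul_pow]
      exact (norm_ee_sub _ (re_BB _ _ _ _ h2.1 _)).trans
        (pow_le_pow_left₀ (norm_nonneg _) (h _ _ _ _ h2.2.1) 2)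
    · exact (Bd.zero 2).mono fun y η g _ => by simp [hΞ1]
    · intro u w hw h
      have h1 : ∀ j ∈ (Ξ w).support, Bd Eq ok 2 fun y g => |((Ξ w j : ℤ) : ℝ)| *
          (2 * ‖((hol P.π y.1 g (u * c j.1 * (c (P.π u * j.1))⁻¹) : S3) : ℍ[ℝ]) - 1‖ *
            ‖y.2 (g * (P.π u * j.1), j.2)‖) := fun j _ =>
        (((hQ _ (by simp [hc])).const_mul zero_le_two).mul (hβ (P.π u * j.1, j.2)) hok
          fun _ _ => norm_nonneg _).const_mul (abs_nonneg _)
      refine ((h.shift (P.π u)).add (Bd.sum _ h1)).mono fun y η g _ => ?_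
      have e1 : ((hol P.π y.1 g (u * w * u⁻¹) : S3) : ℍ[ℝ]) - 1 -
          BB P.π c y.1 y.2 g (Ξ (u * w * u⁻¹)) =
          cj (hol P.π y.1 g u) (((hol P.π y.1 (g * P.π u) w : S3) : ℍ[ℝ]) - 1 -
            BB P.π c y.1 y.2 (g * P.π u) (Ξ w)) +
          Finsupp.linearCombination ℤ (fun j : G × T =>
            cj (hol P.π y.1 g (u * c j.1 * (c (P.π u * j.1))⁻¹))
              (cj (hol P.π y.1 g (c (P.π u * j.1))) (y.2 (g * (P.π u * j.1), j.2))) -
            cj (hol P.π y.1 g (c (P.π u * j.1))) (y.2 (g * (P.π u * j.1), j.2))) (Ξ w) := by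
        rw [← cj_quad, hol_conj _ _ _ _ hw, hΞc _ _ hw, sub_add, sub_right_inj]
        generalize Ξ w = ξ
        induction ξ using Finsupp.induction_linear with
        | zero => simp [cj]
        | add a a' ha ha' =>
          rw [Finsupp.mapDomain_add, map_add, map_add, map_add, ha, ha']
          simp only [cj, mul_add, add_mul]
          abel
        | single j n =>
          simp only [BB, Finsupp.mapDomain_single, Finsupp.linearCombination_single]
          have e2 : hol P.π y.1 g (u * c j.1 * (c (P.π u * j.1))⁻¹) *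
              hol P.π y.1 g (c (P.π u * j.1)) =
              hol P.π y.1 g u * hol P.π y.1 (g * P.π u) (c j.1) := by
            rw [← hol_mul P.π y.1 g u]
            have := hol_mul P.π y.1 g (u * c j.1 * (c (P.π u * j.1))⁻¹) (c (P.π u * j.1))
            rw [inv_mul_cancel_right] at this
            rw [this]
            simp [hc]
          rw [← cj_mul, e2, cj_mul, smul_sub, mul_assoc g]
          have := map_zsmul (cjH (hol P.π y.1 g u)) n
            (cj (hol P.π y.1 (g * P.π u) (c j.1)) (y.2 (g * (P.π u * j.1), j.2)))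
          change cj _ _ = n • cj _ _ at this
          rw [this]
          abel
      rw [e1]
      refine (norm_add_le _ _).trans (add_le_add (norm_cj _ _).le (norm_lc_le _ _ _ fun j _ => ?_))
      refine (norm_cj_sub _ _).trans (le_of_eq ?_)
      rw [norm_cj]
    · intro w w' hw hw' h h'
      refine ((h.add h').add ((hQ w hw).mul (hQ w' hw') hok fun _ _ => norm_nonneg _)).mono
        fun y η g _ => ?_
      rw [hol_mul, hw, mul_one, hΞm _ _ hw, map_add]
      exact S3.quad_mul _ _ _ _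
    · intro w hw h
      refine h.mono fun y η g hy => le_of_eq ?_
      rw [hol_inv, hw, inv_one, mul_one, hΞi _ hw, map_neg, S3.quad_inv _ (re_BB _ _ _ _ hy.1 _)]
  have hcomp : ∀ w, P.π (FreeGroup.map ι w) = α w := by
    intro w
    change (P.π.comp (FreeGroup.map ι)) w = _
    congr 1
    ext a
    simp [hπ]
  have := Fintype.ofFinite T
  obtain ⟨C, M, hC, h⟩ := Bd.sum Finset.univ fun t _ =>
    hP (FreeGroup.map ι (τ t)) (by rw [hcomp, hA.rel])
  refine ⟨C, M, b, hC, fun r => continuous_BB _ _ _ _, fun z r => ?_,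
    fun z β η g t h1 h2 h3 h4 => ?_⟩
  · simp [b, BB, cj, Finsupp.linearCombination_apply, Finsupp.sum]
  · refine le_trans ?_ (h (z, β) η g h1 ⟨h2, h3, (norm_nonneg _).trans (h3 (g, t)), h4⟩)
    refine le_trans (le_of_eq ?_) (Finset.single_le_sum
      (f := fun t => ‖((hol P.π z g (FreeGroup.map ι (τ t)) : S3) : ℍ[ℝ]) - 1 -
        BB P.π c z β g (Ξ (FreeGroup.map ι (τ t)))‖) (fun _ _ => norm_nonneg _) (Finset.mem_univ t))
    simp [hΞt, BB, hc1, cj]

end Crest.Agent.R197
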