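import Crest.Agent.R197.Defs

/-!
Task R197-EstA.  Elementary estimates for holonomies, fillings, spanning forests.

Plan.  `ee`: with `β = ‖b.im‖`, `‖1 + b.im‖² = 1 + β²` (`normSq`).  `‖ee b - 1‖² = 2 - 2 / √(1+β²) ≤ β²`;
`‖ee b - (1 + b.im)‖ = √(1+β²) - 1 ≤ β²`.
`small`, `lin`: induction on `w` (`FreeGroup.induction_on`, generalising `g`, with `hol_mul`, `hol_inv`, `ev_mul`, `ev_inv`);
for `lin` carry along `‖ev π v g w‖ ≤ C η` and `‖hol - 1‖ ≤ C η`; `(ee b)⁻¹ = star (ee b) = ee (-b)`.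
`fill`: `w ∈ normalClosure (range P.w)` by `P.ker`; `Subgroup.normalClosure_induction`-like induction (closure of
`Group.conjugatesOfSet`) on the statement `π w = 1 ∧ ∀ g, ∃ M, …`; `hol g (u * w * u⁻¹) = hol g u * hol (g * π u) w * (hol g u)⁻¹`
when `π w = 1`.
`exists_forest`: `Finset.induction_on I`.  Insert `e = (g, a)`: if `∃ u, In α F g u ∧ α u = α (of a)` keep `F`.  Otherwise
take `insert e F`; the component `C = {h | ∃ u, In α F (g * α (of a)) u ∧ g * α (of a) * α u = h}` does not contain `g`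
(`In.inv`) and is closed under `F`-edges in both directions (`In.mul`, `In.of`, `In.inv`); replace `γ` by
`if h ∈ C then c * γ h else γ h` with `c = γ g * z e * (γ (g * α (of a)))⁻¹`.  Use `In.mono`.
-/

set_option autoImplicit false

namespace Crest.Agent.R197

open scoped Quaternion

theorem S3.norm_coe (a : S3) : ‖(a : ℍ[ℝ])‖ = 1 := mem_sphere_zero_iff_norm.1 a.2

theorem S3.coe_one : ((1 : S3) : ℍ[ℝ]) = 1 := rfl

theorem S3.coe_mul (a b : S3) : ((a * b : S3) : ℍ[ℝ]) = a * b := rfl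

theorem S3.coe_inv (a : S3) : ((a⁻¹ : S3) : ℍ[ℝ]) = star (a : ℍ[ℝ]) := by
  have h : ((a⁻¹ : S3) : ℍ[ℝ]) = (a : ℍ[ℝ])⁻¹ := rfl
  rw [h, Quaternion.inv_def, Quaternion.normSq_eq_norm_mul_self, S3.norm_coe]
  simp

theorem S3.mul_star (a : S3) : (a : ℍ[ℝ]) * star (a : ℍ[ℝ]) = 1 := by
  rw [← S3.coe_inv, ← S3.coe_mul, mul_inv_cancel, S3.coe_one]

theorem S3.star_mul (a : S3) : star (a : ℍ[ℝ]) * (a : ℍ[ℝ]) = 1 := by
  rw [← S3.coe_inv, ← S3.coe_mul, inv_mul_cancel, S3.coe_one]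

theorem S3.norm_inv_sub_one (a : S3) : ‖((a⁻¹ : S3) : ℍ[ℝ]) - 1‖ = ‖(a : ℍ[ℝ]) - 1‖ := by
  rw [S3.coe_inv, ← Quaternion.norm_star, star_sub, star_star, star_one]

theorem S3.norm_mul_sub_one (a b : S3) :
    ‖((a * b : S3) : ℍ[ℝ]) - 1‖ ≤ ‖(a : ℍ[ℝ]) - 1‖ + ‖(b : ℍ[ℝ]) - 1‖ := by
  have : ((a * b : S3) : ℍ[ℝ]) - 1 = (a - 1) * b + (b - 1) := by
    rw [S3.coe_mul]; noncomm_ring
  rw [this]
  refine (norm_add_le _ _).trans (le_of_eq ?_)
  rw [norm_mul, S3.norm_coe, mul_one]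

theorem norm_sq_eq (b : ℍ[ℝ]) : ‖b‖ ^ 2 = b.re ^ 2 + b.imI ^ 2 + b.imJ ^ 2 + b.imK ^ 2 := by
  rw [sq, ← Quaternion.normSq_eq_norm_mul_self, Quaternion.normSq_def']

theorem norm_sq_re_im (b : ℍ[ℝ]) : ‖b‖ ^ 2 = b.re ^ 2 + ‖b.im‖ ^ 2 := by
  rw [norm_sq_eq, norm_sq_eq]
  simp
  ring

theorem norm_one_add_im (b : ℍ[ℝ]) : ‖1 + b.im‖ ^ 2 = 1 + ‖b.im‖ ^ 2 := by
  rw [norm_sq_re_im]
  simp

theorem norm_im_le (b : ℍ[ℝ]) : ‖b.im‖ ≤ ‖b‖ :=
  le_of_sq_le_sq' (by rw [norm_sq_re_im b]; nlinarith [sq_nonneg b.re])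
where
  le_of_sq_le_sq' {x y : ℍ[ℝ]} (h : ‖x‖ ^ 2 ≤ ‖y‖ ^ 2) : ‖x‖ ≤ ‖y‖ :=
    (pow_le_pow_iff_left₀ (norm_nonneg _) (norm_nonneg _) two_ne_zero).1 h

theorem abs_re_le (b : ℍ[ℝ]) : |b.re| ≤ ‖b‖ :=
  abs_le_of_sq_le_sq (by rw [norm_sq_re_im b]; nlinarith [sq_nonneg ‖b.im‖]) (norm_nonneg _)

theorem ee_coe (b : ℍ[ℝ]) : (ee b : ℍ[ℝ]) = ‖1 + b.im‖⁻¹ • (1 + b.im) := rfl

theorem im_eq_of_re {b : ℍ[ℝ]} (hb : b.re = 0) : b.im = b := by
  ext <;> simp [hb]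

theorem star_eq_of_re {b : ℍ[ℝ]} (hb : b.re = 0) : star b = -b := by
  ext <;> simp [hb]

theorem ee_zero : ee 0 = 1 := by
  apply Subtype.ext
  rw [ee_coe]
  simp [S3.coe_one]

theorem continuous_ee : Continuous ee := by
  refine Continuous.subtype_mk ?_ _
  have h : Continuous fun b : ℍ[ℝ] => 1 + b.im := continuous_const.add Quaternion.continuous_im
  exact (h.norm.inv₀ fun b => norm_ne_zero_iff.2 (one_add_im_ne b)).smul h

theorem one_le_norm_one_add_im (b : ℍ[ℝ]) : 1 ≤ ‖1 + b.im‖ := by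
  have := abs_re_le (1 + b.im)
  simpa using this

theorem norm_ee_sub_one (b : ℍ[ℝ]) : ‖(ee b : ℍ[ℝ]) - 1‖ ≤ ‖b‖ := by
  refine le_trans ?_ (norm_im_le b)
  refine (pow_le_pow_iff_left₀ (norm_nonneg _) (norm_nonneg _) two_ne_zero).1 ?_
  have h1 := one_le_norm_one_add_im b
  have h2 := norm_one_add_im b
  have h3 := norm_sq_re_im (ee b : ℍ[ℝ])
  have h4 := norm_sq_re_im ((ee b : ℍ[ℝ]) - 1)
  have h5 : (ee b : ℍ[ℝ]).re = ‖1 + b.im‖⁻¹ := by simp [ee_coe]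
  rw [S3.norm_coe] at h3
  simp only [Quaternion.re_sub, Quaternion.re_one, Quaternion.im_sub, Quaternion.im_one,
    sub_zero] at h4
  set n := ‖1 + b.im‖
  have h6 : n * n⁻¹ = 1 := mul_inv_cancel₀ (by linarith)
  have h7 : 2 - n ≤ n⁻¹ := by
    have : 0 < n := by linarith
    rw [← one_div, le_div_iff₀ this]
    nlinarith [sq_nonneg (n - 1)]
  rw [h4, h5]
  rw [h5] at h3
  nlinarith [sq_nonneg (n - 1)]

theorem norm_ee_sub (b : ℍ[ℝ]) (hb : b.re = 0) : ‖(ee b : ℍ[ℝ]) - 1 - b‖ ≤ ‖b‖ ^ 2 := by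
  have h1 := one_le_norm_one_add_im b
  have h2 := norm_one_add_im b
  rw [ee_coe]
  rw [im_eq_of_re hb] at *
  set n := ‖1 + b‖ with hn
  have h3 : n⁻¹ • (1 + b) - 1 - b = (n⁻¹ - 1) • (1 + b) := by
    rw [sub_smul, one_smul]; abel
  have h4 : n⁻¹ ≤ 1 := inv_le_one_of_one_le₀ h1
  have h6 : n⁻¹ * n = 1 := inv_mul_cancel₀ (by linarith)
  rw [h3, norm_smul, ← hn, Real.norm_eq_abs, abs_of_nonpos (by linarith)]
  nlinarith

theorem ee_chart (a : S3) (ha : 0 < (a : ℍ[ℝ]).re) : ee (((a : ℍ[ℝ]).re)⁻¹ • (a : ℍ[ℝ]).im) = a := by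
  apply Subtype.ext
  have h : 1 + (((a : ℍ[ℝ]).re)⁻¹ • (a : ℍ[ℝ]).im).im = ((a : ℍ[ℝ]).re)⁻¹ • (a : ℍ[ℝ]) := by
    ext <;> simp [ha.ne']
  rw [ee_coe, h, norm_smul, S3.norm_coe, mul_one, norm_inv, inv_inv, Real.norm_of_nonneg ha.le,
    smul_smul, mul_inv_cancel₀ ha.ne', one_smul]

theorem norm_chart (a : S3) (ha : ‖(a : ℍ[ℝ]) - 1‖ ≤ 1 / 2) :
    0 < (a : ℍ[ℝ]).re ∧ ‖((a : ℍ[ℝ]).re)⁻¹ • (a : ℍ[ℝ]).im‖ ≤ 2 * ‖(a : ℍ[ℝ]) - 1‖ := by
  have h1 := abs_re_le ((a : ℍ[ℝ]) - 1)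
  have h2 := norm_im_le ((a : ℍ[ℝ]) - 1)
  simp only [Quaternion.re_sub, Quaternion.re_one, Quaternion.im_sub, Quaternion.im_one,
    sub_zero] at h1 h2
  have h3 : 1 / 2 ≤ (a : ℍ[ℝ]).re := by linarith [(abs_le.1 h1).1]
  refine ⟨by linarith, ?_⟩
  rw [norm_smul, norm_inv, Real.norm_of_nonneg (by linarith)]
  refine mul_le_mul ?_ h2 (norm_nonneg _) (by norm_num)
  rw [inv_le_comm₀ (by linarith) (by norm_num)]
  linarith

theorem small {G S : Type} [Group G] (π : FreeGroup S →* G) (w : FreeGroup S) :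
    ∃ C : ℝ, 0 ≤ C ∧ ∀ (z : G × S → S3) (ε : ℝ) (g : G), 0 ≤ ε → (∀ e, ‖(z e : ℍ[ℝ]) - 1‖ ≤ ε) →
      ‖((hol π z g w : S3) : ℍ[ℝ]) - 1‖ ≤ C * ε := by
  induction w using FreeGroup.induction_on with
  | C1 => exact ⟨0, le_rfl, fun z ε g _ _ => by simp [S3.coe_one]⟩
  | of s => exact ⟨1, zero_le_one, fun z ε g _ h => by simpa using h _⟩
  | inv_of s _ =>
    exact ⟨1, zero_le_one, fun z ε g _ h => by
      rw [hol_inv, S3.norm_inv_sub_one, hol_of, one_mul]; exact h _⟩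
  | mul x y hx hy =>
    obtain ⟨C, hC, hx⟩ := hx
    obtain ⟨C', hC', hy⟩ := hy
    refine ⟨C + C', by positivity, fun z ε g hε h => ?_⟩
    rw [hol_mul, add_mul]
    exact (S3.norm_mul_sub_one _ _).trans (add_le_add (hx z ε g hε h) (hy z ε _ hε h))

theorem S3.quad_mul (a b : S3) (A B : ℍ[ℝ]) :
    ‖((a * b : S3) : ℍ[ℝ]) - 1 - (A + B)‖ ≤
      ‖(a : ℍ[ℝ]) - 1 - A‖ + ‖(b : ℍ[ℝ]) - 1 - B‖ + ‖(a : ℍ[ℝ]) - 1‖ * ‖(b : ℍ[ℝ]) - 1‖ := by
  have : ((a * b : S3) : ℍ[ℝ]) - 1 - (A + B) =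
      ((a : ℍ[ℝ]) - 1 - A) + ((b : ℍ[ℝ]) - 1 - B) + (a - 1) * (b - 1) := by
    rw [S3.coe_mul]; noncomm_ring
  rw [this, ← norm_mul]
  exact norm_add₃_le

theorem S3.quad_inv (a : S3) {A : ℍ[ℝ]} (hA : A.re = 0) :
    ‖((a⁻¹ : S3) : ℍ[ℝ]) - 1 - (-A)‖ = ‖(a : ℍ[ℝ]) - 1 - A‖ := by
  rw [S3.coe_inv, ← star_eq_of_re hA, ← Quaternion.norm_star, star_sub, star_sub, star_star,
    star_star, star_one]

theorem lin {G S : Type} [Group G] (π : FreeGroup S →* G) (w : FreeGroup S) :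
    ∃ C : ℝ, 0 ≤ C ∧ ∀ (v : G × S → ℍ[ℝ]) (η : ℝ) (g : G), 0 ≤ η → η ≤ 1 → (∀ e, (v e).re = 0) →
      (∀ e, ‖v e‖ ≤ η) →
      ‖((hol π (fun e => ee (v e)) g w : S3) : ℍ[ℝ]) - 1 - ev π v g w‖ ≤ C * η ^ 2 := by
  have hb : ∀ (v : G × S → ℍ[ℝ]) (η : ℝ) (e : G × S), (v e).re = 0 → ‖v e‖ ≤ η →
      ‖(ee (v e) : ℍ[ℝ]) - 1 - v e‖ ≤ 1 * η ^ 2 := fun v η e h1 h2 =>
    (norm_ee_sub _ h1).trans (by rw [one_mul]; exact pow_le_pow_left₀ (norm_nonneg _) h2 2)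
  induction w using FreeGroup.induction_on with
  | C1 => exact ⟨0, le_rfl, fun v η g _ _ _ _ => by simp [S3.coe_one]⟩
  | of s =>
    exact ⟨1, zero_le_one, fun v η g _ _ h h' => by
      rw [hol_of, ev_of]; exact hb v η _ (h _) (h' _)⟩
  | inv_of s _ =>
    exact ⟨1, zero_le_one, fun v η g _ _ h h' => by
      rw [hol_inv, ev_inv, hol_of, ev_of, S3.quad_inv _ (h _)]; exact hb v η _ (h _) (h' _)⟩
  | mul x y hx hy =>
    obtain ⟨C, hC, hx⟩ := hx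
    obtain ⟨C', hC', hy⟩ := hy
    obtain ⟨D, hD, sx⟩ := small π x
    obtain ⟨D', hD', sy⟩ := small π y
    refine ⟨C + C' + D * D', by positivity, fun v η g h0 h1 h h' => ?_⟩
    rw [hol_mul, ev_mul]
    refine (S3.quad_mul _ _ _ _).trans ?_
    have hs : ∀ e, ‖(ee (v e) : ℍ[ℝ]) - 1‖ ≤ η := fun e => (norm_ee_sub_one _).trans (h' e)
    have h2 := mul_le_mul (sx _ η g h0 hs) (sy _ η (g * π x) h0 hs) (norm_nonneg _) (by positivity)
    have h3 := hx v η g h0 h1 h h'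
    have h4 := hy v η (g * π x) h0 h1 h h'
    nlinarith

theorem hol_conj {G S K : Type} [Group G] [Group K] (π : FreeGroup S →* G) (z : G × S → K) (g : G)
    (u : FreeGroup S) {w : FreeGroup S} (hw : π w = 1) :
    hol π z g (u * w * u⁻¹) = hol π z g u * hol π z (g * π u) w * (hol π z g u)⁻¹ := by
  rw [hol_mul, hol_mul, hol_inv]
  simp [hw]

theorem Asph.rel {G : Type} [Group G] (P : Asph G) (r : P.R) : P.π (P.w r) = 1 := by
  rw [← MonoidHom.mem_ker, P.ker]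
  exact Subgroup.subset_normalClosure ⟨r, rfl⟩

/-- Induction over the kernel of a presentation. -/
theorem Asph.ker_ind {G : Type} [Group G] (P : Asph G) (Q : FreeGroup P.S → Prop)
    (h0 : ∀ r, Q (P.w r)) (h1 : Q 1)
    (hc : ∀ u w, P.π w = 1 → Q w → Q (u * w * u⁻¹))
    (hm : ∀ w w', P.π w = 1 → P.π w' = 1 → Q w → Q w' → Q (w * w'))
    (hi : ∀ w, P.π w = 1 → Q w → Q w⁻¹) (w : FreeGroup P.S) (hw : P.π w = 1) : Q w := by
  have hk : ∀ w, w ∈ Subgroup.closure (Group.conjugatesOfSet (Set.range P.w)) → P.π w = 1 := by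
    intro w hw
    rw [← MonoidHom.mem_ker, P.ker]
    exact hw
  rw [← MonoidHom.mem_ker, P.ker] at hw
  induction hw using Subgroup.closure_induction with
  | mem x hx =>
    obtain ⟨_, ⟨r, rfl⟩, hx⟩ := Group.mem_conjugatesOfSet_iff.1 hx
    obtain ⟨u, rfl⟩ := isConj_iff.1 hx
    exact hc u _ (P.rel r) (h0 r)
  | one => exact h1
  | mul x y hx hy ix iy => exact hm x y (hk x hx) (hk y hy) ix iy
  | inv x hx ix => exact hi x (hk x hx) ix

theorem fill {G : Type} [Group G] (P : Asph G) (g : G) (w : FreeGroup P.S) (hw : P.π w = 1) :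
    ∃ M : Finset (G × P.R), ∀ (K : Type) [Group K] (z : G × P.S → K),
      (∀ c ∈ M, hol P.π z c.1 (P.w c.2) = 1) → hol P.π z g w = 1 := by
  classical
  revert g
  refine P.ker_ind (fun w => ∀ g, ∃ M : Finset (G × P.R), ∀ (K : Type) [Group K] (z : G × P.S → K),
      (∀ c ∈ M, hol P.π z c.1 (P.w c.2) = 1) → hol P.π z g w = 1) ?_ ?_ ?_ ?_ ?_ w hw
  · intro r g
    exact ⟨{(g, r)}, fun K _ z h => h (g, r) (Finset.mem_singleton_self _)⟩
  · intro g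
    exact ⟨∅, fun K _ z _ => hol_one _ _ _⟩
  · intro u w hw h g
    obtain ⟨M, hM⟩ := h (g * P.π u)
    refine ⟨M, fun K _ z h => ?_⟩
    rw [hol_conj _ _ _ _ hw, hM K z h, mul_one, mul_inv_cancel]
  · intro w w' hw _ h h' g
    obtain ⟨M, hM⟩ := h g
    obtain ⟨M', hM'⟩ := h' g
    refine ⟨M ∪ M', fun K _ z h => ?_⟩
    rw [hol_mul, hw, mul_one, hM K z fun c hc => h c (Finset.mem_union_left _ hc),
      hM' K z fun c hc => h c (Finset.mem_union_right _ hc), mul_one]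
  · intro w hw h g
    obtain ⟨M, hM⟩ := h g
    refine ⟨M, fun K _ z h => ?_⟩
    rw [hol_inv, hw, inv_one, mul_one, hM K z h, inv_one]

theorem exists_forest {G A : Type} [Group G] (α : FreeGroup A →* G) (I : Finset (G × A)) :
    ∃ F : Finset (G × A), F ⊆ I ∧
      (∀ (K : Type) [Group K] (z : G × A → K), ∃ γ : G → K,
        ∀ e ∈ F, z e = (γ e.1)⁻¹ * γ (e.1 * α (FreeGroup.of e.2))) ∧
      ∀ e ∈ I, ∃ u, In α (F : Set (G × A)) e.1 u ∧ α u = α (FreeGroup.of e.2) := by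
  classical
  induction I using Finset.induction_on with
  | empty => exact ⟨∅, Finset.Subset.refl _, fun K _ z => ⟨1, by simp⟩, by simp⟩
  | insert e I he ih =>
    obtain ⟨F, hF, h1, h2⟩ := ih
    by_cases hc : ∃ u, In α (F : Set (G × A)) e.1 u ∧ α u = α (FreeGroup.of e.2)
    · refine ⟨F, hF.trans (Finset.subset_insert _ _), h1, fun e' he' => ?_⟩
      rcases Finset.mem_insert.1 he' with rfl | he'
      · exact hc
      · exact h2 e' he'
    · refine ⟨insert e F, Finset.insert_subset_insert _ hF, fun K _ z => ?_, fun e' he' => ?_⟩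
      · obtain ⟨γ, hγ⟩ := h1 K z
        set g₁ := e.1 * α (FreeGroup.of e.2) with hg₁
        let C : G → Prop := fun h => ∃ u, In α (F : Set (G × A)) g₁ u ∧ g₁ * α u = h
        have hC1 : C g₁ := ⟨1, In.one _ _, by simp⟩
        have hC0 : ¬ C e.1 := by
          rintro ⟨u, hu, hu'⟩
          refine hc ⟨u⁻¹, In.inv (by rwa [← hu', mul_inv_cancel_right]), ?_⟩
          rw [map_inv, inv_eq_iff_mul_eq_one]
          rw [hg₁, mul_assoc, mul_eq_left] at hu'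
          exact mul_eq_one_comm.1 hu'
        have hCe : ∀ e' ∈ F, C e'.1 ↔ C (e'.1 * α (FreeGroup.of e'.2)) := by
          intro e' he'
          constructor
          · rintro ⟨u, hu, hu'⟩
            exact ⟨u * FreeGroup.of e'.2, hu.mul (In.of (by rw [hu']; exact he')),
              by rw [map_mul, ← mul_assoc, hu']⟩
          · rintro ⟨u, hu, hu'⟩
            exact ⟨u * (FreeGroup.of e'.2)⁻¹,
              hu.mul (In.inv (In.of (by rw [hu', mul_inv_cancel_right]; exact he'))),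
              by rw [map_mul, ← mul_assoc, hu', map_inv, mul_inv_cancel_right]⟩
        refine ⟨fun h => if C h then γ e.1 * z e * (γ g₁)⁻¹ * γ h else γ h, fun e' he' => ?_⟩
        rcases Finset.mem_insert.1 he' with rfl | he'
        · simp only [← hg₁, if_pos hC1, if_neg hC0]
          group
        · by_cases h : C e'.1
          · simp only [if_pos h, if_pos ((hCe e' he').1 h), hγ e' he']
            group
          · simp only [if_neg h, if_neg (mt (hCe e' he').2 h), hγ e' he']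
      · rcases Finset.mem_insert.1 he' with rfl | he'
        · exact ⟨FreeGroup.of e'.2, In.of (by simp), rfl⟩
        · obtain ⟨u, hu, hu'⟩ := h2 e' he'
          exact ⟨u, hu.mono (by simp), hu'⟩

end Crest.Agent.R197
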