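import Crest.Agent.R197.CellA
import Crest.Agent.R197.Cov

/-!
Task R197-Ext.  Cocycles with prescribed values on the edges; extension over the 2-cells.

Plan.  `ext1`: `ι = Bool`, `U true = c1.ctrᶜ`, `k true = 1`, `U false = X0ᶜ`, `k false (c1.χ s w) = if 0 < w then z s else 1` (`‖w‖ < 1`; define with
`cov`/`exists_inv`; locally constant off the centres by `Cell.map_nhds`).  Cut `ed s` at `1/4`, `3/4` with a potential of
`θ.comap (ed s)`.
`ext2`: `ρ y = d y 1` (`exists_defo` for `c2`), continuous on `c2.ctrᶜ` with values in `X1` (make it a function `X → X1`, junk on the centres).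
For each `r` let `κ r : ℝ → K` be a potential of `θ₁.comap (attR r)`.  It is `1`-periodic: `attR r (t + 1) = attR r t` gives
`(κ t)⁻¹ κ t' = (κ (t+1))⁻¹ κ (t'+1)`, and `(κ 0)⁻¹ κ 1 = θ₁ (att r) = 1`.  For each `i`, `t ↦ κ r t * (C.k i (attR r t))⁻¹` is locally constant on
`attR r ⁻¹' U i` (`Rep` for segments).  New `Cech` data on `X`, index type `Option C.ι`: `U' (some i) = ctrᶜ ∩ ρ ⁻¹' U i`, `k' (some i) = C.k i ∘ ρ`,
`U' none = X1ᶜ`, `k' none (c2.χ r w) = κ r (arg w / (2π))`.  `lc` near `c2.χ r w₀`, `0 < ‖w₀‖ < 1`: `map_nhds`; `ρ (χ r w) = attR r (a w)` for the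
continuous local branch `a w = (arg w₀ + arg (w / w₀)) / (2π)`, which differs from `arg w / (2π)` by an integer.  `exists_rep` gives `θ`;
`θ.comap inc` and `θ₁` both represent `C`, so `Rep.unique`.
-/

set_option autoImplicit false

namespace Crest.Agent.R197.CS2

open unitInterval

variable {X : Type} [TopologicalSpace X] (Y : CS2 X) {K : Type} [Group K]

open Set Filter _root_.Topology

/-- The segment from `a` to `b`. -/
noncomputable def extSeg (a b : ℝ) : C(I, ℝ) := ⟨fun t => a + (t : ℝ) * (b - a), by fun_prop⟩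

theorem extSeg_apply (a b : ℝ) (t : I) : extSeg a b t = a + (t : ℝ) * (b - a) := rfl

theorem ext_pot {Z : Type} [TopologicalSpace Z] (θ : Coc Z K) (f : C(ℝ, Z)) :
    ∃ κ : ℝ → K, ∀ a b, θ.θ (f.comp (extSeg a b)) = (κ a)⁻¹ * κ b := by
  obtain ⟨κ, hκ⟩ := (θ.comap f).pot
  refine ⟨κ, fun a b => ?_⟩
  have := hκ (extSeg a b)
  rw [Coc.comap_θ] at this
  rw [this]
  simp [extSeg_apply]

theorem ext_notMem_ctr {𝔼 : Type} [NormedAddCommGroup 𝔼] {Z : Type} [TopologicalSpace Z]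
    {B : Set Z} {ι : Type} (c : Cell 𝔼 B ι) {y : Z} (hy : y ∈ B) : y ∉ c.ctr := by
  rintro ⟨i, rfl⟩
  exact c.int i 0 (by simp) hy

theorem ext_notMem_ctr' {𝔼 : Type} [NormedAddCommGroup 𝔼] {Z : Type} [TopologicalSpace Z]
    {B : Set Z} {ι : Type} (c : Cell 𝔼 B ι) (i : ι) {w : 𝔼} (hw : w ≠ 0) : c.χ i w ∉ c.ctr := by
  rcases lt_or_ge ‖w‖ 1 with h | h
  · rintro ⟨j, e⟩
    exact hw (c.inj j i 0 w (by simp) h e).2.symm
  · exact ext_notMem_ctr c (c.bd i w h)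

theorem ext_fun {𝔼 : Type} [NormedAddCommGroup 𝔼] {Z : Type} [TopologicalSpace Z]
    {B : Set Z} {ι : Type} (c : Cell 𝔼 B ι) (f : ι → 𝔼 → K) :
    ∃ k : Z → K, ∀ i w, ‖w‖ < 1 → k (c.χ i w) = f i w := by
  classical
  refine ⟨fun y => if h : ∃ p : ι × 𝔼, ‖p.2‖ < 1 ∧ c.χ p.1 p.2 = y then f h.choose.1 h.choose.2
    else 1, fun i w hw => ?_⟩
  have h : ∃ p : ι × 𝔼, ‖p.2‖ < 1 ∧ c.χ p.1 p.2 = c.χ i w := ⟨(i, w), hw, rfl⟩
  simp only
  rw [dif_pos h]
  obtain ⟨e1, e2⟩ := c.inj _ _ _ _ h.choose_spec.1 hw h.choose_spec.2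
  rw [e1, e2]

theorem ext1 (z : Y.S → K) : ∃ C : Cech Y.X1 K, ∀ θ, C.Rep θ → ∀ s, θ.θ (Y.ed s) = z s := by
  classical
  obtain ⟨k, hk⟩ := ext_fun Y.c1 (fun s w => if 0 < w then z s else 1)
  have hlc : ∀ y, y ∉ Y.c1.ctr → y ∉ Y.X0 → ∀ᶠ y' in 𝓝 y, k y' = k y := by
    intro y h1 h2
    obtain ⟨s, w, hw, rfl⟩ := Y.c1.cov y h2
    have hw0 : w ≠ 0 := by
      rintro rfl
      exact h1 ⟨s, rfl⟩
    rw [← Y.c1.map_nhds s hw, eventually_map, hk s w hw]
    have h3 : ∀ᶠ w' in 𝓝 w, ‖w'‖ < 1 := (isOpen_lt continuous_norm continuous_const).mem_nhds hw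
    rcases lt_or_gt_of_ne hw0 with h | h
    · filter_upwards [h3, Iio_mem_nhds h] with w' a b
      rw [hk s w' a, if_neg (not_lt.mpr h.le), if_neg (not_lt.mpr (le_of_lt b))]
    · filter_upwards [h3, Ioi_mem_nhds h] with w' a b
      rw [hk s w' a, if_pos h, if_pos (show 0 < w' from b)]
  refine ⟨⟨Bool, fun b => cond b Y.c1.ctrᶜ Y.X0ᶜ, fun b => cond b (fun _ => 1) k, ?_, ?_, ?_⟩, ?_⟩
  · rintro (_ | _)
    · exact Y.c1.closedB.isOpen_compl
    · exact Y.c1.isClosed_ctr.isOpen_compl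
  · intro y
    by_cases h : y ∈ Y.X0
    · exact ⟨true, ext_notMem_ctr Y.c1 h⟩
    · exact ⟨false, h⟩
  · rintro (_ | _) (_ | _) y ⟨h1, h2⟩
    · simp
    · filter_upwards [hlc y h2 h1] with y' h
      simp [h]
    · filter_upwards [hlc y h1 h2] with y' h
      simp [h]
    · simp
  · intro θ hθ s
    obtain ⟨κ, hκ⟩ := ext_pot θ (Y.c1.χ s)
    have e0 : Y.ed s = (Y.c1.χ s).comp (extSeg (-1) 1) := by
      ext t
      change ((Y.c1.χ s (2 * (t : ℝ) - 1) : Y.X1) : X) = Y.c1.χ s (extSeg (-1) 1 t)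
      rw [extSeg_apply]
      congr 2
      ring
    have e1 := hθ true ((Y.c1.χ s).comp (extSeg (-1) (-1 / 2))) (fun t =>
      ext_notMem_ctr' Y.c1 s (by
        rw [extSeg_apply]
        have := t.2.2
        intro h
        linarith))
    have e2 := hθ false ((Y.c1.χ s).comp (extSeg (-1 / 2) (1 / 2))) (fun t =>
      Y.c1.int s _ (by
        rw [extSeg_apply, Real.norm_eq_abs, abs_lt]
        have := t.2.1
        have := t.2.2
        constructor <;> linarith))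
    have e3 := hθ true ((Y.c1.χ s).comp (extSeg (1 / 2) 1)) (fun t =>
      ext_notMem_ctr' Y.c1 s (by
        rw [extSeg_apply]
        have := t.2.1
        intro h
        linarith))
    rw [hκ] at e1 e2 e3
    simp only [cond_true, inv_one, mul_one, cond_false, ContinuousMap.comp_apply] at e1 e2 e3
    rw [hk s _ (by rw [extSeg_apply]; norm_num [abs_lt]),
      hk s _ (by rw [extSeg_apply]; norm_num [abs_lt]),
      if_neg (by rw [extSeg_apply]; norm_num), if_pos (by rw [extSeg_apply]; norm_num)] at e2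
    rw [e0, hκ]
    calc (κ (-1))⁻¹ * κ 1
        = ((κ (-1))⁻¹ * κ (-1 / 2)) * ((κ (-1 / 2))⁻¹ * κ (1 / 2)) * ((κ (1 / 2))⁻¹ * κ 1) := by
          group
      _ = z s := by rw [e1, e2, e3]; simp

theorem attR_add_one (r : Y.R) (t : ℝ) : Y.attR r (t + 1) = Y.attR r t := by
  apply Subtype.ext
  change Y.c2.χ r _ = Y.c2.χ r _
  congr 1
  push_cast
  rw [mul_add, add_mul, Complex.exp_add, mul_one, Complex.exp_two_pi_mul_I, mul_one]

theorem ext2 (C : Cech Y.X1 K) (θ₁ : Coc Y.X1 K) (h : C.Rep θ₁) (hr : ∀ r, θ₁.θ (Y.att r) = 1) :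
    ∃ θ : Coc X K, ∀ γ : C(I, Y.X1), θ.θ (Y.inc.comp γ) = θ₁.θ γ := by
  classical
  obtain ⟨d, hd, hdB, hdχ⟩ := Y.c2.exists_defo
  have hd1 : ∀ r (u : ℂ), ‖Complex.exp u‖ < 1 →
      d (Y.c2.χ r (Complex.exp u)) 1 = Y.attR r (u.im / (2 * Real.pi)) := by
    intro r u hu
    rw [hdχ r _ hu.le (Complex.exp_ne_zero u)]
    change Y.c2.χ r _ = Y.c2.χ r _
    congr 1
    have h1 : (2 * Real.pi * ((u.im / (2 * Real.pi) : ℝ) : ℂ)) = (u.im : ℂ) := by
      have := Real.pi_ne_zero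
      push_cast
      field_simp
    rw [h1, Complex.norm_exp]
    conv_lhs => rw [← Complex.re_add_im u, Complex.exp_add]
    have h2 : (Complex.exp (u.re : ℂ)) ≠ 0 := Complex.exp_ne_zero _
    simp
  have : ∀ y : X, ∃ y' : Y.X1, y ∉ Y.c2.ctr → (y' : X) = d y 1 := by
    intro y
    by_cases h1 : y ∈ Y.X1
    · exact ⟨⟨y, h1⟩, fun _ => (hdB y h1 1).symm⟩
    · obtain ⟨r, w, hw, rfl⟩ := Y.c2.cov y h1
      by_cases h0 : w = 0
      · exact ⟨Y.attR r 0, fun h => absurd ⟨r, by rw [h0]⟩ h⟩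
      · rw [← Complex.exp_log h0] at hw ⊢
        exact ⟨_, fun _ => (hd1 r _ hw).symm⟩
  choose ρ hρ using this
  have hρc : ContinuousOn ρ Y.c2.ctrᶜ := by
    refine (IsInducing.induced Subtype.val).continuousOn_iff.mpr ?_
    refine ContinuousOn.congr (f := fun y => d y 1) ?_ fun y hy => hρ y hy
    exact (continuous_eval_const (1 : I)).comp_continuousOn hd
  have hρ1 : ∀ y : Y.X1, ρ y = y := fun y =>
    Subtype.ext ((hρ y (ext_notMem_ctr Y.c2 y.2)).trans (hdB y y.2 1))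
  have hρ2 : ∀ r (u : ℂ), ‖Complex.exp u‖ < 1 →
      ρ (Y.c2.χ r (Complex.exp u)) = Y.attR r (u.im / (2 * Real.pi)) := fun r u hu =>
    Subtype.ext ((hρ _ (ext_notMem_ctr' Y.c2 r (Complex.exp_ne_zero u))).trans (hd1 r u hu))
  choose κ hκ using fun r => ext_pot θ₁ (Y.attR r)
  have hper : ∀ r, Function.Periodic (κ r) 1 := by
    intro r t
    have e1 : Y.att r = (Y.attR r).comp (extSeg 0 1) := by
      ext t
      simp [att, extSeg_apply]
    have e2 : (Y.attR r).comp (extSeg 1 (t + 1)) = (Y.attR r).comp (extSeg 0 t) := by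
      ext s
      simp only [ContinuousMap.comp_apply, extSeg_apply]
      rw [← Y.attR_add_one r (0 + _)]
      congr 2
      ring
    have e3 := hr r
    rw [e1, hκ, inv_mul_eq_one] at e3
    have e4 := hκ r 1 (t + 1)
    rw [e2, hκ, e3] at e4
    exact (mul_left_cancel e4).symm
  have hloc : ∀ r i t₀, Y.attR r t₀ ∈ C.U i → ∀ᶠ t in 𝓝 t₀,
      κ r t * (C.k i (Y.attR r t))⁻¹ = κ r t₀ * (C.k i (Y.attR r t₀))⁻¹ := by
    intro r i t₀ ht₀
    obtain ⟨ε, hε, hb⟩ := Metric.isOpen_iff.mp ((C.op i).preimage (Y.attR r).continuous) t₀ ht₀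
    filter_upwards [Metric.ball_mem_nhds t₀ hε] with t ht
    have e1 := h i ((Y.attR r).comp (extSeg t₀ t)) (fun s => hb (by
      rw [Metric.mem_ball, Real.dist_eq] at ht ⊢
      rw [extSeg_apply, add_sub_cancel_left, abs_mul, abs_of_nonneg s.2.1]
      exact (mul_le_of_le_one_left (abs_nonneg _) s.2.2).trans_lt ht))
    rw [hκ] at e1
    simp only [ContinuousMap.comp_apply, extSeg_apply, Icc.coe_zero, zero_mul, add_zero,
      Icc.coe_one, one_mul, add_sub_cancel] at e1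
    rw [inv_mul_eq_iff_eq_mul] at e1
    rw [e1]
    group
  obtain ⟨kn, hkn⟩ := ext_fun Y.c2 (fun r w => κ r ((Complex.log w).im / (2 * Real.pi)))
  have hkn2 : ∀ r (u : ℂ), ‖Complex.exp u‖ < 1 →
      kn (Y.c2.χ r (Complex.exp u)) = κ r (u.im / (2 * Real.pi)) := by
    intro r u hu
    rw [hkn r _ hu]
    obtain ⟨n, hn⟩ := Complex.exp_eq_exp_iff_exists_int.mp
      (Complex.exp_log (Complex.exp_ne_zero u))
    rw [hn, ← (hper r).int_mul n (u.im / (2 * Real.pi))]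
    congr 1
    have := Real.pi_ne_zero
    simp
    field_simp
  have hkey : ∀ i y, y ∉ Y.X1 → y ∉ Y.c2.ctr → ρ y ∈ C.U i → ∀ᶠ y' in 𝓝 y,
      kn y' * (C.k i (ρ y'))⁻¹ = kn y * (C.k i (ρ y))⁻¹ := by
    intro i y h1 h2 h3
    obtain ⟨r, w, hw, rfl⟩ := Y.c2.cov y h1
    have h0 : w ≠ 0 := by
      rintro rfl
      exact h2 ⟨r, rfl⟩
    obtain ⟨u, rfl⟩ : ∃ u, w = Complex.exp u := ⟨_, (Complex.exp_log h0).symm⟩
    rw [← Y.c2.map_nhds r hw, eventually_map]
    refine (Complex.isOpenMap_exp.nhds_le u) ?_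
    rw [hρ2 r u hw] at h3
    have h4 : ∀ᶠ u' in 𝓝 u, ‖Complex.exp u'‖ < 1 :=
      (isOpen_lt (by fun_prop) continuous_const).mem_nhds hw
    have h5 := (show ContinuousAt (fun u' : ℂ => u'.im / (2 * Real.pi)) u by fun_prop).eventually
      (hloc r i _ h3)
    change ∀ᶠ u' in 𝓝 u, _
    filter_upwards [h4, h5] with u' a b
    change kn (Y.c2.χ r (Complex.exp u')) * (C.k i (ρ (Y.c2.χ r (Complex.exp u'))))⁻¹ = _
    rw [hkn2 r u' a, hρ2 r u' a, hkn2 r u hw, hρ2 r u hw, b]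
  let C' : Cech X K :=
    { ι := Option C.ι
      U := fun o => o.elim Y.X1ᶜ (fun i => Y.c2.ctrᶜ ∩ ρ ⁻¹' C.U i)
      k := fun o => o.elim kn (fun i y => C.k i (ρ y))
      op := by
        rintro (_ | i)
        · exact Y.c2.closedB.isOpen_compl
        · exact hρc.isOpen_inter_preimage Y.c2.isClosed_ctr.isOpen_compl (C.op i)
      cov := by
        intro y
        by_cases h1 : y ∈ Y.X1
        · obtain ⟨i, hi⟩ := C.cov (ρ y)
          exact ⟨some i, ext_notMem_ctr Y.c2 h1, hi⟩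
        · exact ⟨none, h1⟩
      lc := by
        rintro (_ | i) (_ | j) y ⟨h1, h2⟩
        · simp
        · exact hkey j y h1 h2.1 h2.2
        · filter_upwards [hkey i y h2 h1.1 h1.2] with y' e
          have := congrArg Inv.inv e
          simpa using this
        · exact (hρc.continuousAt (Y.c2.isClosed_ctr.isOpen_compl.mem_nhds h1.1)).eventually
            (C.lc i j (ρ y) ⟨h1.2, h2.2⟩) }
  obtain ⟨θ, hθ⟩ := C'.exists_rep
  refine ⟨θ, fun γ => Cech.Rep.unique (θ := θ.comap Y.inc) ?_ h γ⟩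
  intro i η hη
  have := hθ (some i) (Y.inc.comp η) (fun t => ⟨ext_notMem_ctr Y.c2 (η t).2, by
    change ρ (η t) ∈ C.U i
    rw [hρ1]
    exact hη t⟩)
  rw [Coc.comap_θ, this]
  change (C.k i (ρ (η 0)))⁻¹ * C.k i (ρ (η 1)) = _
  rw [hρ1, hρ1]

end Crest.Agent.R197.CS2
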