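import Crest.Agent.R197.CellA

/-!
Task R197-Gen.  Paths in a two-dimensional complex are edge paths.

Plan.  `anchor`: if `y ∉ X0` then `y = c1.χ s w`, join `c1.χ s 1` to it along a segment.  `ne`: a point of `X`, of `X1` (`c2.χ r 1`), `anchor`.
`gen1`: prove it for the universal cocycle `Coc.univ` with `Cell.path_ind` (`Q v v' k := ∃ u, EP v u v' ∧ k = lift (θ ∘ ed) u`;
a path in `X0` is constant since all subsets of `X0` are closed; for `hχ` the end points are `± 1`, use a potential of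
`θ.comap (c1.χ s)` on `ℝ`), then `Coc.exists_desc`.  `real`: induction on `EP` (`Path.trans`, `Path.symm`, `toPath`, `Path.cast`).
`genX`: `path_ind` for `c2` and the universal cocycle, `Q y y' k := ∃ γ₁ : Path y y', k = θ (inc.comp γ₁)`; for `hχ` join the end points
inside the unit circle (`isPathConnected_sphere`) and use a potential of `θ.comap (c2.χ r)` on `ℂ`.
-/

set_option autoImplicit false

namespace Crest.Agent.R197.CS2

open unitInterval

variable {X : Type} [TopologicalSpace X] (Y : CS2 X)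

theorem anchor (y : Y.X1) : ∃ v : Y.X0, Joined (v : Y.X1) y := by
  by_cases h : y ∈ Y.X0
  · exact ⟨⟨y, h⟩, Joined.refl _⟩
  · obtain ⟨s, w, -, rfl⟩ := Y.c1.cov y h
    exact ⟨Y.tgt s, (PathConnectedSpace.joined 1 w).somePath.map (Y.c1.χ s).continuous |> Nonempty.intro⟩

theorem ne [Nonempty X] : Nonempty Y.X0 := by
  obtain ⟨x⟩ := ‹Nonempty X›
  by_cases h : x ∈ Y.X1
  · exact ⟨(Y.anchor ⟨x, h⟩).choose⟩
  · obtain ⟨r, -⟩ := Y.c2.cov x h
    exact ⟨(Y.anchor (Y.attR r 0)).choose⟩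

theorem gen1 (v v' : Y.X0) (γ : Path (v : Y.X1) (v' : Y.X1)) :
    ∃ u, EP Y.src Y.tgt v u v' ∧ ∀ (K : Type) [Group K] (θ : Coc Y.X1 K),
      θ.θ γ.toContinuousMap = FreeGroup.lift (fun s => θ.θ (Y.ed s)) u := by
  obtain ⟨u, hu, e⟩ := Y.c1.path_ind (Coc.univ Y.X1) (fun v v' k => ∃ u, EP Y.src Y.tgt v u v' ∧
      k = FreeGroup.lift (fun s => (Coc.univ Y.X1).θ (Y.ed s)) u)
    (by
      rintro _ _ _ _ _ ⟨u, hu, rfl⟩ ⟨u', hu', rfl⟩
      exact ⟨u * u', hu.mul hu', (map_mul _ _ _).symm⟩)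
    (fun γ h => by
      have : ∀ t, γ t = γ 0 := fun t => by
        have hc : IsClopen (γ ⁻¹' {γ 0}) := ⟨(Y.disc _ (by simpa using h 0)).preimage γ.continuous, by
          convert ((Y.disc (Y.X0 \ {γ 0}) Set.diff_subset).preimage γ.continuous).isOpen_compl using 1
          ext t; simp [h t]⟩
        exact (hc.eq_univ ⟨0, rfl⟩).ge (Set.mem_univ t)
      refine ⟨1, by simpa only [this 1] using EP.nil, ?_⟩
      rw [show γ = .const _ (γ 0) from ContinuousMap.ext this, Coc.const, map_one])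
    (fun s η h0 h1 => by
      obtain ⟨k, hk⟩ := ((Coc.univ Y.X1).comap (Y.c1.χ s)).pot
      have e : (Coc.univ Y.X1).θ (Y.ed s) = (k (-1))⁻¹ * k 1 :=
        (hk ⟨fun t => 2 * (t : ℝ) - 1, by fun_prop⟩).trans (by norm_num)
      rw [show (Coc.univ Y.X1).θ _ = _ from hk η]
      rcases eq_or_eq_neg_of_abs_eq h0 with h0 | h0 <;> rcases eq_or_eq_neg_of_abs_eq h1 with h1 | h1 <;>
        simp only [h0, h1]
      · exact ⟨1, EP.nil, by simp⟩
      · exact ⟨_, EP.of_inv _ _ s, by simp [e]⟩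
      · exact ⟨_, EP.of _ _ s, by simp [e]⟩
      · exact ⟨1, EP.nil, by simp⟩)
    γ.toContinuousMap (by simp) (by simp)
  refine ⟨u, by simpa using hu, fun K _ θ => ?_⟩
  obtain ⟨φ, hφ⟩ := θ.exists_desc
  rw [← hφ, e]
  exact DFunLike.congr_fun (show φ.comp (FreeGroup.lift _) = FreeGroup.lift _ by ext s; simp [hφ]) u

theorem real {v v' : Y.X0} {u : FreeGroup Y.S} (h : EP Y.src Y.tgt v u v') :
    ∃ γ : Path (v : Y.X1) (v' : Y.X1), ∀ (K : Type) [Group K] (θ : Coc Y.X1 K),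
      θ.θ γ.toContinuousMap = FreeGroup.lift (fun s => θ.θ (Y.ed s)) u := by
  induction h with
  | nil => exact ⟨Path.refl _, fun K _ θ => by rw [θ.refl, map_one]⟩
  | @fwd w s _ ih =>
    obtain ⟨γ, h⟩ := ih
    exact ⟨γ.trans ⟨Y.ed s, by simp [ed, src], by norm_num [ed, tgt]⟩, fun K _ θ => by
      simp [θ.trans, h]⟩
  | @bwd w s _ ih =>
    obtain ⟨γ, h⟩ := ih
    exact ⟨γ.trans (Path.symm ⟨Y.ed s, by simp [ed, src], by norm_num [ed, tgt]⟩), fun K _ θ => by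
      simp [θ.trans, θ.symm, h]⟩

theorem genX (y y' : Y.X1) (γ : Path (y : X) (y' : X)) :
    ∃ γ₁ : Path y y', ∀ (K : Type) [Group K] (θ : Coc X K),
      θ.θ γ.toContinuousMap = θ.θ (Y.inc.comp γ₁.toContinuousMap) := by
  obtain ⟨γ₁, e⟩ := Y.c2.path_ind (Coc.univ X) (fun y y' k => ∃ γ₁ : Path y y',
      k = (Coc.univ X).θ (Y.inc.comp γ₁.toContinuousMap))
    (by
      rintro _ _ _ _ _ ⟨u, rfl⟩ ⟨u', rfl⟩
      exact ⟨u.trans u', (((Coc.univ X).comap Y.inc).trans u u').symm⟩)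
    (fun γ h => ⟨⟨⟨fun t => ⟨γ t, h t⟩, by fun_prop⟩, rfl, rfl⟩, rfl⟩)
    (fun r η h0 h1 => by
      obtain ⟨k, hk⟩ := ((Coc.univ X).comap (Y.c2.χ r)).pot
      obtain ⟨ℓ, hℓ⟩ := (isPathConnected_sphere (E := ℂ) (by simp) 0 zero_le_one).joinedIn (η 0)
        (by simpa using h0) (η 1) (by simpa using h1)
      refine ⟨⟨⟨fun t => ⟨Y.c2.χ r (ℓ t), Y.c2.bd r _ (by simpa using (hℓ t).ge)⟩, by fun_prop⟩,
        by simp, by simp⟩, (hk η).trans (Eq.trans ?_ (hk ℓ.toContinuousMap).symm)⟩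
      simp)
    γ.toContinuousMap (by simp) (by simp)
  refine ⟨γ₁.cast (by simp) (by simp), fun K _ θ => ?_⟩
  obtain ⟨φ, hφ⟩ := θ.exists_desc
  rw [← hφ, e, hφ]
  rfl

end Crest.Agent.R197.CS2
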