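import Crest.Agent.R197.TDefs

/-!
Task R197-Sec.  Line bundles over contractible spaces are trivial; the angle function around a disc.

Plan.  `exists_sec`: let `B = V →L[ℂ] V`.  On the metric space `C(I, B)` there is a continuous `δ > 0` with
`|t - t'| ≤ δ γ → ‖γ t - γ t'‖ < 1` (`exists_continuous_forall_mem_convex_of_local_const` with the convex sets
`{δ | 0 < δ ∧ ∀ t t', dist t t' ≤ δ → ‖γ t - γ t'‖ < 1}`; uniform continuity of `γ₀` with `1/3` works for all `γ` at distance `< 1/3`).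
Take a homotopy `H` from a constant map to `id` (move `v₀` along a path first, or contract to `y₀`: `ContractibleSpace.hequiv`,
`id_nullhomotopic`, path connectedness; alternatively prove that `range (P y) ≠ ⊥` for all `y` by the same transport), `γ y = P ∘ H (·, y)`
(`ContinuousMap.curry`).  `T 0 y = v₀`, `T (n+1) y = γ y (projIcc ((n+1) * δ (γ y))) (T n y)`.  Each `T n` is continuous, non-zero
(`P' v = v`, `‖P - P'‖ < 1`, `v ≠ 0` give `P v ≠ 0`), and `T n y` is constant for `n δ ≥ 1` (idempotent), locally uniformly in `y`.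
`wind_fun`: `V = EuclideanSpace ℂ (Fin 2)` (or `ℂ × ℂ`), `cc w = max 0 (1 - 2‖w‖)`, `vec w = (w, cc w) ≠ 0`,
`Pw w v = ((conj w * v.1 + cc w * v.2) / (‖w‖² + cc w²)) • vec w`, which equals `P∞ v = (v.1, 0)` for `‖w‖ ≥ 1/2`.
`P y = if y ∈ j '' ball 0 1 then Pw (q y) else P∞` with `q` the inverse of `j` on the open set `j '' ball 0 1` (continuous by `hopen`);
`P = P∞` on the open complement of the compact set `j '' closedBall 0 (1/2)`; `P (j w) = Pw w` for all `w`.  With the section `s`: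
`lam₀ w = (conj w * (s (j w)).1 + cc w * (s (j w)).2) / (‖w‖² + cc w²)`, `σ y = (s y).1 / lam₀ 1`, `lam = lam₀ / lam₀ 1`.
-/

set_option autoImplicit false

namespace Crest.Agent.R197

open Set Metric

namespace Sec

open unitInterval Filter _root_.Topology

theorem exists_delta (B : Type) [NormedAddCommGroup B] : ∃ δ : C(C(I, B), ℝ), ∀ γ, 0 < δ γ ∧
    ∀ t t' : I, dist t t' ≤ δ γ → ‖γ t - γ t'‖ < 1 := by
  refine exists_continuous_forall_mem_convex_of_local_const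
    (t := fun γ : C(I, B) => {δ : ℝ | 0 < δ ∧ ∀ t t' : I, dist t t' ≤ δ → ‖γ t - γ t'‖ < 1})
    (fun γ => ?_) fun γ₀ => ?_
  · refine Set.OrdConnected.convex ⟨fun a ha b hb c hc => ⟨ha.1.trans_le hc.1, fun t t' h => ?_⟩⟩
    exact hb.2 t t' (h.trans hc.2)
  · obtain ⟨δ, hδ, h⟩ := Metric.uniformContinuous_iff_le.1
      (CompactSpace.uniformContinuous_of_continuous γ₀.continuous) (1 / 3) (by norm_num)
    refine ⟨δ, ?_⟩
    filter_upwards [Metric.ball_mem_nhds γ₀ (by norm_num : (0 : ℝ) < 1 / 3)] with γ hγ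
    refine ⟨hδ, fun t t' htt => ?_⟩
    have h1 := (γ.dist_apply_le_dist (g := γ₀) t).trans_lt hγ
    have h2 := (γ.dist_apply_le_dist (g := γ₀) t').trans_lt hγ
    have h3 := h htt
    have h4 := dist_triangle4 (γ t) (γ₀ t) (γ₀ t') (γ t')
    rw [dist_comm (γ₀ t') (γ t')] at h4
    rw [← dist_eq_norm]
    linarith

theorem transport {Y V : Type} [TopologicalSpace Y] [NormedAddCommGroup V] [NormedSpace ℂ V]
    (Γ : C(Y, C(I, V →L[ℂ] V))) (hΓ : ∀ y t v, Γ y t (Γ y t v) = Γ y t v) (s₀ : C(Y, V))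
    (h0 : ∀ y, s₀ y ≠ 0 ∧ Γ y 0 (s₀ y) = s₀ y) : ∃ s : C(Y, V), ∀ y, s y ≠ 0 ∧ Γ y 1 (s y) = s y := by
  obtain ⟨δ, hδ⟩ := exists_delta (V →L[ℂ] V)
  let τ : ℕ → Y → I := fun n y => projIcc (0 : ℝ) 1 zero_le_one (n * δ (Γ y))
  have hτ : ∀ n, Continuous (τ n) := fun n => continuous_projIcc.comp (by fun_prop)
  let T : ℕ → Y → V := fun n => Nat.rec s₀ (fun n T y => Γ y (τ (n + 1) y) (T y)) n
  have hT : ∀ n y, T (n + 1) y = Γ y (τ (n + 1) y) (T n y) := fun _ _ => rfl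
  have hc : ∀ n, Continuous (T n) := fun n => by
    induction n with
    | zero => exact s₀.continuous
    | succ n ih =>
      have := hτ (n + 1)
      exact Continuous.clm_apply (by fun_prop) ih
  have hinv : ∀ n y, T n y ≠ 0 ∧ Γ y (τ n y) (T n y) = T n y := fun n y => by
    induction n with
    | zero =>
      have : τ 0 y = 0 := by simp [τ]
      rw [this]
      exact h0 y
    | succ n ih =>
      refine ⟨fun h => ?_, by rw [hT, hΓ]⟩
      have h1 : dist (τ n y) (τ (n + 1) y) ≤ δ (Γ y) := by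
        refine (abs_projIcc_sub_projIcc zero_le_one).trans (le_of_eq ?_)
        push_cast
        rw [show n * δ (Γ y) - (n + 1) * δ (Γ y) = -δ (Γ y) by ring, abs_neg,
          abs_of_pos (hδ _).1]
      have h2 := (hδ _).2 _ _ h1
      have h3 := (Γ y (τ n y) - Γ y (τ (n + 1) y)).le_opNorm (T n y)
      rw [_root_.sub_apply, ih.2, ← hT, h, sub_zero] at h3
      have h4 := norm_pos_iff.2 ih.1
      nlinarith
  have h1 : ∀ (n : ℕ) y, 1 ≤ (n : ℝ) * δ (Γ y) → τ n y = 1 := fun n y h => projIcc_of_right_le _ h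
  have hst : ∀ (n : ℕ) y, 1 ≤ (n : ℝ) * δ (Γ y) → ∀ m, n ≤ m → T m y = T n y := fun n y h m hm => by
    induction m, hm using Nat.le_induction with
    | base => rfl
    | succ m hm ih =>
      have h2 : (n : ℝ) ≤ (m + 1 : ℕ) := by exact_mod_cast hm.trans (Nat.le_succ m)
      rw [hT, ih, h1 _ _ (h.trans (mul_le_mul_of_nonneg_right h2 (hδ _).1.le)), ← h1 n y h]
      exact (hinv n y).2
  have hN : ∀ y, 1 ≤ (⌈(δ (Γ y))⁻¹⌉₊ : ℝ) * δ (Γ y) := fun y => by
    have := mul_le_mul_of_nonneg_right (Nat.le_ceil (δ (Γ y))⁻¹) (hδ (Γ y)).1.le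
    rwa [inv_mul_cancel₀ (hδ _).1.ne'] at this
  refine ⟨⟨fun y => T ⌈(δ (Γ y))⁻¹⌉₊ y, continuous_iff_continuousAt.2 fun y₀ => ?_⟩, fun y => ?_⟩
  · have h2 : 1 < ((⌈(δ (Γ y₀))⁻¹⌉₊ + 1 : ℕ) : ℝ) * δ (Γ y₀) := by
      push_cast
      have := hN y₀
      have := (hδ (Γ y₀)).1
      linarith
    set N := ⌈(δ (Γ y₀))⁻¹⌉₊ + 1
    refine (hc N).continuousAt.congr ?_
    have h3 : ContinuousAt (fun y => (N : ℝ) * δ (Γ y)) y₀ := by fun_prop
    filter_upwards [h3.eventually (lt_mem_nhds h2)] with y hy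
    rw [← hst N y hy.le _ (le_max_left N ⌈(δ (Γ y))⁻¹⌉₊), hst _ y (hN y) _ (le_max_right _ _)]
  · have := hinv ⌈(δ (Γ y))⁻¹⌉₊ y
    rwa [h1 _ y (hN y)] at this

end Sec

theorem exists_sec {E V : Type} [TopologicalSpace E] [ContractibleSpace E] [NormedAddCommGroup V]
    [NormedSpace ℂ V] (P : C(E, V →L[ℂ] V)) (hP : ∀ y v, P y (P y v) = P y v) (y₀ : E) (v₀ : V)
    (hv : v₀ ≠ 0) (h0 : P y₀ v₀ = v₀) : ∃ s : C(E, V), ∀ y, s y ≠ 0 ∧ P y (s y) = s y := by
  obtain ⟨y₁, ⟨H⟩⟩ := id_nullhomotopic E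
  obtain ⟨s₁, hs₁⟩ := Sec.transport (Y := E)
    (ContinuousMap.curry ⟨fun q : E × unitInterval => P (H (q.2, q.1)), by fun_prop⟩ |>.comp
      (ContinuousMap.const E y₀)) (fun y t v => hP _ v) (ContinuousMap.const E v₀)
    (fun y => ⟨hv, by simpa using h0⟩)
  obtain ⟨s, hs⟩ := Sec.transport (Y := E)
    (ContinuousMap.curry ⟨fun q : E × unitInterval => P (H.symm (q.2, q.1)), by fun_prop⟩)
    (fun y t v => hP _ v) (ContinuousMap.const E (s₁ y₀))
    (fun y => ⟨(hs₁ y₀).1, by simpa using (hs₁ y₀).2⟩)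
  exact ⟨s, fun y => ⟨(hs y).1, by simpa using (hs y).2⟩⟩

namespace Sec

open Filter _root_.Topology

/-- the second coordinate of the generator of the line -/
noncomputable def cc (w : ℂ) : ℝ := max 0 (1 - 2 * ‖w‖)

theorem continuous_cc : Continuous cc := by unfold cc; fun_prop

theorem den_pos (w : ℂ) : 0 < ‖w‖ ^ 2 + cc w ^ 2 := by
  rcases eq_or_ne w 0 with rfl | h
  · simp [cc]
  · have := norm_pos_iff.2 h
    positivity

theorem den_ne (w : ℂ) : ((‖w‖ ^ 2 + cc w ^ 2 : ℝ) : ℂ) ≠ 0 :=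
  Complex.ofReal_ne_zero.2 (den_pos w).ne'

/-- the coefficient of the projection -/
noncomputable def el (w : ℂ) (v : ℂ × ℂ) : ℂ :=
  ((starRingEnd ℂ) w * v.1 + cc w * v.2) / ((‖w‖ ^ 2 + cc w ^ 2 : ℝ) : ℂ)

/-- the projection onto the line -/
noncomputable def Pw (w : ℂ) : (ℂ × ℂ) →L[ℂ] (ℂ × ℂ) :=
  ((‖w‖ ^ 2 + cc w ^ 2 : ℝ) : ℂ)⁻¹ •
    (((starRingEnd ℂ) w * w) • (ContinuousLinearMap.inl ℂ ℂ ℂ).comp (ContinuousLinearMap.fst ℂ ℂ ℂ) +
    (cc w * w) • (ContinuousLinearMap.inl ℂ ℂ ℂ).comp (ContinuousLinearMap.snd ℂ ℂ ℂ) +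
    ((starRingEnd ℂ) w * cc w) •
      (ContinuousLinearMap.inr ℂ ℂ ℂ).comp (ContinuousLinearMap.fst ℂ ℂ ℂ) +
    (cc w * cc w : ℂ) • (ContinuousLinearMap.inr ℂ ℂ ℂ).comp (ContinuousLinearMap.snd ℂ ℂ ℂ))

theorem Pw_apply (w : ℂ) (v : ℂ × ℂ) : Pw w v = (el w v * w, el w v * cc w) := by
  have := den_ne w
  ext
  · simp only [Pw, el, _root_.smul_apply, _root_.add_apply,
      ContinuousLinearMap.comp_apply, ContinuousLinearMap.coe_fst', ContinuousLinearMap.coe_snd',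
      ContinuousLinearMap.inl_apply, ContinuousLinearMap.inr_apply, Prod.smul_fst, Prod.fst_add,
      smul_eq_mul]
    field_simp
    ring
  · simp only [Pw, el, _root_.smul_apply, _root_.add_apply,
      ContinuousLinearMap.comp_apply, ContinuousLinearMap.coe_fst', ContinuousLinearMap.coe_snd',
      ContinuousLinearMap.inl_apply, ContinuousLinearMap.inr_apply, Prod.smul_snd, Prod.snd_add,
      smul_eq_mul]
    field_simp
    ring

theorem el_vec (w a : ℂ) : el w (a * w, a * cc w) = a := by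
  have h1 : (starRingEnd ℂ) w * w = ((‖w‖ ^ 2 : ℝ) : ℂ) := by
    rw [Complex.conj_mul']; push_cast; rfl
  rw [el, div_eq_iff (den_ne w)]
  push_cast at h1 ⊢
  linear_combination a * h1

theorem Pw_idem (w : ℂ) (v : ℂ × ℂ) : Pw w (Pw w v) = Pw w v := by
  rw [Pw_apply w v, Pw_apply, el_vec]

theorem Pw_far {w : ℂ} (h : 1 / 2 ≤ ‖w‖) (v : ℂ × ℂ) : Pw w v = (v.1, 0) := by
  have h0 : cc w = 0 := max_eq_left (by linarith)
  have h1 : (starRingEnd ℂ) w * w = ((‖w‖ ^ 2 : ℝ) : ℂ) := by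
    rw [Complex.conj_mul']; push_cast; rfl
  have h2 := den_ne w
  rw [Pw_apply, el]
  rw [h0] at h2 ⊢
  ext
  · rw [div_mul_eq_mul_div, div_eq_iff h2]
    push_cast at h1 ⊢
    linear_combination v.1 * h1
  · simp

theorem Pw_far' {w : ℂ} (h : 1 / 2 ≤ ‖w‖) : Pw w = Pw 1 :=
  ContinuousLinearMap.ext fun v => by rw [Pw_far h, Pw_far (by norm_num)]

theorem continuous_den : Continuous fun w : ℂ => ((‖w‖ ^ 2 + cc w ^ 2 : ℝ) : ℂ)⁻¹ := by
  have := continuous_cc
  exact Continuous.inv₀ (by fun_prop) den_ne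

theorem continuous_Pw : Continuous Pw := by
  have := continuous_cc
  exact continuous_den.smul (by fun_prop)

end Sec

open Sec Filter _root_.Topology in
theorem wind_fun {E : Type} [TopologicalSpace E] [T2Space E] [ContractibleSpace E] (j : C(ℂ, E))
    (hinj : ∀ w w', ‖w‖ < 1 → j w = j w' → w = w')
    (hopen : ∀ W, IsOpen W → W ⊆ ball 0 1 → IsOpen (j '' W)) :
    ∃ (σ : C(E, ℂ)) (lam : C(ℂ, ℂ)), (∀ y, y ∉ j '' ball 0 1 → σ y ≠ 0) ∧ (∀ w, lam w ≠ 0) ∧
      lam 1 = 1 ∧ ∀ w, 1 ≤ ‖w‖ → σ (j w) = lam w * w := by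
  classical
  let q : E → ℂ := fun y => if h : y ∈ j '' ball 0 1 then h.choose else 1
  have hq1 : ∀ w, ‖w‖ < 1 → q (j w) = w := fun w hw => by
    have h : j w ∈ j '' ball 0 1 := ⟨w, by simpa using hw, rfl⟩
    simp only [q, dif_pos h]
    exact (hinj w _ hw h.choose_spec.2.symm).symm
  have hq2 : ∀ y, y ∉ j '' ball 0 1 → q y = 1 := fun y h => dif_neg h
  have hP : ∀ w, Pw (q (j w)) = Pw w := fun w => by
    by_cases hw : ‖w‖ < 1
    · rw [hq1 w hw]
    · rw [hq2, Pw_far' (w := w) (by linarith [not_lt.1 hw])]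
      rintro ⟨w', hw', h⟩
      have hw' : ‖w'‖ < 1 := by simpa using hw'
      exact hw (hinj w' w hw' h ▸ hw')
  have hc : Continuous fun y => Pw (q y) := continuous_iff_continuousAt.2 fun y => by
    by_cases hy : y ∈ j '' ball 0 1
    · obtain ⟨w₀, hw₀, rfl⟩ := hy
      refine continuous_Pw.continuousAt.comp ?_
      rw [ContinuousAt, hq1 w₀ (by simpa using hw₀), _root_.tendsto_nhds]
      intro W hW hw
      filter_upwards [(hopen (W ∩ ball 0 1) (hW.inter isOpen_ball) inter_subset_right).mem_nhds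
        ⟨w₀, ⟨hw, hw₀⟩, rfl⟩]
      rintro _ ⟨w, hw', rfl⟩
      rw [mem_preimage, hq1 w (by simpa using hw'.2)]
      exact hw'.1
    · have hK : IsClosed (j '' closedBall 0 (1 / 2)) :=
        ((isCompact_closedBall _ _).image j.continuous).isClosed
      refine (continuousAt_const (y := Pw 1)).congr ?_
      filter_upwards [hK.isOpen_compl.mem_nhds fun h =>
        hy (image_mono (closedBall_subset_ball (by norm_num)) h)] with y' hy'
      by_cases h : y' ∈ j '' ball 0 1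
      · obtain ⟨w, -, rfl⟩ := h
        rw [hP, Pw_far' (w := w)]
        by_contra hlt
        exact hy' ⟨w, by simpa using (not_le.1 hlt).le, rfl⟩
      · rw [hq2 y' h]
  obtain ⟨s, hs⟩ := exists_sec (⟨_, hc⟩ : C(E, (ℂ × ℂ) →L[ℂ] (ℂ × ℂ))) (fun y v => Pw_idem _ v)
    (j 1) (1, 0) (by simp) (by
      change Pw (q (j 1)) _ = _
      rw [hP, Pw_far (by norm_num)])
  have hs2 : ∀ w, s (j w) = (el w (s (j w)) * w, el w (s (j w)) * cc w) := fun w => by
    rw [← Pw_apply, ← hP]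
    exact (hs _).2.symm
  have hl : ∀ w, el w (s (j w)) ≠ 0 := fun w h => (hs (j w)).1 (by rw [hs2, h]; simp)
  have hcl : Continuous fun w => el w (s (j w)) := by
    have := continuous_cc
    simp only [el, div_eq_mul_inv]
    exact Continuous.mul (by fun_prop) continuous_den
  refine ⟨⟨fun y => (s y).1 / el 1 (s (j 1)), by fun_prop⟩,
    ⟨fun w => el w (s (j w)) / el 1 (s (j 1)), hcl.div_const _⟩, fun y hy => ?_,
    fun w => div_ne_zero (hl w) (hl 1), div_self (hl 1), fun w _ => ?_⟩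
  · refine div_ne_zero (fun h => (hs y).1 ?_) (hl 1)
    have h2 : Pw (q y) (s y) = s y := (hs y).2
    rw [hq2 y hy, Pw_far (by norm_num), h] at h2
    exact h2.symm
  · change (s (j w)).1 / _ = _ / _ * w
    rw [div_mul_eq_mul_div, congrArg Prod.fst (hs2 w)]

end Crest.Agent.R197
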