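import Crest.Agent.R197.CellA
import Crest.Agent.R197.Cov
import Crest.Agent.R197.Sec

/-!
Task R197-Linv.  The cocycle dual to a lifted 2-cell.

Plan.  `E` is Hausdorff (`hp.isSeparatedMap`, `X` Hausdorff).  For `(g, r)` let `j g r : C(ℂ, E)` be the lift of `c2.χ r` with
`j g r 1 = U.e g (c2.χ r 1)` (`IsCoveringMap.existsUnique_continuousMap_lifts`).  For `c₀ = (g₀, r₀)`, `j₀ = j g₀ r₀` satisfies the hypotheses of
`wind_fun` (`c2.inj`, `c2.int`, `c2.bd`; openness: `p` is a local homeomorphism, `Cell.isOpen_image`: for `w₀ ∈ W` take an open `O ∋ j₀ w₀` on which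
`p` is injective, `W' = W ∩ j₀ ⁻¹' O`, then `O ∩ p ⁻¹' (χ '' W') ⊆ j₀ '' W'`).  `E1 = p ⁻¹' X1`, `p1 = X1.restrictPreimage p` is a covering
(`IsCoveringMapOn.isCoveringMap_restrictPreimage`), `σ1 : C(E1, C0)`, `θ = wind.comap σ1`; apply `exists_wr` with `U.Θ.comap inc`.
The lift of `att r` from `e g _` is `j g r ∘ circ`.  For `(g, r) = c₀`: `σ1 ∘ lift = lam (circ t) * circ t` is homotopic rel end points to `circ` via
`lam (s * circ t + (1 - s)) * circ t`.  Otherwise `j g r` avoids `j₀ '' ball 0 1` (for `r = r₀` use uniqueness of lifts and `U.inj`), so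
`σ ∘ j g r : C(ℂ, C0)` and a potential of `wind.comap _` on `ℂ` shows that the value is `1`.
-/

set_option autoImplicit false

namespace Crest.Agent.R197

namespace Linv

open Set Metric unitInterval

theorem t2 {X E : Type} [TopologicalSpace X] [T2Space X] [TopologicalSpace E] (p : C(E, X))
    (hp : IsCoveringMap p) : T2Space E := by
  refine ⟨fun a b hab => ?_⟩
  by_cases h : p a = p b
  · exact hp.isSeparatedMap a b h hab
  · exact separated_by_continuous p.continuous h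

/-- the standard loop in the plane -/
noncomputable def cir : C(I, ℂ) := ⟨fun t => (circ t : ℂ), by fun_prop⟩

theorem cir_zero : cir 0 = 1 := by simp [cir, circ]

theorem cir_one : cir 1 = 1 := by simp [cir, circ]

theorem norm_cir (t : I) : ‖cir t‖ = 1 := by
  have := Complex.norm_exp_ofReal_mul_I (2 * Real.pi * (t : ℝ))
  push_cast at this
  exact this

theorem htpy (lam : C(ℂ, ℂ)) (h : ∀ w, lam w ≠ 0) (h1 : lam 1 = 1) (γ : C(I, C0))
    (hγ : ∀ t, (γ t : ℂ) = lam (cir t) * cir t) : circ.HomotopicRel γ {0, 1} := by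
  refine ⟨⟨⟨⟨fun q => ⟨lam ((q.1 : ℝ) * cir q.2 + (1 - (q.1 : ℝ))) * cir q.2,
    mul_ne_zero (h _) (circ q.2).2⟩, by fun_prop⟩, fun t => Subtype.ext ?_,
    fun t => Subtype.ext ?_⟩, fun s t ht => Subtype.ext ?_⟩⟩
  · simp [h1, cir]
  · simp [hγ]
  · have h2 : cir t = 1 := by
      rcases ht with rfl | rfl
      · exact cir_zero
      · exact cir_one
    change lam ((s : ℝ) * cir t + (1 - (s : ℝ))) * cir t = cir t
    rw [h2]
    simp [h1]

end Linv

open Set Metric unitInterval Linv in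
open Classical in
theorem CS2.linv_coc {X E G : Type} [TopologicalSpace X] [T2Space X] [TopologicalSpace E]
    [ContractibleSpace E] [Group G] (Y : CS2 X) (p : C(E, X)) (hp : IsCoveringMap p) (U : Univ p G)
    (c₀ : G × Y.R) : ∃ Θ' : Coc Y.X1 (Wr G (Multiplicative ℤ)),
      (∀ γ, (Θ'.θ γ).a = U.Θ.θ (Y.inc.comp γ)) ∧
      ∀ g r, (Θ'.θ (Y.att r)).f g = if (g, r) = c₀ then Multiplicative.ofAdd 1 else 1 := by
  have := t2 p hp
  obtain ⟨g₀, r₀⟩ := c₀
  choose j hj1 hj using fun (g : G) (r : Y.R) =>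
    (hp.existsUnique_continuousMap_lifts (Y.c2.χ r) 1 (U.e g (Y.c2.χ r 1)) (U.pe _ _)).exists
  have hj' : ∀ g r w, p (j g r w) = Y.c2.χ r w := fun g r w => congrFun (hj g r) w
  have hin : ∀ r r' w w', ‖w‖ < 1 → Y.c2.χ r w = Y.c2.χ r' w' → r = r' ∧ w = w' := by
    intro r r' w w' hw h
    refine Y.c2.inj r r' w w' hw ?_ h
    by_contra hw'
    exact Y.c2.int r w hw (h ▸ Y.c2.bd r' w' (not_lt.1 hw'))
  obtain ⟨sg, lam, hsg, hl0, hl1, hl⟩ := wind_fun (j g₀ r₀)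
    (fun w w' hw h => (hin r₀ r₀ w w' hw (by rw [← hj' g₀, ← hj' g₀, h])).2) (by
      intro W hW hWb
      refine isOpen_iff_forall_mem_open.2 ?_
      rintro _ ⟨w₀, hw₀, rfl⟩
      obtain ⟨O, hO, hO₀, hOi⟩ := hp.isLocalHomeomorph.isLocallyInjective (j g₀ r₀ w₀)
      have h1 := Y.c2.isOpen_image r₀ (hW.inter (hO.preimage (j g₀ r₀).continuous))
        (inter_subset_left.trans hWb)
      refine ⟨O ∩ p ⁻¹' (Y.c2.χ r₀ '' (W ∩ j g₀ r₀ ⁻¹' O)), ?_, hO.inter (h1.preimage p.continuous),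
        hO₀, w₀, ⟨hw₀, hO₀⟩, (hj' _ _ _).symm⟩
      rintro y ⟨hy, w, hw, h⟩
      exact ⟨w, hw.1, hOi hw.2 hy ((hj' _ _ _).trans h)⟩)
  obtain ⟨wind, hwind⟩ := exists_wind
  let p1 : C(p ⁻¹' Y.X1, Y.X1) := ⟨Y.X1.restrictPreimage p, p.continuous.restrictPreimage⟩
  let sg1 : C(p ⁻¹' Y.X1, C0) := ⟨fun y => ⟨sg y, hsg y (by
    rintro ⟨w, hw, h⟩
    refine Y.c2.int r₀ w (by simpa using hw) ?_
    rw [← hj' g₀, h]
    exact y.2)⟩, by fun_prop⟩
  let e1 : G → Y.X1 → p ⁻¹' Y.X1 := fun g y => ⟨U.e g y, by rw [mem_preimage, U.pe]; exact y.2⟩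
  obtain ⟨Θ', h1, h2⟩ := exists_wr p1 (hp.restrictPreimage Y.X1) (U.Θ.comap Y.inc) e1
    (fun g y => Subtype.ext (U.pe g y))
    (fun g γ h => Subtype.ext (U.lift g
      (ContinuousMap.comp ⟨Subtype.val, continuous_subtype_val⟩ γ) (congrArg Subtype.val h)))
    (wind.comap sg1)
  refine ⟨Θ', h1, fun g r => ?_⟩
  let γ : C(I, p ⁻¹' Y.X1) := ⟨fun t => ⟨j g r (cir t), by
    rw [mem_preimage, hj']
    exact Y.c2.bd r _ (norm_cir t).ge⟩, by fun_prop⟩
  have hγ : p1.comp γ = Y.att r := ContinuousMap.ext fun t => Subtype.ext (hj' g r _)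
  have h3 := h2 g γ (Subtype.ext (by
    change j g r (cir 0) = U.e g (p (j g r (cir 0)))
    rw [hj', cir_zero, hj1]))
  rw [hγ, Coc.comap_θ] at h3
  rw [h3]
  split_ifs with hc
  · obtain ⟨rfl, rfl⟩ := Prod.mk.inj hc
    rw [← hwind]
    exact (wind.htpy _ _ (htpy lam hl0 hl1 _ fun t => hl _ (norm_cir t).ge)).symm
  · let F : C(ℂ, C0) := ⟨fun w => ⟨sg (j g r w), hsg _ (by
      rintro ⟨w₀, hw₀, h⟩
      obtain ⟨rfl, rfl⟩ := hin r₀ r w₀ w (by simpa using hw₀) (by rw [← hj' g₀, ← hj' g, h])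
      have h4 := hp.eq_of_comp_eq (j g₀ r₀).continuous (j g r₀).continuous
        ((hj _ _).trans (hj _ _).symm) w₀ h
      have h5 := congrFun h4 1
      rw [hj1, hj1] at h5
      exact hc (by rw [U.inj _ _ _ h5]))⟩, by fun_prop⟩
    obtain ⟨k, hk⟩ := (wind.comap F).pot
    have h6 := hk cir
    rw [cir_zero, cir_one, inv_mul_cancel] at h6
    exact h6

end Crest.Agent.R197
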