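import Crest.Agent.R197.Cw0
import Crest.Agent.R197.Gen
import Crest.Agent.R197.Ext
import Crest.Agent.R197.Linv

/-!
Task R197-Extr.  A two-dimensional classifying complex gives an aspherical presentation.

Plan.  `Y` from `exists_cs2`, `U` from `exists_univ`, `Θ₁ = U.Θ.comap Y.inc`.  `V = X0`, `π = lift fun s => Θ₁.θ (ed s)`.  For `r` choose (`anchor`)
`b r` and a path `κ r` from `b r` to `att r 0`; `w r` = the word (`gen1`) of the loop `κ r · att r · (κ r)⁻¹`, so for every cocycle `θ` on `X1`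
`lift (θ ∘ ed) (w r) = θ κ * θ (att r) * (θ κ)⁻¹`.  `rel`: `inc ∘ att r` factors through `c2.χ r : C(ℂ, X)` (potential on `ℂ`).
`conn`: `U.ex`, `genX`, `gen1`.  `sc`: `K = FreeGroup S ⧸ normalClosure (range w)`, `z s = mk (of s)`, `ext1`, `exists_rep`, `ext2`, `real`, `U.null`.
`linv`: `linv_coc` for `(g₀ * Θ₁ (κ r₀), r₀)`, `ψ (g, s) = toAdd ((Θ'.θ (ed s)).f g)`; then `holW π (ofAdd ∘ ψ) = lift (Θ' ∘ ed)` and
`(x * y * x⁻¹).f g = y.f (g * x.a)` when `y.a = 1` (commutative fibre).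
-/

set_option autoImplicit false

namespace Crest.Agent.R197

open unitInterval

theorem CS2.att_triv {X K : Type} [TopologicalSpace X] [Group K] (Y : CS2 X) (θ : Coc X K)
    (r : Y.R) : θ.θ (Y.inc.comp (Y.att r)) = 1 := by
  obtain ⟨k, hk⟩ := (θ.comap (Y.c2.χ r)).pot
  have := hk ⟨fun t => Complex.exp (2 * Real.pi * (t : ℝ) * Complex.I), by fun_prop⟩
  simp only [ContinuousMap.coe_mk, Set.Icc.coe_zero, Set.Icc.coe_one, Complex.ofReal_zero,
    Complex.ofReal_one, mul_zero, zero_mul, mul_one, Complex.exp_zero,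
    Complex.exp_two_pi_mul_I, inv_mul_cancel] at this
  exact this

theorem CS2.att_one {X : Type} [TopologicalSpace X] (Y : CS2 X) (r : Y.R) :
    Y.att r 1 = Y.att r 0 := by
  apply Subtype.ext
  simp [CS2.att, CS2.attR]

theorem exists_masph {G : Type} [Group G] (h : Crest.Topology.HasClassifyingComplex G 2) :
    Nonempty (MAsph G) := by
  classical
  obtain ⟨X, _, _, _, hdim, ⟨E, _, p, _, hp, hs⟩, x, ⟨φ⟩⟩ := h
  obtain ⟨Y⟩ := exists_cs2 hdim
  let p' : C(E, X) := ⟨p, hp.continuous⟩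
  obtain ⟨U⟩ := exists_univ p' hp hs x φ
  have : Nonempty X := ⟨x⟩
  let Θ₁ := U.Θ.comap Y.inc
  let π : FreeGroup Y.S →* G := FreeGroup.lift fun s => Θ₁.θ (Y.ed s)
  choose b hb using fun r => Y.anchor (Y.att r 0)
  let κ : ∀ r, Path (b r : Y.X1) (Y.att r 0) := fun r => (hb r).somePath
  choose w hw hw' using fun r => Y.gen1 (b r) (b r)
    (((κ r).trans ((toPath (Y.att r)).cast rfl (Y.att_one r).symm)).trans (κ r).symm)
  have hwθ : ∀ r (K : Type) [Group K] (θ : Coc Y.X1 K),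
      FreeGroup.lift (fun s => θ.θ (Y.ed s)) (w r) =
        θ.θ (κ r).toContinuousMap * θ.θ (Y.att r) * (θ.θ (κ r).toContinuousMap)⁻¹ := by
    intro r K _ θ
    rw [← hw' r K θ, θ.trans, θ.trans, θ.symm]
    rfl
  refine ⟨⟨Y.X0, Y.S, Y.R, Y.src, Y.tgt, π, b, w, Y.ne, hw, fun r => ?_, fun v v' g => ?_,
    fun v u hu hu' => ?_, fun c₀ => ?_⟩⟩
  · simp only [π]
    rw [hwθ, show Θ₁.θ (Y.att r) = 1 from Y.att_triv U.Θ r, mul_one, mul_inv_cancel]
  · obtain ⟨γ, hγ⟩ := U.ex (v : Y.X1) (v' : Y.X1) g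
    obtain ⟨γ₁, h1⟩ := Y.genX _ _ γ
    obtain ⟨u, hu, h2⟩ := Y.gen1 v v' γ₁
    exact ⟨u, hu, (h2 G Θ₁).symm.trans ((h1 G U.Θ).symm.trans hγ)⟩
  · let Nw := Subgroup.normalClosure (Set.range w)
    obtain ⟨C, hC⟩ := Y.ext1 (K := FreeGroup Y.S ⧸ Nw) fun s => QuotientGroup.mk' Nw (FreeGroup.of s)
    obtain ⟨θ₁, h1⟩ := C.exists_rep
    have hl : FreeGroup.lift (fun s => θ₁.θ (Y.ed s)) = QuotientGroup.mk' Nw := by
      ext s
      simp [hC θ₁ h1]
    obtain ⟨θ, h2⟩ := Y.ext2 C θ₁ h1 fun r => by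
      have h3 := hwθ r _ θ₁
      rw [hl, show QuotientGroup.mk' Nw (w r) = 1 from
        (QuotientGroup.eq_one_iff _).2 (Subgroup.subset_normalClosure ⟨r, rfl⟩)] at h3
      simpa using h3.symm
    obtain ⟨γ, hγ⟩ := Y.real hu
    have h4 := U.null _ (γ.map Y.inc.continuous) ((hγ G Θ₁).trans hu')
    have h5 := θ.homotopic h4
    rw [θ.refl] at h5
    have h6 := hγ _ θ₁
    rw [hl, ← h2] at h6
    exact (QuotientGroup.eq_one_iff _).1 (h6.symm.trans h5)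
  · obtain ⟨Θ', h1, h2⟩ := Y.linv_coc p' hp U (c₀.1 * Θ₁.θ (κ c₀.2).toContinuousMap, c₀.2)
    refine ⟨fun e => Multiplicative.toAdd ((Θ'.θ (Y.ed e.2)).f e.1), fun c => ?_⟩
    have h3 : holW π (fun e => Multiplicative.ofAdd (Multiplicative.toAdd
        ((Θ'.θ (Y.ed e.2)).f e.1))) = FreeGroup.lift fun s => Θ'.θ (Y.ed s) := by
      ext s g
      · simp [holW]
      · simp [holW, π, h1, Θ₁]
    have h4 : (Θ'.θ (Y.att c.2)).a = 1 := (h1 _).trans (Y.att_triv U.Θ c.2)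
    unfold ev hol
    rw [h3, hwθ]
    simp only [Wr.mul_f, Wr.mul_a, Wr.inv_f, h4, mul_one, mul_inv_cancel_right, mul_inv_cancel_comm,
      h2, h1]
    obtain ⟨g, r⟩ := c
    obtain ⟨g₀, r₀⟩ := c₀
    by_cases hr : r = r₀
    · subst hr
      by_cases hg : g = g₀ <;> simp [hg, Θ₁]
    · simp [hr]

end Crest.Agent.R197
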