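import Crest.Agent.R197.GRa
import Crest.Agent.R197.EstA
import Crest.Agent.R332.Brouwer

/-!
Task R197-GR.  The Gerstenhaber–Rothaus theorem in homotopy invariant form, and the continuation lemma.

Plan.
`null_fix`: let `K` be a homotopy from the constant map `c` to `k`.  On `V = M → ℍ[ℝ]` put `m x = ⨅ i ‖x i‖` (e.g.
`Finset.univ.inf'`/`‖fun i => 1 - min 1 ‖x i‖‖`; treat `M` empty separately or use the sup norm) and
`k̂ x = if m x ≤ 1/2 then c else K (projIcc (2 * m x - 1), fun i => x i / ‖x i‖)` as an element of `V`.  (To have a total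
continuous-on function use `r x i = if h : x i = 0 then 1 else normalised`, continuous on `{m ≥ 1/2}`; `Continuous.if_le`
or `continuous_if`/`ContinuousOn.if`.)  `k̂` is continuous and bounded, so `R332.brouwer` gives `k̂ x = x`; then `x` has unit
entries and `k̂ x = k x`.
`gr`: take `f` from `gr_sec`, `s y = fun e => f e y`; `lift (s y) w = (lift f w) y` (induction on `w`).  So
`H 0 ∘ s ≃ id` (`ContinuousMap.Homotopic.pi`/build the homotopy by hand), `H 1 ∘ s ≃ H 0 ∘ s`, and
`k y = y * (H 1 (s y))⁻¹ ≃ y * y⁻¹ = 1`.  A fixed point of `k` gives `H 1 (s y) = 1`.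
`cont`: for `z : E → S3` let `v z e = (max (z (p e)).re (1/2))⁻¹ • (z (p e)).im` and
`n z = max (N (v z)) (2 * ‖fun e => 1 - (z (p e) : ℍ).re‖)`; if `n z ≤ 1` all real parts are `≥ 1/2` and
`z (p e) = ee (v z e)` (`ee_chart` of `EstA` -- reprove or import `Crest.Agent.R197.EstA`).  Apply `gr` to
`H s z = if n z ≤ 1 then F (s * min 1 (2 * (1 - n z))) (v z) z else fun i => lift z (φ i)` (`Continuous.if_le`, `h0`).
If `H 1 z = 1`: `n z > 1` contradicts `h1` (then `v z = 0`, `n z = 0`); `n z ≤ 1/2` contradicts `h3`; if `1/2 < n z ≤ 1` then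
`‖v z‖ ≤ 1/2` by `hN1`, so `1 - re ≤ 1/8` (`re = (1 + ‖v‖²)^(-1/2)`; or `‖ee b - 1‖ ≤ ‖b‖` and `‖a - 1‖² = 2 - 2 re a`),
hence `n z = N (v z)`, contradicting `h2`.
-/

set_option autoImplicit false

namespace Crest.Agent.R197

open scoped Quaternion
open unitInterval

open Classical in
/-- normalisation -/
noncomputable def nrm (x : ℍ[ℝ]) : S3 :=
  if h : x = 0 then 1 else ⟨‖x‖⁻¹ • x, by
    rw [mem_sphere_zero_iff_norm, norm_smul, norm_inv, norm_norm,
      inv_mul_cancel₀ (norm_ne_zero_iff.mpr h)]⟩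

theorem nrm_coe (a : S3) : nrm a = a := by
  have h : (a : ℍ[ℝ]) ≠ 0 := norm_ne_zero_iff.1 (by rw [S3.norm_coe]; exact one_ne_zero)
  apply Subtype.ext
  simp [nrm, h]

theorem continuousOn_nrm : ContinuousOn nrm {x | x ≠ 0} := by
  rw [Topology.IsInducing.subtypeVal.continuousOn_iff]
  refine ContinuousOn.congr (f := fun x : ℍ[ℝ] => ‖x‖⁻¹ • x)
    ((continuous_norm.continuousOn.inv₀ fun x hx => norm_ne_zero_iff.2 hx).smul continuousOn_id) ?_
  intro x hx
  have hx : x ≠ 0 := hx
  simp [nrm, hx]

theorem null_fix {M : Type} [Fintype M] (k : C(M → S3, M → S3)) (c : M → S3)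
    (h : (ContinuousMap.const _ c).Homotopic k) : ∃ y, k y = y := by
  obtain ⟨K⟩ := h
  let m : (M → ℍ[ℝ]) → ℝ := fun x => ‖fun i => 1 - min 1 ‖x i‖‖
  have hm : Continuous m := by fun_prop
  have hm0 : ∀ x, m x ≤ 1 / 2 → ∀ i, x i ≠ 0 := by
    intro x hx i hi
    have := (norm_le_pi_norm (fun i => 1 - min 1 ‖x i‖) i).trans hx
    norm_num [hi] at this
  let g : (M → ℍ[ℝ]) → M → S3 := fun x =>
    if m x ≤ 1 / 2 then K (Set.projIcc 0 1 zero_le_one (1 - 2 * m x), fun i => nrm (x i)) else c
  have hg : Continuous g := by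
    refine continuous_if_le hm continuous_const ?_ continuousOn_const ?_
    · refine K.continuous.comp_continuousOn (ContinuousOn.prodMk
        (continuous_projIcc.comp (by fun_prop)).continuousOn (continuousOn_pi.2 fun i => ?_))
      exact continuousOn_nrm.comp (continuous_apply i).continuousOn fun x hx => hm0 x hx i
    · intro x hx
      rw [hx, show (1 : ℝ) - 2 * (1 / 2) = 0 by norm_num, Set.projIcc_left]
      exact K.apply_zero _
  obtain ⟨x, hx⟩ := R332.brouwer (fun x i => (g x i : ℍ[ℝ])) (by fun_prop) 1 fun x =>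
    (pi_norm_le_iff_of_nonneg zero_le_one).2 fun i => (S3.norm_coe _).le
  have h1 : ∀ i, x i = g x i := fun i => (congrFun hx i).symm
  have h2 : m x = 0 := by
    simp only [m]
    rw [norm_eq_zero]
    funext i
    rw [h1, S3.norm_coe]
    simp
  refine ⟨g x, ?_⟩
  have h3 : g x = K (Set.projIcc 0 1 zero_le_one (1 - 2 * m x), fun i => nrm (x i)) :=
    if_pos (by rw [h2]; norm_num)
  have h4 : (fun i => nrm (x i)) = g x := funext fun i => by rw [h1, nrm_coe]
  rw [h4, h2, mul_zero, sub_zero, Set.projIcc_right] at h3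
  rw [← K.apply_one]
  exact h3.symm

theorem gr {E M : Type} [Fintype M] [DecidableEq M] (φ : M → FreeGroup E) (ψ : M → E → ℤ)
    (hψ : ∀ i j, Multiplicative.toAdd (FreeGroup.lift (fun e => Multiplicative.ofAdd (ψ i e)) (φ j)) =
      if j = i then 1 else 0)
    (H : ℝ → (E → S3) → M → S3) (hH : Continuous fun q : ℝ × (E → S3) => H q.1 q.2)
    (h0 : ∀ z i, H 0 z i = FreeGroup.lift z (φ i)) : ∃ z, H 1 z = 1 := by
  obtain ⟨f, hf⟩ := gr_sec φ ψ hψ
  let s : (M → S3) → E → S3 := fun y e => f e y
  have hs : Continuous s := continuous_pi fun e => (f e).continuous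
  have hl : ∀ y w, FreeGroup.lift (s y) w = FreeGroup.lift f w y := by
    intro y w
    induction w using FreeGroup.induction_on with
    | C1 => simp
    | of e => simp [s]
    | inv_of e _ => simp [s]
    | mul a b ha hb => simp [ha, hb]
  have hf' := fun i => (hf i).some
  let k : ℝ → C(M → S3, M → S3) := fun t =>
    ⟨fun y => y * (H t (s y))⁻¹,
      continuous_id.mul (hH.comp (continuous_const.prodMk hs)).inv⟩
  have h1 : (ContinuousMap.const _ 1).Homotopic (k 0) := by
    refine ⟨ContinuousMap.Homotopy.symm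
      { toFun := fun q i => q.2 i * (hf' i q)⁻¹
        continuous_toFun := continuous_pi fun i => Continuous.mul (by fun_prop)
          (hf' i).continuous.inv
        map_zero_left := fun y => funext fun i => ?_
        map_one_left := fun y => funext fun i => ?_ }⟩
    · simp [k, h0, hl]
    · simp
  have h2 : (k 0).Homotopic (k 1) :=
    ⟨{ toFun := fun q => q.2 * (H q.1 (s q.2))⁻¹
       continuous_toFun := continuous_snd.mul (hH.comp
         ((continuous_subtype_val.comp continuous_fst).prodMk (hs.comp continuous_snd))).inv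
       map_zero_left := fun y => rfl
       map_one_left := fun y => rfl }⟩
  obtain ⟨y, hy⟩ := null_fix (k 1) 1 (h1.trans h2)
  exact ⟨s y, by simpa [k] using hy⟩

theorem cont {E M V : Type} [Fintype M] [DecidableEq M] [Fintype V] (φ : M → FreeGroup E) (ψ : M → E → ℤ)
    (hψ : ∀ i j, Multiplicative.toAdd (FreeGroup.lift (fun e => Multiplicative.ofAdd (ψ i e)) (φ j)) =
      if j = i then 1 else 0)
    (p : V → E) (N : (V → ℍ[ℝ]) → ℝ) (hN : Continuous N) (hN0 : N 0 = 0)
    (hN1 : ∀ v, N v ≤ 1 → ‖v‖ ≤ 1 / 2)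
    (F : ℝ → (V → ℍ[ℝ]) → (E → S3) → M → S3)
    (hF : Continuous fun q : ℝ × (V → ℍ[ℝ]) × (E → S3) => F q.1 q.2.1 q.2.2)
    (h0 : ∀ v z, (∀ e, z (p e) = ee (v e)) → ∀ i, F 0 v z i = FreeGroup.lift z (φ i))
    (h1 : ∀ z : E → S3, (∀ i, FreeGroup.lift z (φ i) = 1) → ∀ e, z (p e) = 1)
    (h2 : ∀ t v z, 0 ≤ t → t ≤ 1 → (∀ e, (v e).re = 0) → 1 / 2 ≤ N v → N v ≤ 1 → F t v z ≠ 1)
    (h3 : ∀ v z, (∀ e, (v e).re = 0) → N v ≤ 1 → F 1 v z ≠ 1) : False := by
  let v : (E → S3) → V → ℍ[ℝ] := fun z e =>
    (max (z (p e) : ℍ[ℝ]).re (1 / 2))⁻¹ • (z (p e) : ℍ[ℝ]).im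
  have hzc : ∀ e, Continuous fun z : E → S3 => (z (p e) : ℍ[ℝ]) := fun e => by fun_prop
  have hv : Continuous v := by
    refine continuous_pi fun e => Continuous.smul (Continuous.inv₀
      ((Quaternion.continuous_re.comp (hzc e)).max continuous_const) fun z => ?_)
      (Quaternion.continuous_im.comp (hzc e))
    exact (lt_of_lt_of_le (by norm_num) (le_max_right _ _)).ne'
  have hvre : ∀ z e, (v z e).re = 0 := fun z e => by simp [v]
  let m : (E → S3) → ℝ := fun z => 2 * ‖fun e => 1 - (z (p e) : ℍ[ℝ]).re‖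
  have hm : Continuous m :=
    continuous_const.mul (continuous_pi fun e =>
      continuous_const.sub (Quaternion.continuous_re.comp (hzc e))).norm
  let n : (E → S3) → ℝ := fun z => max (N (v z)) (m z)
  have hn : Continuous n := (hN.comp hv).max hm
  have hch : ∀ z, n z ≤ 1 → ∀ e, z (p e) = ee (v z e) := by
    intro z hz e
    have h4 := norm_le_pi_norm (fun e => 1 - (z (p e) : ℍ[ℝ]).re) e
    have h5 : m z ≤ 1 := (le_max_right _ _).trans hz
    have h6 : 1 / 2 ≤ (z (p e) : ℍ[ℝ]).re := by
      have := le_abs_self (1 - (z (p e) : ℍ[ℝ]).re)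
      simp only [Real.norm_eq_abs, m] at h4 h5
      linarith
    simp only [v, max_eq_left h6]
    exact (ee_chart _ (by linarith)).symm
  have hΦ : Continuous fun z : E → S3 => fun i => FreeGroup.lift z (φ i) := by
    refine continuous_pi fun i => ?_
    generalize φ i = w
    induction w using FreeGroup.induction_on with
    | C1 => simpa using continuous_const
    | of e => simpa using continuous_apply e
    | inv_of e h => simp only [map_inv]; exact h.inv
    | mul a b ha hb => simp only [map_mul]; exact ha.mul hb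
  obtain ⟨z, hz⟩ := gr φ ψ hψ (fun s z => if n z ≤ 1 then F (s * min 1 (2 * (1 - n z))) (v z) z
    else fun i => FreeGroup.lift z (φ i)) (by
      refine Continuous.if_le ?_ (hΦ.comp continuous_snd) (hn.comp continuous_snd)
        continuous_const ?_
      · exact hF.comp (f := fun q : ℝ × (E → S3) => (q.1 * min 1 (2 * (1 - n q.2)), v q.2, q.2))
          (by fun_prop)
      · intro q hq
        funext i
        rw [hq, sub_self, mul_zero, min_eq_right zero_le_one, mul_zero]
        exact h0 _ _ (hch _ hq.le) i) (by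
      intro z i
      split_ifs with h
      · rw [zero_mul]
        exact h0 _ _ (hch _ h) i
      · rfl)
  split_ifs at hz with h
  · have hNv : N (v z) ≤ 1 := (le_max_left _ _).trans h
    rw [one_mul] at hz
    rcases le_or_gt (n z) (1 / 2) with h4 | h4
    · rw [min_eq_left (by linarith)] at hz
      exact h3 _ _ (hvre z) hNv hz
    · have h5 : m z ≤ 1 / 4 := by
        have : ‖fun e => 1 - (z (p e) : ℍ[ℝ]).re‖ ≤ 1 / 8 := by
          refine (pi_norm_le_iff_of_nonneg (by norm_num)).2 fun e => ?_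
          have a1 : ‖(z (p e) : ℍ[ℝ]) - 1‖ ≤ 1 / 2 := by
            rw [hch z h e]
            exact (norm_ee_sub_one _).trans ((norm_le_pi_norm _ e).trans (hN1 _ hNv))
          have a2 := norm_sq_re_im (z (p e) : ℍ[ℝ])
          have a3 := norm_sq_re_im ((z (p e) : ℍ[ℝ]) - 1)
          have a4 := abs_re_le (z (p e) : ℍ[ℝ])
          rw [S3.norm_coe] at a2 a4
          simp only [Quaternion.re_sub, Quaternion.re_one, Quaternion.im_sub, Quaternion.im_one,
            sub_zero] at a3
          have a5 := pow_le_pow_left₀ (norm_nonneg _) a1 2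
          rw [Real.norm_of_nonneg (by linarith [(abs_le.1 a4).2])]
          nlinarith
        simp only [m]
        linarith
      have h6 : 1 / 2 ≤ N (v z) := by
        rcases lt_max_iff.1 h4 with h7 | h7
        · exact h7.le
        · linarith
      exact h2 _ _ _ (le_min zero_le_one (by linarith)) (min_le_left _ _) (hvre z) h6 hNv hz
  · have h4 := h1 z fun i => congrFun hz i
    apply h
    have h5 : v z = 0 := funext fun e => by simp [v, h4]
    have h6 : m z = 0 := by
      have : (fun e => 1 - (z (p e) : ℍ[ℝ]).re) = 0 := funext fun e => by simp [h4]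
      simp only [m, this, norm_zero, mul_zero]
    simp only [n, h5, h6, hN0]
    norm_num

end Crest.Agent.R197
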