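import Crest.Agent.R197.Defs

/-!
Task R197-GRa.  Solving equations in the group of homotopy classes `[𝕄, S3]`, `𝕄 = M → S3`.

Plan.  `𝒢 = C(M → S3, S3)` is a group (pointwise; `S3` is a topological group).  `Nl = {f | f.Homotopic 1}` is a normal subgroup
(homotopies can be multiplied / inverted pointwise; also `f ≃ g ↔ f * g⁻¹ ∈ Nl`), `Q = 𝒢 ⧸ Nl`.
1. `Q` is nilpotent (Whitehead).  For `A : Set 𝕄` let `K A = {f | ∀ y ∈ A, f y = 1}` (normal subgroup of `𝒢`),
   `U A = (K A).map (mk' Nl)`.  `⁅U A, U B⁆ ≤ U (A ∪ B)` (`Subgroup.map_commutator`, `commutator_le_inf`), `U univ = ⊥`.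
   For `ε : M → Bool`/signs let `A ε = {y | ∀ i, 0 ≤ ε i * (y i).re}`; the finitely many `A ε` cover `𝕄`.
   `U (A ε) = ⊤`: on `S3` let `ρ̃ z = (1 + 2 * min z.re 0) • 1 - min z.re 0 • z.im` (`= 1` if `0 ≤ z.re`); for `s ∈ [0,1]`,
   `(1 - s) • z + s • ρ̃ z ≠ 0` (look at the imaginary part, then `z = ±1`), so normalising gives a homotopy `id ≃ ρ` with
   `ρ = 1` on the half sphere.  `ρ_ε y i = ε i * ρ (ε i * y i)` (with `ε i = ±1 ∈ S3`) is homotopic to `id` and maps `A ε` to the
   point `ε`.  So `f ≃ f ∘ ρ_ε ≃ (const (f ε))⁻¹ * f ∘ ρ_ε ∈ K (A ε)` (constants are null-homotopic, `S3` is path connected: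
   `isPathConnected_sphere`).  By induction on a list of the `ε`: `lowerCentralSeries Q k ≤ U (A ε₁ ∪ … ∪ A ε_k)`
   (start: `lowerCentralSeries Q 0 = ⊤ = U ∅`), so some `lowerCentralSeries Q k = ⊥`.
2. `hensel` (any group `Q` with `lowerCentralSeries Q k = ⊥`): for every `p : M → Q` there is `f : E → Q` with
   `lift f (φ i) = p i`.  Induct on `n`: `∃ f, ∀ i, (lift f (φ i))⁻¹ * p i ∈ lcs n`.  Step: `d i = (lift f (φ i))⁻¹ * p i`,
   `f' e = f e * (univ.toList.map fun i => d i ^ ψ i e).prod`; in `Q ⧸ lcs (n+1)` the `d i` are central, hence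
   `w ↦ mk (lift f w) * ∏ᵢ mk (d i) ^ toAdd (lift (ofAdd ∘ ψ i) w)` is the homomorphism `mk ∘ lift f'` (work in the
   commutative group `Subgroup.center (Q ⧸ _)` to use `Finset.prod`; induction on `w`).
3. Apply 2 with `p i = mk (proj i)` and lift `f e` to `𝒢` (`Quotient.out`).
-/

set_option autoImplicit false

namespace Crest.Agent.R197

open scoped Quaternion commutatorElement IsMulCommutative

namespace GRa

section hensel

variable {Q E M : Type} [Group Q] [Fintype M] [DecidableEq M]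

theorem hensel_step (φ : M → FreeGroup E) (ψ : M → E → ℤ)
    (hψ : ∀ i j, Multiplicative.toAdd (FreeGroup.lift (fun e => Multiplicative.ofAdd (ψ i e)) (φ j)) =
      if j = i then 1 else 0) (p : M → Q) (n : ℕ) :
    ∃ f : E → Q, ∀ i, (FreeGroup.lift f (φ i))⁻¹ * p i ∈ (⊤ : Subgroup Q).lowerCentralSeries n := by
  induction n with
  | zero => exact ⟨fun _ => 1, fun _ => trivial⟩
  | succ n ih =>
    obtain ⟨f, hf⟩ := ih
    let N := (⊤ : Subgroup Q).lowerCentralSeries (n + 1)
    let π : Q →* Q ⧸ N := QuotientGroup.mk' N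
    have hc : ∀ x ∈ (⊤ : Subgroup Q).lowerCentralSeries n, π x ∈ Subgroup.center (Q ⧸ N) := by
      intro x hx
      rw [Subgroup.mem_center_iff]
      intro y
      obtain ⟨y, rfl⟩ := QuotientGroup.mk'_surjective N y
      have h : ⁅x, y⁆ ∈ N := Subgroup.commutator_mem_commutator hx (Subgroup.mem_top y)
      have h' : π ⁅x, y⁆ = 1 := (QuotientGroup.eq_one_iff _).2 h
      rw [map_commutatorElement, commutatorElement_eq_one_iff_mul_comm] at h'
      exact h'.symm
    let c : M → Subgroup.center (Q ⧸ N) := fun i => ⟨π ((FreeGroup.lift f (φ i))⁻¹ * p i), hc _ (hf i)⟩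
    let a : M → FreeGroup E → ℤ := fun i w =>
      Multiplicative.toAdd (FreeGroup.lift (fun e => Multiplicative.ofAdd (ψ i e)) w)
    choose g hg using fun e : E => QuotientGroup.mk'_surjective N
      (π (f e) * ((∏ i, c i ^ ψ i e : Subgroup.center (Q ⧸ N)) : Q ⧸ N))
    have key : ∀ w, π (FreeGroup.lift g w) = π (FreeGroup.lift f w) *
        ((∏ i, c i ^ a i w : Subgroup.center (Q ⧸ N)) : Q ⧸ N) := by
      intro w
      induction w using FreeGroup.induction_on with
      | C1 => simp [a]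
      | of s => simpa [a, π] using hg s
      | inv_of s h =>
        have e : (∏ i, c i ^ a i (FreeGroup.of s)⁻¹) = (∏ i, c i ^ a i (FreeGroup.of s))⁻¹ := by
          rw [← Finset.prod_inv_distrib]
          refine Finset.prod_congr rfl fun i _ => ?_
          simp [a]
        rw [map_inv, map_inv, h, e, map_inv, map_inv, mul_inv_rev, ← Subgroup.coe_inv]
        exact (Subgroup.mem_center_iff.1 (Subtype.prop _) _).symm
      | mul x y hx hy =>
        have e : (∏ i, c i ^ a i (x * y)) = (∏ i, c i ^ a i x) * ∏ i, c i ^ a i y := by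
          rw [← Finset.prod_mul_distrib]
          refine Finset.prod_congr rfl fun i _ => ?_
          simp [a, zpow_add]
        rw [map_mul, map_mul, hx, hy, e, map_mul, map_mul, Subgroup.coe_mul, mul_assoc, mul_assoc,
          ← mul_assoc _ (π (FreeGroup.lift f y)),
          ← Subgroup.mem_center_iff.1 (Subtype.prop _) (π (FreeGroup.lift f y)), mul_assoc]
    refine ⟨g, fun j => ?_⟩
    have e : (∏ i, c i ^ a i (φ j)) = c j := by
      simp only [a, hψ]
      rw [Finset.prod_eq_single j]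
      · simp
      · intro b _ hb
        simp [Ne.symm hb]
      · simp
    have h := key (φ j)
    rw [e] at h
    change π _ = π _ * π _ at h
    rw [← map_mul, mul_inv_cancel_left] at h
    exact QuotientGroup.eq.1 h

theorem hensel (φ : M → FreeGroup E) (ψ : M → E → ℤ)
    (hψ : ∀ i j, Multiplicative.toAdd (FreeGroup.lift (fun e => Multiplicative.ofAdd (ψ i e)) (φ j)) =
      if j = i then 1 else 0) {k : ℕ} (hk : (⊤ : Subgroup Q).lowerCentralSeries k = ⊥) (p : M → Q) :
    ∃ f : E → Q, ∀ i, FreeGroup.lift f (φ i) = p i := by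
  obtain ⟨f, hf⟩ := hensel_step φ ψ hψ p k
  refine ⟨f, fun i => ?_⟩
  have := hf i
  rw [hk, Subgroup.mem_bot] at this
  exact inv_mul_eq_one.1 this

end hensel

section white

variable {X G : Type} [TopologicalSpace X] [TopologicalSpace G] [Group G] [IsTopologicalGroup G]

theorem hmul {f g f' g' : C(X, G)} (h : f.Homotopic g) (h' : f'.Homotopic g') :
    (f * f').Homotopic (g * g') := by
  obtain ⟨H⟩ := h
  obtain ⟨H'⟩ := h'
  exact ⟨⟨H.toContinuousMap * H'.toContinuousMap, fun x => by simp, fun x => by simp⟩⟩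

theorem hinv {f g : C(X, G)} (h : f.Homotopic g) : f⁻¹.Homotopic g⁻¹ := by
  obtain ⟨H⟩ := h
  exact ⟨⟨H.toContinuousMap⁻¹, fun x => by simp, fun x => by simp⟩⟩

variable (X G) in
/-- Null-homotopic maps. -/
def Nl : Subgroup C(X, G) where
  carrier := {f | f.Homotopic 1}
  mul_mem' ha hb := by simpa using hmul ha hb
  one_mem' := ContinuousMap.Homotopic.refl _
  inv_mem' ha := by simpa using hinv ha

instance : (Nl X G).Normal := ⟨fun f hf g => by
  have := hmul (hmul (ContinuousMap.Homotopic.refl g) hf) (ContinuousMap.Homotopic.refl g⁻¹)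
  change ContinuousMap.Homotopic _ 1
  simpa using this⟩

theorem mk_eq {f g : C(X, G)} :
    QuotientGroup.mk' (Nl X G) f = QuotientGroup.mk' (Nl X G) g ↔ f.Homotopic g := by
  refine QuotientGroup.eq.trans ⟨fun h => ?_, fun h => ?_⟩
  · have := hmul (ContinuousMap.Homotopic.refl f) h
    simpa using this.symm
  · have := hmul (ContinuousMap.Homotopic.refl f⁻¹) h.symm
    change ContinuousMap.Homotopic _ 1
    simpa using this

variable (G) in
/-- Maps which are trivial on `A`. -/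
def KK (A : Set X) : Subgroup C(X, G) where
  carrier := {f | ∀ y ∈ A, f y = 1}
  mul_mem' ha hb y hy := by simp [ha y hy, hb y hy]
  one_mem' _ _ := rfl
  inv_mem' ha y hy := by simp [ha y hy]

variable (G) in
/-- Classes which are trivial on `A`. -/
def UU (A : Set X) : Subgroup (C(X, G) ⧸ Nl X G) := (KK G A).map (QuotientGroup.mk' (Nl X G))

theorem UU_comm (A B : Set X) : ⁅UU G A, UU G B⁆ ≤ UU G (A ∪ B) := by
  unfold UU
  rw [← Subgroup.map_commutator]
  refine Subgroup.map_mono (Subgroup.commutator_le.2 fun f hf g hg y hy => ?_)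
  rcases hy with hy | hy
  · simp [commutatorElement_def, hf y hy]
  · simp [commutatorElement_def, hg y hy]

theorem UU_empty : UU G (∅ : Set X) = ⊤ := by
  rw [eq_top_iff]
  intro q _
  obtain ⟨f, rfl⟩ := QuotientGroup.mk'_surjective _ q
  exact ⟨f, fun _ h => h.elim, rfl⟩

theorem UU_univ : UU G (Set.univ : Set X) = ⊥ := by
  rw [eq_bot_iff]
  rintro _ ⟨f, hf, rfl⟩
  have : f = 1 := ContinuousMap.ext fun y => hf y trivial
  rw [this, map_one]
  exact Subgroup.one_mem _

theorem UU_top [PathConnectedSpace G] {A : Set X} (ρ : C(X, X))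
    (hρ : ρ.Homotopic (ContinuousMap.id X)) (c : X) (hc : ∀ y ∈ A, ρ y = c) : UU G A = ⊤ := by
  rw [eq_top_iff]
  intro q _
  obtain ⟨f, rfl⟩ := QuotientGroup.mk'_surjective _ q
  have h1 : (ContinuousMap.const X (f c)⁻¹).Homotopic 1 := by
    let γ := PathConnectedSpace.somePath (f c)⁻¹ (1 : G)
    exact ⟨⟨⟨fun q => γ q.1, by fun_prop⟩, fun x => by simp, fun x => by simp⟩⟩
  refine ⟨ContinuousMap.const X (f c)⁻¹ * f.comp ρ, fun y hy => by simp [hc y hy], mk_eq.2 ?_⟩
  simpa using hmul h1 ((ContinuousMap.Homotopic.refl f).comp hρ)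

theorem lcs_le (l : List (Set X)) (hl : ∀ A ∈ l, UU G A = ⊤) :
    (⊤ : Subgroup (C(X, G) ⧸ Nl X G)).lowerCentralSeries l.length ≤ UU G {y | ∃ A ∈ l, y ∈ A} := by
  induction l with
  | nil => simp [UU_empty]
  | cons A l ih =>
    have e : {y | ∃ B ∈ A :: l, y ∈ B} = {y | ∃ B ∈ l, y ∈ B} ∪ A := by
      ext y; simp [or_comm]
    rw [List.length_cons, Subgroup.lowerCentralSeries_succ, e]
    refine le_trans (Subgroup.commutator_mono (ih fun B hB => hl B (List.mem_cons_of_mem _ hB))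
      (hl A List.mem_cons_self).ge) (UU_comm _ _)

end white

section sphere

instance : PathConnectedSpace S3 :=
  isPathConnected_iff_pathConnectedSpace.1 (isPathConnected_sphere (by
    rw [Quaternion.rank_eq_four]; norm_num) _ zero_le_one)

/-- Normalisation. -/
noncomputable def nz {X : Type} [TopologicalSpace X] (F : C(X, ℍ[ℝ])) (h : ∀ x, F x ≠ 0) :
    C(X, S3) :=
  ⟨fun x => ⟨‖F x‖⁻¹ • F x, by
    rw [mem_sphere_zero_iff_norm, norm_smul, norm_inv, norm_norm,
      inv_mul_cancel₀ (norm_ne_zero_iff.mpr (h x))]⟩,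
    Continuous.subtype_mk ((F.continuous.norm.inv₀ fun x => norm_ne_zero_iff.mpr (h x)).smul
      F.continuous) _⟩

theorem nz_eq {X : Type} [TopologicalSpace X] (F : C(X, ℍ[ℝ])) (h : ∀ x, F x ≠ 0) (x : X) (z : S3)
    (e : F x = z) : nz F h x = z := by
  apply Subtype.ext
  change ‖F x‖⁻¹ • F x = z
  rw [e, mem_sphere_zero_iff_norm.1 z.2, inv_one, one_smul]

theorem half (σ : ℝ) (hσ : σ * σ = 1) : ∃ H : C(unitInterval × S3, S3), (∀ z, H (0, z) = z) ∧
    ∃ c, ∀ z : S3, 0 ≤ σ * (z : ℍ[ℝ]).re → H (1, z) = c := by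
  have hre : Continuous fun z : ℍ[ℝ] => z.re := Quaternion.continuous_re
  have him : Continuous fun z : ℍ[ℝ] => z.im := Quaternion.continuous_im
  let F : C(unitInterval × S3, ℍ[ℝ]) := ⟨fun q => (1 - (q.1 : ℝ)) • (q.2 : ℍ[ℝ]) + (q.1 : ℝ) •
    ((σ * (1 + 2 * min (σ * (q.2 : ℍ[ℝ]).re) 0)) • (1 : ℍ[ℝ]) -
      min (σ * (q.2 : ℍ[ℝ]).re) 0 • (q.2 : ℍ[ℝ]).im), by fun_prop⟩
  have hF : ∀ q, F q ≠ 0 := by
    rintro ⟨⟨s, hs0, hs1⟩, ⟨z, hz⟩⟩ h
    change (1 - s) • z + s • ((σ * (1 + 2 * min (σ * z.re) 0)) • (1 : ℍ[ℝ]) -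
      min (σ * z.re) 0 • z.im) = 0 at h
    have hn : z.re ^ 2 + z.imI ^ 2 + z.imJ ^ 2 + z.imK ^ 2 = 1 := by
      rw [← Quaternion.normSq_def', Quaternion.normSq_eq_norm_mul_self,
        mem_sphere_zero_iff_norm.1 hz, one_mul]
    have h0 := congrArg QuaternionAlgebra.re h
    have h1 := congrArg QuaternionAlgebra.imI h
    have h2 := congrArg QuaternionAlgebra.imJ h
    have h3 := congrArg QuaternionAlgebra.imK h
    generalize hm : min (σ * z.re) 0 = m at h0 h1 h2 h3
    simp at h0 h1 h2 h3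
    have hm0 : m ≤ 0 := hm ▸ min_le_right _ _
    by_cases ht : 1 - s - s * m = 0
    · have : s * m ≤ 0 := mul_nonpos_of_nonneg_of_nonpos hs0 hm0
      have hs : s = 1 := by linarith
      have hm' : m = 0 := by rw [hs] at ht; linarith
      rw [hs, hm'] at h0
      have : σ = 0 := by linarith
      rw [this] at hσ
      norm_num at hσ
    · have e1 : z.imI = 0 := by
        apply mul_left_cancel₀ ht; linarith
      have e2 : z.imJ = 0 := by
        apply mul_left_cancel₀ ht; linarith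
      have e3 : z.imK = 0 := by
        apply mul_left_cancel₀ ht; linarith
      have e4 : (σ * z.re - 1) * (σ * z.re + 1) = 0 := by
        rw [e1, e2, e3] at hn
        linear_combination (z.re ^ 2) * hσ + hn
      have h0' : (1 - s) * (σ * z.re) + s * (1 + 2 * m) = 0 := by
        linear_combination σ * h0 - s * (1 + 2 * m) * hσ
      rcases mul_eq_zero.1 e4 with e | e
      · have e' : σ * z.re = 1 := by linarith
        rw [e', min_eq_right zero_le_one] at hm
        rw [e', ← hm] at h0'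
        linarith
      · have e' : σ * z.re = -1 := by linarith
        rw [e', min_eq_left (by norm_num)] at hm
        rw [e', ← hm] at h0'
        linarith
  have hc : (σ • (1 : ℍ[ℝ])) ∈ Metric.sphere (0 : ℍ[ℝ]) 1 := by
    rw [mem_sphere_zero_iff_norm, norm_smul, norm_one, mul_one, Real.norm_eq_abs]
    rcases mul_self_eq_one_iff.1 hσ with h | h <;> simp [h]
  refine ⟨nz F hF, fun z => nz_eq _ _ _ _ (by simp [F]), ⟨_, hc⟩, fun z hz => nz_eq _ _ _ _ ?_⟩
  simp [F, min_eq_right hz]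

theorem nilp (M : Type) [Fintype M] [DecidableEq M] : ∃ k,
    (⊤ : Subgroup (C(M → S3, S3) ⧸ Nl (M → S3) S3)).lowerCentralSeries k = ⊥ := by
  let sg : Bool → ℝ := fun b => if b then 1 else -1
  have hsg : ∀ b, sg b * sg b = 1 := by rintro (_ | _) <;> simp [sg]
  choose H h0 c hc using fun b => half (sg b) (hsg b)
  let A : (M → Bool) → Set (M → S3) := fun ε => {y | ∀ i, 0 ≤ sg (ε i) * (y i : ℍ[ℝ]).re}
  have hA : ∀ ε, UU S3 (A ε) = ⊤ := fun ε =>
    UU_top ⟨fun y i => H (ε i) (1, y i), by fun_prop⟩ (ContinuousMap.Homotopic.symm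
      ⟨⟨⟨fun q i => H (ε i) (q.1, q.2 i), by fun_prop⟩, fun y => funext fun i => h0 _ _,
        fun _ => rfl⟩⟩) (fun i => c (ε i)) fun y hy => funext fun i => hc _ _ (hy i)
  have h := lcs_le (G := S3) ((Finset.univ : Finset (M → Bool)).toList.map A) (by
    intro B hB
    obtain ⟨ε, -, rfl⟩ := List.mem_map.1 hB
    exact hA ε)
  have e : {y | ∃ B ∈ (Finset.univ : Finset (M → Bool)).toList.map A, y ∈ B} = Set.univ := by
    refine Set.eq_univ_of_forall fun y => ⟨A fun i => decide (0 ≤ (y i : ℍ[ℝ]).re),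
      List.mem_map.2 ⟨_, by simp, rfl⟩, fun i => ?_⟩
    by_cases hy : 0 ≤ (y i : ℍ[ℝ]).re
    · simp [sg, hy]
    · simp [sg, hy, (not_le.1 hy).le]
  rw [e, UU_univ] at h
  exact ⟨_, le_bot_iff.1 h⟩

end sphere

end GRa

open GRa in
theorem gr_sec {E M : Type} [Fintype M] [DecidableEq M] (φ : M → FreeGroup E) (ψ : M → E → ℤ)
    (hψ : ∀ i j, Multiplicative.toAdd (FreeGroup.lift (fun e => Multiplicative.ofAdd (ψ i e)) (φ j)) =
      if j = i then 1 else 0) :
    ∃ f : E → C(M → S3, S3), ∀ i, ContinuousMap.Homotopic (FreeGroup.lift f (φ i))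
      ⟨fun y => y i, continuous_apply i⟩ := by
  obtain ⟨k, hk⟩ := nilp M
  obtain ⟨f, hf⟩ := hensel φ ψ hψ hk fun i =>
    QuotientGroup.mk' (Nl (M → S3) S3) ⟨fun y => y i, continuous_apply i⟩
  choose g hg using fun e => QuotientGroup.mk'_surjective (Nl (M → S3) S3) (f e)
  refine ⟨g, fun i => mk_eq.1 ?_⟩
  rw [← hf i]
  have : (QuotientGroup.mk' (Nl (M → S3) S3)).comp (FreeGroup.lift g) = FreeGroup.lift f :=
    FreeGroup.ext_hom _ _ fun e => by simpa using hg e
  exact DFunLike.congr_fun this (φ i)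

end Crest.Agent.R197
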