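import Crest.Agent.R197.Defs

/-!
Task R197-One.  From several vertices to one vertex; adding generators.

Plan.  `MAsph.asph`: fix `v₀`; choose `T v` with `EP v₀ (T v) v`, `π (T v) = 1` (`conn` with `g = 1`) and `T v₀ = 1`.
Relators `R ⊕ {v // v ≠ v₀}`: `w r` and `T v`.  `surj` from `conn v₀ v₀`.  `ker`: let `lam = lift fun s => T (src s) * of s *
(T (tgt s))⁻¹`; `lam u` is an `EP`-loop at `v₀` (`EP.mul`, `EP.inv`, `EP.of`), `π (lam u) = π u`, and `lam u ≡ u` modulo the
normal closure; apply `sc`.  `linv`: for `f : G → V → ℤ` let `δf (g, s) = f (g * π (of s)) (tgt s) - f g (src s)`; if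
`EP v u v'` then `ev π δf g u = f (g * π u) v' - f g v` (induction on `EP`).  For `c₀ = (g₀, inl r₀)` use `ψ - δf` with
`f g v = ev π ψ g (T v)`; for `c₀ = (g₀, inr v₁)` use `δf` with `f` the indicator of `(g₀, v₁)`.
`Asph.extend`: generators `S ⊕ A`, `π' = lift (Sum.elim (π ∘ of) x)`, relators `map inl (w r)` and
`of (inr a) * (map inl (u a))⁻¹` where `π (u a) = x a`.  `ker`: modulo the new relators every word is `map inl` of a word
(retraction `q = lift (Sum.elim of u)`, `map inl (q w) ≡ w`).  `linv`: extend `ψ` by `ψ (g, inr a) = ev π ψ g (u a)`, resp. take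
the indicator of `(g₀, inr a₀)` (`hol_map`).
-/

set_option autoImplicit false

namespace Crest.Agent.R197

namespace One

variable {G V S A : Type} [Group G]

theorem ev_delta (π : FreeGroup S →* G) {src tgt : S → V} (f : G → V → ℤ) {v v' : V} {u : FreeGroup S}
    (h : EP src tgt v u v') (g : G) :
    ev π (fun e => f (e.1 * π (FreeGroup.of e.2)) (tgt e.2) - f e.1 (src e.2)) g u = f (g * π u) v' - f g v := by
  induction h with
  | nil => simp
  | fwd _ ih => simp [ev_mul, ih, mul_assoc]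
  | bwd _ ih => simp [ev_mul, ev_inv, ih, mul_assoc]

theorem ev_map (π : FreeGroup S →* G) (ω : G × S → ℤ) (ι : A → S) (g : G) (w : FreeGroup A) :
    ev π ω g (FreeGroup.map ι w) = ev (π.comp (FreeGroup.map ι)) (fun e => ω (e.1, ι e.2)) g w := by
  unfold ev
  rw [hol_map]

theorem ev_zero (π : FreeGroup S →* G) (g : G) (w : FreeGroup S) : ev π (fun _ => (0 : ℤ)) g w = 0 := by
  simpa using ev_pot π (fun _ => (0 : ℤ)) g w

end One

open One

theorem MAsph.asph {G : Type} [Group G] (P : MAsph G) : Nonempty (Asph G) := by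
  classical
  obtain ⟨v₀⟩ := P.ne
  obtain ⟨T, hT, hπ, h0⟩ : ∃ T : P.V → FreeGroup P.S, (∀ v, EP P.src P.tgt v₀ (T v) v) ∧ (∀ v, P.π (T v) = 1) ∧
      T v₀ = 1 := by
    choose T h1 h2 using fun v => P.conn v₀ v 1
    refine ⟨fun v => if v = v₀ then 1 else T v, fun v => ?_, fun v => ?_, if_pos rfl⟩
    · by_cases h : v = v₀
      · simp only [h, if_true]
        exact EP.nil
      · simp only [h, if_false]
        exact h1 v
    · by_cases h : v = v₀ <;> simp [h, h2]
  let w : P.R ⊕ {v // v ≠ v₀} → FreeGroup P.S := Sum.elim P.w fun v => T v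
  refine ⟨⟨P.S, P.R ⊕ {v // v ≠ v₀}, P.π, w, fun g => ?_, le_antisymm (fun u hu => ?_) ?_, ?_⟩⟩
  · obtain ⟨u, -, h⟩ := P.conn v₀ v₀ g
    exact ⟨u, h⟩
  · set N := Subgroup.normalClosure (Set.range w) with hN
    have hTN : ∀ v, QuotientGroup.mk' N (T v) = 1 := fun v => by
      by_cases h : v = v₀
      · rw [h, h0, map_one]
      · exact (QuotientGroup.eq_one_iff _).mpr (Subgroup.subset_normalClosure ⟨.inr ⟨v, h⟩, rfl⟩)
    let lam : FreeGroup P.S →* FreeGroup P.S :=
      FreeGroup.lift fun s => T (P.src s) * FreeGroup.of s * (T (P.tgt s))⁻¹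
    have h1 : ∀ u, EP P.src P.tgt v₀ (lam u) v₀ := fun u => by
      induction u using FreeGroup.induction_on with
      | C1 => rw [map_one]; exact EP.nil
      | of s =>
        rw [FreeGroup.lift_apply_of]
        exact ((hT _).mul (EP.of _ _ s)).mul (hT _).inv
      | inv_of s h => rw [map_inv]; exact h.inv
      | mul x y hx hy => rw [map_mul]; exact hx.mul hy
    have h2 : P.π.comp lam = P.π := FreeGroup.ext_hom _ _ fun s => by simp [lam, hπ]
    have h3 : (QuotientGroup.mk' N).comp lam = QuotientGroup.mk' N := FreeGroup.ext_hom _ _ fun s => by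
      simp only [lam, MonoidHom.comp_apply, FreeGroup.lift_apply_of, map_mul, map_inv, hTN, one_mul, inv_one,
        mul_one]
    have h4 := P.sc v₀ _ (h1 u) ((DFunLike.congr_fun h2 u).trans hu)
    have h5 : lam u ∈ N := Subgroup.normalClosure_mono (by rintro _ ⟨r, rfl⟩; exact ⟨.inl r, rfl⟩) h4
    exact (QuotientGroup.eq_one_iff u).mp
      ((DFunLike.congr_fun h3 u).symm.trans ((QuotientGroup.eq_one_iff _).mpr h5))
  · refine Subgroup.normalClosure_le_normal ?_
    rintro _ ⟨r | v, rfl⟩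
    exacts [P.rel r, hπ v]
  · rintro ⟨g₀, r₀ | v₁⟩
    · obtain ⟨ψ, hψ⟩ := P.linv (g₀, r₀)
      let f : G → P.V → ℤ := fun g v => -ev P.π ψ g (T v)
      refine ⟨ψ + fun e => f (e.1 * P.π (FreeGroup.of e.2)) (P.tgt e.2) - f e.1 (P.src e.2), ?_⟩
      rintro ⟨g, r | v⟩
      · change ev _ _ g (P.w r) = _
        rw [ev_add, ev_delta _ f (P.ep r), P.rel, mul_one, sub_self, add_zero, hψ (g, r)]
        simp
      · change ev _ _ g (T v) = _
        rw [ev_add, ev_delta _ f (hT v), hπ, mul_one]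
        simp [f, h0]
    · let f : G → P.V → ℤ := fun g v => if g = g₀ ∧ v = v₁ then 1 else 0
      refine ⟨fun e => f (e.1 * P.π (FreeGroup.of e.2)) (P.tgt e.2) - f e.1 (P.src e.2), ?_⟩
      rintro ⟨g, r | v⟩
      · change ev _ _ g (P.w r) = _
        rw [ev_delta _ f (P.ep r), P.rel, mul_one, sub_self]
        simp
      · change ev _ _ g (T v) = _
        rw [ev_delta _ f (hT v), hπ, mul_one]
        simp [f, v₁.2.symm, Subtype.ext_iff]

theorem Asph.extend {G A : Type} [Group G] (P : Asph G) (x : A → G) :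
    ∃ (P' : Asph G) (ι : A → P'.S), Function.Injective ι ∧ ∀ a, P'.π (FreeGroup.of (ι a)) = x a := by
  classical
  choose u hu using fun a => P.surj (x a)
  let π' : FreeGroup (P.S ⊕ A) →* G := FreeGroup.lift (Sum.elim (fun s => P.π (FreeGroup.of s)) x)
  have h1 : π'.comp (FreeGroup.map Sum.inl) = P.π := FreeGroup.ext_hom _ _ fun s => by simp [π']
  have h1' : ∀ v, π' (FreeGroup.map Sum.inl v) = P.π v := fun v => DFunLike.congr_fun h1 v
  have h2 : ∀ a, π' (FreeGroup.of (.inr a)) = x a := fun a => by simp [π']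
  have hrel : ∀ r, P.π (P.w r) = 1 := fun r =>
    MonoidHom.mem_ker.mp (P.ker ▸ Subgroup.subset_normalClosure ⟨r, rfl⟩)
  let w : P.R ⊕ A → FreeGroup (P.S ⊕ A) := Sum.elim (fun r => FreeGroup.map Sum.inl (P.w r))
    fun a => FreeGroup.of (.inr a) * (FreeGroup.map Sum.inl (u a))⁻¹
  have hev : ∀ (ω : G × (P.S ⊕ A) → ℤ) g a, ev π' ω g (w (.inr a)) =
      ω (g, .inr a) - ev P.π (fun e => ω (e.1, .inl e.2)) g (u a) := fun ω g a => by
    change ev π' ω g (FreeGroup.of (.inr a) * (FreeGroup.map Sum.inl (u a))⁻¹) = _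
    rw [ev_mul, ev_inv, ev_of, h1', h2, hu, mul_inv_cancel_right, ev_map, h1, sub_eq_add_neg]
  have hev' : ∀ (ω : G × (P.S ⊕ A) → ℤ) g r, ev π' ω g (w (.inl r)) =
      ev P.π (fun e => ω (e.1, .inl e.2)) g (P.w r) := fun ω g r => by
    change ev π' ω g (FreeGroup.map Sum.inl (P.w r)) = _
    rw [ev_map, h1]
  refine ⟨⟨P.S ⊕ A, P.R ⊕ A, π', w, fun g => ?_, le_antisymm (fun v hv => ?_) ?_, ?_⟩, Sum.inr,
    Sum.inr_injective, h2⟩
  · obtain ⟨v, rfl⟩ := P.surj g
    exact ⟨_, h1' v⟩
  · set N := Subgroup.normalClosure (Set.range w) with hN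
    let q : FreeGroup (P.S ⊕ A) →* FreeGroup P.S := FreeGroup.lift (Sum.elim FreeGroup.of u)
    have h3 : P.π.comp q = π' := FreeGroup.ext_hom _ _ fun s => by rcases s with s | a <;> simp [q, π', hu]
    have h4 : ((QuotientGroup.mk' N).comp (FreeGroup.map Sum.inl)).comp q = QuotientGroup.mk' N :=
      FreeGroup.ext_hom _ _ fun s => by
        rcases s with s | a
        · simp [q]
        · have : QuotientGroup.mk' N (w (.inr a)) = 1 :=
            (QuotientGroup.eq_one_iff _).mpr (Subgroup.subset_normalClosure ⟨.inr a, rfl⟩)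
          simp only [w, Sum.elim_inr, map_mul, map_inv, mul_inv_eq_one] at this
          simp only [q, MonoidHom.comp_apply, FreeGroup.lift_apply_of, Sum.elim_inr, this]
    have h5 : q v ∈ Subgroup.normalClosure (Set.range P.w) := by
      rw [← P.ker]
      exact (DFunLike.congr_fun h3 v).trans hv
    have h6 : Subgroup.normalClosure (Set.range P.w) ≤ N.comap (FreeGroup.map Sum.inl) := by
      refine Subgroup.normalClosure_le_normal ?_
      rintro _ ⟨r, rfl⟩
      exact Subgroup.subset_normalClosure ⟨.inl r, rfl⟩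
    exact (QuotientGroup.eq_one_iff v).mp
      ((DFunLike.congr_fun h4 v).symm.trans ((QuotientGroup.eq_one_iff _).mpr (h6 h5)))
  · refine Subgroup.normalClosure_le_normal ?_
    rintro _ ⟨r | a, rfl⟩
    · exact (h1' _).trans (hrel r)
    · change π' (FreeGroup.of (.inr a) * (FreeGroup.map Sum.inl (u a))⁻¹) = 1
      rw [map_mul, map_inv, h1', h2, hu, mul_inv_cancel]
  · rintro ⟨g₀, r₀ | a₀⟩
    · obtain ⟨ψ, hψ⟩ := P.linv (g₀, r₀)
      refine ⟨fun e => Sum.elim (fun s => ψ (e.1, s)) (fun a => ev P.π ψ e.1 (u a)) e.2, ?_⟩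
      rintro ⟨g, r | a⟩
      · rw [hev']
        simpa using hψ (g, r)
      · rw [hev]
        simp
    · refine ⟨fun e => if e = (g₀, .inr a₀) then 1 else 0, ?_⟩
      rintro ⟨g, r | a⟩
      · rw [hev']
        simp [ev_zero]
      · rw [hev]
        simp [ev_zero]

end Crest.Agent.R197
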