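import Crest.Agent.R197.GR
import Crest.Agent.R197.Est
import Crest.Agent.R197.One

/-!
Task R197-Main.  The continuation argument.

Plan.  `P, ι` from `Asph.extend` with `x a = α (of a)`; `P.π.comp (map ι) = α`.  `C, M₀, b` from `est`.  `C₂`, `C₁` = bounds
for the constants of `small α (τ t)`, `lin α (τ t)` over the finite type `T`.  `δ = 1 / (2C + 2)`, `ε > 0` with `ε ≤ 1/2`,
`8 C₂ ε < δ`; `I, J, a` from `Test`; `F` from `exists_forest`, `u e` the paths in `F`.  `V = {e // e ∈ I \ F}`,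
`ext v : G × A → ℍ` extension by zero, `D : (V → ℍ) →ₗ[ℝ] (J → ℍ)`, `D v j = ev α (ext v) j.1.1 (τ j.1.2)` (`ev_add`,
`map_ev`).  `D` is injective (H¹ hypothesis of `Test`: `ext v = δf` on `I`; evaluate on `u e` with `In.ev_congr`, `ev_pot`), so
`‖v‖ ≤ c ‖D v‖` (`LinearMap.exists_antilipschitzWith`).  `η > 0` with `c η ≤ 1/2`, `C₁ c² η ≤ 1/2`; `N v = ‖D v‖ / η`.
`M` = the finite set of cells `⋃_{j ∈ J} j.1 * M₀ ∪ ⋃_{e ∈ I} fill e.1 (map ι (u e) * (of (ι e.2))⁻¹)`, as a subtype.
`ov = lift fun e => if e ∈ ιF then 1 else of e` (`ιF` = image of `F` under `(g,a) ↦ (g, ι a)`),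
`φ c = ov (hol P.π of c.1 (P.w c.2))`, so `lift z (φ c) = hol P.π (fun e => if e ∈ ιF then 1 else z e) c.1 (P.w c.2)`
(`map_hol`).  `ψ c₀` = `P.linv c₀` minus the coboundary which makes it vanish on `ιF` (forest property with
`K = Multiplicative ℤ`; `ev_pot` and `P.π (P.w r) = 1`).  `p e = (e.1, ι e.2)`.
With `θ t = max 0 (1 - 2t)`, `s t = max 0 (2t - 1)`:
`conn t v e = (if e ∈ I then ee (s t • (re (a e))⁻¹ • im (a e)) else 1) * ee (θ t • ext v e)`,
`Z t v z (g, x) = if h : ∃ y, ι y = x ∧ (g, y) ∈ I then conn t v (g, h.choose) else z (g, x)`,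
`β t v j = if j ∈ J then -((1 - θ t) * δ / η) • ev α (ext v) j.1 (τ j.2) else 0`,
`F t v z c = hol P.π (Z t v z) c.1 (P.w c.2) * (ee (b (Z t v z) (β t v) c))⁻¹`.  Apply `cont`.
For `j ∈ J`: `hol P.π Z j.1 (map ι (τ j.2)) = hol α (conn t v) j.1 (τ j.2)` (`hol_map`, `In.hol_congr`).
`h2`: let `ν = N v ∈ [1/2, 1]`, `j` with `‖D v j‖ = ‖D v‖ = ν η`, `μ = (1 - θ) δ ν` bounds `β`.  For `t ≤ 1/2` (`s = 0`) `est` and
`lin` give `(θ η + (1-θ) δ) ν ≤ C μ² + C₁ (θ c ν η)² ≤ ((1-θ) δ + θ η) ν / 2`, absurd.  For `t ≥ 1/2` (`θ = 0`) `est` and `small`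
(`‖conn - 1‖ ≤ 2 ε`: `norm_ee_sub_one`, `norm_chart`) give `δ ν ≤ C δ² ν² + 2 C₂ ε`, absurd.
`h3`: `conn 1 v = a` on `I` (`ee_chart`), flat on `J`, so `μ = δ ν ≤ C μ²` (if `J` is empty `μ = 0` anyway) forces `D v = 0`, `β = 0`,
`Z` is flat on `M`, so `hol α a e.1 (u e) = a e` for `e ∈ I`; the forest property for `a` and `hol_gauge`/`In.hol_congr` give
the gauge transformation excluded by `Test`.  `h1`, `h0` are similar and easier.
-/

set_option autoImplicit false

namespace Crest.Agent.R197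

open scoped Quaternion

section aux

variable {G A T S : Type} [Group G]

theorem small_unif [Finite T] (α : FreeGroup A →* G) (τ : T → FreeGroup A) :
    ∃ C : ℝ, 0 ≤ C ∧ ∀ (t : T) (z : G × A → S3) (ε : ℝ) (g : G), 0 ≤ ε →
      (∀ e, ‖(z e : ℍ[ℝ]) - 1‖ ≤ ε) → ‖((hol α z g (τ t) : S3) : ℍ[ℝ]) - 1‖ ≤ C * ε := by
  choose C hC h using fun t => small α (τ t)
  obtain ⟨B, hB⟩ := (Set.finite_range C).bddAbove
  refine ⟨max B 0, le_max_right _ _, fun t z ε g hε hz => (h t z ε g hε hz).trans ?_⟩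
  exact mul_le_mul_of_nonneg_right ((hB ⟨t, rfl⟩).trans (le_max_left _ _)) hε

theorem lin_unif [Finite T] (α : FreeGroup A →* G) (τ : T → FreeGroup A) :
    ∃ C : ℝ, 0 ≤ C ∧ ∀ (t : T) (v : G × A → ℍ[ℝ]) (η : ℝ) (g : G), 0 ≤ η → η ≤ 1 →
      (∀ e, (v e).re = 0) → (∀ e, ‖v e‖ ≤ η) →
      ‖((hol α (fun e => ee (v e)) g (τ t) : S3) : ℍ[ℝ]) - 1 - ev α v g (τ t)‖ ≤ C * η ^ 2 := by
  choose C hC h using fun t => lin α (τ t)
  obtain ⟨B, hB⟩ := (Set.finite_range C).bddAbove
  refine ⟨max B 0, le_max_right _ _, fun t v η g h0 h1 hv hv' => (h t v η g h0 h1 hv hv').trans ?_⟩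
  exact mul_le_mul_of_nonneg_right ((hB ⟨t, rfl⟩).trans (le_max_left _ _)) (sq_nonneg _)

theorem ev_smul (α : FreeGroup A →* G) (c : ℝ) (ω : G × A → ℍ[ℝ]) (g : G) (w : FreeGroup A) :
    ev α (fun e => c • ω e) g w = c • ev α ω g w :=
  (map_ev α ω (DistribSMul.toAddMonoidHom ℍ[ℝ] c) g w).symm

theorem ev_re (α : FreeGroup A →* G) (ω : G × A → ℍ[ℝ]) (h : ∀ e, (ω e).re = 0) (g : G)
    (w : FreeGroup A) : (ev α ω g w).re = 0 := by
  induction w using FreeGroup.induction_on generalizing g with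
  | C1 => simp
  | of s => simpa using h _
  | inv_of s _ => simpa [ev_inv] using h _
  | mul x y hx hy => simp [ev_mul, hx, hy]

theorem ev_zero {M : Type} [AddCommGroup M] (α : FreeGroup A →* G) (g : G) (w : FreeGroup A) :
    ev α (fun _ => (0 : M)) g w = 0 := by
  simpa using ev_pot α (fun _ => (0 : M)) g w

theorem hol_triv {K : Type} [Group K] (α : FreeGroup A →* G) (γ : G → K) (g : G) (w : FreeGroup A) :
    hol α (fun e => (γ e.1)⁻¹ * γ (e.1 * α (FreeGroup.of e.2))) g w = (γ g)⁻¹ * γ (g * α w) := by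
  induction w using FreeGroup.induction_on generalizing g with
  | C1 => simp
  | of s => simp
  | inv_of s h => simp [hol_inv]
  | mul x y hx hy => rw [hol_mul, hx, hy, map_mul]; simp [mul_assoc]

open Classical in
/-- extension by zero -/
noncomputable def extz (V : Finset (G × A)) (v : V → ℍ[ℝ]) (e : G × A) : ℍ[ℝ] :=
  if h : e ∈ V then v ⟨e, h⟩ else 0

omit [Group G] in
theorem extz_mem (V : Finset (G × A)) (v : V → ℍ[ℝ]) (e : V) : extz V v e = v e := by
  simp [extz]

omit [Group G] in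
theorem extz_not (V : Finset (G × A)) (v : V → ℍ[ℝ]) {e : G × A} (h : e ∉ V) : extz V v e = 0 := by
  simp [extz, h]

omit [Group G] in
theorem norm_extz (V : Finset (G × A)) (v : V → ℍ[ℝ]) (e : G × A) : ‖extz V v e‖ ≤ ‖v‖ := by
  unfold extz
  split_ifs
  · exact norm_le_pi_norm v _
  · simp

omit [Group G] in
theorem re_extz (V : Finset (G × A)) (v : V → ℍ[ℝ]) (hv : ∀ e, (v e).re = 0) (e : G × A) :
    (extz V v e).re = 0 := by
  unfold extz
  split_ifs
  · exact hv _
  · simp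

omit [Group G] in
theorem continuous_extz (V : Finset (G × A)) (e : G × A) :
    Continuous fun v : V → ℍ[ℝ] => extz V v e := by
  unfold extz
  split_ifs
  · exact continuous_apply _
  · exact continuous_const

/-- the linearised curvature -/
noncomputable def Dm (α : FreeGroup A →* G) (τ : T → FreeGroup A) (V : Finset (G × A))
    (J : Finset (G × T)) : (V → ℍ[ℝ]) →ₗ[ℝ] (J → ℍ[ℝ]) where
  toFun v j := ev α (extz V v) j.1.1 (τ j.1.2)
  map_add' v v' := by
    funext j
    rw [Pi.add_apply, ← ev_add]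
    congr 1
    funext e
    by_cases h : e ∈ V <;> simp [extz, h]
  map_smul' c v := by
    funext j
    rw [RingHom.id_apply, Pi.smul_apply, ← ev_smul]
    congr 1
    funext e
    by_cases h : e ∈ V <;> simp [extz, h]

open Classical in
/-- overriding a connection on the edges of `I` -/
noncomputable def ovr {K : Type} (ι : A → S) (I : Finset (G × A)) (a : G × A → K) (z : G × S → K)
    (e : G × S) : K :=
  if h : ∃ y, ι y = e.2 ∧ (e.1, y) ∈ I then a (e.1, h.choose) else z e

omit [Group G] in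
theorem ovr_mem {K : Type} {ι : A → S} (hι : Function.Injective ι) {I : Finset (G × A)}
    (a : G × A → K) (z : G × S → K) {e : G × A} (he : e ∈ I) : ovr ι I a z (e.1, ι e.2) = a e := by
  have h : ∃ y, ι y = ι e.2 ∧ (e.1, y) ∈ I := ⟨e.2, rfl, he⟩
  simp only [ovr, dif_pos h]
  rw [hι h.choose_spec.1]

omit [Group G] in
theorem ovr_not {K : Type} {ι : A → S} {I : Finset (G × A)}
    (a : G × A → K) (z : G × S → K) {e : G × S} (he : ¬ ∃ y, ι y = e.2 ∧ (e.1, y) ∈ I) :
    ovr ι I a z e = z e := by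
  simp only [ovr, dif_neg he]

theorem lift_ovr {K : Type} [Group K] (π : FreeGroup S →* G) (ι : A → S) (F : Finset (G × A))
    (z : G × S → K) (g : G) (w : FreeGroup S) :
    FreeGroup.lift z (hol π (ovr ι F (fun _ => 1) FreeGroup.of) g w) =
      hol π (ovr ι F (fun _ => 1) z) g w := by
  rw [map_hol]
  congr 1
  funext e
  unfold ovr
  split_ifs <;> simp

theorem hol_ovr {K : Type} [Group K] {π : FreeGroup S →* G} {α : FreeGroup A →* G} {ι : A → S}
    (hι : Function.Injective ι) (hc : π.comp (FreeGroup.map ι) = α) {I I' : Finset (G × A)}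
    (hI : I' ⊆ I) (a : G × A → K) (z : G × S → K) {g : G} {w : FreeGroup A}
    (h : In α (I' : Set (G × A)) g w) :
    hol π (ovr ι I a z) g (FreeGroup.map ι w) = hol α a g w := by
  rw [hol_map, hc]
  exact h.hol_congr fun e he => ovr_mem hι a z (hI he)

end aux

theorem main {G A T : Type} [Group G] [Finite T] {α : FreeGroup A →* G} {τ : T → FreeGroup A}
    (hA : Acy α τ) (hT : Test α τ) (P : Asph G) : False := by
  classical
  obtain ⟨P, ι, hι, hπ⟩ := P.extend (fun a => α (FreeGroup.of a))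
  have hc : P.π.comp (FreeGroup.map ι) = α := by
    ext a
    simp [hπ]
  have hc' : ∀ w, P.π (FreeGroup.map ι w) = α w := fun w => DFunLike.congr_fun hc w
  have hrel : ∀ r, P.π (P.w r) = 1 := fun r => by
    rw [← MonoidHom.mem_ker, P.ker]
    exact Subgroup.subset_normalClosure ⟨r, rfl⟩
  obtain ⟨C, M₀, b, hC, hb, hb0, hest⟩ := est hA P ι hι hπ
  obtain ⟨C₂, hC₂, hsmall⟩ := small_unif α τ
  obtain ⟨C₁, hC₁, hlin⟩ := lin_unif α τ
  obtain ⟨δ, hδ, hδ1, hCδ⟩ : ∃ δ : ℝ, 0 < δ ∧ δ ≤ 1 ∧ C * δ ≤ 1 / 2 := by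
    refine ⟨1 / (2 * C + 2), by positivity, ?_, ?_⟩
    · rw [div_le_one (by positivity)]; linarith
    · rw [mul_one_div, div_le_iff₀ (by positivity)]; linarith
  obtain ⟨ε, hε, hε1, hεδ⟩ : ∃ ε : ℝ, 0 < ε ∧ ε ≤ 1 / 2 ∧ 8 * C₂ * ε < δ := by
    refine ⟨δ / (8 * C₂ + 2), by positivity, ?_, ?_⟩
    · rw [div_le_iff₀ (by positivity)]; nlinarith
    · rw [← mul_div_assoc, div_lt_iff₀ (by positivity)]; nlinarith
  obtain ⟨I, J, a, hJ, hH, ha, hflat, hng⟩ := hT ε hε
  obtain ⟨F, hFI, hF1, hF2⟩ := exists_forest α I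
  choose! u hu hu' using hF2
  set V : Finset (G × A) := I \ F with hV
  set D := Dm α τ V J with hD
  have hDj : ∀ v (j : J), D v j = ev α (extz V v) j.1.1 (τ j.1.2) := fun _ _ => rfl
  have hDinj : LinearMap.ker D = ⊥ := by
    rw [LinearMap.ker_eq_bot']
    intro v hv
    obtain ⟨f, hf⟩ := hH (extz V v) fun c hc => congrFun hv ⟨c, hc⟩
    funext e
    have he : (e : G × A) ∈ I := (Finset.mem_sdiff.1 e.2).1
    have h1 := (hu e he).ev_congr (ω := extz V v) (ω' := fun _ => 0) fun e' he' =>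
      extz_not V v fun h => (Finset.mem_sdiff.1 h).2 he'
    have h2 := (hu e he).ev_congr (ω := extz V v)
      (ω' := fun e => f (e.1 * α (FreeGroup.of e.2)) - f e.1) fun e' he' => hf e' (hFI he')
    rw [ev_zero] at h1
    rw [ev_pot, hu' e he, ← hf e he, h1, extz_mem] at h2
    exact h2.symm
  obtain ⟨c, hc0, hcD⟩ : ∃ c : ℝ, 0 < c ∧ ∀ v, ‖v‖ ≤ c * ‖D v‖ := by
    obtain ⟨c, hc0, hcD⟩ := D.exists_antilipschitzWith hDinj
    exact ⟨c, hc0, fun v => ZeroHomClass.bound_of_antilipschitz D hcD v⟩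
  obtain ⟨η, hη, hη1, hη2⟩ : ∃ η : ℝ, 0 < η ∧ c * η ≤ 1 / 2 ∧ C₁ * c ^ 2 * η ≤ 1 / 2 := by
    refine ⟨1 / (2 * c + 2 * C₁ * c ^ 2), by positivity, ?_, ?_⟩
    · rw [mul_one_div, div_le_iff₀ (by positivity)]
      nlinarith [mul_nonneg hC₁ (sq_nonneg c)]
    · rw [mul_one_div, div_le_iff₀ (by positivity)]
      nlinarith
  have hker : ∀ e ∈ I, P.π (FreeGroup.map ι (u e) * (FreeGroup.of (ι e.2))⁻¹) = 1 := by
    intro e he
    rw [map_mul, map_inv, hc', hu' e he, hπ, mul_inv_cancel]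
  choose! Mf hMf using fun e he => fill P e.1 _ (hker e he)
  set M : Finset (G × P.R) :=
    J.biUnion (fun j => M₀.image fun c => (j.1 * c.1, c.2)) ∪ I.biUnion Mf with hM
  have hflatM : ∀ (K : Type) [Group K] (z : G × P.S → K),
      (∀ c ∈ M, hol P.π z c.1 (P.w c.2) = 1) → ∀ e ∈ I,
        hol P.π z e.1 (FreeGroup.map ι (u e)) = z (e.1, ι e.2) := by
    intro K _ z hz e he
    have := hMf e he K z fun c hc => hz c
      (Finset.mem_union_right _ (Finset.mem_biUnion.2 ⟨e, he, hc⟩))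
    rw [hol_mul, hol_inv, hc', hu' e he, hπ, mul_inv_cancel_right, hol_of] at this
    exact mul_inv_eq_one.1 this
  have hψ : ∀ c₀ : G × P.R, ∃ ψ : G × P.S → ℤ,
      ovr ι F (fun _ => 1) (fun e => Multiplicative.ofAdd (ψ e)) =
        (fun e => Multiplicative.ofAdd (ψ e)) ∧
      ∀ c : G × P.R, ev P.π ψ c.1 (P.w c.2) = if c = c₀ then 1 else 0 := by
    intro c₀
    obtain ⟨ψ, hψ⟩ := P.linv c₀
    obtain ⟨γ, hγ⟩ := hF1 (Multiplicative ℤ) fun e => Multiplicative.ofAdd (ψ (e.1, ι e.2))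
    let f : G → ℤ := fun g => Multiplicative.toAdd (γ g)
    refine ⟨fun e => ψ e - (f (e.1 * P.π (FreeGroup.of e.2)) - f e.1), ?_, fun c => ?_⟩
    · funext e
      by_cases h : ∃ y, ι y = e.2 ∧ (e.1, y) ∈ F
      · obtain ⟨y, hy, hy'⟩ := h
        obtain ⟨g, x⟩ := e
        obtain rfl : ι y = x := hy
        rw [ovr_mem hι _ _ (e := (g, y)) hy']
        have := congrArg Multiplicative.toAdd (hγ _ hy')
        simp only [toAdd_ofAdd, toAdd_mul, toAdd_inv] at this
        simp only [hπ, f, this]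
        rw [neg_add_eq_sub, sub_self, ofAdd_zero]
      · rw [ovr_not _ _ h]
    · have h1 := ev_add P.π (fun e => ψ e - (f (e.1 * P.π (FreeGroup.of e.2)) - f e.1))
        (fun e => f (e.1 * P.π (FreeGroup.of e.2)) - f e.1) c.1 (P.w c.2)
      rw [ev_pot, hrel, mul_one, sub_self, add_zero] at h1
      rw [← h1]
      convert hψ c using 2
      funext e
      simp
  choose ψ hψ1 hψ2 using hψ
  let θ : ℝ → ℝ := fun t => max 0 (1 - 2 * t)
  let s : ℝ → ℝ := fun t => max 0 (2 * t - 1)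
  let la : G × A → ℍ[ℝ] := fun e => if e ∈ I then ((a e : ℍ[ℝ]).re)⁻¹ • (a e : ℍ[ℝ]).im else 0
  let conn : ℝ → (V → ℍ[ℝ]) → G × A → S3 := fun t v e => ee (s t • la e) * ee (θ t • extz V v e)
  let β : ℝ → (V → ℍ[ℝ]) → G × T → ℍ[ℝ] := fun t v j =>
    if h : j ∈ J then (-((1 - θ t) * δ / η)) • D v ⟨j, h⟩ else 0
  have hθ0 : ∀ t, 0 ≤ θ t := fun t => le_max_left _ _
  have hθ1 : ∀ t, 0 ≤ t → θ t ≤ 1 := fun t ht => max_le zero_le_one (by linarith)
  have hβ : ∀ t v j, 0 ≤ t → ‖β t v j‖ ≤ (1 - θ t) * δ * (‖D v‖ / η) := by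
    intro t v j ht
    have h1 := hθ1 t ht
    have h2 : 0 ≤ (1 - θ t) * δ / η := div_nonneg (mul_nonneg (by linarith) hδ.le) hη.le
    simp only [β]
    split_ifs with h
    · rw [norm_smul, norm_neg, Real.norm_of_nonneg h2]
      calc _ ≤ (1 - θ t) * δ / η * ‖D v‖ := mul_le_mul_of_nonneg_left (norm_le_pi_norm _ _) h2
        _ = _ := by ring
    · rw [norm_zero]
      exact mul_nonneg (mul_nonneg (by linarith) hδ.le) (by positivity)
  have key : ∀ t v z, 0 ≤ t → (∀ e, (v e).re = 0) → ‖D v‖ / η ≤ 1 →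
      (∀ c ∈ M, hol P.π (ovr ι I (conn t v) z) c.1 (P.w c.2) =
        ee (b (ovr ι I (conn t v) z) (β t v) c)) → ∀ j : J,
      ‖((hol α (conn t v) j.1.1 (τ j.1.2) : S3) : ℍ[ℝ]) - 1 + ((1 - θ t) * δ / η) • D v j‖ ≤
        C * ((1 - θ t) * δ * (‖D v‖ / η)) ^ 2 := by
    intro t v z ht hv hN h j
    have h1 := hθ1 t ht
    have h0 := hθ0 t
    have := hest (ovr ι I (conn t v) z) (β t v) ((1 - θ t) * δ * (‖D v‖ / η)) j.1.1 j.1.2
      (fun c hc => h (j.1.1 * c.1, c.2) (Finset.mem_union_left _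
        (Finset.mem_biUnion.2 ⟨j.1, j.2, Finset.mem_image.2 ⟨c, hc, rfl⟩⟩)))
      (fun j => by
        simp only [β]
        split_ifs with hj
        · rw [hDj]
          simp [ev_re α _ (re_extz V v hv)]
        · simp)
      (fun j => hβ t v j ht)
      (mul_le_one₀ (mul_le_one₀ (by linarith) hδ.le hδ1) (by positivity) hN)
    rw [hol_ovr hι hc (Finset.Subset.refl I) _ _ (hJ j.1 j.2)] at this
    simp only [β, Prod.mk.eta, dif_pos j.2, neg_smul, sub_neg_eq_add, Subtype.coe_eta] at this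
    exact this
  have hmax : ∀ v, 0 < ‖D v‖ → ∃ j : J, ‖D v j‖ = ‖D v‖ := by
    intro v hv
    rcases isEmpty_or_nonempty J with hJ | hJ
    · rw [Subsingleton.elim (D v) 0, norm_zero] at hv
      exact absurd hv (lt_irrefl _)
    · obtain ⟨j, hj⟩ := Finite.exists_max fun j : J => ‖D v j‖
      exact ⟨j, le_antisymm (norm_le_pi_norm _ _)
        ((pi_norm_le_iff_of_nonneg (norm_nonneg _)).2 hj)⟩
  have hla : ∀ e, ‖la e‖ ≤ 2 * ε := by
    intro e
    simp only [la]
    split_ifs with h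
    · exact (norm_chart _ ((ha e h).trans hε1)).2.trans (by linarith [ha e h])
    · rw [norm_zero]; positivity
  refine cont (M := M) (V := V)
    (fun c => hol P.π (ovr ι F (fun _ => 1) FreeGroup.of) c.1.1 (P.w c.1.2)) (fun c => ψ c.1) ?_
    (fun e => (e.1.1, ι e.1.2)) (fun v => ‖D v‖ / η) ?_ (by simp) ?_
    (fun t v z c => hol P.π (ovr ι I (conn t v) z) c.1.1 (P.w c.1.2) *
      (ee (b (ovr ι I (conn t v) z) (β t v) c.1))⁻¹) ?_ ?_ ?_ ?_ ?_
  · intro i j
    rw [lift_ovr, hψ1]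
    have := hψ2 i.1 j.1
    simp only [Subtype.coe_inj] at this
    convert this using 1
    rfl
  · exact (D.continuous_of_finiteDimensional.norm).div_const _
  · intro v hv
    rw [div_le_one hη] at hv
    exact (hcD v).trans ((mul_le_mul_of_nonneg_left hv hc0.le).trans hη1)
  · have hθc : Continuous θ := by fun_prop
    have hsc : Continuous s := by fun_prop
    have h1 : ∀ e, Continuous fun q : ℝ × (V → ℍ[ℝ]) × (G × P.S → S3) =>
        ovr ι I (conn q.1 q.2.1) q.2.2 e := by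
      intro e
      unfold ovr
      split_ifs with h
      · exact (continuous_ee.comp ((hsc.comp continuous_fst).smul continuous_const)).mul
          (continuous_ee.comp ((hθc.comp continuous_fst).smul
            ((continuous_extz V _).comp (continuous_fst.comp continuous_snd))))
      · fun_prop
    have h2 : Continuous fun q : ℝ × (V → ℍ[ℝ]) × (G × P.S → S3) => β q.1 q.2.1 := by
      refine continuous_pi fun j => ?_
      simp only [β]
      split_ifs with h
      · have hDc := D.continuous_of_finiteDimensional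
        fun_prop
      · exact continuous_const
    refine continuous_pi fun c => (continuous_hol P.π h1 _ _).mul (continuous_ee.comp ?_).inv
    exact (hb c.1).comp ((continuous_pi h1).prodMk h2)
  · intro v z hz c
    have h1 : β 0 v = 0 := by
      funext j
      simp [β, θ]
    have h2 : ovr ι I (conn 0 v) z = ovr ι F (fun _ => 1) z := by
      funext e
      by_cases h : ∃ y, ι y = e.2 ∧ (e.1, y) ∈ I
      · obtain ⟨y, hy, hy'⟩ := h
        obtain ⟨g, x⟩ := e
        obtain rfl : ι y = x := hy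
        rw [ovr_mem hι _ _ (e := (g, y)) hy']
        have h3 : conn 0 v (g, y) = ee (extz V v (g, y)) := by simp [conn, s, θ, ee_zero]
        rw [h3]
        by_cases hF : (g, y) ∈ F
        · rw [ovr_mem hι _ _ (e := (g, y)) hF,
            extz_not V v (fun h => (Finset.mem_sdiff.1 h).2 hF), ee_zero]
        · rw [ovr_not _ _ (fun ⟨y', h1, h2⟩ => hF (by rw [← hι h1]; exact h2))]
          have hm : (g, y) ∈ V := Finset.mem_sdiff.2 ⟨hy', hF⟩
          rw [hz ⟨(g, y), hm⟩]
          exact congrArg ee (extz_mem V v ⟨(g, y), hm⟩)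
      · rw [ovr_not _ _ h, ovr_not _ _ (fun ⟨y, h1, h2⟩ => h ⟨y, h1, hFI h2⟩)]
    simp only [h1, h2, hb0, ee_zero, inv_one, mul_one, lift_ovr]
  · intro z hz e
    have he := Finset.mem_sdiff.1 e.2
    have h1 := hflatM S3 (ovr ι F (fun _ => 1) z) (fun c hc => by
      rw [← lift_ovr]; exact hz ⟨c, hc⟩) e.1 he.1
    rw [hol_ovr hι hc (Finset.Subset.refl F) _ _ (hu e.1 he.1),
      ovr_not _ _ (fun ⟨y', h1, h2⟩ => he.2 (by
        have : y' = e.1.2 := hι h1
        rw [this] at h2; exact h2))] at h1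
    rw [← h1]
    simpa using hol_triv α (fun _ => (1 : S3)) e.1.1 (u e.1)
  · intro t v z ht0 ht1 hv hN1 hN2 hF
    have hk := key t v z ht0 hv hN2 fun c hc => mul_inv_eq_one.1 (congrFun hF ⟨c, hc⟩)
    set ν := ‖D v‖ / η with hν
    have hDν : ‖D v‖ = ν * η := by rw [hν]; field_simp
    obtain ⟨j, hj⟩ := hmax v (by rw [hDν]; positivity)
    have hk := hk j
    have h0 := hθ0 t
    have h1 := hθ1 t ht0
    rcases le_total t (1 / 2) with ht | ht
    · have hs : s t = 0 := max_eq_left (by linarith)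
      have hcn : conn t v = fun e => ee (θ t • extz V v e) := by
        funext e
        simp [conn, hs, ee_zero]
      have hvn : ‖v‖ ≤ c * (ν * η) := by rw [← hDν]; exact hcD v
      have hl := hlin j.1.2 (fun e => θ t • extz V v e) (θ t * (c * (ν * η))) j.1.1 (by positivity)
        (mul_le_one₀ h1 (by positivity) (by nlinarith))
        (fun e => by simp [re_extz V v hv e])
        (fun e => by
          rw [norm_smul, Real.norm_of_nonneg h0]
          exact mul_le_mul_of_nonneg_left ((norm_extz V v e).trans hvn) h0)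
      rw [ev_smul, ← hDj, ← hcn] at hl
      have h3 : ‖(θ t + (1 - θ t) * δ / η) • D v j‖ ≤
          C * ((1 - θ t) * δ * ν) ^ 2 + C₁ * (θ t * (c * (ν * η))) ^ 2 := by
        refine le_trans (le_of_eq ?_) ((norm_sub_le _ _).trans (add_le_add hk hl))
        congr 1
        rw [add_smul]
        abel
      have h4 : 0 ≤ (1 - θ t) * δ := mul_nonneg (by linarith) hδ.le
      rw [norm_smul, Real.norm_of_nonneg (by positivity), hj, hDν] at h3
      have h5 : (θ t + (1 - θ t) * δ / η) * (ν * η) = (θ t * η + (1 - θ t) * δ) * ν := by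
        field_simp
      rw [h5] at h3
      have h6 : C * ((1 - θ t) * δ * ν) ^ 2 ≤ (1 - θ t) * δ * ν / 2 := by
        have : C * ((1 - θ t) * δ * ν) ≤ 1 / 2 := by
          calc C * ((1 - θ t) * δ * ν) = C * δ * ((1 - θ t) * ν) := by ring
            _ ≤ 1 / 2 * 1 := mul_le_mul hCδ (mul_le_one₀ (by linarith) (by linarith) hN2)
                (mul_nonneg (by linarith) (by linarith)) (by norm_num)
            _ = _ := by ring
        have h7 : 0 ≤ (1 - θ t) * δ * ν := by positivity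
        nlinarith
      have h8 : C₁ * (θ t * (c * (ν * η))) ^ 2 ≤ θ t * η * ν / 2 := by
        have h9 : 0 ≤ θ t * η * ν := by positivity
        calc C₁ * (θ t * (c * (ν * η))) ^ 2 = (C₁ * c ^ 2 * η) * (θ t * ν) * (θ t * η * ν) := by ring
          _ ≤ 1 / 2 * 1 * (θ t * η * ν) := by
            refine mul_le_mul_of_nonneg_right ?_ h9
            exact mul_le_mul hη2 (mul_le_one₀ h1 (by linarith) hN2) (by positivity) (by norm_num)
          _ = _ := by ring
      have h10 : 0 < θ t * η + (1 - θ t) * δ := by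
        rcases eq_or_lt_of_le h0 with h | h
        · rw [← h]; simpa using hδ
        · have := mul_pos h hη
          linarith
      have h11 : 0 < (θ t * η + (1 - θ t) * δ) * ν := mul_pos h10 (by linarith)
      nlinarith
    · have hθ : θ t = 0 := max_eq_left (by linarith)
      have hs0 : 0 ≤ s t := le_max_left _ _
      have hs1 : s t ≤ 1 := max_le zero_le_one (by linarith)
      have hl := hsmall j.1.2 (conn t v) (2 * ε) j.1.1 (by positivity) (fun e => by
        simp only [conn, hθ, zero_smul, ee_zero, mul_one]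
        refine (norm_ee_sub_one _).trans ?_
        rw [norm_smul, Real.norm_of_nonneg hs0]
        exact (mul_le_of_le_one_left (norm_nonneg _) hs1).trans (hla e))
      rw [hθ, sub_zero, one_mul] at hk
      have h3 : ‖(δ / η) • D v j‖ ≤ C * (δ * ν) ^ 2 + C₂ * (2 * ε) := by
        refine le_trans (le_of_eq ?_) ((norm_sub_le _ _).trans (add_le_add hk hl))
        congr 1
        abel
      rw [norm_smul, Real.norm_of_nonneg (by positivity), hj, hDν] at h3
      have h5 : δ / η * (ν * η) = δ * ν := by field_simp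
      rw [h5] at h3
      have h6 : C * (δ * ν) ≤ 1 / 2 := by
        calc C * (δ * ν) = C * δ * ν := by ring
          _ ≤ 1 / 2 * 1 := mul_le_mul hCδ hN2 (by linarith) (by norm_num)
          _ = _ := by ring
      have h7 : 0 ≤ δ * ν := by positivity
      nlinarith
  · intro v z hv hN hF
    have hFM := fun c hc => mul_inv_eq_one.1 (congrFun hF ⟨c, hc⟩)
    have hk := key 1 v z zero_le_one hv hN hFM
    have hθ : θ 1 = 0 := max_eq_left (by norm_num)
    have hs : s 1 = 1 := by simp only [s]; norm_num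
    have hca : ∀ e ∈ I, conn 1 v e = a e := by
      intro e he
      simp only [conn, hθ, hs, zero_smul, ee_zero, mul_one, one_smul, la, if_pos he]
      exact ee_chart _ (norm_chart _ ((ha e he).trans hε1)).1
    have hD0 : D v = 0 := by
      by_contra hne
      have hpos := norm_pos_iff.2 hne
      obtain ⟨j, hj⟩ := hmax v hpos
      have hk := hk j
      rw [(hJ j.1 j.2).hol_congr (z' := a) hca, hflat j.1 j.2, hθ, sub_zero, one_mul] at hk
      rw [show ((1 : S3) : ℍ[ℝ]) = 1 from rfl, sub_self, zero_add] at hk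
      rw [norm_smul, Real.norm_of_nonneg (by positivity), hj] at hk
      have h5 : δ / η * ‖D v‖ = δ * (‖D v‖ / η) := by ring
      rw [h5] at hk
      have h6 : C * (δ * (‖D v‖ / η)) ≤ 1 / 2 := by
        calc C * (δ * (‖D v‖ / η)) = C * δ * (‖D v‖ / η) := by ring
          _ ≤ 1 / 2 * 1 := mul_le_mul hCδ hN (by positivity) (by norm_num)
          _ = _ := by ring
      have h7 : 0 < δ * (‖D v‖ / η) := by positivity
      nlinarith
    have hβ0 : β 1 v = 0 := by
      funext j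
      simp [β, hD0]
    simp only [hβ0, hb0, ee_zero] at hFM
    obtain ⟨γ, hγ⟩ := hF1 S3 a
    refine hng ⟨γ, fun e he => ?_⟩
    have h1 := hflatM S3 _ hFM e he
    rw [hol_ovr hι hc hFI _ _ (hu e he), ovr_mem hι _ _ he, hca e he,
      (hu e he).hol_congr (z' := fun e => (γ e.1)⁻¹ * γ (e.1 * α (FreeGroup.of e.2)))
        (fun e' he' => (hca e' (hFI he')).trans (hγ e' he')), hol_triv, hu' e he] at h1
    exact h1.symm

end Crest.Agent.R197
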