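import Crest.Agent.R197.Raag

/-!
Task R197-RF.  Right-angled Artin groups are residually finite (Magnus type representation).

Plan.  Let `W` be the right-angled Coxeter group: the `PCD` on `Fin N` with `inv = id`, `cm = L.adj`; `ℓ` from `exists_len`;
`D w v := ℓ (w * y v) + 1 = ℓ w`.  For `k m : ℕ`, `m ≠ 0`: `B = {w // ℓ w ≤ k}` is finite (induction on `k` with `ex`, `one`), and
`X v : (B → ZMod m) →ₗ (B → ZMod m)`, `X v f w = if D w v then f (w * y v) else 0`.  `X v ^ 2 = 0` (`step`, `y v * y v = 1`),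
`X u X v = X v X u` for adjacent `u, v` (`comm`).  So `x v ↦ 1 + X v`, `(x v)⁻¹ ↦ 1 - X v` defines (`PCD.lift`) a homomorphism from
`L.Γ` to the finite group of units of `Module.End` (or `Equiv.Perm (B → ZMod m)`), `x v ^ e ↦ 1 + e • X v`.
Given `g ≠ 1` write `g = (l.map fun s => x s.1 ^ s.2).prod` with `l : List (Fin N × ℤ)` of minimal length `k ≥ 1`.  Then all
exponents are non-zero and the word `l.map fst` is reduced in `W` (`ℓ` of the product of any initial/final segment is its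
length): otherwise, by `step`, `two`, `comm` (lemma: if `ℓ (prod vs) = vs.length` and `D (prod vs) v` then
`vs = vs₁ ++ v :: vs₂` with `v` adjacent to all of `vs₂`) two syllables can be merged.
Evaluate the operator on `δ₁`: for a list `l'`, `T l' δ₁` vanishes at `w` with `ℓ w > l'.length`, and at the reversed reduced
word it is the product of the exponents (mind the order: `(X v₁ ⋯ X v_k δ₁) w = δ₁ (w * v₁ * ⋯ * v_k)` if all steps descend, so take
`w = v_k ⋯ v₁`, i.e. run the reducedness argument on the reversed list).  Take `m > |∏ eᵢ|`; `δ₁` itself vanishes there.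
Conclude with `Group.residuallyFinite_of_forall_exists_finite_monoidHom`.
-/

set_option autoImplicit false

namespace Crest.Agent.R197

namespace RF

variable {N : ℕ} (L : LD N)

/-- the right-angled Coxeter group -/
def Q : PCD (Fin N) where
  inv a := a
  cm := L.adj
  inv_inv _ := rfl
  symm := L.symm
  irrefl := L.irrefl
  cm_inv _ _ h := h

theorem yy (v : Fin N) : (Q L).y v * (Q L).y v = 1 := by
  have := (Q L).y_inv v
  change (Q L).y v = _ at this
  nth_rewrite 1 [this]
  exact inv_mul_cancel _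

variable {L} {ℓ : (Q L).Grp → ℕ}

theorem finite_ball (h : (Q L).Len ℓ) (k : ℕ) : {w | ℓ w ≤ k}.Finite := by
  induction k with
  | zero =>
    refine (Set.finite_singleton 1).subset fun w hw => ?_
    by_contra h1
    obtain ⟨a, ha⟩ := h.ex w h1
    have : ℓ w ≤ 0 := hw
    omega
  | succ k ih =>
    refine ((Set.finite_singleton 1).union ((ih.prod (Set.finite_univ (α := Fin N))).image
      fun p => p.1 * (Q L).y p.2)).subset fun w hw => ?_
    by_cases h1 : w = 1
    · exact Or.inl h1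
    · obtain ⟨a, ha⟩ := h.ex w h1
      have : ℓ w ≤ k + 1 := hw
      refine Or.inr ⟨(w * (Q L).y a, a), ⟨show ℓ (w * (Q L).y a) ≤ k by omega, trivial⟩, ?_⟩
      simp only [mul_assoc, yy, mul_one]

abbrev B (ℓ : (Q L).Grp → ℕ) (k : ℕ) : Type := {w : (Q L).Grp // ℓ w ≤ k}

noncomputable def Y (ℓ : (Q L).Grp → ℕ) (k m : ℕ) (v : Fin N) : Module.End (ZMod m) (B ℓ k → ZMod m) where
  toFun f w := if h : ℓ (w.1 * (Q L).y v) + 1 = ℓ w.1 then f ⟨w.1 * (Q L).y v, by have := w.2; omega⟩ else 0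
  map_add' f g := by funext w; simp only [Pi.add_apply]; split_ifs <;> simp
  map_smul' c f := by funext w; simp only [Pi.smul_apply, RingHom.id_apply]; split_ifs <;> simp

theorem Y_apply (k m : ℕ) (v : Fin N) (f : B ℓ k → ZMod m) (w : B ℓ k) :
    Y ℓ k m v f w =
      if h : ℓ (w.1 * (Q L).y v) + 1 = ℓ w.1 then f ⟨w.1 * (Q L).y v, by have := w.2; omega⟩ else 0 := rfl

theorem Y_sq (k m : ℕ) (v : Fin N) : Y ℓ k m v * Y ℓ k m v = 0 := by
  ext f w
  simp only [LinearMap.coe_comp, Function.comp_apply, Module.End.mul_apply, LinearMap.zero_apply, Pi.zero_apply,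
    Y_apply, mul_assoc, yy, mul_one]
  split_ifs with h1 h2
  · omega
  · rfl
  · rfl

theorem Y_comm (h : (Q L).Len ℓ) (k m : ℕ) {u v : Fin N} (huv : L.adj u v) :
    Y ℓ k m u * Y ℓ k m v = Y ℓ k m v * Y ℓ k m u := by
  refine LinearMap.ext fun f => funext fun w => ?_
  have h1 := h.comm w.1 u v huv
  have h2 := h.comm w.1 v u (L.symm _ _ huv)
  have e : w.1 * (Q L).y u * (Q L).y v = w.1 * (Q L).y v * (Q L).y u := by
    rw [mul_assoc, mul_assoc, ((Q L).y_comm (a := u) (b := v) huv).eq]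
  simp only [Module.End.mul_apply, Y_apply]
  by_cases a1 : ℓ (w.1 * (Q L).y u) + 1 = ℓ w.1 <;> by_cases a2 : ℓ (w.1 * (Q L).y v) + 1 = ℓ w.1
  · rw [dif_pos a1, dif_pos a2, dif_pos (h1.mpr a1), dif_pos (h2.mpr a2)]
    congr 2
  · rw [dif_pos a1, dif_neg a2, dif_neg (fun a => a2 (h2.mp a))]
  · rw [dif_neg a1, dif_pos a2, dif_neg (fun a => a1 (h1.mp a))]
  · rw [dif_neg a1, dif_neg a2]

noncomputable def U (ℓ : (Q L).Grp → ℕ) (k m : ℕ) (v : Fin N) (e : ℤ) :
    (Module.End (ZMod m) (B ℓ k → ZMod m))ˣ where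
  val := 1 + e • Y ℓ k m v
  inv := 1 - e • Y ℓ k m v
  val_inv := by
    have := Y_sq (ℓ := ℓ) k m v
    rw [add_mul, mul_sub, mul_sub, smul_mul_smul_comm, this]; simp
  inv_val := by
    have := Y_sq (ℓ := ℓ) k m v
    rw [sub_mul, mul_add, mul_add, smul_mul_smul_comm, this]; simp

theorem U_add (k m : ℕ) (v : Fin N) (e e' : ℤ) : U ℓ k m v (e + e') = U ℓ k m v e * U ℓ k m v e' := by
  apply Units.ext
  change 1 + (e + e') • Y ℓ k m v = (1 + e • Y ℓ k m v) * (1 + e' • Y ℓ k m v)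
  rw [add_mul, mul_add, mul_add, smul_mul_smul_comm, Y_sq, add_smul]
  simp only [one_mul, mul_one, smul_zero, add_zero]
  abel

theorem U_zero (k m : ℕ) (v : Fin N) : U ℓ k m v 0 = 1 := Units.ext (by simp [U])

noncomputable def ψ (h : (Q L).Len ℓ) (k m : ℕ) : L.Γ →* (Module.End (ZMod m) (B ℓ k → ZMod m))ˣ :=
  L.P.lift (fun a => U ℓ k m a.1 (if a.2 then 1 else -1))
    (by rintro ⟨v, _ | _⟩ <;> simp [LD.P, ← U_add, U_zero])
    (fun a b hab => Units.ext (by
      have := Y_comm h k m (u := a.1) (v := b.1) hab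
      change (1 + _ • Y ℓ k m a.1) * (1 + _ • Y ℓ k m b.1) = (1 + _ • Y ℓ k m b.1) * (1 + _ • Y ℓ k m a.1)
      simp only [add_mul, mul_add, smul_mul_smul_comm, one_mul, mul_one, this]
      rw [mul_comm (if a.2 then (1 : ℤ) else -1)]
      abel))

theorem ψ_x (h : (Q L).Len ℓ) (k m : ℕ) (v : Fin N) (e : ℤ) : ψ h k m (L.x v ^ e) = U ℓ k m v e := by
  have h1 : ψ h k m (L.x v) = U ℓ k m v 1 := by simp [ψ, LD.x]
  rw [map_zpow, h1]
  induction e using Int.induction_on with
  | zero => simp [U_zero]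
  | succ n ih => rw [zpow_add_one, ih, U_add]
  | pred n ih =>
    rw [zpow_sub_one, ih, mul_inv_eq_iff_eq_mul, ← U_add]
    congr 1; ring

variable (L) in
def pr (l : List (Fin N × ℤ)) : L.Γ := (l.map fun s => L.x s.1 ^ s.2).prod

variable (L) in
def wd : List (Fin N × ℤ) → (Q L).Grp
  | [] => 1
  | s :: l => wd l * (Q L).y s.1

theorem pr_cons (s : Fin N × ℤ) (l : List (Fin N × ℤ)) : pr L (s :: l) = L.x s.1 ^ s.2 * pr L l := by simp [pr]

theorem exists_pr (g : L.Γ) : ∃ l, pr L l = g := by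
  have hg : g ∈ Subgroup.closure (Set.range L.P.y) := by rw [L.P.closure_y]; trivial
  induction hg using Subgroup.closure_induction_left with
  | one => exact ⟨[], rfl⟩
  | mul_left x hx y _ ih =>
    obtain ⟨⟨v, _ | _⟩, rfl⟩ := hx
    · obtain ⟨l, rfl⟩ := ih
      exact ⟨(v, -1) :: l, by rw [pr_cons, L.y_false]; simp⟩
    · obtain ⟨l, rfl⟩ := ih
      exact ⟨(v, 1) :: l, by rw [pr_cons, L.y_true]; simp⟩
  | inv_mul_cancel x hx y _ ih =>
    obtain ⟨⟨v, _ | _⟩, rfl⟩ := hx
    · obtain ⟨l, rfl⟩ := ih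
      exact ⟨(v, 1) :: l, by rw [pr_cons, L.y_false]; simp⟩
    · obtain ⟨l, rfl⟩ := ih
      exact ⟨(v, -1) :: l, by rw [pr_cons, L.y_true]; simp⟩

theorem len_wd_le (h : (Q L).Len ℓ) : ∀ l : List (Fin N × ℤ), ℓ (wd L l) ≤ l.length
  | [] => h.one.le
  | s :: l => by
    have := len_wd_le h l
    have := h.step (wd L l) s.1
    simp only [wd, List.length_cons]
    omega

theorem merge (h : (Q L).Len ℓ) (v : Fin N) (e : ℤ) : ∀ l : List (Fin N × ℤ), ℓ (wd L l) = l.length →
    ℓ (wd L l * (Q L).y v) + 1 = ℓ (wd L l) → ∃ l', l'.length = l.length ∧ pr L l' = L.x v ^ e * pr L l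
  | [], h1, h2 => by simp at h1; omega
  | (u, f) :: l, h1, h2 => by
    simp only [wd, List.length_cons] at h1 h2
    have h3 := len_wd_le h l
    have h4 := h.step (wd L l) u
    by_cases huv : v = u
    · subst huv
      exact ⟨(v, e + f) :: l, rfl, by rw [pr_cons, pr_cons, zpow_add, mul_assoc]⟩
    · have h5 : L.adj v u := h.two _ v u h2 (by rw [mul_assoc, yy, mul_one]; omega) huv
      obtain ⟨l', h6, h7⟩ := merge h v e l (by omega) ((h.comm _ v u h5).mp h2)
      refine ⟨(u, f) :: l', by simp [h6], ?_⟩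
      rw [pr_cons, pr_cons, h7, ← mul_assoc, ← mul_assoc, ((L.x_comm h5).zpow_zpow e f).eq]

theorem minimal (h : (Q L).Len ℓ) : ∀ l : List (Fin N × ℤ), (∀ l', pr L l' = pr L l → l.length ≤ l'.length) →
    ℓ (wd L l) = l.length ∧ (l.map Prod.snd).prod ≠ 0
  | [], _ => ⟨h.one, by simp⟩
  | (v, e) :: l, hm => by
    obtain ⟨h1, h2⟩ := minimal h l fun l' e' => by
      have := hm ((v, e) :: l') (by rw [pr_cons, pr_cons, e'])
      simpa using this
    refine ⟨?_, ?_⟩
    · rcases h.step (wd L l) v with h3 | h3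
      · simp only [wd, List.length_cons]; omega
      · obtain ⟨l', h4, h5⟩ := merge h v e l h1 h3
        have := hm l' (by rw [h5, pr_cons])
        simp at this; omega
    · have : e ≠ 0 := by
        rintro rfl
        have := hm l (by rw [pr_cons]; simp)
        simp at this
      simpa using ⟨this, by simpa using h2⟩

open Classical in
noncomputable def δ (ℓ : (Q L).Grp → ℕ) (k m : ℕ) : B ℓ k → ZMod m := fun w => if w.1 = 1 then 1 else 0

theorem ψ_cons (h : (Q L).Len ℓ) (k m : ℕ) (s : Fin N × ℤ) (l : List (Fin N × ℤ)) (w : B ℓ k) :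
    (ψ h k m (pr L (s :: l))).val (δ ℓ k m) w = (ψ h k m (pr L l)).val (δ ℓ k m) w +
      s.2 • Y ℓ k m s.1 ((ψ h k m (pr L l)).val (δ ℓ k m)) w := by
  rw [pr_cons, map_mul, ψ_x]
  rfl

theorem ψ_zero (h : (Q L).Len ℓ) (k m : ℕ) : ∀ (l : List (Fin N × ℤ)) (w : B ℓ k), l.length < ℓ w.1 →
    (ψ h k m (pr L l)).val (δ ℓ k m) w = 0
  | [], w, hw => by
    have : w.1 ≠ 1 := by rintro e; rw [e, h.one] at hw; omega
    simp [pr, δ, this]
  | s :: l, w, hw => by
    simp only [List.length_cons] at hw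
    rw [ψ_cons, ψ_zero h k m l w (by omega), Y_apply]
    split_ifs with h1
    · rw [ψ_zero h k m l _ (by simp only; omega)]; simp
    · simp

theorem ψ_top (h : (Q L).Len ℓ) (k m : ℕ) : ∀ (l : List (Fin N × ℤ)) (w : B ℓ k), w.1 = wd L l →
    ℓ (wd L l) = l.length → (ψ h k m (pr L l)).val (δ ℓ k m) w = ((l.map Prod.snd).prod : ℤ)
  | [], w, hw, _ => by simp [pr, δ, hw, wd]
  | s :: l, w, hw, h1 => by
    simp only [wd, List.length_cons] at h1 hw
    have h3 := len_wd_le h l
    have h4 := h.step (wd L l) s.1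
    have e : w.1 * (Q L).y s.1 = wd L l := by rw [hw, mul_assoc, yy, mul_one]
    rw [ψ_cons, ψ_zero h k m l w (by rw [hw]; omega), Y_apply, dif_pos (by rw [e, hw]; omega),
      ψ_top h k m l _ e (by omega)]
    simp

end RF

open RF in
theorem LD.rf {N : ℕ} (L : LD N) : Group.ResiduallyFinite L.Γ := by
  classical
  obtain ⟨ℓ, h⟩ := (Q L).exists_len
  refine Group.residuallyFinite_of_forall_exists_finite_monoidHom.{0} fun g hg => ?_
  have hex : ∃ k, ∃ l, pr L l = g ∧ l.length = k := (exists_pr g).elim fun l hl => ⟨_, l, hl, rfl⟩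
  obtain ⟨l, rfl, hl⟩ := Nat.find_spec hex
  obtain ⟨h1, h2⟩ := minimal h l fun l' e => hl ▸ Nat.find_min' hex ⟨l', e, rfl⟩
  set m := (l.map Prod.snd).prod.natAbs + 1 with hm
  haveI : Finite (B ℓ l.length) := (finite_ball h l.length).to_subtype
  haveI : Finite (Module.End (ZMod m) (B ℓ l.length → ZMod m)) :=
    Finite.of_injective _ DFunLike.coe_injective
  refine ⟨_, inferInstance, inferInstance, ψ h l.length m, fun h0 => ?_⟩
  have h3 := ψ_top h l.length m l ⟨wd L l, h1.le⟩ rfl h1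
  have hl0 : l.length ≠ 0 := by
    intro e
    rw [List.length_eq_zero_iff.mp e] at hg
    exact hg rfl
  have h4 : wd L l ≠ 1 := by intro e; rw [e, h.one] at h1; omega
  rw [h0] at h3
  simp only [Units.val_one, Module.End.one_apply, δ, h4, if_false] at h3
  have h5 := (ZMod.intCast_zmod_eq_zero_iff_dvd _ m).mp h3.symm
  have := Int.natAbs_le_of_dvd_ne_zero h5 h2
  simp only [Int.natAbs_natCast] at this
  omega

end Crest.Agent.R197
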