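import Crest.Agent.R197.Defs

/-!
Task R197-Raag.  The word length in a partially commutative group (normal form theorem).

Suggested plan ("pilings").  Write `a ~ c` for `c = a ∨ c = P.inv a` (an equivalence relation; `cm` only depends on the classes,
and `cm a c → ¬ a ~ c`); `V` = the quotient, `cl : Λ → V`, `CM : V → V → Prop`.
A *stack* is a pair `(n, l) : ℤ × List (Λ × ℤ)` (`n` = number of beads above the top letter) such that `l` has no consecutive
entries `(a, 0) :: (P.inv a, _) :: _`.  A *state* is a function `V → stack` together with a counter in `ℤ`.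
`down s a` := the stack of `cl a` is `(0, (P.inv a, m) :: l)`.
The letter `a` acts on the right: if `down s a`, pop this letter (stack of `cl a` becomes `(m, l)`), subtract `1` from `n` in all
stacks `v ≠ cl a` with `¬ CM (cl a) v`, counter `- 1`; otherwise push (`(n, l) ↦ (0, (a, n) :: l)`), add `1` in the same stacks,
counter `+ 1`.  `P.inv a` undoes `a` on all states (this uses the reducedness of stacks), and the operations of commuting letters
commute and do not change `down` of each other.  `P.lift` into `(Equiv.Perm state)ᵐᵒᵖ` (or use inverses) gives `st g`, the state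
reached from the empty state `s₀`, with `st (g * y a) = act a (st g)`.
`push w` := state after *pure pushes* of the letters of the list `w` (last letter pushed last); all its `n` are `≥ 0` and its counter
is `w.length`.  Shuffle lemma (induction on `w` from the end): if `down (push w) a` then `w = w₁ ++ P.inv a :: w₂` with all letters
of `w₂` commuting with `a`, and `act a (push w) = push (w₁ ++ w₂)`.  Hence every `g` is `(w.map y).prod` for a list `w` which is
*reduced* (each push is a genuine `act`) with `st g = push w` (induction with `closure_y`; or only record `st g = push w` in a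
larger type of raw states).  `ℓ g` = counter of `st g` (`toNat`).  `two`: induction on `w` from the end (a last letter `d`
either is the top letter of one of the two stacks, or commutes with both).  `ex`: the inverse of the last letter of `w`.
Any other proof is welcome.
-/

set_option autoImplicit false

namespace Crest.Agent.R197

namespace Raag

variable {Λ : Type} (P : PCD Λ)

open Classical in
/-- delete the letter cancelling with `a` (words are written backwards: the head is the last letter) -/
noncomputable def del (a : Λ) : List Λ → Option (List Λ)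
  | [] => none
  | d :: w => if d = P.inv a then some w else if P.cm a d then (del a w).map (d :: ·) else none

inductive Ev : List Λ → List Λ → Prop
  | nil : Ev [] []
  | cons (a : Λ) {w w' : List Λ} : Ev w w' → Ev (a :: w) (a :: w')
  | swap {a b : Λ} (w : List Λ) : P.cm a b → Ev (a :: b :: w) (b :: a :: w)
  | trans {w w' w'' : List Λ} : Ev w w' → Ev w' w'' → Ev w w''

variable {P}

theorem Ev.refl : ∀ w : List Λ, Ev P w w
  | [] => .nil
  | a :: w => .cons a (Ev.refl w)

theorem Ev.symm {w w' : List Λ} (h : Ev P w w') : Ev P w' w := by
  induction h with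
  | nil => exact .nil
  | cons a _ ih => exact .cons a ih
  | swap w h => exact .swap w (P.symm _ _ h)
  | trans _ _ ih ih' => exact ih'.trans ih

theorem Ev.length_eq {w w' : List Λ} (h : Ev P w w') : w.length = w'.length := by
  induction h with
  | nil => rfl
  | cons a _ ih => simp [ih]
  | swap w h => simp
  | trans _ _ ih ih' => exact ih.trans ih'

theorem cm_inv_iff {a b : Λ} : P.cm (P.inv a) b ↔ P.cm a b :=
  ⟨fun h => by simpa [P.inv_inv] using P.cm_inv _ _ h, P.cm_inv _ _⟩

theorem cm_inv_iff' {a b : Λ} : P.cm a (P.inv b) ↔ P.cm a b :=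
  ⟨fun h => P.symm _ _ (cm_inv_iff.mp (P.symm _ _ h)), fun h => P.symm _ _ (P.cm_inv _ _ (P.symm _ _ h))⟩

theorem ne_inv_of_cm {a b : Λ} (h : P.cm a b) : b ≠ P.inv a := by
  rintro rfl
  exact P.irrefl a (cm_inv_iff'.mp h)

theorem del_self (a : Λ) (w : List Λ) : del P a (P.inv a :: w) = some w := by simp [del]

theorem del_cm {a d : Λ} (h : P.cm a d) (w : List Λ) : del P a (d :: w) = (del P a w).map (d :: ·) := by
  simp [del, h, ne_inv_of_cm h]

theorem del_none {a d : Λ} (h1 : d ≠ P.inv a) (h : ¬ P.cm a d) (w : List Λ) : del P a (d :: w) = none := by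
  simp [del, h, h1]

def ORel (P : PCD Λ) (x y : Option (List Λ)) : Prop :=
  (x = none ∧ y = none) ∨ ∃ u v, x = some u ∧ y = some v ∧ Ev P u v

theorem ORel.refl (x : Option (List Λ)) : ORel P x x := by
  cases x with
  | none => exact Or.inl ⟨rfl, rfl⟩
  | some u => exact Or.inr ⟨u, u, rfl, rfl, Ev.refl u⟩

theorem Ev.del (a : Λ) {w w' : List Λ} (h : Ev P w w') : ORel P (del P a w) (del P a w') := by
  induction h with
  | nil => exact ORel.refl _
  | @cons d w w' h ih =>
    by_cases h1 : d = P.inv a
    · subst h1
      rw [del_self, del_self]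
      exact Or.inr ⟨_, _, rfl, rfl, h⟩
    · by_cases h2 : P.cm a d
      · rw [del_cm h2, del_cm h2]
        rcases ih with ⟨e1, e2⟩ | ⟨u, v, e1, e2, e3⟩
        · rw [e1, e2]; exact ORel.refl _
        · rw [e1, e2]; exact Or.inr ⟨_, _, rfl, rfl, e3.cons d⟩
      · rw [del_none h1 h2, del_none h1 h2]; exact ORel.refl _
  | @swap b c w h =>
    by_cases h1 : b = P.inv a
    · subst h1
      rw [del_self, del_cm (cm_inv_iff.mp h), del_self]
      exact ORel.refl _
    · by_cases h2 : c = P.inv a
      · subst h2
        rw [del_self, del_cm (P.symm _ _ (cm_inv_iff'.mp h)), del_self]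
        exact ORel.refl _
      · by_cases h3 : P.cm a b
        · by_cases h4 : P.cm a c
          · rw [del_cm h3, del_cm h4, del_cm h4, del_cm h3]
            cases Raag.del P a w with
            | none => exact ORel.refl _
            | some u => exact Or.inr ⟨_, _, rfl, rfl, .swap u h⟩
          · rw [del_cm h3, del_none h2 h4, del_none h2 h4]
            exact ORel.refl _
        · by_cases h4 : P.cm a c
          · rw [del_cm h4, del_none h1 h3, del_none h1 h3]
            exact ORel.refl _
          · rw [del_none h1 h3, del_none h2 h4]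
            exact ORel.refl _
  | trans _ _ ih ih' =>
    rcases ih with ⟨e1, e2⟩ | ⟨u, v, e1, e2, e3⟩ <;> rcases ih' with ⟨f1, f2⟩ | ⟨u', v', f1, f2, f3⟩
    · exact Or.inl ⟨e1, f2⟩
    · rw [e2] at f1; simp at f1
    · rw [e2] at f1; simp at f1
    · rw [e2] at f1
      obtain rfl : v = u' := by simpa using f1
      exact Or.inr ⟨_, _, e1, f2, e3.trans f3⟩

theorem ev_of_del {a : Λ} : ∀ {w w' : List Λ}, del P a w = some w' → Ev P w (P.inv a :: w')
  | [], _, h => by simp [del] at h
  | d :: w, w', h => by
    by_cases h1 : d = P.inv a
    · subst h1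
      rw [del_self] at h
      obtain rfl : w = w' := by simpa using h
      exact Ev.refl _
    · by_cases h2 : P.cm a d
      · rw [del_cm h2] at h
        obtain ⟨u, h3, rfl⟩ := Option.map_eq_some_iff.mp h
        exact ((ev_of_del h3).cons d).trans (.swap u (cm_inv_iff'.mpr (P.symm _ _ h2)))
      · rw [del_none h1 h2] at h; simp at h

theorem del_two {a b : Λ} (hab : a ≠ b) : ∀ {w : List Λ}, del P a w ≠ none → del P b w ≠ none → P.cm a b
  | [], h, _ => by simp [del] at h
  | d :: w, h, h' => by
    have hi : P.inv a ≠ P.inv b := fun e => hab (by rw [← P.inv_inv a, e, P.inv_inv])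
    by_cases h1 : d = P.inv a
    · subst h1
      by_contra h2
      exact h' (del_none hi (fun h3 => h2 (P.symm _ _ (cm_inv_iff'.mp h3))) w)
    · by_cases h2 : d = P.inv b
      · subst h2
        by_contra h2
        exact h (del_none h1 (fun h3 => h2 (cm_inv_iff'.mp h3)) w)
      · have h3 : P.cm a d := by by_contra h3; exact h (del_none h1 h3 w)
        have h4 : P.cm b d := by by_contra h4; exact h' (del_none h2 h4 w)
        rw [del_cm h3] at h
        rw [del_cm h4] at h'
        exact del_two hab (w := w) (by simpa using h) (by simpa using h')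

variable (P) in
def Red : List Λ → Prop
  | [] => True
  | a :: w => Red w ∧ del P a w = none

theorem Ev.del_none {a : Λ} {w w' : List Λ} (h : Ev P w w') (h' : Raag.del P a w = none) : Raag.del P a w' = none := by
  rcases h.del a with ⟨-, e⟩ | ⟨u, v, e, -⟩
  · exact e
  · rw [h'] at e; simp at e

theorem Ev.red {w w' : List Λ} (h : Ev P w w') (hw : Red P w) : Red P w' := by
  induction h with
  | nil => exact hw
  | cons a h ih => exact ⟨ih hw.1, h.del_none hw.2⟩
  | @swap a b w h =>
    obtain ⟨⟨h1, h2⟩, h3⟩ := hw
    rw [del_cm h] at h3
    refine ⟨⟨h1, by simpa using h3⟩, ?_⟩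
    rw [del_cm (P.symm _ _ h), h2]; rfl
  | trans _ _ ih ih' => exact ih' (ih hw)

variable (P) in
noncomputable def act (a : Λ) (w : List Λ) : List Λ := (del P a w).getD (a :: w)

theorem act_none {a : Λ} {w : List Λ} (h : del P a w = none) : act P a w = a :: w := by simp [act, h]

theorem act_some {a : Λ} {w u : List Λ} (h : del P a w = some u) : act P a w = u := by simp [act, h]

theorem Ev.act (a : Λ) {w w' : List Λ} (h : Ev P w w') : Ev P (act P a w) (act P a w') := by
  rcases h.del a with ⟨e1, e2⟩ | ⟨u, v, e1, e2, e3⟩
  · rw [act_none e1, act_none e2]; exact h.cons a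
  · rw [act_some e1, act_some e2]; exact e3

theorem red_act (a : Λ) {w : List Λ} (h : Red P w) : Red P (act P a w) := by
  cases e : del P a w with
  | none => rw [act_none e]; exact ⟨h, e⟩
  | some u => rw [act_some e]; exact ((ev_of_del e).red h).1

theorem act_inv (a : Λ) {w : List Λ} (h : Red P w) : Ev P (act P (P.inv a) (act P a w)) w := by
  cases e : del P a w with
  | none =>
    rw [act_none e]
    have := del_self (P := P) (P.inv a) w
    rw [P.inv_inv] at this
    rw [act_some this]
    exact Ev.refl _
  | some u =>
    rw [act_some e, act_none ((ev_of_del e).red h).2]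
    exact (ev_of_del e).symm

theorem del_act_none {a b : Λ} (h : P.cm a b) (w : List Λ) : del P a (act P b w) = none ↔ del P a w = none := by
  cases e : del P b w with
  | none => rw [act_none e, del_cm h]; simp
  | some u =>
    rw [act_some e]
    have e' := ev_of_del e
    have h2 := del_cm (cm_inv_iff'.mpr h) u
    constructor
    · intro h1
      exact e'.symm.del_none (by rw [h2, h1]; rfl)
    · intro h1
      have := e'.del_none h1
      rw [h2] at this
      simpa using this

theorem act_cons {a b : Λ} (h : P.cm a b) (w : List Λ) : Ev P (act P a (b :: w)) (b :: act P a w) := by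
  cases e : del P a w with
  | none =>
    rw [act_none e, act_none (by rw [del_cm h, e]; rfl)]
    exact .swap w h
  | some u =>
    rw [act_some e, act_some (u := b :: u) (by rw [del_cm h, e]; rfl)]
    exact Ev.refl _

theorem act_comm {a b : Λ} (h : P.cm a b) (w : List Λ) :
    Ev P (act P a (act P b w)) (act P b (act P a w)) := by
  have h' := P.symm _ _ h
  cases e : del P b w with
  | none =>
    rw [act_none e, act_none ((del_act_none h' w).mpr e)]
    exact act_cons h w
  | some u =>
    rw [act_some e]
    have h1 := (((ev_of_del e).act a).trans (act_cons (cm_inv_iff'.mpr h) u)).act b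
    rw [act_some (del_self b _)] at h1
    exact h1.symm

variable (P) in
def setoid : Setoid {w : List Λ // Red P w} :=
  ⟨fun u v => Ev P u.1 v.1, fun u => Ev.refl u.1, fun h => h.symm, fun h h' => h.trans h'⟩

variable (P) in
abbrev X : Type := Quotient (setoid P)

variable (P) in
noncomputable def actX (a : Λ) : X P → X P :=
  Quotient.map (sa := setoid P) (sb := setoid P) (fun u => ⟨act P a u.1, red_act a u.2⟩) fun _ _ h => Ev.act a h

theorem actX_inv (a : Λ) (x : X P) : actX P (P.inv a) (actX P a x) = x := by
  induction x using Quotient.inductionOn with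
  | h u => exact Quotient.sound (act_inv a u.2)

variable (P) in
noncomputable def perm (a : Λ) : Equiv.Perm (X P) where
  toFun := actX P a
  invFun := actX P (P.inv a)
  left_inv := actX_inv a
  right_inv x := by
    have := actX_inv (P.inv a) x
    rwa [P.inv_inv] at this

variable (P) in
noncomputable def φ : P.Grp →* (Equiv.Perm (X P))ᵐᵒᵖ :=
  P.lift (fun a => MulOpposite.op (perm P a))
    (fun a => MulOpposite.unop_injective (Equiv.ext fun x => actX_inv a x))
    (fun a b h => MulOpposite.unop_injective (Equiv.ext fun x => by
      induction x using Quotient.inductionOn with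
      | h u => exact Quotient.sound (act_comm (P.symm _ _ h) u.1)))

variable (P) in
noncomputable def st (g : P.Grp) : X P := (φ P g).unop (Quotient.mk (setoid P) ⟨[], trivial⟩)

theorem st_mul (g : P.Grp) (a : Λ) : st P (g * P.y a) = actX P a (st P g) := by
  simp only [st, map_mul, φ, PCD.lift_y]
  rfl

variable (P) in
def len : X P → ℕ := Quotient.lift (s := setoid P) (fun u => u.1.length) fun _ _ h => Ev.length_eq h

variable (P) in
def pr (w : List Λ) : P.Grp := (w.reverse.map P.y).prod

theorem pr_cons (a : Λ) (w : List Λ) : pr P (a :: w) = pr P w * P.y a := by simp [pr]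

theorem Ev.pr_eq {w w' : List Λ} (h : Ev P w w') : pr P w = pr P w' := by
  induction h with
  | nil => rfl
  | cons a _ ih => rw [pr_cons, pr_cons, ih]
  | swap w h => simp only [pr_cons, mul_assoc, (P.y_comm h).eq]
  | trans _ _ ih ih' => exact ih.trans ih'

variable (P) in
def prX : X P → P.Grp := Quotient.lift (s := setoid P) (fun u => pr P u.1) fun _ _ h => Ev.pr_eq h

theorem prX_act (a : Λ) (x : X P) : prX P (actX P a x) = prX P x * P.y a := by
  induction x using Quotient.inductionOn with
  | h u =>
    change pr P (act P a u.1) = pr P u.1 * P.y a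
    cases e : del P a u.1 with
    | none => rw [act_none e, pr_cons]
    | some v => rw [act_some e, (ev_of_del e).pr_eq, pr_cons, P.y_inv]; simp

theorem prX_φ (g : P.Grp) : ∀ x, prX P ((φ P g).unop x) = prX P x * g := by
  have hg : g ∈ Subgroup.closure (Set.range P.y) := by rw [P.closure_y]; trivial
  induction hg using Subgroup.closure_induction with
  | mem g hg =>
    obtain ⟨a, rfl⟩ := hg
    intro x
    simp only [φ, PCD.lift_y]
    exact prX_act a x
  | one => intro x; simp
  | mul g h _ _ ih ih' =>
    intro x
    rw [map_mul, MulOpposite.unop_mul, Equiv.Perm.mul_apply, ih', ih, mul_assoc]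
  | inv g _ ih =>
    intro x
    have := ih ((φ P g⁻¹).unop x)
    rw [← Equiv.Perm.mul_apply, ← MulOpposite.unop_mul, ← map_mul, inv_mul_cancel, map_one] at this
    rw [eq_mul_inv_iff_mul_eq, ← this]
    rfl

theorem len_act (a : Λ) (w : List Λ) :
    (del P a w = none ∧ (act P a w).length = w.length + 1) ∨
      (del P a w ≠ none ∧ (act P a w).length + 1 = w.length) := by
  cases e : del P a w with
  | none => rw [act_none e]; exact Or.inl ⟨rfl, rfl⟩
  | some u => rw [act_some e, (ev_of_del e).length_eq]; exact Or.inr ⟨by simp, rfl⟩

theorem len_down (a : Λ) (w : List Λ) : (act P a w).length + 1 = w.length ↔ del P a w ≠ none := by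
  rcases len_act (P := P) a w with ⟨h1, h2⟩ | ⟨h1, h2⟩
  · simp [h1, h2]; omega
  · simp [h1, h2]

end Raag

open Raag in
theorem PCD.exists_len {Λ : Type} (P : PCD Λ) : ∃ ℓ : P.Grp → ℕ, P.Len ℓ := by
  refine ⟨fun g => len P (st P g), fun g a => ?_, fun g a b => ?_, fun g a b h => ?_, ?_, fun g hg => ?_⟩
  · rw [st_mul]
    induction st P g using Quotient.inductionOn with
    | h u => exact (len_act a u.1).imp And.right And.right
  · rw [st_mul, st_mul]
    induction st P g using Quotient.inductionOn with
    | h u => exact fun h1 h2 h3 => del_two h3 ((len_down a u.1).mp h1) ((len_down b u.1).mp h2)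
  · rw [st_mul, st_mul, st_mul]
    induction st P g using Quotient.inductionOn with
    | h u => exact (len_down a _).trans ((not_congr (del_act_none h u.1)).trans (len_down a u.1).symm)
  · simp only [st, map_one]; rfl
  · have h := prX_φ g (Quotient.mk (setoid P) ⟨[], trivial⟩)
    change prX P (st P g) = 1 * g at h
    simp only [st_mul]
    revert h
    induction st P g using Quotient.inductionOn with
    | h u =>
      obtain ⟨_ | ⟨d, w⟩, hu⟩ := u
      · intro h
        exact absurd (by rw [one_mul] at h; exact h.symm) hg
      · refine fun _ => ⟨P.inv d, (len_down (P.inv d) (d :: w)).mpr ?_⟩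
        have := del_self (P := P) (P.inv d) w
        rw [P.inv_inv] at this
        rw [this]; simp

end Crest.Agent.R197
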