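import Crest.Agent.R197.Defs

/-!
Task R197-Space.  A model of the cube complex.

Plan.  In `MonoidAlgebra ℝ L.Γ` let `fac v s = (1 - |s|) • 1 + max s 0 • of (x v) + max (-s) 0 • of (x v)⁻¹` (`fac v 0 = 1`) and
`P g t = of g * ((List.finRange N).map fun v => fac v (t v)).prod`; `E = {z : L.Γ → ℝ // ∃ g, ∃ t ∈ St, z = ⇑(P g t)}` with the subspace
topology of the product, `(h • z) k = z (h⁻¹ * k)`.  `pt g t = if t ∈ St then ⟨P g t, _⟩ else` translate of a junk point (or `pt g t = P g`
applied to `if t ∈ St then t else 0`).  `cont`: coefficients of `f * fac v s` at `k` are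
`(1 - |s|) f k + s⁺ f (k * (x v)⁻¹) + s⁻ f (k * x v)`; induction on the list.  `shift`: for `0 ≤ s ≤ 1`,
`fac v s = of (x v) * fac v (s - 1)`, and `of (x v)` commutes with the other factors.  `injOn`: apply the algebra homomorphism
`MonoidAlgebra.lift` induced by `k ↦ 2 ^ ab k v`, which sends `P 1 t` to `1 + (t v)⁺ - (t v)⁻ / 2` (strictly monotone in `t v`).
`near`: all coefficients are `≥ 0`, the coefficient of `P g t` at `g` is `≥ ∏ (1 - |t v|) > 0`; the support of `P g' t'` consists of
the products described (induction on a `Nodup` list of vertices).  `lf`: the augmentation of `P g t` is `1`, so `z k ≠ 0` for some `k`;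
`{z' | z' k ≠ 0}` is open and meets `pt g' '' St` only for `g' ∈ k * (finite set)⁻¹`.
-/

set_option autoImplicit false

namespace Crest.Agent.R197

open Set _root_.Topology MonoidAlgebra

namespace Space

variable {N : ℕ} (L : LD N)

/-- The factor of one coordinate. -/
noncomputable def fac (v : Fin N) (s : ℝ) : MonoidAlgebra ℝ L.Γ :=
  single 1 (1 - |s|) + single (L.x v) (max s 0) + single (L.x v)⁻¹ (max (-s) 0)

/-- The product of the factors. -/
noncomputable def W (t : Fin N → ℝ) (l : List (Fin N)) : MonoidAlgebra ℝ L.Γ :=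
  (l.map fun v => fac L v (t v)).prod

theorem fac_zero (v : Fin N) : fac L v 0 = 1 := by
  simp [fac, one_def]

theorem W_nil (t : Fin N → ℝ) : W L t [] = 1 := rfl

theorem W_cons (t : Fin N → ℝ) (v : Fin N) (l : List (Fin N)) :
    W L t (v :: l) = fac L v (t v) * W L t l := by
  simp [W]

theorem coeff_cons (t : Fin N → ℝ) (v : Fin N) (l : List (Fin N)) (k : L.Γ) :
    (W L t (v :: l)).coeff k = (1 - |t v|) * (W L t l).coeff k +
      max (t v) 0 * (W L t l).coeff ((L.x v)⁻¹ * k) +
      max (-t v) 0 * (W L t l).coeff (L.x v * k) := by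
  rw [W_cons, fac, add_mul, add_mul]
  simp only [coeff_add, Finsupp.add_apply, coeff_single_mul_apply, inv_one, one_mul, inv_inv]

theorem continuous_W (l : List (Fin N)) (k : L.Γ) :
    Continuous fun t : Fin N → ℝ => (W L t l).coeff k := by
  induction l generalizing k with
  | nil => simp only [W_nil]; exact continuous_const
  | cons v l ih =>
    simp only [coeff_cons]
    have h1 := ih k
    have h2 := ih ((L.x v)⁻¹ * k)
    have h3 := ih (L.x v * k)
    fun_prop

theorem W_nonneg {t : Fin N → ℝ} (ht : ∀ v, |t v| ≤ 1) (l : List (Fin N)) (k : L.Γ) :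
    0 ≤ (W L t l).coeff k := by
  classical
  induction l generalizing k with
  | nil =>
    rw [W_nil, one_def, coeff_single, Finsupp.single_apply]
    split_ifs <;> norm_num
  | cons v l ih =>
    rw [coeff_cons]
    have h0 : 0 ≤ 1 - |t v| := sub_nonneg.mpr (ht v)
    have h1 := ih k
    have h2 := ih ((L.x v)⁻¹ * k)
    have h3 := ih (L.x v * k)
    have h4 : 0 ≤ max (t v) 0 := le_max_right _ _
    have h5 : 0 ≤ max (-t v) 0 := le_max_right _ _
    positivity

theorem W_pos {t : Fin N → ℝ} (ht : ∀ v, |t v| < 1) (l : List (Fin N)) :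
    0 < (W L t l).coeff 1 := by
  induction l with
  | nil => simp [W_nil, one_def]
  | cons v l ih =>
    rw [coeff_cons]
    have h0 : 0 < 1 - |t v| := sub_pos.mpr (ht v)
    have h2 := W_nonneg L (fun v => (ht v).le) l ((L.x v)⁻¹ * 1)
    have h3 := W_nonneg L (fun v => (ht v).le) l (L.x v * 1)
    have h4 : 0 ≤ max (t v) 0 := le_max_right _ _
    have h5 : 0 ≤ max (-t v) 0 := le_max_right _ _
    positivity

theorem W_supp (t : Fin N → ℝ) (l : List (Fin N)) (k : L.Γ) (h : (W L t l).coeff k ≠ 0) :
    ∃ l' : List (Fin N × Bool), (l'.map Prod.fst).Sublist l ∧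
      (∀ a ∈ l', (a.2 = true → 0 < t a.1) ∧ (a.2 = false → t a.1 < 0)) ∧
      k = (l'.map L.P.y).prod := by
  classical
  induction l generalizing k with
  | nil =>
    rw [W_nil, one_def, coeff_single, Finsupp.single_apply] at h
    refine ⟨[], by simp, by simp, ?_⟩
    by_contra e
    exact h (if_neg (fun e' => e (by simp [← e'])))
  | cons v l ih =>
    rw [coeff_cons] at h
    by_cases h1 : (W L t l).coeff k = 0
    · by_cases h2 : max (t v) 0 * (W L t l).coeff ((L.x v)⁻¹ * k) = 0
      · rw [h1, h2, mul_zero, zero_add, zero_add] at h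
        obtain ⟨l', a1, a2, a3⟩ := ih _ (right_ne_zero_of_mul h)
        have h3 : t v < 0 := by
          by_contra e
          exact left_ne_zero_of_mul h (max_eq_right (by linarith))
        refine ⟨(v, false) :: l', by simpa using a1, ?_, ?_⟩
        · intro a ha
          rcases List.mem_cons.mp ha with rfl | ha
          · simpa using h3
          · exact a2 a ha
        · rw [List.map_cons, List.prod_cons, ← a3, L.y_false]
          simp
      · obtain ⟨l', a1, a2, a3⟩ := ih _ (right_ne_zero_of_mul h2)
        have h3 : 0 < t v := by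
          by_contra e
          exact left_ne_zero_of_mul h2 (max_eq_right (by linarith))
        refine ⟨(v, true) :: l', by simpa using a1, ?_, ?_⟩
        · intro a ha
          rcases List.mem_cons.mp ha with rfl | ha
          · simpa using h3
          · exact a2 a ha
        · rw [List.map_cons, List.prod_cons, ← a3, L.y_true]
          simp
    · obtain ⟨l', a1, a2, a3⟩ := ih _ h1
      exact ⟨l', a1.cons v, a2, a3⟩

theorem fac_shift (v : Fin N) {s : ℝ} (h0 : 0 ≤ s) (h1 : s ≤ 1) :
    fac L v s = single (L.x v) 1 * fac L v (s - 1) := by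
  unfold fac
  rw [abs_of_nonneg h0, abs_of_nonpos (by linarith : s - 1 ≤ 0), max_eq_left h0,
    max_eq_right (by linarith : -s ≤ 0), max_eq_right (by linarith : s - 1 ≤ 0),
    max_eq_left (by linarith : 0 ≤ -(s - 1))]
  simp only [mul_add, single_mul_single, mul_one, one_mul, mul_inv_cancel, single_zero, add_zero]
  rw [add_comm]
  congr 2 <;> ring

theorem fac_comm {u v : Fin N} (h : L.adj u v) (s : ℝ) :
    Commute (single (L.x v) (1 : ℝ)) (fac L u s) := by
  have := (L.x_comm h).symm
  unfold fac
  refine Commute.add_right (Commute.add_right ?_ ?_) ?_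
  · exact single_commute_single (Commute.one_right _) (Commute.one_left _)
  · exact single_commute_single this (Commute.one_left _)
  · exact single_commute_single this.inv_right (Commute.one_left _)

theorem W_shift {t : Fin N → ℝ} {v : Fin N} (h0 : 0 ≤ t v) (h1 : t v ≤ 1)
    (h : ∀ u, u ≠ v → t u ≠ 0 → L.adj u v) (l : List (Fin N)) (hl : l.Nodup) (hv : v ∈ l) :
    W L t l = single (L.x v) 1 * W L (Function.update t v (t v - 1)) l := by
  induction l with
  | nil => simp at hv
  | cons u l ih =>
    rw [List.nodup_cons] at hl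
    rw [W_cons, W_cons]
    by_cases e : u = v
    · subst e
      rw [Function.update_self, ← mul_assoc, ← fac_shift L u h0 h1]
      congr 1
      unfold W
      congr 1
      refine List.map_congr_left fun w hw => ?_
      rw [Function.update_of_ne (fun e : w = u => hl.1 (e ▸ hw))]
    · have hv' : v ∈ l := (List.mem_cons.mp hv).resolve_left (Ne.symm e)
      rw [ih hl.2 hv', Function.update_of_ne e, ← mul_assoc, ← mul_assoc]
      congr 1
      by_cases h2 : t u = 0
      · rw [h2, fac_zero, one_mul, mul_one]
      · exact (fac_comm L (h u e h2) _).symm.eq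

/-- A character detecting one coordinate. -/
noncomputable def chi (v : Fin N) : L.Γ →* ℝ where
  toFun k := (2 : ℝ) ^ (L.ab k v)
  map_one' := by simp
  map_mul' g h := by simp [zpow_add₀]

theorem chi_apply (v : Fin N) (k : L.Γ) : chi L v k = (2 : ℝ) ^ (L.ab k v) := rfl

theorem abs_eq_max (s : ℝ) : |s| = max s 0 + max (-s) 0 := by
  rcases le_total 0 s with h | h
  · rw [abs_of_nonneg h, max_eq_left h, max_eq_right (by linarith), add_zero]
  · rw [abs_of_nonpos h, max_eq_right h, max_eq_left (by linarith), zero_add]

theorem chi_W (v : Fin N) (t : Fin N → ℝ) :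
    lift ℝ ℝ L.Γ (chi L v) (W L t (List.finRange N)) = 1 + max (t v) 0 - max (-t v) 0 / 2 := by
  unfold W
  rw [map_list_prod, List.map_map, ← Fin.prod_univ_def, Finset.prod_eq_single v]
  · simp only [Function.comp, fac, map_add, lift_single, chi_apply]
    simp
    rw [abs_eq_max]
    ring
  · intro u _ hu
    simp only [Function.comp, fac, map_add, lift_single, chi_apply]
    simp [Pi.single_eq_of_ne (Ne.symm hu)]
    rw [abs_eq_max]
    ring
  · simp

theorem W_inj {t t' : Fin N → ℝ} (h : W L t (List.finRange N) = W L t' (List.finRange N)) :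
    t = t' := by
  funext v
  have h1 := chi_W L v t
  rw [h, chi_W] at h1
  rcases le_total 0 (t v) with a | a <;> rcases le_total 0 (t' v) with b | b
  · rw [max_eq_left a, max_eq_left b, max_eq_right (by linarith), max_eq_right (by linarith)] at h1
    linarith
  · rw [max_eq_left a, max_eq_right b, max_eq_left (by linarith), max_eq_right (by linarith)] at h1
    linarith
  · rw [max_eq_right a, max_eq_left b, max_eq_right (by linarith), max_eq_left (by linarith)] at h1
    linarith
  · rw [max_eq_right a, max_eq_right b, max_eq_left (by linarith), max_eq_left (by linarith)] at h1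
    linarith

theorem W_ne (t : Fin N → ℝ) (l : List (Fin N)) : W L t l ≠ 0 := by
  have : lift ℝ ℝ L.Γ 1 (W L t l) = 1 := by
    induction l with
    | nil => simp [W_nil]
    | cons v l ih =>
      rw [W_cons, map_mul, ih]
      simp only [fac, map_add, lift_single]
      simp
      rw [abs_eq_max]
      ring
  intro h
  rw [h] at this
  simp at this

/-- The points as functions on the group. -/
noncomputable def cf (g : L.Γ) (t : Fin N → ℝ) : L.Γ → ℝ :=
  fun k => (W L t (List.finRange N)).coeff (g⁻¹ * k)

/-- The model. -/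
abbrev EE : Type := {z : L.Γ → ℝ // ∃ g, ∃ t ∈ L.St, z = cf L g t}

instance : MulAction L.Γ (EE L) where
  smul h z := ⟨fun k => z.1 (h⁻¹ * k), by
    obtain ⟨g, t, ht, e⟩ := z.2
    refine ⟨h * g, t, ht, funext fun k => ?_⟩
    rw [e]
    simp [cf, mul_assoc]⟩
  one_smul z := Subtype.ext (funext fun k => by
    change z.1 (1⁻¹ * k) = z.1 k
    simp)
  mul_smul g h z := Subtype.ext (funext fun k => by
    change z.1 ((g * h)⁻¹ * k) = z.1 (h⁻¹ * (g⁻¹ * k))
    simp [mul_assoc])

theorem smul_val (h : L.Γ) (z : EE L) (k : L.Γ) : (h • z).1 k = z.1 (h⁻¹ * k) := rfl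

instance : ContinuousConstSMul L.Γ (EE L) where
  continuous_const_smul h := by
    refine continuous_induced_rng.mpr (continuous_pi fun k => ?_)
    exact (continuous_apply (h⁻¹ * k)).comp continuous_subtype_val

theorem zero_mem : (0 : Fin N → ℝ) ∈ L.St := ⟨by simp, by simp⟩

open Classical in
/-- The points. -/
noncomputable def pt (g : L.Γ) (t : Fin N → ℝ) : EE L :=
  ⟨cf L g (if t ∈ L.St then t else 0), g, _, by
    split_ifs with h
    · exact h
    · exact zero_mem L, rfl⟩

theorem pt_val (g : L.Γ) {t : Fin N → ℝ} (ht : t ∈ L.St) : (pt L g t).1 = cf L g t := by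
  unfold pt
  simp only [if_pos ht]

theorem update_mem {t : Fin N → ℝ} (ht : t ∈ L.St) {v : Fin N} {s : ℝ} (hs : |s| ≤ 1)
    (h : ∀ u, u ≠ v → t u ≠ 0 → L.adj u v) : Function.update t v s ∈ L.St := by
  refine ⟨fun u => ?_, fun u w huw hu hw => ?_⟩
  · by_cases e : u = v
    · subst e; simpa using hs
    · rw [Function.update_of_ne e]; exact ht.1 u
  · by_cases e : u = v
    · subst e
      rw [Function.update_of_ne huw.symm] at hw
      exact L.symm _ _ (h w huw.symm hw)
    · rw [Function.update_of_ne e] at hu
      by_cases e' : w = v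
      · subst e'
        exact h u e hu
      · rw [Function.update_of_ne e'] at hw
        exact ht.2 u w huw hu hw

/-- The cube complex. -/
noncomputable def cubeSp : L.CubeSp (EE L) where
  pt := pt L
  cont g := by
    refine (IsInducing.induced Subtype.val).continuousOn_iff.mpr ?_
    refine ContinuousOn.congr (f := cf L g) ?_ fun t ht => pt_val L g ht
    exact (continuous_pi fun k => continuous_W L _ _).continuousOn
  surj z := by
    obtain ⟨g, t, ht, e⟩ := z.2
    exact ⟨g, t, ht, Subtype.ext (by rw [pt_val L g ht, e])⟩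
  smul h g t := Subtype.ext (funext fun k => by
    rw [smul_val]
    simp [pt, cf, mul_assoc])
  shift g v t ht h0 h := by
    have h1 := (abs_le.mp (ht.1 v)).2
    have hm := update_mem L ht (v := v) (s := t v - 1) (by rw [abs_le]; constructor <;> linarith) h
    refine Subtype.ext (funext fun k => ?_)
    rw [pt_val L g ht, pt_val L _ hm]
    unfold cf
    rw [W_shift L h0 h1 h _ (List.nodup_finRange N) (List.mem_finRange v)]
    simp [mul_assoc]
  injOn g t ht t' ht' e := by
    have h := congrArg Subtype.val e
    rw [pt_val L g ht, pt_val L g ht'] at h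
    apply W_inj L
    ext k
    simpa [cf] using congrFun h (g * k)
  near g g' t ht t' ht' h1 e := by
    have h := congrArg Subtype.val e
    rw [pt_val L g ht, pt_val L g' ht'] at h
    have h2 := congrFun h g
    unfold cf at h2
    rw [inv_mul_cancel] at h2
    obtain ⟨l, a1, a2, a3⟩ := W_supp L t' _ _ (h2 ▸ (W_pos L h1 _).ne')
    exact ⟨l, (List.nodup_finRange N).sublist a1, a2, by rw [← a3]; simp⟩
  lf z := by
    obtain ⟨g, t, ht, e⟩ := z.2
    have : ∃ k, z.1 k ≠ 0 := by
      by_contra h
      push Not at h
      apply W_ne L t (List.finRange N)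
      ext k
      simpa [e, cf] using h (g * k)
    obtain ⟨k, hk⟩ := this
    have hop : IsOpen {z' : EE L | z'.1 k ≠ 0} :=
      isOpen_ne_fun ((continuous_apply k).comp continuous_subtype_val) continuous_const
    refine ⟨_, hop.mem_nhds hk, ?_⟩
    refine ((List.finite_length_le (Fin N × Bool) N).image
      (fun l => k * ((l.map L.P.y).prod)⁻¹)).subset ?_
    rintro g' ⟨_, ⟨t', ht', rfl⟩, h⟩
    rw [mem_ofPred_eq, pt_val L g' ht'] at h
    obtain ⟨l, a1, -, a3⟩ := W_supp L t' _ _ h
    refine ⟨l, by simpa using a1.length_le, ?_⟩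
    simp only
    rw [← a3]
    simp

end Space

theorem LD.exists_cubeSp {N : ℕ} (L : LD N) :
    ∃ (E : Type) (_ : TopologicalSpace E) (_ : MulAction L.Γ E),
      T2Space E ∧ ContinuousConstSMul L.Γ E ∧ Nonempty (L.CubeSp E) :=
  ⟨Space.EE L, inferInstance, inferInstance, inferInstance, inferInstance, ⟨Space.cubeSp L⟩⟩

end Crest.Agent.R197
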