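import Crest.Agent.R197.Defs

/-!
Row 197: topological definitions (cocycles on the path groupoid, cell attachments) and their basic API.
-/

set_option autoImplicit false

namespace Crest.Agent.R197

open Set unitInterval Filter _root_.Topology

/-- A functor from the fundamental groupoid to a group. -/
structure Coc (Z : Type) [TopologicalSpace Z] (K : Type) [Group K] where
  θ : C(I, Z) → K
  htpy : ∀ γ γ' : C(I, Z), γ.HomotopicRel γ' {0, 1} → θ γ = θ γ'
  trans : ∀ {x y z : Z} (γ : Path x y) (γ' : Path y z),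
    θ (γ.trans γ').toContinuousMap = θ γ.toContinuousMap * θ γ'.toContinuousMap

/-- A continuous map from the interval as a path. -/
def toPath {Z : Type} [TopologicalSpace Z] (γ : C(I, Z)) : Path (γ 0) (γ 1) := ⟨γ, rfl, rfl⟩

@[simp] theorem toPath_toContinuousMap {Z : Type} [TopologicalSpace Z] (γ : C(I, Z)) :
    (toPath γ).toContinuousMap = γ := rfl

namespace Coc

variable {Z Z' K : Type} [TopologicalSpace Z] [TopologicalSpace Z'] [Group K] (θ : Coc Z K)

/-- Pull-back of a cocycle. -/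
def comap (f : C(Z', Z)) : Coc Z' K where
  θ γ := θ.θ (f.comp γ)
  htpy γ γ' h := θ.htpy _ _ (h.comp_continuousMap f)
  trans γ γ' := by
    have := θ.trans (γ.map f.continuous) (γ'.map f.continuous)
    rw [← Path.map_trans] at this
    exact this

@[simp] theorem comap_θ (f : C(Z', Z)) (γ : C(I, Z')) : (θ.comap f).θ γ = θ.θ (f.comp γ) := rfl

theorem homotopic {x y : Z} {γ γ' : Path x y} (h : γ.Homotopic γ') :
    θ.θ γ.toContinuousMap = θ.θ γ'.toContinuousMap := θ.htpy _ _ h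

theorem refl (x : Z) : θ.θ (Path.refl x).toContinuousMap = 1 := by
  have h := θ.trans (Path.refl x) (Path.refl x)
  rw [θ.homotopic ⟨Path.Homotopy.reflTrans (Path.refl x)⟩] at h
  exact (left_eq_mul.mp h)

theorem const (x : Z) : θ.θ (ContinuousMap.const I x) = 1 := θ.refl x

theorem symm {x y : Z} (γ : Path x y) :
    θ.θ γ.symm.toContinuousMap = (θ.θ γ.toContinuousMap)⁻¹ := by
  have h := θ.trans γ γ.symm
  rw [← θ.homotopic ⟨Path.Homotopy.reflTransSymm γ⟩, θ.refl] at h
  exact eq_inv_of_mul_eq_one_right h.symm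

/-- On a simply connected space every cocycle has a potential.  (Use it for `θ.comap γ` on `I`, on `I × I`, on `ℝ`,
on `ℂ`, ... to cut paths into pieces or to compare the sides of a square.) -/
theorem pot [SimplyConnectedSpace Z] : ∃ k : Z → K, ∀ γ : C(I, Z), θ.θ γ = (k (γ 0))⁻¹ * k (γ 1) := by
  obtain ⟨x₀⟩ : Nonempty Z := inferInstance
  refine ⟨fun y => θ.θ (PathConnectedSpace.somePath x₀ y).toContinuousMap, fun γ => ?_⟩
  have h := θ.trans (PathConnectedSpace.somePath x₀ (γ 0)) (toPath γ)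
  rw [θ.homotopic (SimplyConnectedSpace.paths_homotopic _ (PathConnectedSpace.somePath x₀ (γ 1)))] at h
  rw [eq_inv_mul_iff_mul_eq]
  exact h.symm

end Coc

instance : ContractibleSpace I := (convex_Icc (0 : ℝ) 1).contractibleSpace ⟨0, by simp⟩

/-- Relators of the universal group of the path groupoid. -/
def ugRels (Z : Type) [TopologicalSpace Z] : Set (FreeGroup C(I, Z)) :=
  {r | (∃ γ γ' : C(I, Z), γ.HomotopicRel γ' {0, 1} ∧ r = FreeGroup.of γ * (FreeGroup.of γ')⁻¹) ∨
    ∃ (x y z : Z) (γ : Path x y) (γ' : Path y z), r = FreeGroup.of (γ.trans γ').toContinuousMap *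
      (FreeGroup.of γ.toContinuousMap * FreeGroup.of γ'.toContinuousMap)⁻¹}

/-- The universal cocycle. -/
def Coc.univ (Z : Type) [TopologicalSpace Z] : Coc Z (PresentedGroup (ugRels Z)) where
  θ γ := PresentedGroup.of γ
  htpy γ γ' h := by
    have h : PresentedGroup.mk (ugRels Z) (FreeGroup.of γ * (FreeGroup.of γ')⁻¹) = 1 :=
      PresentedGroup.one_of_mem (Or.inl ⟨γ, γ', h, rfl⟩)
    simp only [map_mul, map_inv] at h
    exact mul_inv_eq_one.mp h
  trans {x y z} γ γ' := by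
    have h : PresentedGroup.mk (ugRels Z) (FreeGroup.of (γ.trans γ').toContinuousMap *
      (FreeGroup.of γ.toContinuousMap * FreeGroup.of γ'.toContinuousMap)⁻¹) = 1 :=
      PresentedGroup.one_of_mem (Or.inr ⟨x, y, z, γ, γ', rfl⟩)
    simp only [map_mul, map_inv] at h
    exact mul_inv_eq_one.mp h

/-- Every cocycle factors through the universal one. -/
theorem Coc.exists_desc {Z K : Type} [TopologicalSpace Z] [Group K] (θ : Coc Z K) :
    ∃ φ : PresentedGroup (ugRels Z) →* K, ∀ γ, φ ((Coc.univ Z).θ γ) = θ.θ γ := by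
  refine ⟨PresentedGroup.toGroup (f := θ.θ) ?_, fun γ => PresentedGroup.toGroup.of _⟩
  rintro r (⟨γ, γ', h, rfl⟩ | ⟨x, y, z, γ, γ', rfl⟩)
  · simp [θ.htpy _ _ h]
  · simp only [map_mul, map_inv, FreeGroup.lift_apply_of, θ.trans, mul_inv_cancel]

/-- Local potentials. -/
structure Cech (Z : Type) [TopologicalSpace Z] (K : Type) [Group K] where
  ι : Type
  U : ι → Set Z
  k : ι → Z → K
  op : ∀ i, IsOpen (U i)
  cov : ∀ z, ∃ i, z ∈ U i
  lc : ∀ i j, ∀ z ∈ U i ∩ U j, ∀ᶠ z' in 𝓝 z, k i z' * (k j z')⁻¹ = k i z * (k j z)⁻¹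

/-- The cocycle has the given local potentials. -/
def Cech.Rep {Z K : Type} [TopologicalSpace Z] [Group K] (C : Cech Z K) (θ : Coc Z K) : Prop :=
  ∀ i (γ : C(I, Z)), (∀ t, γ t ∈ C.U i) → θ.θ γ = (C.k i (γ 0))⁻¹ * C.k i (γ 1)

/-- The universal covering `p`, with its fibres identified with the fundamental group `G`. -/
structure Univ {X E : Type} [TopologicalSpace X] [TopologicalSpace E] (p : C(E, X)) (G : Type)
    [Group G] where
  Θ : Coc X G
  e : G → X → E
  pe : ∀ g y, p (e g y) = y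
  lift : ∀ g (γ : C(I, E)), γ 0 = e g (p (γ 0)) → γ 1 = e (g * Θ.θ (p.comp γ)) (p (γ 1))
  inj : ∀ y g g', e g y = e g' y → g = g'
  ex : ∀ y y' g, ∃ γ : Path y y', Θ.θ γ.toContinuousMap = g
  null : ∀ y (γ : Path y y), Θ.θ γ.toContinuousMap = 1 → γ.Homotopic (Path.refl y)

/-- `Z` is obtained from `B` by attaching cells modelled on the unit ball of `𝔼`. -/
structure Cell (𝔼 : Type) [NormedAddCommGroup 𝔼] {Z : Type} [TopologicalSpace Z] (B : Set Z)
    (ι : Type) where
  χ : ι → C(𝔼, Z)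
  bd : ∀ i w, 1 ≤ ‖w‖ → χ i w ∈ B
  int : ∀ i w, ‖w‖ < 1 → χ i w ∉ B
  inj : ∀ i j w w', ‖w‖ < 1 → ‖w'‖ < 1 → χ i w = χ j w' → i = j ∧ w = w'
  cov : ∀ y, y ∉ B → ∃ i w, ‖w‖ < 1 ∧ χ i w = y
  closedB : IsClosed B
  weak : ∀ A : Set Z, IsClosed (A ∩ B) → (∀ i, IsClosed (χ i ⁻¹' A ∩ Metric.closedBall 0 1)) →
    IsClosed A

/-- The centres of the cells. -/
def Cell.ctr {𝔼 : Type} [NormedAddCommGroup 𝔼] {Z : Type} [TopologicalSpace Z] {B : Set Z}
    {ι : Type} (c : Cell 𝔼 B ι) : Set Z := range fun i => c.χ i 0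

/-- A two-dimensional cell structure. -/
structure CS2 (X : Type) [TopologicalSpace X] where
  S : Type
  R : Type
  X1 : Set X
  X0 : Set X1
  c1 : Cell ℝ X0 S
  c2 : Cell ℂ X1 R
  disc : ∀ A ⊆ X0, IsClosed A

namespace CS2

variable {X : Type} [TopologicalSpace X] (Y : CS2 X)

/-- Sources. -/
def src (s : Y.S) : Y.X0 := ⟨Y.c1.χ s (-1), Y.c1.bd s _ (by simp)⟩

/-- Targets. -/
def tgt (s : Y.S) : Y.X0 := ⟨Y.c1.χ s 1, Y.c1.bd s _ (by simp)⟩

/-- Edges as paths in the `1`-skeleton. -/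
def ed (s : Y.S) : C(I, Y.X1) := ⟨fun t => Y.c1.χ s (2 * (t : ℝ) - 1), by fun_prop⟩

/-- The inclusion of the `1`-skeleton. -/
def inc : C(Y.X1, X) := ⟨Subtype.val, continuous_subtype_val⟩

/-- The attaching map on the universal cover of the circle. -/
noncomputable def attR (r : Y.R) : C(ℝ, Y.X1) :=
  ⟨fun t => ⟨Y.c2.χ r (Complex.exp (2 * Real.pi * (t : ℝ) * Complex.I)), Y.c2.bd r _ (by
    have := Complex.norm_exp_ofReal_mul_I (2 * Real.pi * (t : ℝ))
    push_cast at this
    rw [this])⟩, by fun_prop⟩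

/-- Attaching loops. -/
noncomputable def att (r : Y.R) : C(I, Y.X1) := (Y.attR r).comp ⟨Subtype.val, continuous_subtype_val⟩

end CS2

/-- The punctured plane. -/
abbrev C0 : Type := {z : ℂ // z ≠ 0}

/-- The standard loop in the punctured plane. -/
noncomputable def circ : C(I, C0) :=
  ⟨fun t => ⟨Complex.exp (2 * Real.pi * (t : ℝ) * Complex.I), Complex.exp_ne_zero _⟩, by fun_prop⟩

end Crest.Agent.R197
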