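import Crest.Agent.R197.TestH

/-!
Task R197-Test.  The subdivided copies of the link and their almost trivial connections.

Plan.  Fix `n` large (`n + 1 ≥ 12 / ε`, say).  `X m = ((List.finRange N).map fun v => x v ^ m v).prod`; if `Ok (m + e u)` then
`X (m + e u) = X m * x u`; `ab (X m) v = m v`.  `V k = (x v₀)⁻¹ ^ (n + 1) * X k ∈ HH` for `∑ k = n + 1`; `k` is recovered from `g = V k`
as `μ g v = (ab g v + if v = v₀ then n + 1 else 0).toNat`.
`I = {(g, (u, v)) | ∃ m, ∑ m = n ∧ Ok (m + e u + e v) ∧ g = V (m + e u)}`,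
`J = {(g, (t, true)) | ∃ m, ∑ m = n ∧ Ok (m + e u + e v + e w) ∧ g = V (m + e u)} ∪
     {(g, (t, false)) | ∃ m, ∑ m + 1 = n ∧ Ok (m + e u + e v + e w) ∧ g = V (m + e u + e v)}` (finite sets: `m ≤ n`;
`Set.Finite.toFinset`).  The edge `(V (m + e u), (u, v))` ends at `V (m + e v)`.  `In`: `In.mul`, `In.of`, `In.inv`.
H¹: `levH1` for `ω' m u v = ω (V (m + e u), (u, v))` (junk `0` otherwise), `f g = f' (μ g)`.
Connection: `s c k = ∑ y, (k y : ℝ) • (ρ c y : ℍ)`; if `Ok (k + e c)`, `k ≠ 0`: `‖s c k‖² ≥ ∑ (k y)² ≥ (∑ k)² / 3`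
(`⟪ρ c y, ρ c y'⟫ = re (ρ y y') ≥ 0` by `ρ_mul`, `ρ_re`, `ρ_self`; `dim` bounds the support; cruder: some `k y ≥ (∑ k) / 3` and
`‖s c k‖ ≥ ⟪s c k, ρ c y⟫ ≥ k y`), and `s c k = ρ c c' * s c' k` if `Ok (k + e c + e c')`.  `nz q` = normalisation in `S3` (junk `1`),
`nz (a * q) = a * nz q`.  `a (g, (u, v)) = (nz (s u (μ g)))⁻¹ * nz (s u (μ (g * α (of (u, v)))))`; on an edge of a triangle `u` can be
replaced by any vertex `c` of the triangle, hence flatness.  `‖a - 1‖ = ‖nz q' - nz q‖ ≤ 2 ‖q' - q‖ / ‖q‖ ≤ 12 / (n + 1)`.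
Non-triviality: along `k j = (n + 1 - j) • e u + j • e v` (`u < v` adjacent) a gauge `γ` telescopes to
`ρ u v = (γ (V ((n+1) • e u)))⁻¹ * γ (V ((n+1) • e v))`; for `v < u` invert (`ρ_mul u v u`, `ρ_self`); contradiction with `ρ_ng`.
-/

set_option autoImplicit false

namespace Crest.Agent.R197

open scoped Quaternion

namespace Tst

/-- Normalisation. -/
noncomputable def nz (q : ℍ[ℝ]) : S3 :=
  open Classical in
  if h : q = 0 then 1 else ⟨‖q‖⁻¹ • q, by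
    rw [mem_sphere_zero_iff_norm, norm_smul, norm_inv, norm_norm,
      inv_mul_cancel₀ (norm_ne_zero_iff.mpr h)]⟩

theorem norm_coe (a : S3) : ‖(a : ℍ[ℝ])‖ = 1 := mem_sphere_zero_iff_norm.1 a.2

theorem coe_nz {q : ℍ[ℝ]} (h : q ≠ 0) : (nz q : ℍ[ℝ]) = ‖q‖⁻¹ • q := by
  simp [nz, h]

theorem nz_mul (a : S3) {q : ℍ[ℝ]} (h : q ≠ 0) : nz ((a : ℍ[ℝ]) * q) = a * nz q := by
  have ha : (a : ℍ[ℝ]) ≠ 0 := by
    intro h0
    have := norm_coe a
    rw [h0] at this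
    simp at this
  apply Subtype.ext
  rw [Metric.unitSphere.coe_mul, coe_nz (mul_ne_zero ha h), coe_nz h, norm_mul, norm_coe, one_mul,
    mul_smul_comm]

theorem nz_smul (a : S3) {r : ℝ} (hr : 0 < r) : nz (r • (a : ℍ[ℝ])) = a := by
  have hn : ‖r • (a : ℍ[ℝ])‖ = r := by
    rw [norm_smul, norm_coe, mul_one, Real.norm_of_nonneg hr.le]
  have h : r • (a : ℍ[ℝ]) ≠ 0 := by
    intro h0
    rw [h0, norm_zero] at hn
    exact hr.ne hn
  apply Subtype.ext
  rw [coe_nz h, hn, smul_smul, inv_mul_cancel₀ hr.ne', one_smul]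

theorem norm_nz_sub {q q' : ℍ[ℝ]} (h : q ≠ 0) (h' : q' ≠ 0) :
    ‖(nz q' : ℍ[ℝ]) - nz q‖ ≤ 2 * ‖q' - q‖ / ‖q‖ := by
  have hq : 0 < ‖q‖ := norm_pos_iff.2 h
  have hq' : 0 < ‖q'‖ := norm_pos_iff.2 h'
  rw [coe_nz h, coe_nz h']
  have e : ‖q'‖⁻¹ • q' - ‖q‖⁻¹ • q = (‖q'‖⁻¹ - ‖q‖⁻¹) • q' + ‖q‖⁻¹ • (q' - q) := by
    rw [sub_smul, smul_sub]; abel
  have h1 : ‖(‖q'‖⁻¹ - ‖q‖⁻¹) • q'‖ ≤ ‖q' - q‖ / ‖q‖ := by
    rw [norm_smul, Real.norm_eq_abs]
    have e2 : |‖q'‖⁻¹ - ‖q‖⁻¹| * ‖q'‖ = |‖q'‖ - ‖q‖| / ‖q‖ := by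
      have : ‖q'‖⁻¹ - ‖q‖⁻¹ = -(‖q'‖ - ‖q‖) / (‖q‖ * ‖q'‖) := by field_simp; ring
      rw [this, abs_div, abs_neg, abs_of_pos (mul_pos hq hq')]
      field_simp
    rw [e2]
    exact div_le_div_of_nonneg_right (abs_norm_sub_norm_le _ _) hq.le
  have h2 : ‖‖q‖⁻¹ • (q' - q)‖ = ‖q' - q‖ / ‖q‖ := by
    rw [norm_smul, norm_inv, norm_norm]; field_simp
  rw [e]
  calc _ ≤ _ := norm_add_le _ _
    _ ≤ ‖q' - q‖ / ‖q‖ + ‖q' - q‖ / ‖q‖ := add_le_add h1 h2.le
    _ = _ := by ring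

theorem norm_inv_mul_sub (a b : S3) : ‖((a⁻¹ * b : S3) : ℍ[ℝ]) - 1‖ = ‖(b : ℍ[ℝ]) - a‖ := by
  have e : ((a⁻¹ * b : S3) : ℍ[ℝ]) - 1 = ((a⁻¹ : S3) : ℍ[ℝ]) * ((b : ℍ[ℝ]) - a) := by
    rw [mul_sub, ← Metric.unitSphere.coe_mul, ← Metric.unitSphere.coe_mul, inv_mul_cancel,
      Metric.unitSphere.coe_one]
  rw [e, norm_mul, norm_coe, one_mul]

section tri

variable {G K S : Type} [Group G] [Group K] {π : FreeGroup S →* G} {g g₁ g₂ : G} {a b c : S}

theorem back (h1 : g * π (FreeGroup.of a) = g₁) (h2 : g₁ * π (FreeGroup.of b) = g₂)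
    (h3 : g * π (FreeGroup.of c) = g₂) :
    g * π (FreeGroup.of a * FreeGroup.of b) * (π (FreeGroup.of c))⁻¹ = g := by
  rw [map_mul, ← mul_assoc, h1, h2, ← h3, mul_inv_cancel_right]

theorem hol_tri (z : G × S → K) (h1 : g * π (FreeGroup.of a) = g₁) (h2 : g₁ * π (FreeGroup.of b) = g₂)
    (h3 : g * π (FreeGroup.of c) = g₂) :
    hol π z g (FreeGroup.of a * FreeGroup.of b * (FreeGroup.of c)⁻¹) =
      z (g, a) * z (g₁, b) * (z (g, c))⁻¹ := by
  rw [hol_mul, hol_mul, hol_inv, back h1 h2 h3, h1, hol_of, hol_of, hol_of]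

theorem ev_tri {M : Type} [AddCommGroup M] (ω : G × S → M) (h1 : g * π (FreeGroup.of a) = g₁)
    (h2 : g₁ * π (FreeGroup.of b) = g₂) (h3 : g * π (FreeGroup.of c) = g₂) :
    ev π ω g (FreeGroup.of a * FreeGroup.of b * (FreeGroup.of c)⁻¹) =
      ω (g, a) + ω (g₁, b) - ω (g, c) := by
  rw [ev_mul, ev_mul, ev_inv, back h1 h2 h3, h1, ev_of, ev_of, ev_of, sub_eq_add_neg]

theorem in_tri {I : Set (G × S)} (h1 : g * π (FreeGroup.of a) = g₁)
    (h2 : g₁ * π (FreeGroup.of b) = g₂) (h3 : g * π (FreeGroup.of c) = g₂)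
    (ha : (g, a) ∈ I) (hb : (g₁, b) ∈ I) (hc : (g, c) ∈ I) :
    In π I g (FreeGroup.of a * FreeGroup.of b * (FreeGroup.of c)⁻¹) := by
  refine In.mul (In.mul (In.of ha) ?_) (In.inv ?_)
  · rw [h1]; exact In.of hb
  · rw [back h1 h2 h3]; exact In.of hc

end tri

variable {N : ℕ} (L : LD N)

/-- Unit vectors. -/
abbrev e (v : Fin N) : Fin N → ℕ := Pi.single v 1

theorem sum_add_e (m : Fin N → ℕ) (u : Fin N) : ∑ i, (m + e u) i = (∑ i, m i) + 1 := by
  simp [Finset.sum_add_distrib]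

theorem add_e_ne (m : Fin N → ℕ) (u : Fin N) : (m + e u) u ≠ 0 := by simp

theorem ne_add_e {m : Fin N → ℕ} {v : Fin N} (h : m v ≠ 0) (u : Fin N) : (m + e u) v ≠ 0 := by
  simp only [Pi.add_apply]; omega

variable {L}

theorem ok_mono {k k' : Fin N → ℕ} (h : L.Ok k) (hk : ∀ v, k' v ≠ 0 → k v ≠ 0) : L.Ok k' :=
  fun u v huv hu hv => h u v huv (hk u hu) (hk v hv)

theorem ok_le {k k' : Fin N → ℕ} (h : L.Ok k) (hk : k' ≤ k) : L.Ok k' :=
  ok_mono h fun v hv => by have : k' v ≤ k v := hk v; omega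

theorem rel_of_ok {k : Fin N → ℕ} (h : L.Ok k) {u v : Fin N} (hu : k u ≠ 0) (hv : k v ≠ 0) :
    u = v ∨ L.adj u v := by
  by_cases huv : u = v
  · exact Or.inl huv
  · exact Or.inr (h u v huv hu hv)

variable (L)

/-- Ordered monomials. -/
def X (m : Fin N → ℕ) : L.Γ := ((List.finRange N).map fun v => L.x v ^ m v).prod

theorem X_list (m : Fin N → ℕ) (u : Fin N) (hc : ∀ v, Commute (L.x v ^ m v) (L.x u)) :
    ∀ l : List (Fin N), l.Nodup → (l.map fun v => L.x v ^ (m + e u) v).prod =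
      (l.map fun v => L.x v ^ m v).prod * (if u ∈ l then L.x u else 1)
  | [], _ => by simp
  | v :: l, h => by
    rw [List.nodup_cons] at h
    rw [List.map_cons, List.map_cons, List.prod_cons, List.prod_cons, X_list m u hc l h.2]
    by_cases hv : v = u
    · subst hv
      have hP : Commute (l.map fun w => L.x w ^ m w).prod (L.x v) := by
        apply Commute.list_prod_left
        intro y hy
        obtain ⟨w, _, rfl⟩ := List.mem_map.1 hy
        exact hc w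
      rw [if_neg h.1, if_pos List.mem_cons_self, mul_one, mul_assoc, hP.eq, ← mul_assoc, ← pow_succ]
      simp
    · have : (u ∈ v :: l) ↔ u ∈ l := by simp [Ne.symm hv]
      simp only [this, mul_assoc]
      simp [hv]

variable {L}

theorem X_add {m : Fin N → ℕ} {u : Fin N} (h : L.Ok (m + e u)) : X L (m + e u) = X L m * L.x u := by
  unfold X
  rw [X_list L m u _ _ (List.nodup_finRange N), if_pos (List.mem_finRange u)]
  intro v
  by_cases h0 : m v = 0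
  · simp [h0]
  · rcases rel_of_ok h (ne_add_e h0 u) (add_e_ne m u) with rfl | hadj
    · exact (Commute.refl _).pow_left _
    · exact (L.x_comm hadj).pow_left _

variable (L)

theorem ab_pow (g : L.Γ) (k : ℕ) : L.ab (g ^ k) = k • L.ab g := by
  induction k with
  | zero => simp
  | succ k ih => rw [pow_succ, LD.ab_mul, ih, succ_nsmul]

theorem ab_list (f : Fin N → L.Γ) (l : List (Fin N)) :
    L.ab (l.map f).prod = (l.map fun v => L.ab (f v)).sum := by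
  induction l with
  | nil => simp
  | cons v l ih => simp [ih]

theorem ab_X (m : Fin N → ℕ) (v : Fin N) : L.ab (X L m) v = m v := by
  unfold X
  rw [ab_list, ← Fin.sum_univ_def]
  simp [ab_pow, Pi.single_apply]

/-- The vertices of the subdivided link. -/
def V (k : Fin N → ℕ) : L.HH :=
  ⟨(L.x L.v₀)⁻¹ ^ (∑ i, k i) * X L k, by
    rw [LD.mem_HH, LD.ht_mul]
    simp [LD.ht, ab_pow, ab_X, Pi.single_apply]⟩

/-- Recovering the exponents. -/
def μ (n : ℕ) (g : L.HH) : Fin N → ℕ :=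
  fun v => (L.ab g v + if v = L.v₀ then ((n + 1 : ℕ) : ℤ) else 0).toNat

variable {L}

theorem μ_V {n : ℕ} {k : Fin N → ℕ} (h : ∑ i, k i = n + 1) : μ L n (V L k) = k := by
  funext v
  simp only [μ, V, LD.ab_mul, ab_pow, LD.ab_inv, LD.ab_x, h, Pi.add_apply, ab_X, Pi.smul_apply,
    Pi.neg_apply, Pi.single_apply]
  split_ifs
  · simp only [smul_neg, nsmul_eq_mul, mul_one]; omega
  · simp

theorem V_step {m : Fin N → ℕ} (a : L.A) (h : L.Ok (m + e a.1.1 + e a.1.2)) :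
    V L (m + e a.1.1) * L.α (FreeGroup.of a) = V L (m + e a.1.2) := by
  have h1 : L.Ok (m + e a.1.1) := ok_le h le_self_add
  have h2 : L.Ok (m + e a.1.2) := ok_le h (by rw [add_right_comm]; exact le_self_add)
  apply Subtype.ext
  simp only [Subgroup.coe_mul, LD.α_of, V, X_add h1, X_add h2, sum_add_e]
  group

variable (L)

/-- The interpolated section. -/
noncomputable def s (c : Fin N) (k : Fin N → ℕ) : ℍ[ℝ] := ∑ y, (k y : ℝ) • (L.ρ c y : ℍ[ℝ])

variable {L}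

theorem s_change {K k : Fin N → ℕ} (hK : L.Ok K) (hk : ∀ v, k v ≠ 0 → K v ≠ 0) {c c' : Fin N}
    (hc : K c ≠ 0) (hc' : K c' ≠ 0) : s L c k = (L.ρ c c' : ℍ[ℝ]) * s L c' k := by
  unfold s
  rw [Finset.mul_sum]
  refine Finset.sum_congr rfl fun y _ => ?_
  by_cases h0 : k y = 0
  · simp [h0]
  · rw [mul_smul_comm, ← Metric.unitSphere.coe_mul, L.ρ_mul c c' y (rel_of_ok hK hc hc')
      (rel_of_ok hK hc' (hk y h0)) (rel_of_ok hK hc (hk y h0))]

theorem norm_s {K k : Fin N → ℕ} (hK : L.Ok K) (hk : ∀ v, k v ≠ 0 → K v ≠ 0) {c : Fin N}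
    (hc : K c ≠ 0) : ((∑ i, k i : ℕ) : ℝ) / 3 ≤ ‖s L c k‖ := by
  classical
  set σ := Finset.univ.filter fun y => k y ≠ 0 with hσ
  rcases σ.eq_empty_or_nonempty with h0 | hne
  · have : ∑ i, k i = 0 := Finset.sum_eq_zero fun i _ => by
      by_contra h
      have : i ∈ σ := by simp [hσ, h]
      rw [h0] at this
      simp at this
    rw [this]
    simp
  obtain ⟨y, hy, hmax⟩ := σ.exists_max_image k hne
  have hy0 : k y ≠ 0 := (Finset.mem_filter.1 hy).2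
  have hcard : σ.card ≤ 3 := L.dim σ fun u hu v hv huv =>
    hK u v huv (hk u (Finset.mem_filter.1 hu).2) (hk v (Finset.mem_filter.1 hv).2)
  have hsum : ∑ i, k i ≤ 3 * k y := by
    calc ∑ i, k i = ∑ i ∈ σ, k i := by
          rw [hσ, Finset.sum_filter_ne_zero]
      _ ≤ σ.card • k y := Finset.sum_le_card_nsmul _ _ _ hmax
      _ ≤ 3 * k y := by rw [smul_eq_mul]; exact Nat.mul_le_mul_right _ hcard
  have hre : (k y : ℝ) ≤ (s L y k).re := by
    have e1 : (s L y k).re = ∑ z, (k z : ℝ) * (L.ρ y z : ℍ[ℝ]).re := by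
      have := map_sum (QuaternionAlgebra.reₗ (R := ℝ) (-1) 0 (-1))
        (fun z => (k z : ℝ) • (L.ρ y z : ℍ[ℝ])) Finset.univ
      exact this
    rw [e1]
    have : (k y : ℝ) = (k y : ℝ) * (L.ρ y y : ℍ[ℝ]).re := by
      rw [L.ρ_self, Metric.unitSphere.coe_one]; simp
    rw [this]
    refine Finset.single_le_sum (f := fun z => (k z : ℝ) * (L.ρ y z : ℍ[ℝ]).re) (fun z _ => ?_)
      (Finset.mem_univ y)
    by_cases h0 : k z = 0
    · simp [h0]
    · refine mul_nonneg (Nat.cast_nonneg _) ?_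
      rcases rel_of_ok hK (hk y hy0) (hk z h0) with rfl | hadj
      · rw [L.ρ_self, Metric.unitSphere.coe_one]; simp
      · exact L.ρ_re _ _ hadj
  have hn : (s L y k).re ≤ ‖s L y k‖ := by
    have h1 := Quaternion.normSq_eq_norm_mul_self (s L y k)
    rw [Quaternion.normSq_def'] at h1
    refine le_trans (le_abs_self _) (abs_le_of_sq_le_sq' ?_ (norm_nonneg _)).2
    rw [sq_abs]
    nlinarith [sq_nonneg (s L y k).imI, sq_nonneg (s L y k).imJ, sq_nonneg (s L y k).imK]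
  rw [s_change hK hk hc (hk y hy0), norm_mul, norm_coe, one_mul]
  have : ((∑ i, k i : ℕ) : ℝ) ≤ 3 * k y := by exact_mod_cast hsum
  linarith

theorem s_ne {K k : Fin N → ℕ} (hK : L.Ok K) (hk : ∀ v, k v ≠ 0 → K v ≠ 0) {c : Fin N}
    (hc : K c ≠ 0) {n : ℕ} (hn : ∑ i, k i = n + 1) : s L c k ≠ 0 := by
  have h := norm_s hK hk hc
  rw [hn] at h
  have : (0 : ℝ) < ((n + 1 : ℕ) : ℝ) / 3 := by positivity
  exact norm_pos_iff.1 (this.trans_le h)

theorem s_add_e (c : Fin N) (m : Fin N → ℕ) (u : Fin N) :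
    s L c (m + e u) = s L c m + (L.ρ c u : ℍ[ℝ]) := by
  simp [s, add_smul, Finset.sum_add_distrib, Pi.single_apply]

variable (L)

/-- The connection. -/
noncomputable def con (n : ℕ) (p : L.HH × L.A) : S3 :=
  (nz (s L p.2.1.1 (μ L n p.1)))⁻¹ * nz (s L p.2.1.1 (μ L n (p.1 * L.α (FreeGroup.of p.2))))

variable {L}

theorem con_eq {n : ℕ} {K m : Fin N → ℕ} (hm : ∑ i, m i = n) (a : L.A) (hK : L.Ok K)
    (hle : m + e a.1.1 + e a.1.2 ≤ K) {c : Fin N} (hc : K c ≠ 0) :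
    con L n (V L (m + e a.1.1), a) = (nz (s L c (m + e a.1.1)))⁻¹ * nz (s L c (m + e a.1.2)) := by
  have hs : ∀ u : Fin N, ∑ i, (m + e u) i = n + 1 := fun u => by rw [sum_add_e, hm]
  have h1 : ∀ v, (m + e a.1.1) v ≠ 0 → K v ≠ 0 := fun v hv => by
    have := hle v
    simp only [Pi.add_apply] at this hv
    omega
  have h2 : ∀ v, (m + e a.1.2) v ≠ 0 → K v ≠ 0 := fun v hv => by
    have := hle v
    simp only [Pi.add_apply] at this hv
    omega
  have hu : K a.1.1 ≠ 0 := h1 _ (add_e_ne _ _)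
  simp only [con]
  rw [V_step a (ok_le hK hle), μ_V (hs _), μ_V (hs _), s_change hK h1 hu hc, s_change hK h2 hu hc,
    nz_mul _ (s_ne hK h1 hc (hs _)), nz_mul _ (s_ne hK h2 hc (hs _))]
  group

theorem con_small {n : ℕ} {m : Fin N → ℕ} (hm : ∑ i, m i = n) (a : L.A)
    (hK : L.Ok (m + e a.1.1 + e a.1.2)) :
    ‖(con L n (V L (m + e a.1.1), a) : ℍ[ℝ]) - 1‖ ≤ 12 / ((n + 1 : ℕ) : ℝ) := by
  have hs : ∀ u : Fin N, ∑ i, (m + e u) i = n + 1 := fun u => by rw [sum_add_e, hm]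
  have h1 : ∀ v, (m + e a.1.1) v ≠ 0 → (m + e a.1.1 + e a.1.2) v ≠ 0 := fun v hv => ne_add_e hv _
  have h2 : ∀ v, (m + e a.1.2) v ≠ 0 → (m + e a.1.1 + e a.1.2) v ≠ 0 := fun v hv => by
    rw [add_right_comm]; exact ne_add_e hv _
  have hu := h1 _ (add_e_ne m a.1.1)
  rw [con_eq hm a hK le_rfl hu, norm_inv_mul_sub]
  refine (norm_nz_sub (s_ne hK h1 hu (hs _)) (s_ne hK h2 hu (hs _))).trans ?_
  have hn := norm_s hK h1 hu
  rw [hs] at hn
  have hp : (0 : ℝ) < ((n + 1 : ℕ) : ℝ) := by positivity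
  have hd : ‖s L a.1.1 (m + e a.1.2) - s L a.1.1 (m + e a.1.1)‖ ≤ 2 := by
    rw [s_add_e, s_add_e, add_sub_add_left_eq_sub]
    refine (norm_sub_le _ _).trans ?_
    rw [norm_coe, norm_coe]; norm_num
  calc _ ≤ 2 * 2 / (((n + 1 : ℕ) : ℝ) / 3) := by gcongr
    _ = _ := by field_simp; norm_num

variable (L)

/-- Edges. -/
def I (n : ℕ) : Set (L.HH × L.A) :=
  {p | ∃ m : Fin N → ℕ, ∑ i, m i = n ∧ L.Ok (m + e p.2.1.1 + e p.2.1.2) ∧ p.1 = V L (m + e p.2.1.1)}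

/-- Triangles. -/
def J (n : ℕ) : Set (L.HH × (L.Tr × Bool)) :=
  {p | ∃ m : Fin N → ℕ, L.Ok (m + e p.2.1.u + e p.2.1.v + e p.2.1.w) ∧
    ((p.2.2 = true ∧ ∑ i, m i = n ∧ p.1 = V L (m + e p.2.1.u)) ∨
      (p.2.2 = false ∧ (∑ i, m i) + 1 = n ∧ p.1 = V L (m + e p.2.1.u + e p.2.1.v)))}

theorem fin_m (n : ℕ) : {m : Fin N → ℕ | ∑ i, m i ≤ n}.Finite := by
  refine (Set.finite_Iic (fun _ : Fin N => n)).subset fun m hm i => ?_
  exact (Finset.single_le_sum (f := m) (fun _ _ => Nat.zero_le _) (Finset.mem_univ i)).trans hm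

theorem fin_I (n : ℕ) : (I L n).Finite := by
  refine (((fin_m (N := N) (n + 1)).image (V L)).prod (Set.finite_univ (α := L.A))).subset ?_
  rintro ⟨g, a⟩ ⟨m, hm, -, hg⟩
  exact ⟨⟨_, by simp only [Set.mem_ofPred_eq, sum_add_e]; omega, hg.symm⟩, trivial⟩

theorem fin_J (n : ℕ) : (J L n).Finite := by
  refine (((fin_m (N := N) (n + 1)).image (V L)).prod (Set.finite_univ (α := L.Tr × Bool))).subset ?_
  rintro ⟨g, a⟩ ⟨m, -, ⟨-, hm, hg⟩ | ⟨-, hm, hg⟩⟩
  · exact ⟨⟨_, by simp only [Set.mem_ofPred_eq, sum_add_e]; omega, hg.symm⟩, trivial⟩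
  · exact ⟨⟨_, by simp only [Set.mem_ofPred_eq, sum_add_e]; omega, hg.symm⟩, trivial⟩

variable {L}

/-- The shape of a triangle: three edges `a, b, c` with base exponents `ma, mb, mc`. -/
theorem J_shape {n : ℕ} {p : L.HH × (L.Tr × Bool)} (hp : p ∈ J L n) :
    ∃ (K ma mb mc : Fin N → ℕ) (a b c : L.A), L.Ok K ∧
      L.τ p.2 = FreeGroup.of a * FreeGroup.of b * (FreeGroup.of c)⁻¹ ∧
      ∑ i, ma i = n ∧ ∑ i, mb i = n ∧ ∑ i, mc i = n ∧
      ma + e a.1.1 + e a.1.2 ≤ K ∧ mb + e b.1.1 + e b.1.2 ≤ K ∧ mc + e c.1.1 + e c.1.2 ≤ K ∧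
      p.1 = V L (ma + e a.1.1) ∧ ma + e a.1.2 = mb + e b.1.1 ∧ mc + e c.1.1 = ma + e a.1.1 ∧
      mc + e c.1.2 = mb + e b.1.2 := by
  obtain ⟨g, t, β⟩ := p
  obtain ⟨m, hK, ⟨hβ, hm, hg⟩ | ⟨hβ, hm, hg⟩⟩ := hp
  · refine ⟨_, m, m, m, ⟨(t.u, t.v), t.uv⟩, ⟨(t.v, t.w), t.vw⟩, ⟨(t.u, t.w), t.uw⟩, hK, ?_, hm, hm, hm,
      ?_, ?_, ?_, hg, rfl, rfl, rfl⟩
    · simp only at hβ; simp [LD.τ, hβ]
    all_goals
      intro i
      simp only [Pi.add_apply]
      omega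
  · refine ⟨_, m + e t.u, m + e t.w, m + e t.v, ⟨(t.v, t.w), t.vw⟩, ⟨(t.u, t.v), t.uv⟩,
      ⟨(t.u, t.w), t.uw⟩, hK, ?_, ?_, ?_, ?_, ?_, ?_, ?_, hg, ?_, ?_, ?_⟩
    · simp only at hβ; simp [LD.τ, hβ]
    · rw [sum_add_e, hm]
    · rw [sum_add_e, hm]
    · rw [sum_add_e, hm]
    · exact le_rfl
    · intro i; simp only [Pi.add_apply]; omega
    · intro i; simp only [Pi.add_apply]; omega
    all_goals exact add_right_comm _ _ _

theorem J_in {n : ℕ} {p : L.HH × (L.Tr × Bool)} (hp : p ∈ J L n) :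
    In L.α (I L n) p.1 (L.τ p.2) := by
  obtain ⟨K, ma, mb, mc, a, b, c, hK, hτ, ha, hb, hc, la, lb, lc, hg, e1, e2, e3⟩ := J_shape hp
  rw [hτ, hg]
  refine in_tri (g₁ := V L (mb + e b.1.1)) (g₂ := V L (mb + e b.1.2)) ?_ (V_step b (ok_le hK lb)) ?_
    ⟨ma, ha, ok_le hK la, rfl⟩ ⟨mb, hb, ok_le hK lb, rfl⟩ ⟨mc, hc, ok_le hK lc, by rw [e2]⟩
  · rw [V_step a (ok_le hK la), e1]
  · rw [← e2, V_step c (ok_le hK lc), e3]

theorem J_flat {n : ℕ} {p : L.HH × (L.Tr × Bool)} (hp : p ∈ J L n) :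
    hol L.α (con L n) p.1 (L.τ p.2) = 1 := by
  obtain ⟨K, ma, mb, mc, a, b, c, hK, hτ, ha, hb, hc, la, lb, lc, hg, e1, e2, e3⟩ := J_shape hp
  have hu : K a.1.1 ≠ 0 := by
    have := la a.1.1
    simp only [Pi.add_apply, Pi.single_eq_same] at this
    omega
  rw [hτ, hg, hol_tri (g₁ := V L (mb + e b.1.1)) (g₂ := V L (mb + e b.1.2)) _
    (by rw [V_step a (ok_le hK la), e1]) (V_step b (ok_le hK lb))
    (by rw [← e2, V_step c (ok_le hK lc), e3])]
  rw [con_eq ha a hK la hu, con_eq hb b hK lb hu, ← e2, con_eq hc c hK lc hu, e1, e3]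
  group

theorem h1 (n : ℕ) (ω : L.HH × L.A → ℍ[ℝ]) (hω : ∀ c ∈ J L n, ev L.α ω c.1 (L.τ c.2) = 0) :
    ∃ f : L.HH → ℍ[ℝ], ∀ p ∈ I L n, ω p = f (p.1 * L.α (FreeGroup.of p.2)) - f p.1 := by
  classical
  let ω' : (Fin N → ℕ) → Fin N → Fin N → ℍ[ℝ] := fun m u v =>
    if h : u < v ∧ L.adj u v then ω (V L (m + e u), ⟨(u, v), h⟩) else 0
  have hT : ∀ (m : Fin N → ℕ) u v w, u < v → v < w → L.Ok (m + e u + e v + e w) →
      (u < v ∧ L.adj u v) ∧ (v < w ∧ L.adj v w) ∧ (u < w ∧ L.adj u w) := by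
    intro m u v w huv hvw hK
    have hu : (m + e u + e v + e w) u ≠ 0 := ne_add_e (ne_add_e (add_e_ne _ _) _) _
    have hv : (m + e u + e v + e w) v ≠ 0 := ne_add_e (add_e_ne _ _) _
    have hw : (m + e u + e v + e w) w ≠ 0 := add_e_ne _ _
    exact ⟨⟨huv, hK u v huv.ne hu hv⟩, ⟨hvw, hK v w hvw.ne hv hw⟩,
      ⟨huv.trans hvw, hK u w (huv.trans hvw).ne hu hw⟩⟩
  obtain ⟨f, hf⟩ := L.levH1 n ω' (by
    intro m u v w hm huv hvw hK
    obtain ⟨h1, h2, h3⟩ := hT m u v w huv hvw hK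
    have := hω (V L (m + e u), (⟨u, v, w, h1, h2, h3⟩, true)) ⟨m, hK, Or.inl ⟨rfl, hm, rfl⟩⟩
    simp only [LD.τ, if_true] at this
    rw [ev_tri (g₁ := V L (m + e v)) (g₂ := V L (m + e w)) ω
      (V_step ⟨(u, v), h1⟩ (ok_le hK le_self_add))
      (V_step ⟨(v, w), h2⟩ (ok_le hK fun i => by simp only [Pi.add_apply, e]; omega))
      (V_step ⟨(u, w), h3⟩ (ok_le hK fun i => by simp only [Pi.add_apply, e]; omega))] at this
    simp only [ω', dif_pos h1, dif_pos h2, dif_pos h3]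
    exact sub_eq_zero.1 this) (by
    intro m u v w hm huv hvw hK
    obtain ⟨h1, h2, h3⟩ := hT m u v w huv hvw hK
    have := hω (V L (m + e u + e v), (⟨u, v, w, h1, h2, h3⟩, false)) ⟨m, hK, Or.inr ⟨rfl, hm, rfl⟩⟩
    simp only [LD.τ, Bool.false_eq_true, if_false] at this
    have s1 := V_step (m := m + e u) ⟨(v, w), h2⟩ hK
    have s2 := V_step (m := m + e w) ⟨(u, v), h1⟩
      (ok_le hK fun i => by simp only [Pi.add_apply, e]; omega)
    have s3 := V_step (m := m + e v) ⟨(u, w), h3⟩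
      (ok_le hK fun i => by simp only [Pi.add_apply, e]; omega)
    simp only at s1 s2 s3
    rw [add_right_comm m (e u) (e w)] at s1
    rw [add_right_comm m (e v) (e u), add_right_comm m (e v) (e w)] at s3
    rw [ev_tri ω s1 s2 s3] at this
    simp only [ω', dif_pos h1, dif_pos h2, dif_pos h3]
    rw [add_right_comm m (e v) (e u)]
    exact sub_eq_zero.1 this)
  refine ⟨fun g => f (μ L n g), ?_⟩
  rintro ⟨g, a⟩ ⟨m, hm, hK, hg⟩
  simp only at hg hK ⊢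
  have hs : ∀ u : Fin N, ∑ i, (m + e u) i = n + 1 := fun u => by rw [sum_add_e, hm]
  rw [hg, V_step a hK, μ_V (hs _), μ_V (hs _), ← hf m _ _ hm a.2.1 hK]
  simp only [ω', dif_pos a.2]

theorem ng (n : ℕ) :
    ¬ ∃ γ : L.HH → S3, ∀ p ∈ I L n, con L n p = (γ p.1)⁻¹ * γ (p.1 * L.α (FreeGroup.of p.2)) := by
  rintro ⟨γ, hγ⟩
  have key : ∀ u v, u < v → L.adj u v →
      L.ρ u v = (γ (V L (Pi.single u (n + 1))))⁻¹ * γ (V L (Pi.single v (n + 1))) := by
    intro u v huv hadj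
    let kk : ℕ → Fin N → ℕ := fun j => Pi.single u (n + 1 - j) + Pi.single v j
    have hstep : ∀ j, j ≤ n → γ (V L (kk (j + 1))) * (nz (s L u (kk (j + 1))))⁻¹ =
        γ (V L (kk j)) * (nz (s L u (kk j)))⁻¹ := by
      intro j hj
      let m : Fin N → ℕ := Pi.single u (n - j) + Pi.single v j
      have hm : ∑ i, m i = n := by
        simp only [m, Pi.add_apply, Finset.sum_add_distrib, Finset.sum_pi_single', Finset.mem_univ,
          if_true]
        omega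
      have e1 : m + e u = kk j := by
        funext i
        simp only [m, kk, Pi.add_apply, Pi.single_apply]
        split_ifs <;> omega
      have e2 : m + e v = kk (j + 1) := by
        funext i
        simp only [m, kk, Pi.add_apply, Pi.single_apply]
        split_ifs <;> omega
      have hK : L.Ok (m + e u + e v) := by
        have hs : ∀ i, (m + e u + e v) i ≠ 0 → i = u ∨ i = v := by
          intro i hi
          by_contra hc
          push Not at hc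
          simp [m, hc.1, hc.2] at hi
        intro a b hab ha hb
        rcases hs a ha with rfl | rfl <;> rcases hs b hb with rfl | rfl
        · exact absurd rfl hab
        · exact hadj
        · exact L.symm _ _ hadj
        · exact absurd rfl hab
      have h1 := hγ (V L (m + e u), ⟨(u, v), huv, hadj⟩) ⟨m, hm, hK, rfl⟩
      have h2 := con_eq hm ⟨(u, v), huv, hadj⟩ hK le_rfl (c := u) (ne_add_e (add_e_ne _ _) _)
      have h3 := V_step ⟨(u, v), huv, hadj⟩ hK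
      simp only at h1 h2 h3
      rw [h3, h2, e1, e2] at h1
      calc γ (V L (kk (j + 1))) * (nz (s L u (kk (j + 1))))⁻¹
          = γ (V L (kk j)) * ((γ (V L (kk j)))⁻¹ * γ (V L (kk (j + 1)))) *
            (nz (s L u (kk (j + 1))))⁻¹ := by group
        _ = _ := by rw [← h1]; group
    have hall : ∀ j, j ≤ n + 1 → γ (V L (kk j)) * (nz (s L u (kk j)))⁻¹ =
        γ (V L (kk 0)) * (nz (s L u (kk 0)))⁻¹ := by
      intro j
      induction j with
      | zero => intro _; rfl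
      | succ j ih => intro hj; rw [hstep j (by omega), ih (by omega)]
    have hs : ∀ y, nz (s L u (Pi.single y (n + 1))) = L.ρ u y := by
      intro y
      have : s L u (Pi.single y (n + 1)) = ((n + 1 : ℕ) : ℝ) • (L.ρ u y : ℍ[ℝ]) := by
        unfold s
        rw [Finset.sum_eq_single y]
        · simp
        · intro b _ hb; simp [hb]
        · simp
      rw [this, nz_smul _ (by positivity)]
    have h := hall (n + 1) le_rfl
    have k0 : kk 0 = Pi.single u (n + 1) := by simp [kk]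
    have k1 : kk (n + 1) = Pi.single v (n + 1) := by simp [kk]
    rw [k0, k1, hs, hs, L.ρ_self, inv_one, mul_one] at h
    rw [← h]; group
  refine L.ρ_ng ⟨fun u => γ (V L (Pi.single u (n + 1))), fun u v hadj => ?_⟩
  rcases lt_trichotomy u v with h | rfl | h
  · exact key u v h hadj
  · exact absurd hadj (L.irrefl _)
  · have h1 := key v u h (L.symm _ _ hadj)
    have h2 := L.ρ_mul u v u (Or.inr hadj) (Or.inr (L.symm _ _ hadj)) (Or.inl rfl)
    rw [L.ρ_self] at h2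
    rw [eq_inv_of_mul_eq_one_left h2, h1]
    group

end Tst

theorem LD.test {N : ℕ} (L : LD N) : Test L.α L.τ := by
  intro ε hε
  obtain ⟨n, hn⟩ := exists_nat_ge (12 / ε)
  refine ⟨(Tst.fin_I L n).toFinset, (Tst.fin_J L n).toFinset, Tst.con L n, ?_, ?_, ?_, ?_, ?_⟩
  · intro c hc
    rw [Set.Finite.coe_toFinset]
    exact Tst.J_in ((Set.Finite.mem_toFinset _).1 hc)
  · intro ω hω
    obtain ⟨f, hf⟩ := Tst.h1 n ω fun c hc => hω c ((Set.Finite.mem_toFinset _).2 hc)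
    exact ⟨f, fun p hp => hf p ((Set.Finite.mem_toFinset _).1 hp)⟩
  · rintro ⟨g, a⟩ hp
    obtain ⟨m, hm, hK, hg⟩ := (Set.Finite.mem_toFinset _).1 hp
    simp only at hg hK
    rw [hg]
    refine (Tst.con_small hm a hK).trans ?_
    rw [div_le_iff₀ (by positivity)]
    rw [div_le_iff₀ hε] at hn
    push_cast
    nlinarith
  · intro c hc
    exact Tst.J_flat ((Set.Finite.mem_toFinset _).1 hc)
  · rintro ⟨γ, hγ⟩
    exact Tst.ng n ⟨γ, fun p hp => hγ p ((Set.Finite.mem_toFinset _).2 hp)⟩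

end Crest.Agent.R197
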