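import Crest.Agent.R197.Defs

/-!
Task R197-TestH.  `H¹ = 0` for the `(n+1)`-fold edgewise subdivision of the link.
`ω m u v` lives on the edge from `m + e u` to `m + e v`, where `e v = Pi.single v 1`.

Plan.  Induction on `n` (generalising `ω`).  `n = 0`: `m = 0`, use `L.a1` and `f (e u) = F u`.
Step: extend `ω` antisymmetrically (`ω' m u v`, `0` on the diagonal); the two hypotheses become: for all `u v w` (not nec.
distinct or ordered) with `Ok (m + e u + e v + e w)`: `ω' m u v + ω' m v w = ω' m u w`, and for distinct ones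
`ω' (m + e u) v w + ω' (m + e v) w u + ω' (m + e w) u v = 0` (trivial if two indices agree).  For `∑ m = n + 1` choose `c m` with
`m (c m) ≠ 0`, `ζ m u = ω' m (c m) u`, so `ω' m u v = ζ m v - ζ m u` if `Ok (m + e u + e v)`.  Put
`ω₁ m u v = ζ (m + e v) u - ζ (m + e u) v` (`∑ m = n`).  It satisfies the hypotheses at level `n` (the first one is the second
hypothesis for `ω`, the second one cancels identically), so `ω₁ m u v = f₁ (m + e v) - f₁ (m + e u)`.  Then
`f k = ζ (k - e c) c - f₁ (k - e c)` does not depend on `c` in the support of `k` (if `Ok k`), and works.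
-/

set_option autoImplicit false

namespace Crest.Agent.R197

namespace TestH

theorem wlog3 {N : ℕ} {Q : Fin N → Fin N → Fin N → Prop} (s1 : ∀ u v w, Q u v w → Q v u w)
    (s2 : ∀ u v w, Q u v w → Q u w v) (d : ∀ u w, Q u u w)
    (o : ∀ u v w, u < v → v < w → Q u v w) (u v w : Fin N) : Q u v w := by
  have o' : ∀ u v w, u ≤ v → v ≤ w → Q u v w := by
    intro u v w h1 h2
    rcases h1.eq_or_lt with rfl | h1
    · exact d _ _
    rcases h2.eq_or_lt with rfl | h2
    · exact s1 _ _ _ (s2 _ _ _ (d v u))
    · exact o u v w h1 h2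
  rcases le_total u v with l1 | l1 <;> rcases le_total v w with l2 | l2 <;>
    rcases le_total u w with l3 | l3
  · exact o' u v w l1 l2
  · exact o' u v w l1 l2
  · exact s2 _ _ _ (o' u w v l3 l2)
  · exact s2 _ _ _ (s1 _ _ _ (o' w u v l3 l1))
  · exact s1 _ _ _ (o' v u w l1 l3)
  · exact s1 _ _ _ (s2 _ _ _ (o' v w u l2 l3))
  · exact s1 _ _ _ (s2 _ _ _ (s1 _ _ _ (o' w v u l2 l1)))
  · exact s1 _ _ _ (s2 _ _ _ (s1 _ _ _ (o' w v u l2 l1)))

variable {N : ℕ} {L : LD N} {M : Type} [AddCommGroup M]

/-- Unit vectors. -/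
abbrev e (u : Fin N) : Fin N → ℕ := Pi.single u 1

theorem ok_mono {m m' : Fin N → ℕ} (h : L.Ok m) (hs : ∀ y, m' y ≠ 0 → m y ≠ 0) : L.Ok m' :=
  fun u v huv hu hv => h u v huv (hs u hu) (hs v hv)

theorem e_ne {u y : Fin N} (h : e u y ≠ 0) : y = u := by
  by_contra h'
  exact h (Pi.single_eq_of_ne h' _)

theorem ok_add {m : Fin N → ℕ} {c : Fin N} (h : L.Ok m) (hc : m c ≠ 0) : L.Ok (m + e c) :=
  ok_mono h fun y hy => by
    by_cases h' : e c y = 0
    · simpa [h'] using hy
    · rw [e_ne h']; exact hc

theorem sum_add (m : Fin N → ℕ) (u : Fin N) : ∑ i, (m + e u) i = ∑ i, m i + 1 := by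
  simp [Finset.sum_add_distrib]

theorem exists_c (v₀ : Fin N) :
    ∃ c : (Fin N → ℕ) → Fin N, ∀ m : Fin N → ℕ, ∑ i, m i ≠ 0 → m (c m) ≠ 0 := by
  have : ∀ m : Fin N → ℕ, ∃ c, ∑ i, m i ≠ 0 → m c ≠ 0 := by
    intro m
    by_cases h : ∑ i, m i = 0
    · exact ⟨v₀, fun h' => (h' h).elim⟩
    · obtain ⟨i, -, hi⟩ := Finset.exists_ne_zero_of_sum_ne_zero h
      exact ⟨i, fun _ => hi⟩
  choose c hc using this
  exact ⟨c, hc⟩

theorem symH1 (L : LD N) (n : ℕ) (ω : (Fin N → ℕ) → Fin N → Fin N → M)
    (A : ∀ (m : Fin N → ℕ) u v w, ∑ i, m i = n → L.Ok (m + e u + e v + e w) →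
      ω m u v + ω m v w = ω m u w)
    (B : ∀ (m : Fin N → ℕ) u v w, (∑ i, m i) + 1 = n → L.Ok (m + e u + e v + e w) →
      ω (m + e u) v w + ω (m + e v) w u + ω (m + e w) u v = 0) :
    ∃ f : (Fin N → ℕ) → M, ∀ (m : Fin N → ℕ) u v, ∑ i, m i = n → L.Ok (m + e u + e v) →
      ω m u v = f (m + e v) - f (m + e u) := by
  obtain ⟨c, hc⟩ := exists_c L.v₀
  induction n generalizing ω with
  | zero =>
    have hce : ∀ u, c (0 + e u) = u := fun u => by
      have := hc (0 + e u) (by rw [sum_add]; omega)
      rw [zero_add] at this ⊢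
      exact e_ne this
    obtain ⟨F, hF⟩ := L.a1 M (ω 0) fun u v w _ _ h1 h2 h3 => A 0 u v w (by simp) (by
      have key : ∀ y, (0 + e u + e v + e w) y ≠ 0 → y = u ∨ y = v ∨ y = w := by
        intro y hy
        by_contra hh
        push Not at hh
        simp [hh.1, hh.2.1, hh.2.2] at hy
      intro a b hab ha hb
      rcases key a ha with rfl | rfl | rfl <;> rcases key b hb with rfl | rfl | rfl <;>
        first | exact (hab rfl).elim | assumption | (apply L.symm; assumption))
    refine ⟨fun k => F (c k), fun m u v hm h => ?_⟩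
    obtain rfl : m = 0 := funext fun i => by
      have := Finset.single_le_sum (f := m) (fun _ _ => Nat.zero_le _) (Finset.mem_univ i)
      change m i = 0
      omega
    simp only [hce]
    have h0 : ω 0 u u = 0 := by
      have := A 0 u u u hm (ok_mono h fun y => by simp only [Pi.add_apply]; omega)
      exact add_eq_left.1 this
    rcases lt_trichotomy u v with hl | rfl | hl
    · exact hF u v hl (h u v hl.ne (by simp) (by simp))
    · rw [h0, sub_self]
    · have h1 := hF v u hl (h v u hl.ne (by simp) (by simp))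
      have h2 := A 0 u v u hm (ok_mono h fun y => by simp only [Pi.add_apply]; omega)
      rw [h0, h1] at h2
      rw [eq_neg_of_add_eq_zero_left h2, neg_sub]
  | succ n ih =>
    let ζ : (Fin N → ℕ) → Fin N → M := fun m u => ω m (c m) u
    have hζ : ∀ m u v, ∑ i, m i = n + 1 → L.Ok (m + e u + e v) → ω m u v = ζ m v - ζ m u := by
      intro m u v hm h
      have h1 : m (c m) ≠ 0 := hc m (by omega)
      have h2 : L.Ok (m + e u + e v + e (c m)) :=
        ok_add h (by simp only [Pi.add_apply]; omega)
      rw [eq_sub_iff_add_eq']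
      exact A m (c m) u v hm (ok_mono h2 fun y => by simp only [Pi.add_apply]; omega)
    obtain ⟨f₁, hf₁⟩ := ih (fun m u v => ζ (m + e v) u - ζ (m + e u) v)
      (fun m u v w hm h => by
        have hB := B m u v w (by omega) h
        rw [hζ _ v w (by rw [sum_add, hm]) h,
          hζ _ w u (by rw [sum_add, hm]) (ok_mono h fun y => by simp only [Pi.add_apply]; omega),
          hζ _ u v (by rw [sum_add, hm])
            (ok_mono h fun y => by simp only [Pi.add_apply]; omega)] at hB
        rw [← sub_eq_zero, ← hB]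
        abel)
      (fun m u v w _ _ => by
        rw [add_right_comm m (e v) (e u), add_right_comm m (e w) (e u),
          add_right_comm m (e w) (e v)]
        abel)
    let g : (Fin N → ℕ) → Fin N → M := fun k u => ζ k u - f₁ k
    have hg : ∀ k u, ∑ i, k i = n + 1 → L.Ok (k + e u) →
        g (k + e u - e (c (k + e u))) (c (k + e u)) = g k u := by
      intro k u hk h
      have h1 := hc (k + e u) (by rw [sum_add]; omega)
      generalize c (k + e u) = d at h1
      by_cases hd : d = u
      · rw [hd, add_tsub_cancel_right]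
      have h2 : k d ≠ 0 := by simpa [hd] using h1
      obtain ⟨m, rfl⟩ : ∃ m, k = m + e d := ⟨k - e d, (tsub_add_cancel_of_le (by
        intro y
        by_cases hy : y = d
        · subst hy; simp; omega
        · simp [hy])).symm⟩
      rw [add_right_comm, add_tsub_cancel_right]
      rw [sum_add] at hk
      have := hf₁ m d u (by omega) h
      simp only [g]
      rw [sub_eq_sub_iff_sub_eq_sub]
      exact this
    refine ⟨fun k => g (k - e (c k)) (c k), fun m u v hm h => ?_⟩
    simp only []
    rw [hg m v hm (ok_mono h fun y => by simp only [Pi.add_apply]; omega),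
      hg m u hm (ok_mono h fun y => by simp only [Pi.add_apply]; omega), hζ m u v hm h]
    simp only [g]
    abel

end TestH

open TestH in
theorem LD.levH1 {N : ℕ} (L : LD N) {M : Type} [AddCommGroup M] (n : ℕ)
    (ω : (Fin N → ℕ) → Fin N → Fin N → M)
    (hup : ∀ (m : Fin N → ℕ) u v w, ∑ i, m i = n → u < v → v < w →
      L.Ok (m + Pi.single u 1 + Pi.single v 1 + Pi.single w 1) → ω m u v + ω m v w = ω m u w)
    (hdn : ∀ (m : Fin N → ℕ) u v w, (∑ i, m i) + 1 = n → u < v → v < w →
      L.Ok (m + Pi.single u 1 + Pi.single v 1 + Pi.single w 1) →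
      ω (m + Pi.single u 1) v w + ω (m + Pi.single w 1) u v = ω (m + Pi.single v 1) u w) :
    ∃ f : (Fin N → ℕ) → M, ∀ (m : Fin N → ℕ) u v, ∑ i, m i = n → u < v →
      L.Ok (m + Pi.single u 1 + Pi.single v 1) →
      ω m u v = f (m + Pi.single v 1) - f (m + Pi.single u 1) := by
  let ω' : (Fin N → ℕ) → Fin N → Fin N → M := fun m u v =>
    if u < v then ω m u v else if v < u then - ω m v u else 0
  have anti : ∀ m u v, ω' m v u = - ω' m u v := by
    intro m u v
    rcases lt_trichotomy u v with h | rfl | h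
    · simp [ω', h, h.not_gt]
    · simp [ω']
    · simp [ω', h, h.not_gt]
  have diag : ∀ m u, ω' m u u = 0 := fun m u => by simp [ω']
  have ord : ∀ m u v, u < v → ω' m u v = ω m u v := fun m u v h => if_pos h
  obtain ⟨f, hf⟩ := symH1 L n ω'
    (fun m u v w hm => by
      refine wlog3 (Q := fun u v w => L.Ok (m + e u + e v + e w) →
        ω' m u v + ω' m v w = ω' m u w) ?_ ?_ ?_ ?_ u v w
      · intro u v w H h
        rw [← H (ok_mono h fun y => by simp only [Pi.add_apply]; omega), anti m u v]
        abel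
      · intro u v w H h
        rw [← H (ok_mono h fun y => by simp only [Pi.add_apply]; omega), anti m v w]
        abel
      · intro u w _
        rw [diag, zero_add]
      · intro u v w h1 h2 h
        rw [ord _ _ _ h1, ord _ _ _ h2, ord _ _ _ (h1.trans h2)]
        exact hup m u v w hm h1 h2 h)
    (fun m u v w hm => by
      refine wlog3 (Q := fun u v w => L.Ok (m + e u + e v + e w) →
        ω' (m + e u) v w + ω' (m + e v) w u + ω' (m + e w) u v = 0) ?_ ?_ ?_ ?_ u v w
      · intro u v w H h
        rw [← neg_eq_zero, ← H (ok_mono h fun y => by simp only [Pi.add_apply]; omega),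
          anti _ u w, anti _ v w, anti _ u v]
        abel
      · intro u v w H h
        rw [← neg_eq_zero, ← H (ok_mono h fun y => by simp only [Pi.add_apply]; omega),
          anti _ u w, anti _ v w, anti _ u v]
        abel
      · intro u w _
        rw [diag, anti _ u w]
        abel
      · intro u v w h1 h2 h
        rw [anti _ u w, ord _ _ _ h1, ord _ _ _ h2, ord _ _ _ (h1.trans h2),
          ← hdn m u v w hm h1 h2 h]
        abel)
  exact ⟨f, fun m u v hm huv h => (ord m u v huv).symm.trans (hf m u v hm h)⟩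

end Crest.Agent.R197
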